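import Vale.Agent.P310.Closure

/-!
# Module CB: coefficients of a representation, cut points
-/

namespace P310

namespace Horn

open Finset

variable {𝓗 : Horn} {P : Par}

theorem cb_tr_neg (b : P.Pt) (h : ℤ × ℤ) : P.tr (P.tr b (-h)) h = b := by
  unfold Par.tr
  ext1
  · rfl
  · refine heq_of_eq ?_
    ext
    · simp
    · simp

theorem cb_tr_neg' (b : P.Pt) (h : ℤ × ℤ) : P.tr (P.tr b h) (-h) = b := by
  unfold Par.tr
  ext1
  · rfl
  · refine heq_of_eq ?_
    ext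
    · simp
    · simp

theorem cb_tr_eq (b b' : P.Pt) (h : ℤ × ℤ) : P.tr b' h = b ↔ b' = P.tr b (-h) := by
  constructor
  · rintro rfl
    exact (cb_tr_neg' _ _).symm
  · rintro rfl
    exact cb_tr_neg _ _

theorem sg_apply (v w : 𝓗.Var P) : 𝓗.sg P v w = if w = v then 1 else 0 := by
  unfold sg
  rw [Pi.single_apply]

theorem sg_bank_path (x : 𝓗.X) (j : Fin P.m) (b : P.Pt) (ρ : 𝓗.R) (l s : Fin P.m) (b' : P.Pt) :
    𝓗.sg P (𝓗.bank P x j b) (𝓗.path P ρ l s b') = 0 := by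
  rw [sg_apply, if_neg]
  intro h
  cases h

theorem sg_path_bank (x : 𝓗.X) (j : Fin P.m) (b : P.Pt) (ρ : 𝓗.R) (l s : Fin P.m) (b' : P.Pt) :
    𝓗.sg P (𝓗.path P ρ l s b') (𝓗.bank P x j b) = 0 := by
  rw [sg_apply, if_neg]
  intro h
  cases h

theorem sg_path_path (ρ ρ' : 𝓗.R) (l s l' s' : Fin P.m) (b b' : P.Pt) :
    𝓗.sg P (𝓗.path P ρ' l' s' b') (𝓗.path P ρ l s b) =
      if (ρ', l', b') = (ρ, l, b) ∧ s' = s then 1 else 0 := by
  rw [sg_apply]
  refine if_congr ?_ rfl rfl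
  constructor
  · intro h
    have h2 := Sum.inr.inj h
    simp only [Prod.mk.injEq] at h2 ⊢
    obtain ⟨rfl, rfl, rfl, rfl⟩ := h2
    exact ⟨⟨rfl, rfl, rfl⟩, rfl⟩
  · rintro ⟨h, rfl⟩
    simp only [Prod.mk.injEq] at h
    obtain ⟨rfl, rfl, rfl⟩ := h
    rfl

theorem sg_bank_bank (x x' : 𝓗.X) (j j' : Fin P.m) (b b' : P.Pt) :
    𝓗.sg P (𝓗.bank P x' j' b') (𝓗.bank P x j b) =
      if x' = x ∧ j' = j ∧ b' = b then 1 else 0 := by
  rw [sg_apply]
  refine if_congr ?_ rfl rfl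
  constructor
  · intro h
    have h2 := Sum.inl.inj h
    simp only [Prod.mk.injEq] at h2
    obtain ⟨rfl, rfl, rfl⟩ := h2
    exact ⟨rfl, rfl, rfl⟩
  · rintro ⟨rfl, rfl, rfl⟩
    rfl

theorem key_path (ρ' : 𝓗.R) (q : Fin 2) (l' s' : Fin P.m) (b' : P.Pt) (ρ : 𝓗.R) (l s : Fin P.m)
    (b : P.Pt) : 𝓗.key P ρ' q l' s' b' (𝓗.path P ρ l s b) = 0 := by
  unfold key
  rcases 𝓗.pr ρ' q with _ | ⟨x, h⟩
  · rfl
  · simp only [Pi.smul_apply]
    rw [sg_bank_path, smul_zero]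

theorem cform_path (ρ' : 𝓗.R) (l' s' : Fin P.m) (b' : P.Pt) (ρ : 𝓗.R) (l s : Fin P.m)
    (b : P.Pt) (hs : s.val + 1 < P.m) :
    𝓗.cform P (Sum.inl (ρ', l', s', b')) (𝓗.path P ρ l s b) =
      if (ρ', l', b') = (ρ, l, b) then
        ((if s' = s then 1 else 0) + if s' = ⟨s.val + 1, hs⟩ then 1 else 0) else 0 := by
  unfold cform
  simp only [Pi.add_apply, key_path, add_zero]
  have hprev : 𝓗.prev P ρ' l' s' b' (𝓗.path P ρ l s b) =
      if (ρ', l', b') = (ρ, l, b) ∧ s' = ⟨s.val + 1, hs⟩ then 1 else 0 := by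
    unfold prev
    by_cases h0 : 0 < s'.val
    · rw [dif_pos h0, sg_path_path]
      refine if_congr (and_congr Iff.rfl ?_) rfl rfl
      rw [Fin.ext_iff, Fin.ext_iff]
      simp only
      omega
    · rw [dif_neg h0, if_neg]
      · rfl
      · rintro ⟨_, h⟩
        rw [h] at h0
        simp at h0
  have hnext : 𝓗.next P ρ' l' s' b' (𝓗.path P ρ l s b) =
      if (ρ', l', b') = (ρ, l, b) ∧ s' = s then 1 else 0 := by
    unfold next
    by_cases h0 : s'.val + 1 < P.m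
    · rw [if_pos h0, sg_path_path]
    · rw [if_neg h0, if_neg]
      · rcases 𝓗.co ρ' with _ | y
        · rfl
        · exact sg_bank_path _ _ _ _ _ _ _
      · rintro ⟨_, h⟩
        rw [h] at h0
        exact h0 hs
  rw [hprev, hnext]
  by_cases h1 : (ρ', l', b') = (ρ, l, b)
  · simp only [h1, true_and, if_true]
    rw [add_comm]
  · simp only [h1, false_and, if_false, add_zero]

theorem fact_path (x : 𝓗.X) (j : Fin P.m) (g : ℤ × ℤ) (ρ : 𝓗.R) (l s : Fin P.m)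
    (b : P.Pt) : 𝓗.fact P x j g (𝓗.path P ρ l s b) = 0 := by
  unfold fact
  rw [Finset.sum_apply]
  exact sum_eq_zero fun i _ => sg_bank_path _ _ _ _ _ _ _

theorem lin_apply (r : 𝓗.Rep P) (v : 𝓗.Var P) :
    r.lin v = ∑ c : 𝓗.Copy P, ∑ s ∈ r.A c, 𝓗.cform P (Sum.inl (c.1, c.2.1, s, c.2.2)) v +
      ∑ a ∈ r.Φ, 𝓗.fact P a.1 a.2.1 a.2.2 v := by
  unfold Rep.lin
  rw [Pi.add_apply, Finset.sum_apply, Finset.sum_apply]
  congr 1
  refine sum_congr rfl fun c _ => ?_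
  rw [Finset.sum_apply]

theorem coefPath (𝓗 : Horn) (P : Par) : CoefPath 𝓗 P := by
  intro r ρ l s b hs
  rw [lin_apply]
  have h1 : ∑ a ∈ r.Φ, 𝓗.fact P a.1 a.2.1 a.2.2 (𝓗.path P ρ l s b) = 0 :=
    sum_eq_zero fun a _ => fact_path _ _ _ _ _ _ _
  rw [h1, add_zero]
  rw [sum_eq_single (ρ, l, b)]
  · have h2 : ∀ s' ∈ r.A (ρ, l, b),
        𝓗.cform P (Sum.inl (ρ, l, s', b)) (𝓗.path P ρ l s b) =
          ((if s' = s then 1 else 0) + if s' = ⟨s.val + 1, hs⟩ then 1 else 0) := by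
      intro s' _
      rw [cform_path _ _ _ _ _ _ _ _ hs, if_pos rfl]
    rw [sum_congr rfl h2, sum_add_distrib, sum_ite_eq', sum_ite_eq']
  · rintro ⟨ρ', l', b'⟩ _ hne
    refine sum_eq_zero fun s' _ => ?_
    rw [cform_path _ _ _ _ _ _ _ _ hs, if_neg hne]
  · intro h
    exact absurd (mem_univ _) h

/-! bank variables -/

theorem prev_bank (ρ' : 𝓗.R) (l' s' : Fin P.m) (b' : P.Pt) (x : 𝓗.X) (j : Fin P.m) (b : P.Pt) :
    𝓗.prev P ρ' l' s' b' (𝓗.bank P x j b) = 0 := by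
  unfold prev
  by_cases h0 : 0 < s'.val
  · rw [dif_pos h0, sg_path_bank]
  · rw [dif_neg h0]
    rfl

theorem next_bank (ρ' : 𝓗.R) (l' s' : Fin P.m) (b' : P.Pt) (x : 𝓗.X) (j : Fin P.m) (b : P.Pt) :
    𝓗.next P ρ' l' s' b' (𝓗.bank P x j b) =
      if (𝓗.co ρ' = some x ∧ s'.val + 1 = P.m) ∧ l' = j ∧ b' = b then 1 else 0 := by
  unfold next
  by_cases h0 : s'.val + 1 < P.m
  · rw [if_pos h0, sg_path_bank, if_neg]
    rintro ⟨⟨_, h⟩, _⟩
    omega
  · rw [if_neg h0]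
    have hs : s'.val + 1 = P.m := by have := s'.isLt; omega
    rcases hc : 𝓗.co ρ' with _ | y
    · simp
    · simp only
      rw [sg_bank_bank]
      refine if_congr ?_ rfl rfl
      rw [Option.some_inj]
      constructor
      · rintro ⟨h1, h2, h3⟩
        exact ⟨⟨h1, hs⟩, h2, h3⟩
      · rintro ⟨⟨h1, _⟩, h2, h3⟩
        exact ⟨h1, h2, h3⟩

/-- contribution of a key -/
def keyVal (ρ' : 𝓗.R) (q : Fin 2) (l' s' : Fin P.m) (b' : P.Pt) (x : 𝓗.X) (j : Fin P.m)
    (b : P.Pt) : ZMod 2 :=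
  match 𝓗.pr ρ' q with
    | some (x', h) => if s' = j then (if x' = x ∧ b' = P.tr b (-h) then P.M (𝓗.ty ρ') l' j else 0)
        else 0
    | none => 0

theorem key_bank (ρ' : 𝓗.R) (q : Fin 2) (l' s' : Fin P.m) (b' : P.Pt) (x : 𝓗.X) (j : Fin P.m)
    (b : P.Pt) :
    𝓗.key P ρ' q l' s' b' (𝓗.bank P x j b) = keyVal ρ' q l' s' b' x j b := by
  unfold key keyVal
  rcases 𝓗.pr ρ' q with _ | ⟨x', h⟩
  · rfl
  · simp only [Pi.smul_apply, smul_eq_mul]
    rw [sg_bank_bank]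
    by_cases h1 : s' = j
    · subst h1
      rw [if_pos rfl]
      by_cases h2 : x' = x ∧ b' = P.tr b (-h)
      · rw [if_pos h2, if_pos ⟨h2.1, rfl, (cb_tr_eq _ _ _).2 h2.2⟩, mul_one]
      · rw [if_neg h2, if_neg, mul_zero]
        rintro ⟨h3, _, h4⟩
        exact h2 ⟨h3, (cb_tr_eq _ _ _).1 h4⟩
    · rw [if_neg h1, if_neg, mul_zero]
      rintro ⟨_, h3, _⟩
      exact h1 h3

theorem fact_bank (x' : 𝓗.X) (j' : Fin P.m) (g : ℤ × ℤ) (x : 𝓗.X) (j : Fin P.m) (b : P.Pt) :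
    𝓗.fact P x' j' g (𝓗.bank P x j b) =
      if (x' = x ∧ j' = j) ∧ P.pt b.1 g = b then 1 else 0 := by
  unfold fact
  rw [Finset.sum_apply]
  have h1 : ∀ i ∈ (univ : Finset (Fin P.κ)),
      𝓗.sg P (𝓗.bank P x' j' (P.pt i g)) (𝓗.bank P x j b) =
        if i = b.1 then (if (x' = x ∧ j' = j) ∧ P.pt b.1 g = b then 1 else 0) else 0 := by
    intro i _
    rw [sg_bank_bank]
    by_cases h2 : i = b.1
    · subst h2
      rw [if_pos rfl]
      refine if_congr ?_ rfl rfl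
      rw [and_assoc]
    · rw [if_neg h2, if_neg]
      rintro ⟨_, _, h3⟩
      exact h2 (congrArg Sigma.fst h3)
  rw [sum_congr rfl h1, sum_ite_eq', if_pos (mem_univ _)]

theorem coefBank (𝓗 : Horn) (P : Par) : CoefBank 𝓗 P := by
  intro r x j b
  rw [lin_apply]
  congr 1
  · -- equations
    have h1 : ∀ c ∈ (univ : Finset (𝓗.Copy P)),
        ∑ s ∈ r.A c, 𝓗.cform P (Sum.inl (c.1, c.2.1, s, c.2.2)) (𝓗.bank P x j b) =
        (∑ s ∈ r.A c, (𝓗.key P c.1 0 c.2.1 s c.2.2 (𝓗.bank P x j b) +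
          𝓗.key P c.1 1 c.2.1 s c.2.2 (𝓗.bank P x j b))) +
        ∑ s ∈ r.A c, 𝓗.next P c.1 c.2.1 s c.2.2 (𝓗.bank P x j b) := by
      intro c _
      rw [← sum_add_distrib]
      refine sum_congr rfl fun s _ => ?_
      unfold cform
      simp only [Pi.add_apply, prev_bank]
      ring
    rw [sum_congr rfl h1, sum_add_distrib]
    congr 1
    · -- keys
      rw [Fintype.sum_prod_type]
      refine sum_congr rfl fun ρ _ => ?_
      rw [Fintype.sum_prod_type]
      rw [sum_comm]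
      rw [sum_comm (s := (univ : Finset (Fin 2)))]
      rw [sum_comm]
      refine sum_congr rfl fun l _ => ?_
      simp only [Fin.sum_univ_two, key_bank, sum_add_distrib]
      have hq : ∀ q : Fin 2, ∑ b' : P.Pt, ∑ s ∈ r.A (ρ, l, b'), keyVal ρ q l s b' x j b =
          match 𝓗.pr ρ q with
          | some (x', h) =>
              if x' = x ∧ j ∈ r.A (ρ, l, P.tr b (-h)) then P.M (𝓗.ty ρ) l j else 0
          | none => 0 := by
        intro q
        unfold keyVal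
        rcases 𝓗.pr ρ q with _ | ⟨x', h⟩
        · simp
        · simp only
          have h2 : ∀ b' : P.Pt, ∑ s ∈ r.A (ρ, l, b'), (if s = j then
              (if x' = x ∧ b' = P.tr b (-h) then P.M (𝓗.ty ρ) l j else 0) else 0) =
              if b' = P.tr b (-h) then
                (if x' = x ∧ j ∈ r.A (ρ, l, P.tr b (-h)) then P.M (𝓗.ty ρ) l j else 0) else 0 := by
            intro b'
            rw [sum_ite_eq']
            by_cases h3 : b' = P.tr b (-h)
            · subst h3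
              by_cases h4 : j ∈ r.A (ρ, l, P.tr b (-h)) <;> by_cases h5 : x' = x <;>
                simp [h4, h5]
            · simp [h3]
          rw [sum_congr rfl fun b' _ => h2 b', sum_ite_eq', if_pos (mem_univ _)]
      rw [hq 0, hq 1]
      rfl
    · -- outputs
      rw [Fintype.sum_prod_type]
      refine sum_congr rfl fun ρ _ => ?_
      rw [Fintype.sum_prod_type, sum_eq_single j, sum_eq_single b]
      · simp only [next_bank]
        by_cases hco : 𝓗.co ρ = some x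
        · by_cases hl : ∃ s ∈ r.A (ρ, j, b), s.val + 1 = P.m
          · rw [if_pos ⟨hco, hl⟩]
            obtain ⟨s, hs, hsm⟩ := hl
            rw [sum_eq_single s]
            · rw [if_pos]
              exact ⟨⟨hco, hsm⟩, by trivial, by trivial⟩
            · intro s' _ hne
              rw [if_neg]
              rintro ⟨⟨_, h⟩, _⟩
              exact hne (Fin.ext (by omega))
            · intro h
              exact absurd hs h
          · rw [if_neg fun h => hl h.2]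
            refine sum_eq_zero fun s hs => ?_
            rw [if_neg]
            rintro ⟨⟨_, h⟩, _⟩
            exact hl ⟨s, hs, h⟩
        · rw [if_neg fun h => hco h.1]
          refine sum_eq_zero fun s hs => ?_
          rw [if_neg]
          rintro ⟨⟨h, _⟩, _⟩
          exact hco h
      · intro b' _ hne
        refine sum_eq_zero fun s _ => ?_
        rw [next_bank, if_neg]
        rintro ⟨_, _, h⟩
        exact hne h
      · intro h
        exact absurd (mem_univ _) h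
      · intro l' _ hne
        refine sum_eq_zero fun b' _ => sum_eq_zero fun s _ => ?_
        rw [next_bank, if_neg]
        rintro ⟨_, h, _⟩
        exact hne h
      · intro h
        exact absurd (mem_univ _) h
  · -- facts
    simp only [fact_bank]
    rw [← sum_filter, sum_const, nsmul_eq_mul, mul_one]
    congr 1
    unfold Rep.D
    rw [← card_image_of_injOn (f := fun a : 𝓗.X × Fin P.m × (ℤ × ℤ) => a.2.2)]
    · congr 1
      ext g
      simp only [mem_image, mem_filter]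
      constructor
      · rintro ⟨a, ⟨h1, h2, h3⟩, rfl⟩
        exact ⟨⟨a, ⟨h1, h2⟩, rfl⟩, h3⟩
      · rintro ⟨⟨a, ⟨h1, h2⟩, rfl⟩, h3⟩
        exact ⟨a, ⟨h1, h2, h3⟩, rfl⟩
    · rintro ⟨a1, a2, a3⟩ ha ⟨b1, b2, b3⟩ hb h
      simp only [coe_filter, Set.mem_ofPred_eq] at ha hb h
      obtain ⟨_, ⟨rfl, rfl⟩, _⟩ := ha
      obtain ⟨_, ⟨rfl, rfl⟩, _⟩ := hb
      rw [h]

theorem cutsLe (𝓗 : Horn) (P : Par) : CutsLe 𝓗 P := by
  intro r
  classical
  unfold cost
  refine le_trans ?_ (Nat.le_add_right _ _)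
  have h1 : ∑ c : 𝓗.Copy P, cuts (r.A c) =
      ((univ : Finset (𝓗.Copy P)).sigma fun c => univ.filter fun s : Fin P.m =>
        ∃ h : s.val + 1 < P.m, ¬ (s ∈ r.A c ↔ (⟨s.val + 1, h⟩ : Fin P.m) ∈ r.A c)).card := by
    rw [card_sigma]
    rfl
  rw [h1]
  refine card_le_card_of_injOn
    (fun a : (_ : 𝓗.Copy P) × Fin P.m => 𝓗.path P a.1.1 a.1.2.1 a.2 a.1.2.2) ?_ ?_
  · rintro ⟨⟨ρ, l, b⟩, s⟩ ha
    obtain ⟨_, hs⟩ := mem_sigma.1 (mem_coe.1 ha)
    simp only [mem_filter, mem_univ, true_and] at hs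
    obtain ⟨hs1, hs2⟩ := hs
    refine mem_coe.2 ?_
    simp only [mem_filter, mem_univ, true_and]
    refine ⟨?_, ?_⟩
    · rw [coefPath 𝓗 P r ρ l s b hs1]
      by_cases h3 : s ∈ r.A (ρ, l, b) <;>
        by_cases h4 : (⟨s.val + 1, hs1⟩ : Fin P.m) ∈ r.A (ρ, l, b)
      · exact absurd ⟨fun _ => h4, fun _ => h3⟩ hs2
      · simp [h3, h4]
      · simp [h3, h4]
      · exact absurd ⟨fun h => absurd h h3, fun h => absurd h h4⟩ hs2
    · rintro ⟨l', i, h⟩
      cases h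
  · rintro ⟨⟨ρ, l, b⟩, s⟩ _ ⟨⟨ρ', l', b'⟩, s'⟩ _ h
    have h2 := Sum.inr.inj h
    simp only [Prod.mk.injEq] at h2
    obtain ⟨rfl, rfl, rfl, rfl⟩ := h2
    rfl

theorem cb : CBStatement := fun 𝓗 P _ => ⟨coefPath 𝓗 P, coefBank 𝓗 P, cutsLe 𝓗 P⟩

end Horn

end P310
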