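import Vale.Agent.P310.Closure

/-!
# Module CC: counting (steps 1 and 2 of the closure theorem)
-/

namespace P310

namespace Horn

open Finset

variable {𝓗 : Horn} {P : Par}

theorem cc_tr_neg (b : P.Pt) (h : ℤ × ℤ) : P.tr (P.tr b (-h)) h = b := by
  unfold Par.tr
  ext1
  · rfl
  · refine heq_of_eq ?_
    ext
    · simp
    · simp

theorem cc_der_seed {x : 𝓗.X} {g : ℤ × ℤ} (h : 𝓗.Der x g) (hx : x = 𝓗.seed) : g = (0, 0) := by
  cases h with
  | seed => rfl
  | rule ρ g y hy _ => exact absurd (hy.trans (by rw [hx])) (𝓗.seed_ne ρ)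

theorem cc_mem_D {r : 𝓗.Rep P} {x : 𝓗.X} {j : Fin P.m} {g : ℤ × ℤ} :
    g ∈ r.D x j ↔ (x, j, g) ∈ r.Φ := by
  unfold Rep.D
  simp only [mem_image, mem_filter]
  constructor
  · rintro ⟨⟨a, b, c⟩, ⟨h1, rfl, rfl⟩, rfl⟩
    exact h1
  · intro h
    exact ⟨(x, j, g), ⟨h, rfl, rfl⟩, rfl⟩

theorem cc_mem_G {r : 𝓗.Rep P} {x : 𝓗.X} {g : ℤ × ℤ} :
    g ∈ r.G x ↔ ∃ j, (x, j, g) ∈ r.Φ := by
  unfold Rep.G
  simp only [mem_image, mem_filter]
  constructor
  · rintro ⟨⟨a, b, c⟩, ⟨h1, rfl⟩, rfl⟩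
    exact ⟨b, h1⟩
  · rintro ⟨j, h⟩
    exact ⟨(x, j, g), ⟨h, rfl⟩, rfl⟩

theorem cc_der_D {r : 𝓗.Rep P} {x : 𝓗.X} {j : Fin P.m} {g : ℤ × ℤ} (h : g ∈ r.D x j) :
    𝓗.Der x g := r.der _ (cc_mem_D.1 h)

theorem cc_der_G {r : 𝓗.Rep P} {x : 𝓗.X} {g : ℤ × ℤ} (h : g ∈ r.G x) :
    𝓗.Der x g := by
  obtain ⟨j, hj⟩ := cc_mem_G.1 h
  exact r.der _ hj

/-- the point at which the copy `c` uses its key number `q` -/
def ccKey (c : 𝓗.Copy P) (q : Fin 2) : P.Pt :=
  match 𝓗.pr c.1 q with
    | some (_, h) => P.tr c.2.2 h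
    | none => c.2.2

/-- touched points -/
def ccTouched (r : 𝓗.Rep P) : Finset P.Pt :=
  ((univ.filter fun c => (r.A c).Nonempty).image fun c => ccKey c 0) ∪
    (((univ.filter fun c => (r.A c).Nonempty).image fun c => ccKey c 1) ∪
      ((univ.filter fun c => (r.A c).Nonempty).image fun c => c.2.2))

theorem ccTouched_card (r : 𝓗.Rep P) : (ccTouched r).card ≤ 3 * r.touched := by
  unfold ccTouched Rep.touched
  refine (card_union_le _ _).trans ?_
  have h1 := card_image_le (s := univ.filter fun c => (r.A c).Nonempty) (f := fun c => ccKey c 0)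
  have h2 := card_image_le (s := univ.filter fun c => (r.A c).Nonempty) (f := fun c => ccKey c 1)
  have h3 := card_image_le (s := univ.filter fun c => (r.A c).Nonempty)
    (f := fun c : 𝓗.Copy P => c.2.2)
  have h4 := card_union_le ((univ.filter fun c => (r.A c).Nonempty).image fun c => ccKey c 1)
    ((univ.filter fun c => (r.A c).Nonempty).image fun c => c.2.2)
  omega

/-- points seen in the form -/
def ccSeen (r : 𝓗.Rep P) (x : 𝓗.X) : Finset P.Pt :=
  univ.filter fun b => ∃ j, r.lin (𝓗.bank P x j b) ≠ 0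

def ccPt : 𝓗.Var P → P.Pt
  | Sum.inl (_, _, b) => b
  | Sum.inr (_, _, _, b) => b

theorem ccSeen_card (r : 𝓗.Rep P) {x : 𝓗.X} (hx : x ≠ 𝓗.seed) :
    (ccSeen r x).card ≤ 𝓗.cost P r.lin := by
  classical
  unfold cost
  refine le_trans ?_ (Nat.le_add_right _ _)
  refine le_trans (card_le_card ?_) (card_image_le (f := ccPt))
  intro b hb
  unfold ccSeen at hb
  simp only [mem_filter, mem_univ, true_and] at hb
  obtain ⟨j, hj⟩ := hb
  rw [mem_image]
  refine ⟨𝓗.bank P x j b, ?_, rfl⟩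
  simp only [mem_filter, mem_univ, true_and]
  refine ⟨hj, ?_⟩
  rintro ⟨l, i, h⟩
  have h2 := Sum.inl.inj h
  exact hx (congrArg Prod.fst h2)

theorem cc_seen_or_touched (hC : CoefBank 𝓗 P) (r : 𝓗.Rep P) {x : 𝓗.X} {j : Fin P.m} {g : ℤ × ℤ}
    (hg : g ∈ r.D x j) {i : Fin P.κ} (hi : ∀ g' ∈ r.D x j, g' ≠ g → P.pt i g' ≠ P.pt i g) :
    P.pt i g ∈ ccSeen r x ∪ ccTouched r := by
  have hc := hC r x j (P.pt i g)
  have h1 : ((r.D x j).filter fun g' => P.pt (P.pt i g).1 g' = P.pt i g) = {g} := by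
    ext g'
    simp only [mem_filter, mem_singleton]
    constructor
    · rintro ⟨h1, h2⟩
      by_contra h3
      exact hi g' h1 h3 h2
    · rintro rfl
      exact ⟨hg, rfl⟩
  rw [h1, card_singleton, Nat.cast_one] at hc
  rw [mem_union]
  by_cases h0 : r.lin (𝓗.bank P x j (P.pt i g)) = 0
  · right
    rw [h0] at hc
    have key : ∀ a b : ZMod 2, 0 = a + b + 1 → a ≠ 0 ∨ b ≠ 0 := by decide
    have h2 := key _ _ hc
    unfold ccTouched
    simp only [mem_union, mem_image, mem_filter, mem_univ, true_and]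
    rcases h2 with h2 | h2
    · obtain ⟨ρ, _, h3⟩ := exists_ne_zero_of_sum_ne_zero h2
      obtain ⟨q, _, h4⟩ := exists_ne_zero_of_sum_ne_zero h3
      obtain ⟨l, _, h5⟩ := exists_ne_zero_of_sum_ne_zero h4
      rcases hp : 𝓗.pr ρ q with _ | ⟨x', h⟩
      · rw [hp] at h5
        exact absurd rfl h5
      · rw [hp] at h5
        simp only at h5
        have h6 : x' = x ∧ j ∈ r.A (ρ, l, P.tr (P.pt i g) (-h)) := by
          by_contra hcon
          rw [if_neg hcon] at h5
          exact h5 rfl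
        have h7 : ccKey (𝓗 := 𝓗) (P := P) (ρ, l, P.tr (P.pt i g) (-h)) q = P.pt i g := by
          unfold ccKey
          simp only [hp]
          exact cc_tr_neg _ _
        have h8 : q = 0 ∨ q = 1 := by
          fin_cases q
          · left; rfl
          · right; rfl
        rcases h8 with rfl | rfl
        · left
          exact ⟨_, ⟨j, h6.2⟩, h7⟩
        · right; left
          exact ⟨_, ⟨j, h6.2⟩, h7⟩
    · obtain ⟨ρ, _, h3⟩ := exists_ne_zero_of_sum_ne_zero h2
      have h6 : 𝓗.co ρ = some x ∧ ∃ s ∈ r.A (ρ, j, (P.pt i g)), s.val + 1 = P.m := by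
        by_contra hcon
        rw [if_neg hcon] at h3
        exact h3 rfl
      obtain ⟨_, s, hs, _⟩ := h6
      right; right
      exact ⟨(ρ, j, P.pt i g), ⟨s, hs⟩, rfl⟩
  · left
    unfold ccSeen
    simp only [mem_filter, mem_univ, true_and]
    exact ⟨j, h0⟩

/-- the counting lemma for both steps -/
theorem cc_count (hC : CoefBank 𝓗 P) {e : ℕ} (hsep : 𝓗.Sep P e) (r : 𝓗.Rep P) {x : 𝓗.X}
    (hx : x ≠ 𝓗.seed) {K N : ℕ} (hcost : 𝓗.cost P r.lin ≤ K) (ht : r.touched ≤ 4 * K)
    (hN : ∀ j, (r.D x j).card ≤ N) (S : Finset (ℤ × ℤ)) (jj : ℤ × ℤ → Fin P.m)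
    (hS : ∀ g ∈ S, g ∈ r.D x (jj g)) :
    S.card * P.κ ≤ 13 * K + S.card * ((N + S.card) * e) := by
  classical
  let Bad : ℤ × ℤ → Finset (Fin P.κ) := fun g =>
    ((r.D x (jj g) ∪ S).erase g).biUnion fun g' => univ.filter fun i => P.pt i g' = P.pt i g
  have hBad : ∀ g ∈ S, (Bad g).card ≤ (N + S.card) * e := by
    intro g hg
    refine (card_biUnion_le_card_mul _ _ e ?_).trans ?_
    · intro g' hg'
      rw [mem_erase, mem_union] at hg'
      have hd : 𝓗.Der x g' := by
        rcases hg'.2 with h | h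
        · exact cc_der_D h
        · exact cc_der_D (hS g' h)
      exact (hsep.1 x g' g hd (cc_der_D (hS g hg)) hg'.1).le
    · refine Nat.mul_le_mul_right _ ?_
      refine (card_le_card (erase_subset _ _)).trans ?_
      refine (card_union_le _ _).trans ?_
      exact Nat.add_le_add_right (hN _) _
  let U : Finset ((_ : ℤ × ℤ) × Fin P.κ) := S.sigma fun g => univ \ Bad g
  have hU : U.card ≤ (ccSeen r x ∪ ccTouched r).card := by
    refine card_le_card_of_injOn (fun a => P.pt a.2 a.1) ?_ ?_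
    · rintro ⟨g, i⟩ ha
      have ha2 := mem_sigma.1 (mem_coe.1 ha)
      obtain ⟨hg, hi⟩ := ha2
      simp only [mem_sdiff, mem_univ, true_and] at hi
      refine mem_coe.2 (cc_seen_or_touched hC r (hS g hg) ?_)
      intro g' hg' hne heq
      refine hi ?_
      rw [mem_biUnion]
      refine ⟨g', ?_, ?_⟩
      · rw [mem_erase, mem_union]
        exact ⟨hne, Or.inl hg'⟩
      · simp only [mem_filter, mem_univ, true_and]
        exact heq
    · rintro ⟨g, i⟩ ha ⟨g', i'⟩ ha' heq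
      obtain ⟨hg, hi⟩ := mem_sigma.1 (mem_coe.1 ha)
      obtain ⟨hg', hi'⟩ := mem_sigma.1 (mem_coe.1 ha')
      simp only [mem_sdiff, mem_univ, true_and] at hi hi' hg hg'
      simp only at heq
      have hii : i = i' := congrArg Sigma.fst heq
      subst hii
      by_cases hgg : g' = g
      · subst hgg
        rfl
      · exfalso
        refine hi ?_
        rw [mem_biUnion]
        refine ⟨g', ?_, ?_⟩
        · rw [mem_erase, mem_union]
          exact ⟨hgg, Or.inr hg'⟩
        · simp only [mem_filter, mem_univ, true_and]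
          exact heq.symm
  have hU2 : U.card = ∑ g ∈ S, (univ \ Bad g).card := card_sigma _ _
  have h1 : S.card * P.κ ≤ U.card + S.card * ((N + S.card) * e) := by
    rw [hU2]
    have h2 : ∀ g ∈ S, P.κ ≤ (univ \ Bad g).card + (N + S.card) * e := by
      intro g hg
      have h3 := hBad g hg
      have h4 : (univ \ Bad g).card + (Bad g).card = P.κ := by
        rw [card_sdiff_add_card_eq_card (subset_univ _), card_univ, Fintype.card_fin]
      omega
    have h5 := sum_le_sum h2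
    rw [sum_const, smul_eq_mul, sum_add_distrib, sum_const, smul_eq_mul] at h5
    exact h5
  have h6 : (ccSeen r x ∪ ccTouched r).card ≤ 13 * K := by
    refine (card_union_le _ _).trans ?_
    have h7 := ccSeen_card r hx
    have h8 := ccTouched_card r
    omega
  omega

theorem cc_arith {c₀ K e κ s N : ℕ} (he : 1 ≤ e) (hK : K ≤ c₀ * κ) (hκ : C0 c₀ * e ≤ κ)
    (hs : s ≤ 2 * s0 c₀) (hN : N ≤ 2 * s0 c₀) (h : s * κ ≤ 13 * K + s * ((N + s) * e)) :
    s ≤ 26 * c₀ := by
  unfold s0 at hs hN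
  unfold C0 at hκ
  have h1 : 2 * ((N + s) * e) ≤ κ := by
    refine le_trans ?_ hκ
    have h2 : 2 * (N + s) ≤ 1000 * (c₀ + 1) := by omega
    calc 2 * ((N + s) * e) = (2 * (N + s)) * e := by ring
      _ ≤ _ := Nat.mul_le_mul_right _ h2
  have hκ1 : 1 ≤ κ := by
    refine le_trans ?_ hκ
    exact Nat.mul_pos (by omega) he
  by_contra hcon
  push Not at hcon
  have h3 : 2 * (s * ((N + s) * e)) ≤ s * κ := by
    calc 2 * (s * ((N + s) * e)) = s * (2 * ((N + s) * e)) := by ring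
      _ ≤ _ := Nat.mul_le_mul_left _ h1
  have h4 : s * κ ≤ 26 * c₀ * κ := by
    have h5 : 26 * K ≤ 26 * c₀ * κ := by
      calc 26 * K ≤ 26 * (c₀ * κ) := Nat.mul_le_mul_left _ hK
        _ = _ := by ring
    omega
  have h6 := Nat.le_of_mul_le_mul_right h4 hκ1
  omega

theorem cc : CCStatement := by
  intro hCB 𝓗 P c₀ K e δ hyp r hr
  classical
  obtain ⟨hcost, ht, hD⟩ := hr
  have hC : CoefBank 𝓗 P := (hCB 𝓗 P hyp.m2).2.1
  have step1 : ∀ x j, (r.D x j).card ≤ s0 c₀ := by
    intro x j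
    by_cases hx : x = 𝓗.seed
    · have h1 : r.D x j ⊆ {(0, 0)} := by
        intro g hg
        rw [mem_singleton]
        exact cc_der_seed (cc_der_D hg) hx
      have h2 := card_le_card h1
      rw [card_singleton] at h2
      unfold s0
      omega
    · have h1 := cc_count hC hyp.sep r hx hcost ht (hD x) (r.D x j) (fun _ => j) (fun g hg => hg)
      have h2 := cc_arith hyp.e1 hyp.Kκ hyp.eκ (hD x j) le_rfl h1
      unfold s0
      omega
  refine ⟨step1, ?_⟩
  intro x
  by_cases hx : x = 𝓗.seed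
  · have h1 : r.G x ⊆ {(0, 0)} := by
      intro g hg
      rw [mem_singleton]
      exact cc_der_seed (cc_der_G hg) hx
    have h2 := card_le_card h1
    rw [card_singleton] at h2
    unfold s0
    omega
  · by_contra hcon
    push Not at hcon
    obtain ⟨S, hSG, hSc⟩ := exists_subset_card_eq (Nat.succ_le_of_lt hcon)
    have hm : 0 < P.m := by have := hyp.m2; omega
    have hex : ∀ g, ∃ j, g ∈ S → g ∈ r.D x j := by
      intro g
      by_cases hg : g ∈ S
      · obtain ⟨j, hj⟩ := cc_mem_G.1 (hSG hg)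
        exact ⟨j, fun _ => cc_mem_D.2 hj⟩
      · exact ⟨⟨0, hm⟩, fun h => absurd h hg⟩
    choose jj hjj using hex
    have h1 := cc_count hC hyp.sep r hx hcost ht (hD x) S jj hjj
    have h2 := cc_arith hyp.e1 hyp.Kκ hyp.eκ (by rw [hSc]; unfold s0; omega) le_rfl h1
    rw [hSc] at h2
    unfold s0 at h2
    omega

end Horn

end P310
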