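import Vale.Agent.P310.ClosureB
import Vale.Agent.P310.ClosureC

/-!
# Module CD: structure (step 3 of the closure theorem)
-/

namespace P310

namespace Horn

open Finset

variable {𝓗 : Horn} {P : Par}

/-! ### The use of a relation by rules of a given type -/

open Classical in
/-- the use of `x` as a premise of a rule of type `t` -/
noncomputable def cdU (𝓗 : Horn) (x : 𝓗.X) (t : Fin 2) : Option (𝓗.R × Fin 2 × (ℤ × ℤ)) :=
  if h : ∃ p : 𝓗.R × Fin 2 × (ℤ × ℤ), 𝓗.pr p.1 p.2.1 = some (x, p.2.2) ∧ 𝓗.ty p.1 = t then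
    some h.choose
  else none

theorem cdU_some {x : 𝓗.X} {t : Fin 2} {p : 𝓗.R × Fin 2 × (ℤ × ℤ)} (h : cdU 𝓗 x t = some p) :
    𝓗.pr p.1 p.2.1 = some (x, p.2.2) ∧ 𝓗.ty p.1 = t := by
  unfold cdU at h
  split_ifs at h with h1
  have h2 := Option.some.inj h
  rw [← h2]
  exact h1.choose_spec

theorem cdU_none {x : 𝓗.X} {t : Fin 2} (h : cdU 𝓗 x t = none) {ρ : 𝓗.R} {q : Fin 2} {g : ℤ × ℤ}
    (hp : 𝓗.pr ρ q = some (x, g)) : 𝓗.ty ρ ≠ t := by
  intro ht
  unfold cdU at h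
  rw [dif_pos ⟨(ρ, q, g), hp, ht⟩] at h
  cases h

theorem cdU_of_use {x : 𝓗.X} {ρ : 𝓗.R} {q : Fin 2} {h : ℤ × ℤ} (hp : 𝓗.pr ρ q = some (x, h)) :
    cdU 𝓗 x (𝓗.ty ρ) = some (ρ, q, h) := by
  rcases hU : cdU 𝓗 x (𝓗.ty ρ) with _ | ⟨ρ', q', h'⟩
  · exact absurd rfl (cdU_none hU hp)
  · have h1 := cdU_some hU
    simp only at h1
    obtain ⟨h2, h3⟩ := 𝓗.inj ρ' q' ρ q x h' h h1.1 hp h1.2
    subst h2
    subst h3
    rw [hp] at h1
    have h4 := Option.some.inj h1.1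
    simp only [Prod.mk.injEq] at h4
    rw [h4.2]

/-- sums over the uses of `x` -/
theorem cd_sum_use {M : Type} [AddCommMonoid M] (x : 𝓗.X) (F : 𝓗.R → Fin 2 → M)
    (hF : ∀ ρ q, (∀ h, 𝓗.pr ρ q ≠ some (x, h)) → F ρ q = 0) :
    ∑ ρ, ∑ q, F ρ q = ∑ t : Fin 2, (cdU 𝓗 x t).elim 0 fun p => F p.1 p.2.1 := by
  classical
  have h1 : ∑ ρ, ∑ q, F ρ q = ∑ p : 𝓗.R × Fin 2, F p.1 p.2 := by
    rw [Fintype.sum_prod_type]
  rw [h1, ← sum_fiberwise (s := (univ : Finset (𝓗.R × Fin 2))) (g := fun p => 𝓗.ty p.1)]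
  refine sum_congr rfl fun t _ => ?_
  rcases hU : cdU 𝓗 x t with _ | ⟨ρ', q', h'⟩
  · simp only [Option.elim_none]
    refine sum_eq_zero ?_
    rintro ⟨ρ, q⟩ hp
    rw [mem_filter] at hp
    refine hF ρ q ?_
    intro h hpr
    exact cdU_none hU hpr hp.2
  · simp only [Option.elim_some]
    have h2 := cdU_some hU
    simp only at h2
    rw [sum_eq_single (ρ', q')]
    · rintro ⟨ρ, q⟩ hp hne
      rw [mem_filter] at hp
      refine hF ρ q ?_
      intro h hpr
      have h3 := cdU_of_use hpr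
      rw [show 𝓗.ty ρ = t from hp.2, hU] at h3
      have h4 := Option.some.inj h3
      simp only [Prod.mk.injEq] at h4
      apply hne
      rw [h4.1, h4.2.1]
    · intro h
      exfalso
      apply h
      rw [mem_filter]
      exact ⟨mem_univ _, h2.2⟩

/-! ### Cut points of symmetric differences -/

theorem cd_cuts_le {ι : Type} {m : ℕ} (s : Finset ι) (A : ι → Finset (Fin m))
    (B : Finset (Fin m))
    (hB : ∀ j, j ∈ B ↔ (∑ o ∈ s, if j ∈ A o then (1 : ZMod 2) else 0) ≠ 0) :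
    cuts B ≤ ∑ o ∈ s, cuts (A o) := by
  classical
  unfold cuts
  refine le_trans (card_le_card ?_) card_biUnion_le
  intro j hj
  rw [mem_filter] at hj
  obtain ⟨_, hj1, hj2⟩ := hj
  rw [mem_biUnion]
  by_contra hcon
  apply hj2
  rw [hB, hB]
  have h1 : ∀ o ∈ s, (if j ∈ A o then (1 : ZMod 2) else 0) =
      if (⟨j.val + 1, hj1⟩ : Fin m) ∈ A o then (1 : ZMod 2) else 0 := by
    intro o ho
    have h3 : (j ∈ A o ↔ (⟨j.val + 1, hj1⟩ : Fin m) ∈ A o) := by
      by_contra h4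
      exact hcon ⟨o, ho, mem_filter.2 ⟨mem_univ _, hj1, h4⟩⟩
    exact if_congr h3 rfl rfl
  rw [sum_congr rfl h1]

/-! ### The points of a pattern -/

/-- the bank points: `b` itself and the reference points of the elements of `G_x` -/
def cdPt (P : Par) (rf : ℤ × ℤ → Fin P.κ) (b : P.Pt) : Option (ℤ × ℤ) → P.Pt
  | none => b
  | some g => P.pt (rf g) g

/-- the index set of a pattern -/
def cdIdx (r : 𝓗.Rep P) (x : 𝓗.X) (b : P.Pt) : Finset (Option (ℤ × ℤ)) :=
  insertNone ((r.G x).filter fun g => P.pt b.1 g = b)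

theorem cd_mem_dis (r : 𝓗.Rep P) (x : 𝓗.X) (rf : ℤ × ℤ → Fin P.κ) (ρ : 𝓗.R) (h : ℤ × ℤ)
    (l : Fin P.m) (b : P.Pt) (j : Fin P.m) :
    j ∈ r.dis x rf ρ h l b ↔
      ∑ o ∈ cdIdx r x b, r.ind ρ l (P.tr (cdPt P rf b o) (-h)) j ≠ 0 := by
  unfold Rep.dis cdIdx
  rw [sum_insertNone, mem_filter]
  simp only [mem_univ, true_and]
  exact Iff.rfl

theorem cd_tr_inj {b b' : P.Pt} {h : ℤ × ℤ} (hb : P.tr b h = P.tr b' h) : b = b' := by
  have h1 := congrArg (fun c => P.tr c (-h)) hb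
  simp only [cb_tr_neg'] at h1
  exact h1

theorem cd_mem_I {r : 𝓗.Rep P} {x : 𝓗.X} {g : ℤ × ℤ} {i : Fin P.κ} (hi : i ∈ r.I x g)
    {g' : ℤ × ℤ} (hg' : g' ∈ r.G x) (h : P.pt i g' = P.pt i g) : g' = g := by
  unfold Rep.I at hi
  rw [mem_filter] at hi
  by_contra hne
  exact hi.2 g' hg' hne h

/-- the pattern is trivial if `b` is a reference point -/
theorem cd_triv (r : 𝓗.Rep P) (x : 𝓗.X) (rf : ℤ × ℤ → Fin P.κ)
    (hrf : ∀ g ∈ r.G x, rf g ∈ r.I x g) (ρ : 𝓗.R) (h : ℤ × ℤ) (l : Fin P.m) (b : P.Pt)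
    {g : ℤ × ℤ} (hg : g ∈ r.G x) (hgb : P.pt b.1 g = b) (hb : P.pt (rf g) g = b) :
    r.dis x rf ρ h l b = ∅ := by
  have h1 : (r.G x).filter (fun g => P.pt b.1 g = b) = {g} := by
    ext g'
    rw [mem_filter, mem_singleton]
    constructor
    · rintro ⟨h2, h3⟩
      refine cd_mem_I (hrf g hg) h2 ?_
      have h4 : b.1 = rf g := by rw [← hb]; rfl
      rw [hb, ← h4, h3]
    · rintro rfl
      exact ⟨hg, hgb⟩
  unfold Rep.dis
  rw [h1]
  ext j
  simp only [sum_singleton, hb, mem_filter, mem_univ, true_and, notMem_empty, iff_false, not_not]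
  exact XSys_z2 _
where
  XSys_z2 : ∀ a : ZMod 2, a + a = 0 := by decide

theorem cd_pt_inj (r : 𝓗.Rep P) (x : 𝓗.X) (rf : ℤ × ℤ → Fin P.κ)
    (hrf : ∀ g ∈ r.G x, rf g ∈ r.I x g) (b : P.Pt)
    (hb : ∀ g ∈ r.G x, P.pt b.1 g = b → P.pt (rf g) g ≠ b) :
    Set.InjOn (cdPt P rf b) (cdIdx r x b : Set (Option (ℤ × ℤ))) := by
  intro o ho o' ho' h
  unfold cdIdx at ho ho'
  rw [mem_coe, mem_insertNone] at ho ho'
  rcases o with _ | g <;> rcases o' with _ | g'
  · rfl
  · have h1 := ho' g' rfl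
    rw [mem_filter] at h1
    exact absurd h.symm (hb g' h1.1 h1.2)
  · have h1 := ho g rfl
    rw [mem_filter] at h1
    exact absurd h (hb g h1.1 h1.2)
  · have h1 := ho g rfl
    have h2 := ho' g' rfl
    rw [mem_filter] at h1 h2
    have h3 : P.pt (rf g) g = P.pt (rf g') g' := h
    have h4 : rf g = rf g' := congrArg Sigma.fst h3
    rw [← h4] at h3
    rw [cd_mem_I (hrf g h1.1) h2.1 h3.symm]

/-- the family of patterns -/
noncomputable def cdB (r : 𝓗.Rep P) (x : 𝓗.X) (rf : ℤ × ℤ → Fin P.κ) (b : P.Pt) :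
    Fin 2 × Fin P.m → Finset (Fin P.m) :=
  fun a => (cdU 𝓗 x a.1).elim ∅ fun p => r.dis x rf p.1 p.2.2 a.2 b

theorem cdB_of_some {r : 𝓗.Rep P} {x : 𝓗.X} {rf : ℤ × ℤ → Fin P.κ} {b : P.Pt} {t : Fin 2}
    {p : 𝓗.R × Fin 2 × (ℤ × ℤ)} (h : cdU 𝓗 x t = some p) (l : Fin P.m) :
    cdB r x rf b (t, l) = r.dis x rf p.1 p.2.2 l b := by
  unfold cdB
  simp only [h, Option.elim_some]

theorem cdB_of_none {r : 𝓗.Rep P} {x : 𝓗.X} {rf : ℤ × ℤ → Fin P.κ} {b : P.Pt} {t : Fin 2}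
    (h : cdU 𝓗 x t = none) (l : Fin P.m) :
    cdB r x rf b (t, l) = ∅ := by
  unfold cdB
  simp only [h, Option.elim_none]

/-- number of nonempty patterns -/
theorem cdB_nonempty (r : 𝓗.Rep P) (x : 𝓗.X) (rf : ℤ × ℤ → Fin P.κ) (b : P.Pt) :
    (univ.filter fun a => (cdB r x rf b a).Nonempty).card ≤ r.touched := by
  classical
  unfold Rep.touched
  refine le_trans (card_le_card ?_)
    (card_image_le (f := fun c : 𝓗.Copy P => (𝓗.ty c.1, c.2.1)))
  rintro ⟨t, l⟩ ha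
  rw [mem_filter] at ha
  obtain ⟨_, j, hj⟩ := ha
  rw [mem_image]
  rcases hU : cdU 𝓗 x t with _ | p
  · rw [cdB_of_none hU] at hj
    exact absurd hj (notMem_empty _)
  · rw [cdB_of_some hU, cd_mem_dis] at hj
    obtain ⟨o, _, ho⟩ := exists_ne_zero_of_sum_ne_zero hj
    refine ⟨(p.1, l, P.tr (cdPt P rf b o) (-p.2.2)), ?_, ?_⟩
    · rw [mem_filter]
      refine ⟨mem_univ _, j, ?_⟩
      by_contra hcon
      apply ho
      unfold Rep.ind
      rw [if_neg hcon]
    · rw [(cdU_some hU).2]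

/-- number of cut points of the patterns -/
theorem cdB_cuts (r : 𝓗.Rep P) (x : 𝓗.X) (rf : ℤ × ℤ → Fin P.κ) (b : P.Pt)
    (hinj : Set.InjOn (cdPt P rf b) (cdIdx r x b : Set (Option (ℤ × ℤ)))) :
    ∑ a, cuts (cdB r x rf b a) ≤ ∑ c : 𝓗.Copy P, cuts (r.A c) := by
  classical
  rw [← sum_fiberwise (s := (univ : Finset (𝓗.Copy P))) (g := fun c => (𝓗.ty c.1, c.2.1))]
  refine sum_le_sum ?_
  rintro ⟨t, l⟩ _
  rcases hU : cdU 𝓗 x t with _ | p
  · rw [cdB_of_none hU]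
    have : cuts (∅ : Finset (Fin P.m)) = 0 := by
      unfold cuts
      simp
    rw [this]
    exact Nat.zero_le _
  · rw [cdB_of_some hU]
    refine le_trans (cd_cuts_le (cdIdx r x b)
      (fun o => r.A (p.1, l, P.tr (cdPt P rf b o) (-p.2.2))) _ ?_) ?_
    · intro j
      exact cd_mem_dis r x rf p.1 p.2.2 l b j
    · rw [← sum_image (s := cdIdx r x b)
        (g := fun o => ((p.1, l, P.tr (cdPt P rf b o) (-p.2.2)) : 𝓗.Copy P))
        (f := fun c => cuts (r.A c))]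
      · refine sum_le_sum_of_subset ?_
        intro c hc
        rw [mem_image] at hc
        obtain ⟨o, _, rfl⟩ := hc
        rw [mem_filter]
        exact ⟨mem_univ _, by rw [(cdU_some hU).2]⟩
      · intro o ho o' ho' h
        simp only [Prod.mk.injEq, true_and] at h
        exact hinj ho ho' (cd_tr_inj h)

/-! ### The weight of the sum -/

/-- one key -/
def cdF (r : 𝓗.Rep P) (x : 𝓗.X) (j : Fin P.m) (b : P.Pt) (ρ : 𝓗.R) (q : Fin 2)
    (l : Fin P.m) : ZMod 2 :=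
  match 𝓗.pr ρ q with
    | some (x', h) =>
        if x' = x ∧ j ∈ r.A (ρ, l, P.tr b (-h)) then P.M (𝓗.ty ρ) l j else 0
    | none => 0

/-- the key part of the coefficient of a bank variable -/
def cdKey (r : 𝓗.Rep P) (x : 𝓗.X) (j : Fin P.m) (b : P.Pt) : ZMod 2 :=
  ∑ ρ : 𝓗.R, ∑ q : Fin 2, ∑ l : Fin P.m, cdF r x j b ρ q l

/-- the output part -/
def cdOut (r : 𝓗.Rep P) (x : 𝓗.X) (j : Fin P.m) (b : P.Pt) : ZMod 2 :=
  ∑ ρ : 𝓗.R,
    if 𝓗.co ρ = some x ∧ ∃ s ∈ r.A (ρ, j, b), s.val + 1 = P.m then (1 : ZMod 2) else 0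

theorem cdKey_eq (r : 𝓗.Rep P) (x : 𝓗.X) (j : Fin P.m) (b : P.Pt) :
    cdKey r x j b = ∑ t : Fin 2, (cdU 𝓗 x t).elim 0 fun p =>
      ∑ l : Fin P.m, r.ind p.1 l (P.tr b (-p.2.2)) j * P.M t l j := by
  unfold cdKey
  rw [cd_sum_use x (fun ρ q => ∑ l : Fin P.m, cdF r x j b ρ q l)]
  · refine sum_congr rfl fun t _ => ?_
    rcases hU : cdU 𝓗 x t with _ | p
    · rfl
    · simp only [Option.elim_some]
      have h1 := cdU_some hU
      refine sum_congr rfl fun l _ => ?_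
      unfold cdF
      rw [h1.1]
      simp only [true_and, h1.2]
      unfold Rep.ind
      by_cases h2 : j ∈ r.A (p.1, l, P.tr b (-p.2.2))
      · simp [h2]
      · simp [h2]
  · intro ρ q hno
    refine sum_eq_zero fun l _ => ?_
    unfold cdF
    rcases hp : 𝓗.pr ρ q with _ | ⟨x', h⟩
    · rfl
    · simp only
      rw [if_neg]
      rintro ⟨rfl, _⟩
      exact hno h hp

theorem cd_sum_key (r : 𝓗.Rep P) (x : 𝓗.X) (rf : ℤ × ℤ → Fin P.κ) (b : P.Pt) (j : Fin P.m) :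
    (∑ a : Fin 2 × Fin P.m, if j ∈ cdB r x rf b a then P.M a.1 a.2 j else 0) =
      ∑ o ∈ cdIdx r x b, cdKey r x j (cdPt P rf b o) := by
  rw [Fintype.sum_prod_type]
  simp only [cdKey_eq]
  rw [sum_comm (s := cdIdx r x b)]
  refine sum_congr rfl fun t _ => ?_
  rcases hU : cdU 𝓗 x t with _ | p
  · simp only [Option.elim_none, sum_const_zero, cdB_of_none hU, notMem_empty, if_false]
  · simp only [Option.elim_some, cdB_of_some hU]
    rw [sum_comm (s := cdIdx r x b)]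
    refine sum_congr rfl fun l _ => ?_
    rw [← sum_mul]
    by_cases h1 : j ∈ r.dis x rf p.1 p.2.2 l b
    · rw [if_pos h1]
      rw [cd_mem_dis] at h1
      have h2 : ∀ a c : ZMod 2, a ≠ 0 → c = a * c := by decide
      exact h2 _ _ h1
    · rw [if_neg h1]
      rw [cd_mem_dis, not_not] at h1
      rw [h1, zero_mul]

theorem cd_facts (r : 𝓗.Rep P) (x : 𝓗.X) (rf : ℤ × ℤ → Fin P.κ)
    (hrf : ∀ g ∈ r.G x, rf g ∈ r.I x g) (b : P.Pt) (j : Fin P.m) :
    ∑ o ∈ cdIdx r x b, (((r.D x j).filter fun g =>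
      P.pt (cdPt P rf b o).1 g = cdPt P rf b o).card : ZMod 2) = 0 := by
  classical
  unfold cdIdx
  rw [sum_insertNone]
  have h1 : ∀ g ∈ (r.G x).filter (fun g => P.pt b.1 g = b),
      (((r.D x j).filter fun g' =>
        P.pt (cdPt P rf b (some g)).1 g' = cdPt P rf b (some g)).card : ZMod 2) =
      if g ∈ r.D x j then 1 else 0 := by
    intro g hg
    rw [mem_filter] at hg
    by_cases hD : g ∈ r.D x j
    · have h2 : ((r.D x j).filter fun g' =>
        P.pt (cdPt P rf b (some g)).1 g' = cdPt P rf b (some g)) = {g} := by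
        ext g'
        rw [mem_filter, mem_singleton]
        constructor
        · rintro ⟨h3, h4⟩
          exact cd_mem_I (hrf g hg.1) (cc_mem_G.2 ⟨j, cc_mem_D.1 h3⟩) h4
        · rintro rfl
          exact ⟨hD, rfl⟩
      rw [h2, if_pos hD, card_singleton, Nat.cast_one]
    · have h2 : ((r.D x j).filter fun g' =>
        P.pt (cdPt P rf b (some g)).1 g' = cdPt P rf b (some g)) = ∅ := by
        ext g'
        rw [mem_filter]
        constructor
        · rintro ⟨h3, h4⟩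
          have h5 := cd_mem_I (hrf g hg.1) (cc_mem_G.2 ⟨j, cc_mem_D.1 h3⟩) h4
          rw [h5] at h3
          exact absurd h3 hD
        · intro h3
          exact absurd h3 (notMem_empty _)
      rw [h2, if_neg hD, card_empty, Nat.cast_zero]
  rw [sum_congr rfl h1, ← sum_filter, sum_const, nsmul_eq_mul, mul_one, filter_filter]
  have h3 : (r.G x).filter (fun g => P.pt b.1 g = b ∧ g ∈ r.D x j) =
      (r.D x j).filter (fun g => P.pt b.1 g = b) := by
    ext g
    rw [mem_filter, mem_filter]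
    constructor
    · rintro ⟨_, h4, h5⟩
      exact ⟨h5, h4⟩
    · rintro ⟨h4, h5⟩
      exact ⟨cc_mem_G.2 ⟨j, cc_mem_D.1 h4⟩, h5, h4⟩
  rw [h3]
  have h4 : ∀ a : ZMod 2, a + a = 0 := by decide
  exact h4 _

/-- number of copies seen at a point -/
theorem cd_seen (r : 𝓗.Rep P) (x : 𝓗.X) (b : P.Pt) :
    (univ.filter fun j : Fin P.m => r.lin (𝓗.bank P x j b) ≠ 0).card ≤ 𝓗.cost P r.lin := by
  classical
  unfold cost
  by_cases hsd : x = 𝓗.seed ∧ ∃ i : Fin P.κ, b = P.pt i 0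
  · refine le_trans (card_le_card ?_) (Nat.le_add_left _ _)
    obtain ⟨rfl, i, rfl⟩ := hsd
    intro j hj
    rw [mem_filter] at hj ⊢
    exact ⟨mem_univ _, i, hj.2⟩
  · refine le_trans ?_ (Nat.le_add_right _ _)
    refine card_le_card_of_injOn (fun j => 𝓗.bank P x j b) ?_ ?_
    · intro j hj
      rw [mem_coe, mem_filter] at hj
      rw [mem_coe, mem_filter]
      refine ⟨mem_univ _, hj.2, ?_⟩
      rintro ⟨l, i, h⟩
      have h2 := Sum.inl.inj h
      simp only [Prod.mk.injEq] at h2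
      exact hsd ⟨h2.1, i, h2.2.2⟩
    · intro j _ j' _ h
      have h2 := Sum.inl.inj h
      simp only [Prod.mk.injEq] at h2
      exact h2.2.1

theorem cd_out (r : 𝓗.Rep P) (x : 𝓗.X) (b : P.Pt) :
    (univ.filter fun j : Fin P.m => cdOut r x j b ≠ 0).card ≤ r.touched := by
  classical
  unfold Rep.touched
  refine le_trans (card_le_card ?_) (card_image_le (f := fun c : 𝓗.Copy P => c.2.1))
  intro j hj
  rw [mem_filter] at hj
  obtain ⟨ρ, _, h1⟩ := exists_ne_zero_of_sum_ne_zero hj.2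
  rw [mem_image]
  refine ⟨(ρ, j, b), ?_, rfl⟩
  rw [mem_filter]
  refine ⟨mem_univ _, ?_⟩
  by_contra hcon
  apply h1
  rw [if_neg]
  rintro ⟨_, s, hs, _⟩
  exact hcon ⟨s, hs⟩

/-- weight of the sum of the patterns -/
theorem cd_weight (hC : CoefBank 𝓗 P) (r : 𝓗.Rep P) (x : 𝓗.X) (rf : ℤ × ℤ → Fin P.κ)
    (hrf : ∀ g ∈ r.G x, rf g ∈ r.I x g) (b : P.Pt) {K N : ℕ} (hcost : 𝓗.cost P r.lin ≤ K)
    (ht : r.touched ≤ 4 * K) (hG : (r.G x).card ≤ N) :
    (univ.filter fun j : Fin P.m =>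
      (∑ a : Fin 2 × Fin P.m, if j ∈ cdB r x rf b a then P.M a.1 a.2 j else 0) ≠ 0).card ≤
      (N + 1) * (5 * K) := by
  classical
  have h1 : (univ.filter fun j : Fin P.m =>
      (∑ a : Fin 2 × Fin P.m, if j ∈ cdB r x rf b a then P.M a.1 a.2 j else 0) ≠ 0) ⊆
      (cdIdx r x b).biUnion fun o =>
        (univ.filter fun j : Fin P.m => r.lin (𝓗.bank P x j (cdPt P rf b o)) ≠ 0) ∪
          (univ.filter fun j : Fin P.m => cdOut r x j (cdPt P rf b o) ≠ 0) := by
    intro j hj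
    rw [mem_filter, cd_sum_key] at hj
    have h2 : ∀ o ∈ cdIdx r x b, cdKey r x j (cdPt P rf b o) =
        (r.lin (𝓗.bank P x j (cdPt P rf b o)) + cdOut r x j (cdPt P rf b o)) +
        (((r.D x j).filter fun g =>
          P.pt (cdPt P rf b o).1 g = cdPt P rf b o).card : ZMod 2) := by
      intro o _
      have h3 := hC r x j (cdPt P rf b o)
      have h4 : r.lin (𝓗.bank P x j (cdPt P rf b o)) = cdKey r x j (cdPt P rf b o) +
        cdOut r x j (cdPt P rf b o) + (((r.D x j).filter fun g =>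
          P.pt (cdPt P rf b o).1 g = cdPt P rf b o).card : ZMod 2) := h3
      rw [h4]
      generalize cdKey r x j (cdPt P rf b o) = u
      generalize cdOut r x j (cdPt P rf b o) = v
      generalize (((r.D x j).filter fun g =>
          P.pt (cdPt P rf b o).1 g = cdPt P rf b o).card : ZMod 2) = w
      revert u v w
      decide
    have h5 := hj.2
    rw [sum_congr rfl h2, sum_add_distrib, cd_facts r x rf hrf b j, add_zero] at h5
    obtain ⟨o, ho, h6⟩ := exists_ne_zero_of_sum_ne_zero h5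
    rw [mem_biUnion]
    refine ⟨o, ho, ?_⟩
    rw [mem_union, mem_filter, mem_filter]
    by_cases h7 : r.lin (𝓗.bank P x j (cdPt P rf b o)) = 0
    · right
      rw [h7, zero_add] at h6
      exact ⟨mem_univ _, h6⟩
    · left
      exact ⟨mem_univ _, h7⟩
  refine (card_le_card h1).trans ?_
  refine (card_biUnion_le_card_mul _ _ (5 * K) ?_).trans ?_
  · intro o _
    refine (card_union_le _ _).trans ?_
    have h2 := cd_seen r x (cdPt P rf b o)
    have h3 := cd_out r x (cdPt P rf b o)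
    omega
  · refine Nat.mul_le_mul_right _ ?_
    unfold cdIdx
    rw [card_insertNone]
    exact Nat.add_le_add_right ((card_le_card (filter_subset _ _)).trans hG) 1

/-- good coordinates -/
theorem cd_I {e : ℕ} (hsep : 𝓗.Sep P e) (r : 𝓗.Rep P) (x : 𝓗.X) {g : ℤ × ℤ} (hg : g ∈ r.G x) :
    P.κ ≤ (r.I x g).card + (r.G x).card * e := by
  classical
  have h1 : univ \ r.I x g ⊆ ((r.G x).erase g).biUnion fun g' =>
      univ.filter fun i => P.pt i g' = P.pt i g := by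
    intro i hi
    rw [mem_sdiff] at hi
    obtain ⟨_, hi⟩ := hi
    unfold Rep.I at hi
    rw [mem_filter] at hi
    rw [mem_biUnion]
    by_contra hcon
    push Not at hcon
    apply hi
    refine ⟨mem_univ _, ?_⟩
    intro g' hg' hne heq
    refine hcon g' (mem_erase.2 ⟨hne, hg'⟩) ?_
    rw [mem_filter]
    exact ⟨mem_univ _, heq⟩
  have h2 : (univ \ r.I x g).card ≤ (r.G x).card * e := by
    refine (card_le_card h1).trans ?_
    refine (card_biUnion_le_card_mul _ _ e ?_).trans ?_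
    · intro g' hg'
      rw [mem_erase] at hg'
      exact (hsep.1 x g' g (cc_der_G hg'.2) (cc_der_G hg) hg'.1).le
    · exact Nat.mul_le_mul_right _ (card_le_card (erase_subset _ _))
  have h4 : (univ \ r.I x g).card + (r.I x g).card = P.κ := by
    rw [card_sdiff_add_card_eq_card (subset_univ _), card_univ, Fintype.card_fin]
  omega

/-- **Module CD**. -/
theorem cd : CDStatement := by
  intro hCB hCC 𝓗 P c₀ K e δ hyp r hr
  classical
  obtain ⟨hcost, ht, hD⟩ := hr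
  obtain ⟨-, hC, hcuts⟩ := hCB 𝓗 P hyp.m2
  obtain ⟨-, hG⟩ := hCC hCB 𝓗 P c₀ K e δ hyp r ⟨hcost, ht, hD⟩
  have hI : ∀ x, ∀ g ∈ r.G x, P.κ ≤ (r.I x g).card + s0 c₀ * e := by
    intro x g hg
    have h1 := cd_I hyp.sep r x hg
    have h2 := Nat.mul_le_mul_right e (hG x)
    omega
  refine ⟨hI, ?_⟩
  have he := hyp.e1
  have hs : s0 c₀ * e < P.κ := by
    refine lt_of_lt_of_le ?_ hyp.eκ
    unfold s0 C0
    have h1 : 26 * c₀ + 1 < 1000 * (c₀ + 1) := by omega
    exact Nat.mul_lt_mul_of_pos_right h1 (by omega)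
  have hκ : 0 < P.κ := by omega
  have hex : ∀ (x : 𝓗.X) (g : ℤ × ℤ), ∃ i : Fin P.κ, g ∈ r.G x → i ∈ r.I x g := by
    intro x g
    by_cases hg : g ∈ r.G x
    · have h1 := hI x g hg
      have h2 : 0 < (r.I x g).card := by omega
      obtain ⟨i, hi⟩ := card_pos.1 h2
      exact ⟨i, fun _ => hi⟩
    · exact ⟨⟨0, hκ⟩, fun h => absurd h hg⟩
  choose rf hrf using hex
  refine ⟨rf, fun x g hg => hrf x g hg, ?_⟩
  intro ρ q x h hpr l b
  by_cases htriv : ∃ g ∈ r.G x, P.pt b.1 g = b ∧ P.pt (rf x g) g = b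
  · obtain ⟨g, hg, hgb, hb⟩ := htriv
    rw [cd_triv r x (rf x) (fun g hg => hrf x g hg) ρ h l b hg hgb hb, card_empty]
    exact Nat.zero_le _
  · have hinj := cd_pt_inj r x (rf x) (fun g hg => hrf x g hg) b (by
      intro g hg hgb hb
      exact htriv ⟨g, hg, hgb, hb⟩)
    have h1 : (cdB r x (rf x) b (𝓗.ty ρ, l)) = r.dis x (rf x) ρ h l b :=
      cdB_of_some (cdU_of_use hpr) l
    rw [← h1]
    have h2 := hyp.star (cdB r x (rf x) b) ((cdB_nonempty r x (rf x) b).trans ht)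
      (((cdB_cuts r x (rf x) b hinj).trans (hcuts r)).trans hcost) (by
        refine (cd_weight hC r x (rf x) (fun g hg => hrf x g hg) b hcost ht (hG x)).trans ?_
        unfold w0
        have : (s0 c₀ + 1) * (5 * K) ≤ (s0 c₀ + 2) * (5 * K) :=
          Nat.mul_le_mul_right _ (by omega)
        refine this.trans ?_
        rw [mul_comm])
    refine (card_le_card ?_).trans h2
    exact subset_biUnion_of_mem _ (mem_univ _)

end Horn

end P310
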