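import Vale.Agent.P310.ClosureE1

/-!
# Module CE: normalisation, main lemma
-/

namespace P310

namespace Horn

open Finset

variable {𝓗 : Horn} {P : Par}

/-- consequences of the structure theorem, for a representation -/
structure Str (r : 𝓗.Rep P) (S e δ : ℕ) (rf : 𝓗.X → ℤ × ℤ → Fin P.κ) : Prop where
  hI : ∀ x, ∀ g ∈ r.G x, P.κ ≤ (r.I x g).card + S * e
  hrf : ∀ x, ∀ g ∈ r.G x, rf x g ∈ r.I x g
  dis : ∀ ρ q x h, 𝓗.pr ρ q = some (x, h) → ∀ (l : Fin P.m) (b : P.Pt),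
    (r.dis x (rf x) ρ h l b).card ≤ δ

theorem ce_pt_shift (i : Fin P.κ) (g h : ℤ × ℤ) : P.tr (P.pt i g) (-h) = P.pt i (g - h) := by
  rw [Par.tr_pt, sub_eq_add_neg]

theorem ce_tr_inj {b b' : P.Pt} {h : ℤ × ℤ} (hb : P.tr b (-h) = P.tr b' (-h)) : b = b' := by
  rw [← cb_tr_neg b h, ← cb_tr_neg b' h, hb]

theorem ce_ind (r : 𝓗.Rep P) (ρ : 𝓗.R) (l : Fin P.m) (b : P.Pt) (j : Fin P.m) :
    r.ind ρ l b j = if j ∈ r.A (ρ, l, b) then 1 else 0 := rfl

/-- residue class of `b` in `G x` when `i` is a good coordinate -/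
theorem ce_filter_single {r : 𝓗.Rep P} {x : 𝓗.X} {g : ℤ × ℤ} (hg : g ∈ r.G x) {i : Fin P.κ}
    (hi : i ∈ r.I x g) : (r.G x).filter (fun g' => P.pt (P.pt i g).1 g' = P.pt i g) = {g} := by
  ext g'
  simp only [mem_filter, mem_singleton]
  constructor
  · rintro ⟨h1, h2⟩
    by_contra h3
    unfold Rep.I at hi
    rw [mem_filter] at hi
    exact hi.2 g' h1 h3 h2
  · rintro rfl
    exact ⟨hg, rfl⟩

/-- structure with no element in the residue class -/
theorem ce_str0 {r : 𝓗.Rep P} {S e δ : ℕ} {rf : 𝓗.X → ℤ × ℤ → Fin P.κ} (hs : Str r S e δ rf)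
    {ρ : 𝓗.R} {q : Fin 2} {x : 𝓗.X} {h : ℤ × ℤ} (hp : 𝓗.pr ρ q = some (x, h)) (l : Fin P.m)
    (b : P.Pt) (hb : ∀ g ∈ r.G x, P.pt b.1 g ≠ b) :
    (r.A (ρ, l, P.tr b (-h))).card ≤ δ := by
  refine le_trans (card_le_card ?_) (hs.dis ρ q x h hp l b)
  intro j hj
  unfold Rep.dis
  rw [mem_filter]
  refine ⟨mem_univ _, ?_⟩
  have h1 : (r.G x).filter (fun g => P.pt b.1 g = b) = ∅ := by
    rw [filter_eq_empty_iff]
    intro g hg
    exact hb g hg
  rw [h1, sum_empty, add_zero, ce_ind, if_pos hj]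
  decide

/-- structure with one element in the residue class -/
theorem ce_str1 {r : 𝓗.Rep P} {S e δ : ℕ} {rf : 𝓗.X → ℤ × ℤ → Fin P.κ} (hs : Str r S e δ rf)
    {ρ : 𝓗.R} {q : Fin 2} {x : 𝓗.X} {h : ℤ × ℤ} (hp : 𝓗.pr ρ q = some (x, h)) (l : Fin P.m)
    {g : ℤ × ℤ} (hg : g ∈ r.G x) {i : Fin P.κ} (hi : i ∈ r.I x g) :
    (r.A (ρ, l, P.tr (P.pt (rf x g) g) (-h))).card ≤
      (r.A (ρ, l, P.tr (P.pt i g) (-h))).card + δ := by
  have h1 : r.A (ρ, l, P.tr (P.pt (rf x g) g) (-h)) ⊆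
      r.A (ρ, l, P.tr (P.pt i g) (-h)) ∪ r.dis x (rf x) ρ h l (P.pt i g) := by
    intro j hj
    rw [mem_union]
    by_cases h2 : j ∈ r.A (ρ, l, P.tr (P.pt i g) (-h))
    · exact Or.inl h2
    · right
      unfold Rep.dis
      rw [mem_filter, ce_filter_single hg hi, sum_singleton, ce_ind, ce_ind, if_neg h2,
        if_pos hj]
      exact ⟨mem_univ _, by decide⟩
  refine (card_le_card h1).trans ((card_union_le _ _).trans ?_)
  exact Nat.add_le_add_left (hs.dis ρ q x h hp l _) _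

/-- the injection lemma: few triples -/
theorem ce_inj {r : 𝓗.Rep P} {S e δ : ℕ} {rf : 𝓗.X → ℤ × ℤ → Fin P.κ} (hs : Str r S e δ rf)
    (px : 𝓗.R → 𝓗.X) (ph : 𝓗.R → ℤ × ℤ) (N : Finset ((𝓗.R × Fin P.m) × (ℤ × ℤ)))
    (C : Finset (𝓗.Copy P))
    (hN : ∀ n ∈ N, n.2 ∈ r.G (px n.1.1))
    (hC : ∀ n ∈ N, ∀ i ∈ r.I (px n.1.1) n.2,
      ((n.1.1, n.1.2, P.tr (P.pt i n.2) (-(ph n.1.1))) : 𝓗.Copy P) ∈ C) :
    N.card * P.κ ≤ C.card + N.card * (S * e) := by
  classical
  let U : Finset ((_ : (𝓗.R × Fin P.m) × (ℤ × ℤ)) × Fin P.κ) := N.sigma fun n => r.I (px n.1.1) n.2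
  have hU : U.card ≤ C.card := by
    refine card_le_card_of_injOn
      (fun a => ((a.1.1.1, a.1.1.2, P.tr (P.pt a.2 a.1.2) (-(ph a.1.1.1))) : 𝓗.Copy P)) ?_ ?_
    · rintro ⟨n, i⟩ ha
      obtain ⟨hn, hi⟩ := mem_sigma.1 (mem_coe.1 ha)
      exact mem_coe.2 (hC n hn i hi)
    · rintro ⟨⟨⟨ρ, l⟩, g⟩, i⟩ ha ⟨⟨⟨ρ', l'⟩, g'⟩, i'⟩ ha' heq
      obtain ⟨hn, hi⟩ := mem_sigma.1 (mem_coe.1 ha)
      obtain ⟨hn', hi'⟩ := mem_sigma.1 (mem_coe.1 ha')
      simp only [Prod.mk.injEq] at heq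
      obtain ⟨rfl, rfl, h1⟩ := heq
      have h2 := ce_tr_inj h1
      have hii : i = i' := congrArg Sigma.fst h2
      subst hii
      by_cases hgg : g' = g
      · subst hgg
        rfl
      · exfalso
        simp only at hi
        unfold Rep.I at hi
        rw [mem_filter] at hi
        exact hi.2 g' (hN _ hn') hgg h2.symm
  have hU2 : U.card = ∑ n ∈ N, (r.I (px n.1.1) n.2).card := card_sigma _ _
  have h2 : ∀ n ∈ N, P.κ ≤ (r.I (px n.1.1) n.2).card + S * e := fun n hn => hs.hI _ _ (hN n hn)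
  have h5 := sum_le_sum h2
  rw [sum_const, smul_eq_mul, sum_add_distrib, sum_const, smul_eq_mul] at h5
  omega

/-- arithmetic of the parameters -/
structure Ar (S e κ δ m : ℕ) : Prop where
  κe : 4 * (S * e) + 1 ≤ κ
  m : 4 * ((S + 2) * (δ + 1)) ≤ m

/-- large reference patterns come from true instances of nonaccepting rules -/
theorem ce_true {r : 𝓗.Rep P} {S e δ : ℕ} {rf : 𝓗.X → ℤ × ℤ → Fin P.κ} (hs : Str r S e δ rf)
    (har : Ar S e P.κ δ P.m) (hsep : 𝓗.Sep P e) (hrej : ¬ 𝓗.Acc)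
    (hG : ∀ x, (r.G x).card ≤ S)
    {ρ : 𝓗.R} {x : 𝓗.X} {h : ℤ × ℤ} (hp : 𝓗.pr ρ 0 = some (x, h)) (l : Fin P.m)
    {g : ℤ × ℤ} (hg : g ∈ r.G x)
    (hR : P.m < 2 * (r.A (ρ, l, P.tr (P.pt (rf x g) g) (-h))).card) :
    (∃ y, 𝓗.co ρ = some y) ∧
      ∀ q x' h', 𝓗.pr ρ q = some (x', h') → 𝓗.Der x' (g - h + h') := by
  have hmδ : 4 * (δ + 1) ≤ P.m := by
    refine le_trans ?_ har.m
    have h1 : 1 * (δ + 1) ≤ (S + 2) * (δ + 1) := Nat.mul_le_mul_right _ (by omega)
    omega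
  have hder : ∀ q x' h', 𝓗.pr ρ q = some (x', h') → 𝓗.Der x' (g - h + h') := by
    intro q x' h' hq
    have hqq : q = 0 ∨ q = 1 := by
      fin_cases q
      · left; rfl
      · right; rfl
    rcases hqq with rfl | rfl
    · rw [hp] at hq
      simp only [Option.some.injEq, Prod.mk.injEq] at hq
      obtain ⟨rfl, rfl⟩ := hq
      rw [sub_add_cancel]
      exact cc_der_G hg
    · by_contra hcon
      -- every good coordinate agrees with some element of `G x'`
      have h1 : ∀ i ∈ r.I x g, ∃ g' ∈ r.G x', P.pt i (g' - h') = P.pt i (g - h) := by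
        intro i hi
        by_contra hno
        push Not at hno
        have h2 := ce_str1 hs hp l hg hi
        have h3 : (r.A (ρ, l, P.tr (P.pt i (g - h + h')) (-h'))).card ≤ δ := by
          refine ce_str0 hs hq l _ ?_
          intro g' hg' heq
          refine hno g' hg' ?_
          have h4 : P.pt i g' = P.pt i (g - h + h') := heq
          rw [← ce_pt_shift, h4, ce_pt_shift, add_sub_cancel_right]
        rw [ce_pt_shift, add_sub_cancel_right, ← ce_pt_shift] at h3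
        omega
      have h2 : r.I x g ⊆ (r.G x').biUnion fun g' =>
          univ.filter fun i => P.pt i (g' - h') = P.pt i (g - h) := by
        intro i hi
        obtain ⟨g', hg', heq⟩ := h1 i hi
        rw [mem_biUnion]
        exact ⟨g', hg', mem_filter.2 ⟨mem_univ _, heq⟩⟩
      have h3 := card_le_card h2
      have h4 : ((r.G x').biUnion fun g' =>
          univ.filter fun i => P.pt i (g' - h') = P.pt i (g - h)).card ≤ (r.G x').card * e := by
        refine card_biUnion_le_card_mul _ _ e ?_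
        intro g' hg'
        have hne : g' - h' ≠ g - h := by
          intro heq
          refine hcon ?_
          rw [← heq, sub_add_cancel]
          exact cc_der_G hg'
        exact (hsep.2 ρ 1 0 x' x h' h g' g hq hp (cc_der_G hg') (cc_der_G hg) hne).le
      have h5 : (r.G x').card * e ≤ S * e := Nat.mul_le_mul_right _ (hG x')
      have h6 := hs.hI x g hg
      have h7 := har.κe
      omega
  refine ⟨?_, hder⟩
  rcases hc : 𝓗.co ρ with _ | y
  · exact absurd ⟨ρ, g - h, hc, hder⟩ hrej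
  · exact ⟨y, rfl⟩

/-- normalisation -/
theorem ce_core {r : 𝓗.Rep P} {S e δ T : ℕ} {rf : 𝓗.X → ℤ × ℤ → Fin P.κ} (hs : Str r S e δ rf)
    (har : Ar S e P.κ δ P.m) (hsep : 𝓗.Sep P e) (hrej : ¬ 𝓗.Acc)
    (hG : ∀ x, (r.G x).card ≤ S) (hT : r.touched ≤ T * P.κ) (hD : ∀ x j, (r.D x j).card ≤ S) :
    ∃ r' : 𝓗.Rep P, r'.lin = r.lin ∧ r'.cst = r.cst ∧
      (∀ x j, (r'.D x j).card ≤ S + 3 * (2 * T)) ∧
      r'.touched ≤ 2 * ∑ c : 𝓗.Copy P, cuts (r'.A c) := by
  classical
  have hSδ : 4 * (δ + 1) ≤ P.m ∧ 4 * ((S + 1) * (δ + 1)) ≤ P.m := by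
    have h1 : 1 * (δ + 1) ≤ (S + 2) * (δ + 1) := Nat.mul_le_mul_right _ (by omega)
    have h2 : (S + 1) * (δ + 1) ≤ (S + 2) * (δ + 1) := Nat.mul_le_mul_right _ (by omega)
    have := har.m
    omega
  have hm1 : 1 ≤ P.m := by omega
  choose px ph hp using 𝓗.pr0
  -- the reference patterns
  let R : (𝓗.R × Fin P.m) × (ℤ × ℤ) → Finset (Fin P.m) := fun n =>
    r.A (n.1.1, n.1.2, P.tr (P.pt (rf (px n.1.1) n.2) n.2) (-(ph n.1.1)))
  let Gall : Finset (ℤ × ℤ) := r.Φ.image fun a => a.2.2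
  have hGall : ∀ x, ∀ g ∈ r.G x, g ∈ Gall := by
    intro x g hg
    obtain ⟨j, hj⟩ := cc_mem_G.1 hg
    exact mem_image.2 ⟨_, hj, rfl⟩
  let N : Finset ((𝓗.R × Fin P.m) × (ℤ × ℤ)) :=
    ((univ : Finset (𝓗.R × Fin P.m)) ×ˢ Gall).filter fun n =>
      n.2 ∈ r.G (px n.1.1) ∧ P.m < 2 * (R n).card
  have hNmem : ∀ n, n ∈ N ↔ n.2 ∈ r.G (px n.1.1) ∧ P.m < 2 * (R n).card := by
    intro n
    rw [mem_filter, mem_product]
    constructor
    · rintro ⟨_, h⟩
      exact h
    · intro h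
      exact ⟨⟨mem_univ _, hGall _ _ h.1⟩, h⟩
  -- number of elements of `N`
  have hNcard : N.card ≤ 2 * T := by
    have h1 := ce_inj hs px ph N (univ.filter fun c => (r.A c).Nonempty)
      (fun n hn => ((hNmem n).1 hn).1) (by
        intro n hn i hi
        obtain ⟨hn1, hn2⟩ := (hNmem n).1 hn
        rw [mem_filter]
        refine ⟨mem_univ _, ?_⟩
        rw [← card_pos]
        have h2 : (R n).card ≤ _ := ce_str1 hs (hp n.1.1) n.1.2 hn1 hi
        omega)
    have h2 : (univ.filter fun c => (r.A c).Nonempty).card ≤ T * P.κ := hT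
    have h3 := har.κe
    by_contra hcon
    push Not at hcon
    have h4 : N.card * (4 * (S * e) + 1) ≤ N.card * P.κ := Nat.mul_le_mul_left _ h3
    have h5 : (2 * T + 1) * P.κ ≤ N.card * P.κ := Nat.mul_le_mul_right _ (by omega)
    nlinarith
  obtain ⟨r', hlin, hcst, hA, hD'⟩ := ce_flips r hm1
    (fun n : (𝓗.R × Fin P.m) × (ℤ × ℤ) => n.1.1) (fun n => n.1.2) (fun n => n.2 - ph n.1.1) N (by
      intro n hn
      obtain ⟨hn1, hn2⟩ := (hNmem n).1 hn
      exact ce_true hs har hsep hrej hG (hp n.1.1) n.1.2 hn1 hn2)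
  refine ⟨r', hlin, hcst, ?_, ?_⟩
  · intro x j
    have h1 := hD' x j
    have h2 := hD x j
    omega
  -- new reference patterns
  let R' : (𝓗.R × Fin P.m) × (ℤ × ℤ) → Finset (Fin P.m) := fun n =>
    if n ∈ N then univ \ R n else R n
  have hR'ind : ∀ n j, (if j ∈ R' n then (1 : ZMod 2) else 0) =
      (if j ∈ R n then (1 : ZMod 2) else 0) + if n ∈ N then (1 : ZMod 2) else 0 := by
    intro n j
    by_cases h1 : n ∈ N
    · simp only [R', h1, if_true]
      by_cases h7 : j ∈ R n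
      · rw [if_pos h7, if_neg (by simp [h7])]
        decide
      · rw [if_neg h7, if_pos (by simp [h7]), zero_add]
    · simp only [R', h1, if_false, add_zero]
  have hR'card : ∀ n, n.2 ∈ r.G (px n.1.1) → 2 * (R' n).card ≤ P.m := by
    intro n hn
    by_cases h1 : n ∈ N
    · have h2 := ((hNmem n).1 h1).2
      simp only [R', h1, if_true]
      rw [card_sdiff_of_subset (subset_univ _), card_univ, Fintype.card_fin]
      omega
    · have h2 : ¬ (P.m < 2 * (R n).card) := fun h => h1 ((hNmem n).2 ⟨hn, h⟩)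
      simp only [R', h1, if_false]
      omega
  -- the parity of the number of flips
  have hpar : ∀ (ρ : 𝓗.R) (l : Fin P.m) (b : P.Pt),
      (∑ n ∈ N, if Flips n.1.1 n.1.2 (n.2 - ph n.1.1) ((ρ, l, P.tr b (-(ph ρ))) : 𝓗.Copy P)
        then (1 : ZMod 2) else 0) =
      ∑ g ∈ (r.G (px ρ)).filter (fun g => P.pt b.1 g = b),
        if ((ρ, l), g) ∈ N then (1 : ZMod 2) else 0 := by
    intro ρ l b
    rw [← sum_filter, ← sum_filter, sum_const, sum_const]
    congr 1
    refine card_bij (fun n _ => n.2) ?_ ?_ ?_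
    · rintro ⟨⟨ρ', l'⟩, g⟩ hn
      rw [mem_filter] at hn
      obtain ⟨hn1, hn2, hn3, hn4⟩ := hn
      simp only at hn2 hn3 hn4
      subst hn2 hn3
      rw [mem_filter, mem_filter]
      refine ⟨⟨((hNmem _).1 hn1).1, ?_⟩, hn1⟩
      simp only
      have h1 : P.tr b (-(ph ρ)) = P.tr (P.pt b.1 g) (-(ph ρ)) := by
        rw [ce_pt_shift]
        exact hn4
      exact (ce_tr_inj h1).symm
    · rintro ⟨⟨ρ', l'⟩, g⟩ hn ⟨⟨ρ'', l''⟩, g'⟩ hn' hgg
      rw [mem_filter] at hn hn'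
      obtain ⟨_, hn2, hn3, _⟩ := hn
      obtain ⟨_, hn2', hn3', _⟩ := hn'
      simp only at hn2 hn3 hn2' hn3' hgg
      subst hgg hn2 hn3 hn2' hn3'
      rfl
    · intro g hg
      rw [mem_filter, mem_filter] at hg
      obtain ⟨⟨hg1, hg2⟩, hg3⟩ := hg
      refine ⟨((ρ, l), g), ?_, rfl⟩
      rw [mem_filter]
      refine ⟨hg3, rfl, rfl, ?_⟩
      change P.tr b (-(ph ρ)) = P.pt (P.tr b (-(ph ρ))).1 (g - ph ρ)
      have h1 : (P.tr b (-(ph ρ))).1 = b.1 := rfl
      rw [h1, ← ce_pt_shift, hg2]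
  -- the new pattern at `b` and the new reference patterns
  have hnew : ∀ (ρ : 𝓗.R) (l : Fin P.m) (b : P.Pt) (j : Fin P.m),
      j ∉ r.dis (px ρ) (rf (px ρ)) ρ (ph ρ) l b →
      (if j ∈ r'.A (ρ, l, P.tr b (-(ph ρ))) then (1 : ZMod 2) else 0) =
        ∑ g ∈ (r.G (px ρ)).filter (fun g => P.pt b.1 g = b),
          if j ∈ R' ((ρ, l), g) then (1 : ZMod 2) else 0 := by
    intro ρ l b j hj
    rw [hA, hpar]
    unfold Rep.dis at hj
    rw [mem_filter] at hj
    push Not at hj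
    have h1 := hj (mem_univ _)
    have h2 : r.ind ρ l (P.tr b (-(ph ρ))) j =
        ∑ g ∈ (r.G (px ρ)).filter (fun g => P.pt b.1 g = b),
          r.ind ρ l (P.tr (P.pt (rf (px ρ) g) g) (-(ph ρ))) j := by
      have h3 : ∀ a c : ZMod 2, a + c = 0 → a = c := by decide
      exact h3 _ _ h1
    rw [ce_ind] at h2
    rw [h2, ← sum_add_distrib]
    refine sum_congr rfl fun g _ => ?_
    rw [hR'ind]
    rfl
  -- partial and full copies
  let Pa : Finset (𝓗.Copy P) := univ.filter fun c => (r'.A c).Nonempty ∧ r'.A c ≠ univ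
  let Fu : Finset (𝓗.Copy P) := univ.filter fun c => r'.A c = univ
  have hPa : Pa.card ≤ ∑ c : 𝓗.Copy P, cuts (r'.A c) := by
    rw [card_eq_sum_ones]
    refine (sum_le_sum ?_).trans (sum_le_sum_of_subset (subset_univ Pa))
    intro c hc
    rw [mem_filter] at hc
    obtain ⟨_, hne, hnu⟩ := hc
    by_contra hcon
    have h0 : cuts (r'.A c) = 0 := by omega
    unfold cuts at h0
    rw [card_eq_zero, filter_eq_empty_iff] at h0
    -- no cut point: membership is constant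
    have h1 : ∀ n : ℕ, ∀ hn : n < P.m, ((⟨n, hn⟩ : Fin P.m) ∈ r'.A c ↔
        (⟨0, by omega⟩ : Fin P.m) ∈ r'.A c) := by
      intro n
      induction n with
      | zero => intro hn; exact Iff.rfl
      | succ n ih =>
        intro hn
        have h2 := h0 (mem_univ (⟨n, by omega⟩ : Fin P.m))
        push Not at h2
        have h3 := h2 hn
        rw [← ih (by omega)]
        tauto
    obtain ⟨a, ha⟩ := hne
    refine hnu ?_
    ext j
    constructor
    · intro _; exact mem_univ _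
    · intro _
      exact (h1 j.val j.isLt).2 ((h1 a.val a.isLt).1 ha)
  have htou : r'.touched ≤ Pa.card + Fu.card := by
    unfold Rep.touched
    refine le_trans (card_le_card ?_) (card_union_le _ _)
    intro c hc
    rw [mem_filter] at hc
    rw [mem_union, mem_filter, mem_filter]
    by_cases h : r'.A c = univ
    · exact Or.inr ⟨mem_univ _, h⟩
    · exact Or.inl ⟨mem_univ _, hc.2, h⟩
  -- heavy triples
  let H : Finset ((𝓗.R × Fin P.m) × (ℤ × ℤ)) :=
    ((univ : Finset (𝓗.R × Fin P.m)) ×ˢ Gall).filter fun n =>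
      n.2 ∈ r.G (px n.1.1) ∧ P.m ≤ δ + S * (R' n).card
  have hHmem : ∀ n, n ∈ H ↔ n.2 ∈ r.G (px n.1.1) ∧ P.m ≤ δ + S * (R' n).card := by
    intro n
    rw [mem_filter, mem_product]
    constructor
    · rintro ⟨_, h⟩
      exact h
    · intro h
      exact ⟨⟨mem_univ _, hGall _ _ h.1⟩, h⟩
  have hHPa : H.card * P.κ ≤ Pa.card + H.card * (S * e) := by
    refine ce_inj hs px ph H Pa (fun n hn => ((hHmem n).1 hn).1) ?_
    rintro ⟨⟨ρ, l⟩, g⟩ hn i hi
    obtain ⟨hn1, hn2⟩ := (hHmem _).1 hn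
    simp only at hn1 hn2 hi ⊢
    have h1 : ∀ j, j ∉ r.dis (px ρ) (rf (px ρ)) ρ (ph ρ) l (P.pt i g) →
        (j ∈ r'.A (ρ, l, P.tr (P.pt i g) (-(ph ρ))) ↔ j ∈ R' ((ρ, l), g)) := by
      intro j hj
      have h2 := hnew ρ l (P.pt i g) j hj
      rw [ce_filter_single hn1 hi, sum_singleton] at h2
      by_cases h3 : j ∈ r'.A (ρ, l, P.tr (P.pt i g) (-(ph ρ))) <;>
        by_cases h4 : j ∈ R' ((ρ, l), g)
      · exact ⟨fun _ => h4, fun _ => h3⟩
      · rw [if_pos h3, if_neg h4] at h2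
        exact absurd h2 (by decide)
      · rw [if_neg h3, if_pos h4] at h2
        exact absurd h2 (by decide)
      · exact ⟨fun h => absurd h h3, fun h => absurd h h4⟩
    have hdis := hs.dis ρ 0 (px ρ) (ph ρ) (hp ρ) l (P.pt i g)
    have hup : (R' ((ρ, l), g)).card ≤
        (r'.A (ρ, l, P.tr (P.pt i g) (-(ph ρ)))).card + δ := by
      refine le_trans (card_le_card (t := r'.A (ρ, l, P.tr (P.pt i g) (-(ph ρ))) ∪
        r.dis (px ρ) (rf (px ρ)) ρ (ph ρ) l (P.pt i g)) ?_) ((card_union_le _ _).trans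
          (Nat.add_le_add_left hdis _))
      intro j hj
      rw [mem_union]
      by_cases h5 : j ∈ r.dis (px ρ) (rf (px ρ)) ρ (ph ρ) l (P.pt i g)
      · exact Or.inr h5
      · exact Or.inl ((h1 j h5).2 hj)
    have hlow : (r'.A (ρ, l, P.tr (P.pt i g) (-(ph ρ)))).card ≤
        (R' ((ρ, l), g)).card + δ := by
      refine le_trans (card_le_card (t := R' ((ρ, l), g) ∪
        r.dis (px ρ) (rf (px ρ)) ρ (ph ρ) l (P.pt i g)) ?_) ((card_union_le _ _).trans
          (Nat.add_le_add_left hdis _))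
      intro j hj
      rw [mem_union]
      by_cases h5 : j ∈ r.dis (px ρ) (rf (px ρ)) ρ (ph ρ) l (P.pt i g)
      · exact Or.inr h5
      · exact Or.inl ((h1 j h5).1 hj)
    have h6 := hR'card ((ρ, l), g) hn1
    rw [mem_filter]
    refine ⟨mem_univ _, ?_, ?_⟩
    · rw [← card_pos]
      by_contra hcon
      have h7 : (r'.A (ρ, l, P.tr (P.pt i g) (-(ph ρ)))).card = 0 := by omega
      have h8 : (R' ((ρ, l), g)).card ≤ δ := by omega
      have h9 : S * (R' ((ρ, l), g)).card ≤ S * δ := Nat.mul_le_mul_left _ h8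
      have h10 := hSδ.2
      nlinarith
    · intro hcon
      rw [hcon, card_univ, Fintype.card_fin] at hlow
      have := hSδ.1
      omega
  have hFu : Fu.card ≤ H.card * (S * e) := by
    let U : Finset ((_ : (𝓗.R × Fin P.m) × (ℤ × ℤ)) × Fin P.κ) :=
      H.sigma fun n => univ \ r.I (px n.1.1) n.2
    have hU : U.card ≤ H.card * (S * e) := by
      have h1 : U.card = ∑ n ∈ H, (univ \ r.I (px n.1.1) n.2).card := card_sigma _ _
      rw [h1, ← smul_eq_mul, ← sum_const]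
      refine sum_le_sum fun n hn => ?_
      have h2 := hs.hI _ _ ((hHmem n).1 hn).1
      rw [card_sdiff_of_subset (subset_univ _), card_univ, Fintype.card_fin]
      omega
    refine le_trans (le_trans (card_le_card ?_) (card_image_le (s := U)
      (f := fun a => ((a.1.1.1, a.1.1.2, P.tr (P.pt a.2 a.1.2) (-(ph a.1.1.1))) : 𝓗.Copy P)))) hU
    rintro ⟨ρ, l, b0⟩ hc
    rw [mem_filter] at hc
    have hfull := hc.2
    obtain ⟨b, hb⟩ : ∃ b : P.Pt, b0 = P.tr b (-(ph ρ)) :=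
      ⟨P.tr b0 (ph ρ), (cb_tr_neg' _ _).symm⟩
    subst hb
    set G' := (r.G (px ρ)).filter (fun g => P.pt b.1 g = b) with hG'
    have hcov : (univ : Finset (Fin P.m)) ⊆ r.dis (px ρ) (rf (px ρ)) ρ (ph ρ) l b ∪
        G'.biUnion fun g => R' ((ρ, l), g) := by
      intro j _
      rw [mem_union, mem_biUnion]
      by_cases h5 : j ∈ r.dis (px ρ) (rf (px ρ)) ρ (ph ρ) l b
      · exact Or.inl h5
      · right
        have h6 := hnew ρ l b j h5
        rw [hfull, if_pos (mem_univ _)] at h6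
        have h7 : (∑ g ∈ G', if j ∈ R' ((ρ, l), g) then (1 : ZMod 2) else 0) ≠ 0 := by
          rw [← h6]
          decide
        obtain ⟨g, hg, h8⟩ := exists_ne_zero_of_sum_ne_zero h7
        refine ⟨g, hg, ?_⟩
        by_contra h9
        rw [if_neg h9] at h8
        exact h8 rfl
    have hcard := card_le_card hcov
    rw [card_univ, Fintype.card_fin] at hcard
    have h10 := card_union_le (r.dis (px ρ) (rf (px ρ)) ρ (ph ρ) l b)
      (G'.biUnion fun g => R' ((ρ, l), g))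
    have hdis := hs.dis ρ 0 (px ρ) (ph ρ) (hp ρ) l b
    have hbi : (G'.biUnion fun g => R' ((ρ, l), g)).card ≤ ∑ g ∈ G', (R' ((ρ, l), g)).card :=
      card_biUnion_le
    have hG'sub : G' ⊆ r.G (px ρ) := filter_subset _ _
    have hG'card : G'.card ≤ S := (card_le_card hG'sub).trans (hG _)
    -- a heavy element
    have hex : ∃ g ∈ G', P.m ≤ δ + S * (R' ((ρ, l), g)).card := by
      by_contra hno
      push Not at hno
      rcases G'.eq_empty_or_nonempty with h0 | h0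
      · have hs0 : ∑ g ∈ G', (R' ((ρ, l), g)).card = 0 := by rw [h0, sum_empty]
        have := hSδ.1
        omega
      · have h11 : S * ∑ g ∈ G', (R' ((ρ, l), g)).card ≤ ∑ g ∈ G', (P.m - δ - 1) := by
          rw [mul_sum]
          refine sum_le_sum fun g hg => ?_
          have := hno g hg
          omega
        rw [sum_const, smul_eq_mul] at h11
        have h12 : G'.card * (P.m - δ - 1) ≤ S * (P.m - δ - 1) := Nat.mul_le_mul_right _ hG'card
        have hS1 : 1 ≤ S := le_trans (card_pos.2 h0) hG'card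
        have h13 : P.m - δ ≤ ∑ g ∈ G', (R' ((ρ, l), g)).card := by omega
        have h14 : S * (P.m - δ) ≤ S * (P.m - δ - 1) := by
          refine le_trans (Nat.mul_le_mul_left _ h13) (h11.trans h12)
        have h15 := Nat.le_of_mul_le_mul_left h14 hS1
        have := hSδ.1
        omega
    obtain ⟨g, hg, hheavy⟩ := hex
    have hgG : g ∈ r.G (px ρ) := hG'sub hg
    have hgb : P.pt b.1 g = b := by
      rw [hG', mem_filter] at hg
      exact hg.2
    rw [mem_image]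
    refine ⟨⟨((ρ, l), g), b.1⟩, ?_, ?_⟩
    · rw [mem_sigma]
      refine ⟨(hHmem _).2 ⟨hgG, hheavy⟩, ?_⟩
      rw [mem_sdiff]
      refine ⟨mem_univ _, ?_⟩
      intro hi
      simp only at hi
      have h16 : G' = {g} := by
        rw [hG', ← hgb]
        exact ce_filter_single hgG hi
      have hs1 : ∑ g ∈ G', (R' ((ρ, l), g)).card = (R' ((ρ, l), g)).card := by
        rw [h16, sum_singleton]
      have h17 := hR'card ((ρ, l), g) hgG
      have := hSδ.1
      omega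
    · simp only
      rw [hgb]
  have h1 := har.κe
  have h2 : H.card * (4 * (S * e) + 1) ≤ H.card * P.κ := Nat.mul_le_mul_left _ h1
  have h3 : Fu.card ≤ Pa.card := by nlinarith
  omega

theorem ce : CEStatement := by
  intro hCB hCC hCD 𝓗 P c₀ K e δ hyp
  have hc1 : 1 ≤ c₀ := by
    rcases Nat.eq_zero_or_pos c₀ with h | h
    · exfalso
      have h1 := hyp.Kκ
      rw [h, zero_mul] at h1
      have := hyp.K1
      omega
    · exact h
  have har : Ar (s0 c₀) e P.κ δ P.m := by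
    constructor
    · refine le_trans ?_ hyp.eκ
      have he := hyp.e1
      unfold s0 C0
      nlinarith
    · refine le_trans ?_ hyp.rδ
      unfold r0
      nlinarith
  have core : ∀ r : 𝓗.Rep P, r.Bd K (4 * K) (2 * s0 c₀) →
      ∃ r' : 𝓗.Rep P, r'.lin = r.lin ∧ r'.cst = r.cst ∧
        r'.touched ≤ 2 * 𝓗.cost P r.lin ∧ ∀ x j, (r'.D x j).card ≤ 2 * s0 c₀ := by
    intro r hr
    obtain ⟨hD, hG⟩ := hCC hCB 𝓗 P c₀ K e δ hyp r hr
    obtain ⟨hI, rf, hrf, hdis⟩ := hCD hCB hCC 𝓗 P c₀ K e δ hyp r hr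
    have hT : r.touched ≤ (4 * c₀) * P.κ := by
      refine hr.2.1.trans ?_
      have := hyp.Kκ
      nlinarith
    obtain ⟨r', h1, h2, h3, h4⟩ := ce_core ⟨hI, hrf, hdis⟩ har hyp.sep hyp.rej hG hT hD
    refine ⟨r', h1, h2, ?_, ?_⟩
    · refine h4.trans ?_
      rw [← h1]
      exact Nat.mul_le_mul_left _ ((hCB 𝓗 P hyp.m2).2.2 r')
    · intro x j
      refine (h3 x j).trans ?_
      unfold s0
      omega
  constructor
  · intro r hr
    obtain ⟨r', h1, h2, h3, h4⟩ := core r hr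
    refine ⟨r', h1, h2, ?_⟩
    have hcost : 𝓗.cost P r'.lin ≤ K := by
      rw [h1]
      exact hr.1
    have ht : r'.touched ≤ 2 * K := h3.trans (Nat.mul_le_mul_left _ hr.1)
    have hD := (hCC hCB 𝓗 P c₀ K e δ hyp r' ⟨hcost, by omega, h4⟩).1
    exact ⟨hcost, ht, hD⟩
  · intro r ht hD hlin
    have hcost0 : 𝓗.cost P r.lin = 0 := by
      rw [hlin]
      unfold cost
      simp
    obtain ⟨r', h1, h2, h3, h4⟩ := core r ⟨by rw [hcost0]; exact Nat.zero_le _, ht, hD⟩
    rw [hcost0, mul_zero] at h3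
    have h5 : ∀ c, r'.A c = ∅ := by
      intro c
      have h6 : (univ.filter fun c => (r'.A c).Nonempty).card = 0 := Nat.le_zero.1 h3
      rw [card_eq_zero, filter_eq_empty_iff] at h6
      exact not_nonempty_iff_eq_empty.1 (h6 (mem_univ c))
    rw [← h2]
    unfold Rep.cst
    refine sum_eq_zero fun c _ => ?_
    rw [h5 c, sum_empty]

end Horn

end P310
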