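import Vale.Agent.P310.ClosureA
import Vale.Agent.P310.ClosureB
import Vale.Agent.P310.ClosureC
import Vale.Agent.P310.ClosureD
import Vale.Agent.P310.ClosureE

/-!
# The closure theorem
-/

namespace P310

namespace Horn

theorem main : MainStatement := ce cb cc cd

theorem closure : ClosureStatement := ca main

end Horn

end P310
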