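import Vale.Agent.P310.SM

/-!
# Module CM: While programs are stack machines
-/

namespace P310

/-- program positions -/
def Lab : Cmd → Type
  | .skip => Unit
  | .push _ _ => Unit
  | .pop _ => Unit
  | .seq c d => Lab c ⊕ Lab d
  | .ite _ ce cf ct => Unit ⊕ (Lab ce ⊕ (Lab cf ⊕ Lab ct))
  | .loop _ c => Unit ⊕ Lab c

noncomputable instance labFintype : (c : Cmd) → Fintype (Lab c)
  | .skip => inferInstanceAs (Fintype Unit)
  | .push _ _ => inferInstanceAs (Fintype Unit)
  | .pop _ => inferInstanceAs (Fintype Unit)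
  | .seq c d =>
    haveI := labFintype c
    haveI := labFintype d
    inferInstanceAs (Fintype (Lab c ⊕ Lab d))
  | .ite _ ce cf ct =>
    haveI := labFintype ce
    haveI := labFintype cf
    haveI := labFintype ct
    inferInstanceAs (Fintype (Unit ⊕ (Lab ce ⊕ (Lab cf ⊕ Lab ct))))
  | .loop _ c =>
    haveI := labFintype c
    inferInstanceAs (Fintype (Unit ⊕ Lab c))

/-- first position -/
def entry : (c : Cmd) → Lab c
  | .skip => ()
  | .push _ _ => ()
  | .pop _ => ()
  | .seq c _ => Sum.inl (entry c)
  | .ite _ _ _ _ => Sum.inl ()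
  | .loop _ _ => Sum.inl ()

open Classical in
/-- instruction at a position -/
noncomputable def comp {S α L' : Type} (sym : Bool → α) (φ : ℕ → S) :
    (c : Cmd) → (ex : L') → (emb : Lab c → L') → Lab c → Instr L' S α
  | .skip, ex, _, _ => .peek (φ 0) (fun _ => ex)
  | .push σ b, ex, _, _ => .push (φ σ) (sym b) ex
  | .pop σ, ex, _, _ => .pop (φ σ) ex
  | .seq c d, ex, emb, x =>
    match x with
    | Sum.inl x => comp sym φ c (emb (Sum.inr (entry d))) (fun z => emb (Sum.inl z)) x
    | Sum.inr y => comp sym φ d ex (fun z => emb (Sum.inr z)) y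
  | .ite σ ce cf ct, ex, emb, x =>
    match x with
    | Sum.inl _ => .peek (φ σ) (fun o =>
        if o = none then emb (Sum.inr (Sum.inl (entry ce)))
        else if o = some (sym true) then emb (Sum.inr (Sum.inr (Sum.inr (entry ct))))
        else emb (Sum.inr (Sum.inr (Sum.inl (entry cf)))))
    | Sum.inr (Sum.inl x) => comp sym φ ce ex (fun z => emb (Sum.inr (Sum.inl z))) x
    | Sum.inr (Sum.inr (Sum.inl x)) =>
      comp sym φ cf ex (fun z => emb (Sum.inr (Sum.inr (Sum.inl z)))) x
    | Sum.inr (Sum.inr (Sum.inr x)) =>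
      comp sym φ ct ex (fun z => emb (Sum.inr (Sum.inr (Sum.inr z)))) x
  | .loop σ c, ex, emb, x =>
    match x with
    | Sum.inl _ => .peek (φ σ) (fun o =>
        if o = none then ex else emb (Sum.inr (entry c)))
    | Sum.inr x => comp sym φ c (emb (Sum.inl ())) (fun z => emb (Sum.inr z)) x

/-- the stack contents `st` represent the store `s` -/
def Rep {S α : Type} (sym : Bool → α) (φ : ℕ → S) (N : ℕ) (st : S → List α) (s : Store) : Prop :=
  ∀ r, r < N → st (φ r) = (s r).map sym

theorem rep_update {S α : Type} [DecidableEq S] (sym : Bool → α) (φ : ℕ → S) (N : ℕ)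
    (hφ : Set.InjOn φ {r | r < N}) (st : S → List α) (s : Store) (h : Rep sym φ N st s)
    (σ : ℕ) (hσ : σ < N) (l : List Bool) :
    Rep sym φ N (Function.update st (φ σ) (l.map sym)) (Function.update s σ l) := by
  intro r hr
  by_cases h1 : r = σ
  · subst h1
    simp
  · have h2 : φ r ≠ φ σ := fun h3 => h1 (hφ hr hσ h3)
    rw [Function.update_of_ne h2, Function.update_of_ne h1]
    exact h r hr

theorem run_comp {S α : Type} [DecidableEq S] (sym : Bool → α) (hsym : Function.Injective sym)
    (φ : ℕ → S) (N : ℕ) (hφ : Set.InjOn φ {r | r < N}) (D : SM S α) {c : Cmd} {s s' : Store}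
    {n : ℕ} (hrun : c.Run s s' n) : c.Below N → ∀ (ex : D.L) (emb : Lab c → D.L),
    (∀ x, D.instr (emb x) = comp sym φ c ex emb x) → ∀ st : S → List α, Rep sym φ N st s →
    ∃ t ≤ n, ∃ st' : S → List α, (D.step)^[t] (emb (entry c), st) = (ex, st') ∧
      Rep sym φ N st' s' ∧ (∀ σ, (∀ r, r < N → φ r ≠ σ) → st' σ = st σ) := by
  induction hrun with
  | skip s =>
    intro _ ex emb hD st hst
    refine ⟨1, le_rfl, st, ?_, hst, fun _ _ => rfl⟩
    have h1 := hD (entry .skip)
    simp only [Function.iterate_one, SM.step]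
    rw [h1]
    simp [comp]
  | push σ b s =>
    intro hb ex emb hD st hst
    refine ⟨1, le_rfl, Function.update st (φ σ) ((b :: s σ).map sym), ?_,
      rep_update sym φ N hφ st s hst σ hb _, ?_⟩
    · have h1 := hD (entry (.push σ b))
      simp only [Function.iterate_one, SM.step]
      rw [h1]
      simp only [comp, List.map_cons, Prod.mk.injEq, true_and]
      rw [hst σ hb]
    · intro σ' h'
      exact Function.update_of_ne (h' σ hb).symm _ _
  | pop σ s =>
    intro hb ex emb hD st hst
    refine ⟨1, le_rfl, Function.update st (φ σ) (((s σ).tail).map sym), ?_,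
      rep_update sym φ N hφ st s hst σ hb _, ?_⟩
    · have h1 := hD (entry (.pop σ))
      simp only [Function.iterate_one, SM.step]
      rw [h1]
      simp only [comp, Prod.mk.injEq, true_and]
      rw [hst σ hb, List.map_tail]
    · intro σ' h'
      exact Function.update_of_ne (h' σ hb).symm _ _
  | @seq c d s s' s'' n m _ _ ih1 ih2 =>
    intro hb ex emb hD st hst
    obtain ⟨t1, ht1, st1, h1, h1', h1''⟩ := ih1 hb.1 (emb (Sum.inr (entry d)))
      (fun z => emb (Sum.inl z)) (fun x => hD (Sum.inl x)) st hst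
    obtain ⟨t2, ht2, st2, h2, h2', h2''⟩ := ih2 hb.2 ex
      (fun z => emb (Sum.inr z)) (fun x => hD (Sum.inr x)) st1 h1'
    refine ⟨t2 + t1, by omega, st2, ?_, h2', ?_⟩
    · rw [Function.iterate_add_apply]
      have h3 : (D.step)^[t1] (emb (entry (.seq c d)), st) = (emb (Sum.inr (entry d)), st1) := h1
      rw [h3]
      exact h2
    · intro σ' h'
      rw [h2'' σ' h', h1'' σ' h']
  | @iteE σ ce cf ct s s' n hs _ ih =>
    intro hb ex emb hD st hst
    obtain ⟨t, ht, st', h1, h1', h1''⟩ := ih hb.2.1 ex
      (fun z => emb (Sum.inr (Sum.inl z))) (fun x => hD (Sum.inr (Sum.inl x))) st hst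
    refine ⟨t + 1, by omega, st', ?_, h1', h1''⟩
    rw [Function.iterate_add_apply]
    have h3 : (D.step)^[1] (emb (entry (.ite σ ce cf ct)), st) =
        (emb (Sum.inr (Sum.inl (entry ce))), st) := by
      have h4 := hD (entry (.ite σ ce cf ct))
      simp only [Function.iterate_one, SM.step]
      rw [h4]
      simp only [comp, entry]
      rw [hst σ hb.1, hs]
      simp
    rw [h3]
    exact h1
  | @iteF σ ce cf ct s s' n hs _ ih =>
    intro hb ex emb hD st hst
    obtain ⟨t, ht, st', h1, h1', h1''⟩ := ih hb.2.2.1 ex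
      (fun z => emb (Sum.inr (Sum.inr (Sum.inl z))))
      (fun x => hD (Sum.inr (Sum.inr (Sum.inl x)))) st hst
    refine ⟨t + 1, by omega, st', ?_, h1', h1''⟩
    rw [Function.iterate_add_apply]
    have h3 : (D.step)^[1] (emb (entry (.ite σ ce cf ct)), st) =
        (emb (Sum.inr (Sum.inr (Sum.inl (entry cf)))), st) := by
      have h4 := hD (entry (.ite σ ce cf ct))
      simp only [Function.iterate_one, SM.step]
      rw [h4]
      simp only [comp, entry]
      rw [hst σ hb.1, List.head?_map, hs]
      have h5 : sym false ≠ sym true := fun h => by simpa using hsym h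
      simp [h5]
    rw [h3]
    exact h1
  | @iteT σ ce cf ct s s' n hs _ ih =>
    intro hb ex emb hD st hst
    obtain ⟨t, ht, st', h1, h1', h1''⟩ := ih hb.2.2.2 ex
      (fun z => emb (Sum.inr (Sum.inr (Sum.inr z))))
      (fun x => hD (Sum.inr (Sum.inr (Sum.inr x)))) st hst
    refine ⟨t + 1, by omega, st', ?_, h1', h1''⟩
    rw [Function.iterate_add_apply]
    have h3 : (D.step)^[1] (emb (entry (.ite σ ce cf ct)), st) =
        (emb (Sum.inr (Sum.inr (Sum.inr (entry ct)))), st) := by
      have h4 := hD (entry (.ite σ ce cf ct))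
      simp only [Function.iterate_one, SM.step]
      rw [h4]
      simp only [comp, entry]
      rw [hst σ hb.1, List.head?_map, hs]
      simp
    rw [h3]
    exact h1
  | @loopE σ c s hs =>
    intro hb ex emb hD st hst
    refine ⟨1, le_rfl, st, ?_, hst, fun _ _ => rfl⟩
    have h4 := hD (entry (.loop σ c))
    simp only [Function.iterate_one, SM.step]
    rw [h4]
    simp only [comp, entry]
    rw [hst σ hb.1, hs]
    simp
  | @loopN σ c s s' s'' n m hs _ _ ih1 ih2 =>
    intro hb ex emb hD st hst
    obtain ⟨t1, ht1, st1, h1, h1', h1''⟩ := ih1 hb.2 (emb (Sum.inl ()))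
      (fun z => emb (Sum.inr z)) (fun x => hD (Sum.inr x)) st hst
    obtain ⟨t2, ht2, st2, h2, h2', h2''⟩ := ih2 hb ex emb hD st1 h1'
    refine ⟨t2 + t1 + 1, by omega, st2, ?_, h2', ?_⟩
    · rw [Function.iterate_add_apply]
      have h3 : (D.step)^[1] (emb (entry (.loop σ c)), st) =
          (emb (Sum.inr (entry c)), st) := by
        have h4 := hD (entry (.loop σ c))
        simp only [Function.iterate_one, SM.step]
        rw [h4]
        simp only [comp, entry]
        rw [hst σ hb.1]
        obtain ⟨a, l, hl⟩ := List.exists_cons_of_ne_nil hs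
        rw [hl]
        simp
      rw [h3, Function.iterate_add_apply]
      have h5 : (D.step)^[t1] (emb (Sum.inr (entry c)), st) =
        (emb (entry (.loop σ c)), st1) := h1
      rw [h5]
      exact h2
    · intro σ' h'
      rw [h2'' σ' h', h1'' σ' h']

theorem cm : CMStatement := by
  classical
  intro c N hc S α _ sym hsym φ hφ B
  let D : SM S α :=
    { L := Lab c ⊕ B.L
      fL := inferInstance
      dL := Classical.decEq _
      instr := fun l => match l with
        | Sum.inl x => comp sym φ c (Sum.inr B.start) Sum.inl x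
        | Sum.inr l => (B.instr l).map Sum.inr
      start := Sum.inl (entry c) }
  refine ⟨D, Sum.inr, 1, fun l => rfl, ?_⟩
  intro s s' n hrun st hst
  obtain ⟨t, ht, st', h1, h2, h3⟩ := run_comp sym hsym φ N hφ D hrun hc (Sum.inr B.start)
    Sum.inl (fun x => rfl) st hst
  exact ⟨t, by omega, st', h1, h2, h3⟩

end P310
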