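import Vale.Agent.P310.Digit

/-!
# Module DX: the adjacency predicate as an expression
-/

namespace P310
namespace DXm

/-- truth of an expression -/
def tr (u : List Bool) (env : List ℕ) (e : Ex) : Prop := e.eval u env ≠ 0

theorem tr_and (u : List Bool) (env : List ℕ) (a b : Ex) :
    tr u env (.and a b) ↔ tr u env a ∧ tr u env b := by
  unfold tr
  simp only [Ex.eval]
  split_ifs with h <;> simp_all

theorem tr_or (u : List Bool) (env : List ℕ) (a b : Ex) :
    tr u env (.or a b) ↔ tr u env a ∨ tr u env b := by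
  unfold tr
  simp only [Ex.eval]
  split_ifs with h
  · simp [h]
  · push Not at h
    simp [h]

theorem tr_eq (u : List Bool) (env : List ℕ) (a b : Ex) :
    tr u env (.eq a b) ↔ a.eval u env = b.eval u env := by
  unfold tr
  simp only [Ex.eval]
  split_ifs with h <;> simp [h]

theorem tr_lt (u : List Bool) (env : List ℕ) (a b : Ex) :
    tr u env (.lt a b) ↔ a.eval u env < b.eval u env := by
  unfold tr
  simp only [Ex.eval]
  split_ifs with h <;> simp [h]

theorem tr_bit (u : List Bool) (env : List ℕ) (a : Ex) :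
    tr u env (.bit a) ↔ u.getD (a.eval u env) false = true := by
  unfold tr
  simp only [Ex.eval]
  split_ifs with h
  · simp only [h]; simp
  · simp only [h]; simp

theorem tr_ex (u : List Bool) (env : List ℕ) (b e : Ex) :
    tr u env (.ex b e) ↔ ∃ i < b.eval u env, tr u (i :: env) e := by
  unfold tr
  simp only [Ex.eval]
  split_ifs with h
  · simp only [h]; simp
  · simp only [h]; simp

/-- finite disjunction of a list -/
def orL : List Ex → Ex
  | [] => .num 0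
  | a :: l => .or a (orL l)

theorem tr_orL (u : List Bool) (env : List ℕ) (l : List Ex) :
    tr u env (orL l) ↔ ∃ e ∈ l, tr u env e := by
  induction l with
  | nil => simp [orL, tr, Ex.eval]
  | cons a l ih =>
    simp only [orL, tr_or, ih, List.mem_cons]
    constructor
    · rintro (h | ⟨e, he, h⟩)
      · exact ⟨a, Or.inl rfl, h⟩
      · exact ⟨e, Or.inr he, h⟩
    · rintro ⟨e, (rfl | he), h⟩
      · exact Or.inl h
      · exact Or.inr ⟨e, he, h⟩

/-- disjunction over a finite type -/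
noncomputable def orF {ι : Type} [Fintype ι] (f : ι → Ex) : Ex :=
  orL ((Finset.univ : Finset ι).toList.map f)

theorem tr_orF {ι : Type} [Fintype ι] (u : List Bool) (env : List ℕ) (f : ι → Ex) :
    tr u env (orF f) ↔ ∃ i, tr u env (f i) := by
  unfold orF
  rw [tr_orL]
  simp

/-- degree bounds -/
def Ok (e : Ex) : Prop := e.vdeg ≤ 8 ∧ e.tdeg ≤ 12

theorem ok_and {a b : Ex} (ha : Ok a) (hb : Ok b) : Ok (.and a b) := by
  unfold Ok at *
  simp only [Ex.vdeg, Ex.tdeg]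
  omega

theorem ok_or {a b : Ex} (ha : Ok a) (hb : Ok b) : Ok (.or a b) := by
  unfold Ok at *
  simp only [Ex.vdeg, Ex.tdeg]
  omega

theorem ok_eq {a b : Ex} (ha : Ok a) (hb : Ok b) : Ok (.eq a b) := by
  unfold Ok at *
  simp only [Ex.vdeg, Ex.tdeg]
  omega

theorem ok_lt {a b : Ex} (ha : Ok a) (hb : Ok b) : Ok (.lt a b) := by
  unfold Ok at *
  simp only [Ex.vdeg, Ex.tdeg]
  omega

theorem ok_add {a b : Ex} (ha : Ok a) (hb : Ok b) : Ok (.add a b) := by
  unfold Ok at *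
  simp only [Ex.vdeg, Ex.tdeg]
  omega

theorem ok_num (n : ℕ) : Ok (.num n) := by
  unfold Ok
  simp [Ex.vdeg, Ex.tdeg]

theorem ok_var (n : ℕ) : Ok (.var n) := by
  unfold Ok
  simp [Ex.vdeg, Ex.tdeg]

theorem ok_orL {l : List Ex} (h : ∀ e ∈ l, Ok e) : Ok (orL l) := by
  induction l with
  | nil => exact ok_num 0
  | cons a l ih =>
    exact ok_or (h a (List.mem_cons_self ..)) (ih fun e he => h e (List.mem_cons_of_mem _ he))

theorem ok_orF {ι : Type} [Fintype ι] {f : ι → Ex} (h : ∀ i, Ok (f i)) : Ok (orF f) := by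
  unfold orF
  apply ok_orL
  intro e he
  simp only [List.mem_map] at he
  obtain ⟨i, _, rfl⟩ := he
  exact h i

/-- digits as variables -/
structure DE where
  θ : ℕ
  c : ℕ
  i : ℕ
  b1 : ℕ
  b2 : ℕ

/-- value of the digits -/
def DE.ev (env : List ℕ) (x : DE) : Dg :=
  ⟨env.getD x.θ 0, env.getD x.c 0, env.getD x.i 0, env.getD x.b1 0, env.getD x.b2 0⟩

/-- `Bd` -/
def BdE (κ y : ℕ) : Ex := .add (.var y) (.num (κ * κ.factorial + 1))

theorem BdE_eval (κ y : ℕ) (u : List Bool) (env : List ℕ) :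
    (BdE κ y).eval u env = Bd κ (env.getD y 0) := by
  simp [BdE, Ex.eval, Bd, add_assoc]

/-- `md` with the index in the variable `i` -/
def mdE (κ y i : ℕ) : Ex := .add (.var y) (.add (.mul (.var i) (.num κ.factorial)) (.num 1))

theorem mdE_eval (κ y i : ℕ) (u : List Bool) (env : List ℕ) :
    (mdE κ y i).eval u env = md κ (env.getD y 0) (env.getD i 0) := by
  simp [mdE, Ex.eval, md, add_assoc]

theorem ok_mdE (κ y i : ℕ) : Ok (mdE κ y i) := by
  unfold Ok mdE
  simp [Ex.vdeg, Ex.tdeg]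

/-- `nM` -/
def nME (κ y : ℕ) : Ex :=
  .mul (.mul (.mul (.mul (.var y) (.add (.var y) (.num 1))) (.num κ)) (BdE κ y)) (BdE κ y)

theorem nME_eval (κ y : ℕ) (u : List Bool) (env : List ℕ) :
    (nME κ y).eval u env = nM κ (env.getD y 0) := by
  simp [nME, Ex.eval, nM, BdE_eval]

/-- `Lm` -/
def LmE (κ y : ℕ) : Ex := .add (nME κ y) (.num 3)

theorem LmE_eval (κ y : ℕ) (u : List Bool) (env : List ℕ) :
    (LmE κ y).eval u env = Lm κ (env.getD y 0) := by
  simp [LmE, Ex.eval, Lm, nME_eval]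

/-- `nV` -/
def nVE (κ y : ℕ) : Ex := .mul (nME κ y) (LmE κ y)

theorem nVE_eval (κ y : ℕ) (u : List Bool) (env : List ℕ) :
    (nVE κ y).eval u env = nV κ (env.getD y 0) := by
  simp [nVE, Ex.eval, nV, nME_eval, LmE_eval]

/-- code with `θ` given by the expression `t` -/
def codeE (κ y : ℕ) (t : Ex) (x : DE) : Ex :=
  .add (.mul (.add (.mul (.add (.mul (.add (.mul t (.add (.var y) (.num 1))) (.var x.c)) (.num κ))
    (.var x.i)) (BdE κ y)) (.var x.b1)) (BdE κ y)) (.var x.b2)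

theorem codeE_eval (κ y : ℕ) (t : Ex) (x : DE) (u : List Bool) (env : List ℕ) :
    (codeE κ y t x).eval u env =
      ({ x.ev env with θ := t.eval u env } : Dg).code κ (env.getD y 0) := by
  simp [codeE, Ex.eval, Dg.code, BdE_eval, DE.ev]

/-- table entry -/
noncomputable def TBE {κ d : ℕ} (x : Cat κ d) (t t' : Ex) : Ex :=
  .bit (.add (.mul (.num (NC κ d)) (.add (.mul (.add t t') (.add t t')) t')) (.num (catNo x)))

theorem tr_TBE {κ d : ℕ} (x : Cat κ d) (t t' : Ex) (u : List Bool) (env : List ℕ) :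
    tr u env (TBE x t t') ↔ TB u x (t.eval u env) (t'.eval u env) := by
  unfold TBE TB idx
  rw [tr_bit]
  simp only [Ex.eval, pow_two]

/-- kind test -/
def kindE (y c : ℕ) : Kind → Ex
  | .all => .num 1
  | .lt => .lt (.var c) (.var y)
  | .last => .eq (.var c) (.var y)
  | .cont β => .and (.lt (.var c) (.var y))
      (if β then .bit (.var c) else .eq (.bit (.var c)) (.num 0))

theorem tr_kindE (y c : ℕ) (k : Kind) (u : List Bool) (env : List ℕ)
    (hy : env.getD y 0 = u.length) :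
    tr u env (kindE y c k) ↔ k.en u (env.getD c 0) = true := by
  cases k with
  | all => simp [kindE, tr, Ex.eval, Kind.en]
  | lt => simp only [kindE, tr_lt, Ex.eval, Kind.en, hy, decide_eq_true_eq]
  | last => simp only [kindE, tr_eq, Ex.eval, Kind.en, hy, decide_eq_true_eq]
  | cont β =>
    cases β
    · simp only [kindE, tr_and, tr_lt, Ex.eval, Kind.en, hy, decide_eq_true_eq,
        Bool.false_eq_true, if_false, tr_eq]
      apply and_congr_right
      intro _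
      split_ifs with h
      · simp only [h]; simp
      · simp only [Bool.not_eq_true] at h
        simp only [h]
        simp
    · simp only [kindE, tr_and, tr_lt, Ex.eval, Kind.en, hy, decide_eq_true_eq, if_true, tr_bit]

/-- validity -/
noncomputable def validE (κ d y : ℕ) (x : DE) : Ex :=
  .and (.lt (.var x.b1) (mdE κ y x.i)) (.and (.lt (.var x.b2) (mdE κ y x.i))
    (.or (orF fun k : Kind => .and (TBE (Cat.val k : Cat κ d) (.var x.θ) (.num 0)) (kindE y x.c k))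
      (.and (TBE (Cat.valSeed : Cat κ d) (.var x.θ) (.num 0))
        (.and (.eq (.var x.c) (.num 0)) (.and (.eq (.var x.i) (.num 0))
          (.and (.eq (.var x.b1) (.num 0)) (.eq (.var x.b2) (.num 0))))))))

theorem tr_validE (κ d y : ℕ) (x : DE) (u : List Bool) (env : List ℕ)
    (hy : env.getD y 0 = u.length) :
    tr u env (validE κ d y x) ↔ Valid κ d u (x.ev env) := by
  unfold validE Valid
  simp only [tr_and, tr_or, tr_lt, tr_eq, tr_orF, tr_TBE, tr_kindE y x.c _ u env hy, mdE_eval, hy,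
    Ex.eval, DE.ev]

/-- pairs `(α, β)` with `shift ≡ β - α` -/
def ab1 {d : ℕ} : Sh d → ℕ × ℕ
  | .z => (0, 0)
  | .tm => (1, 0)
  | .ps => (1, 0)
  | .pp => (1, 0)
  | .dn => (0, 0)
  | .lev _ => (0, 0)

def ab2 {d : ℕ} (κ i : ℕ) : Sh d → ℕ × ℕ
  | .z => (0, 0)
  | .tm => (0, 0)
  | .ps => (1, 0)
  | .pp => (0, 1)
  | .dn => (1, 0)
  | .lev j => if j.val % 2 = 0 then ((i * κ.factorial + 1) ^ j.val, 0)
      else (0, (i * κ.factorial + 1) ^ j.val)

theorem ab1_spec {d : ℕ} (s : Sh d) (Y : ℕ) : (s.val Y).1 = ((ab1 s).2 : ℤ) - ((ab1 s).1 : ℤ) := by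
  cases s <;> simp [Sh.val, ab1]

theorem ab2_spec {d : ℕ} (κ i Y : ℕ) (s : Sh d) :
    (s.val Y).2 ≡ ((ab2 κ i s).2 : ℤ) - ((ab2 κ i s).1 : ℤ) [ZMOD (md κ Y i : ℤ)] := by
  cases s with
  | z => simp [Sh.val, ab2]
  | tm => simp [Sh.val, ab2]
  | ps => simp [Sh.val, ab2]
  | pp => simp [Sh.val, ab2]
  | dn => simp [Sh.val, ab2]
  | lev j =>
    have h1 : (Y : ℤ) ≡ -((i * κ.factorial + 1 : ℕ) : ℤ) [ZMOD (md κ Y i : ℤ)] := by
      apply Int.ModEq.symm
      rw [Int.modEq_iff_dvd]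
      refine ⟨1, ?_⟩
      unfold md
      push_cast
      ring
    have h2 := h1.pow j.val
    have h3 := h2.neg
    simp only [Sh.val, ab2]
    split_ifs with h4
    · have h5 : Even j.val := Nat.even_iff.mpr h4
      rw [h5.neg_pow] at h3
      simpa using h3
    · have h5 : Odd j.val := Nat.odd_iff.mpr (by omega)
      rw [h5.neg_pow, neg_neg] at h3
      simpa using h3

/-- congruence `yb + α ≡ xb + β` modulo `md` -/
def congE (m : Ex) (xb yb : ℕ) (α β : ℕ) : Ex :=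
  .or (.eq (.add (.var yb) (.num α)) (.add (.var xb) (.num β)))
    (.or (.eq (.add (.var yb) (.num α)) (.add (.add (.var xb) (.num β)) m))
      (.eq (.add (.add (.var yb) (.num α)) m) (.add (.var xb) (.num β))))

theorem tr_congE (m : Ex) (xb yb α β : ℕ) (u : List Bool) (env : List ℕ) :
    tr u env (congE m xb yb α β) ↔ (env.getD yb 0 + α = env.getD xb 0 + β ∨
      env.getD yb 0 + α = env.getD xb 0 + β + m.eval u env ∨
      env.getD yb 0 + α + m.eval u env = env.getD xb 0 + β) := by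
  simp only [congE, tr_or, tr_eq, Ex.eval]

theorem cong_iff (p a b α β : ℕ) (ha : a < p) (hb : b < p) (hα : α < p) (hβ : β < p) :
    (b + α = a + β ∨ b + α = a + β + p ∨ b + α + p = a + β) ↔
      (b : ℤ) ≡ (a : ℤ) + ((β : ℤ) - (α : ℤ)) [ZMOD (p : ℤ)] := by
  rw [Int.modEq_iff_dvd]
  constructor
  · rintro (h | h | h)
    · refine ⟨0, ?_⟩
      omega
    · refine ⟨-1, ?_⟩
      omega
    · refine ⟨1, ?_⟩
      omega
  · rintro ⟨k, hk⟩
    have h1 : k < 2 := by
      by_contra h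
      push Not at h
      have : (p : ℤ) * 2 ≤ (p : ℤ) * k := by nlinarith
      omega
    have h2 : -2 < k := by
      by_contra h
      push Not at h
      have : (p : ℤ) * k ≤ (p : ℤ) * (-2) := by nlinarith
      omega
    have h3 : k = -1 ∨ k = 0 ∨ k = 1 := by omega
    rcases h3 with rfl | rfl | rfl
    · right; left; omega
    · left; omega
    · right; right; omega

/-- output test -/
def outE (xc yc : ℕ) : Out → Ex
  | .same => .eq (.var yc) (.var xc)
  | .succ => .eq (.var yc) (.add (.var xc) (.num 1))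
  | .zero => .eq (.var yc) (.num 0)

/-- flag test -/
def flagE (g xi : ℕ) : Fin 3 → Ex
  | 0 => .num 1
  | 1 => .or (.eq (.var g) (.num 0)) (.lt (.num 0) (.var xi))
  | 2 => .and (.eq (.var g) (.num 1)) (.eq (.var xi) (.num 0))

theorem tr_outE (xc yc : ℕ) (o : Out) (u : List Bool) (env : List ℕ) :
    tr u env (outE xc yc o) ↔ (match o with
      | .same => env.getD yc 0 = env.getD xc 0
      | .succ => env.getD yc 0 = env.getD xc 0 + 1
      | .zero => env.getD yc 0 = 0) := by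
  cases o <;> simp only [outE, tr_eq, Ex.eval]

theorem tr_flagE (g xi : ℕ) (f : Fin 3) (u : List Bool) (env : List ℕ) :
    tr u env (flagE g xi f) ↔ ((f = 1 → env.getD g 0 = 0 ∨ env.getD xi 0 ≠ 0) ∧
      (f = 2 → env.getD g 0 = 1 ∧ env.getD xi 0 = 0)) := by
  fin_cases f
  · simp [flagE, tr, Ex.eval]
  · simp only [flagE, tr_or, tr_eq, tr_lt, Ex.eval]
    simp [Nat.pos_iff_ne_zero]
  · simp only [flagE, tr_and, tr_eq, Ex.eval]
    simp

/-- adjacency of equation code and variable code -/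
noncomputable def A1E (κ d y g : ℕ) (x z : DE) : Ex :=
  .or
    (orF fun a : Out × Sh d × Fin 3 =>
      .and (TBE (Cat.adj a.1 a.2.1 a.2.2 : Cat κ d) (.var x.θ) (.var z.θ))
        (.and (outE x.c z.c a.1) (.and (.eq (.var z.i) (.var x.i))
          (.and (congE (mdE κ y x.i) x.b1 z.b1 (ab1 a.2.1).1 (ab1 a.2.1).2)
            (.and (orF fun i : Fin κ => .and (.eq (.var x.i) (.num i.val))
              (congE (mdE κ y x.i) x.b2 z.b2 (ab2 κ i.val a.2.1).1 (ab2 κ i.val a.2.1).2))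
              (flagE g x.i a.2.2))))))
    (orF fun i : Fin κ =>
      .and (TBE (Cat.seed i : Cat κ d) (.var x.θ) (.var z.θ))
        (.and (.eq (.var z.i) (.num i.val)) (.and (.eq (.var z.c) (.num 0))
          (.and (.eq (.var z.b1) (.num 0)) (.eq (.var z.b2) (.num 0))))))

theorem ab1_le {d : ℕ} (s : Sh d) : (ab1 s).1 ≤ 1 ∧ (ab1 s).2 ≤ 1 := by
  cases s <;> simp [ab1]

theorem ab2_le {d : ℕ} (κ i : ℕ) (hi : i < κ) (s : Sh d) :
    (ab2 κ i s).1 ≤ (κ * κ.factorial + 1) ^ d ∧ (ab2 κ i s).2 ≤ (κ * κ.factorial + 1) ^ d := by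
  have h0 : 1 ≤ (κ * κ.factorial + 1) ^ d := Nat.one_le_pow _ _ (by omega)
  cases s with
  | z => simp [ab2]
  | tm => simp [ab2]
  | ps => simpa [ab2] using h0
  | pp => simpa [ab2] using h0
  | dn => simpa [ab2] using h0
  | lev j =>
    have h1 : (i * κ.factorial + 1) ^ j.val ≤ (κ * κ.factorial + 1) ^ d := by
      calc (i * κ.factorial + 1) ^ j.val ≤ (κ * κ.factorial + 1) ^ j.val := by
            apply Nat.pow_le_pow_left
            have : i * κ.factorial ≤ κ * κ.factorial := Nat.mul_le_mul_right _ hi.le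
            omega
        _ ≤ _ := Nat.pow_le_pow_right (by omega) j.isLt.le
    simp only [ab2]
    split_ifs
    · exact ⟨h1, Nat.zero_le _⟩
    · exact ⟨Nat.zero_le _, h1⟩

theorem tr_A1E (κ d y g : ℕ) (x z : DE) (u : List Bool) (env : List ℕ)
    (hy : env.getD y 0 = u.length) (hY : (κ * κ.factorial + 1) ^ d < u.length)
    (hx1 : (x.ev env).b1 < md κ u.length (x.ev env).i)
    (hx2 : (x.ev env).b2 < md κ u.length (x.ev env).i)
    (hz1 : (z.ev env).b1 < md κ u.length (z.ev env).i)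
    (hz2 : (z.ev env).b2 < md κ u.length (z.ev env).i)
    (hxi : (x.ev env).i < κ) :
    tr u env (A1E κ d y g x z) ↔ A1 κ d u (env.getD g 0) (x.ev env) (z.ev env) := by
  have hpos : 1 ≤ (κ * κ.factorial + 1) ^ d := Nat.one_le_pow _ _ (by omega)
  unfold A1E A1
  rw [tr_or]
  apply or_congr
  · rw [tr_orF]
    constructor
    · rintro ⟨⟨o, s, f⟩, h⟩
      simp only [tr_and, tr_TBE, tr_orF, tr_eq, tr_outE, tr_congE, tr_flagE, mdE_eval, hy,
        Ex.eval] at h
      obtain ⟨h1, h2, h3, h4, ⟨i, h5, h6⟩, h7⟩ := h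
      refine ⟨o, s, f, h1, h2, h3, ?_, ?_, h7⟩
      · have e1 : (z.ev env).b1 < md κ u.length (x.ev env).i := by
          have : (z.ev env).i = (x.ev env).i := h3
          rw [← this]
          exact hz1
        have h8 := (cong_iff (md κ u.length (x.ev env).i) (x.ev env).b1 (z.ev env).b1 (ab1 s).1
          (ab1 s).2 hx1 e1 (by have := (ab1_le s).1; unfold md; omega)
          (by have := (ab1_le s).2; unfold md; omega)).mp h4
        rw [ab1_spec s u.length]
        exact h8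
      · have e1 : (z.ev env).b2 < md κ u.length (x.ev env).i := by
          have : (z.ev env).i = (x.ev env).i := h3
          rw [← this]
          exact hz2
        have e2 : (x.ev env).i = i.val := h5
        have e3 := ab2_le (d := d) κ i.val i.isLt s
        have h8 := (cong_iff (md κ u.length (x.ev env).i) (x.ev env).b2 (z.ev env).b2
          (ab2 κ i.val s).1 (ab2 κ i.val s).2 hx2 e1 (by unfold md; omega)
          (by unfold md; omega)).mp h6
        refine h8.trans ?_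
        apply Int.ModEq.add_left
        rw [e2]
        exact (ab2_spec κ i.val u.length s).symm
    · rintro ⟨o, s, f, h1, h2, h3, h4, h5, h7⟩
      refine ⟨⟨o, s, f⟩, ?_⟩
      simp only [tr_and, tr_TBE, tr_orF, tr_eq, tr_outE, tr_congE, tr_flagE, mdE_eval, hy,
        Ex.eval]
      refine ⟨h1, h2, h3, ?_, ⟨⟨(x.ev env).i, hxi⟩, rfl, ?_⟩, h7⟩
      · have e1 : (z.ev env).b1 < md κ u.length (x.ev env).i := by
          rw [← h3]
          exact hz1
        rw [ab1_spec s u.length] at h4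
        exact (cong_iff (md κ u.length (x.ev env).i) (x.ev env).b1 (z.ev env).b1 (ab1 s).1
          (ab1 s).2 hx1 e1 (by have := (ab1_le s).1; unfold md; omega)
          (by have := (ab1_le s).2; unfold md; omega)).mpr h4
      · have e1 : (z.ev env).b2 < md κ u.length (x.ev env).i := by
          rw [← h3]
          exact hz2
        have e3 := ab2_le (d := d) κ (x.ev env).i hxi s
        have h9 : ((z.ev env).b2 : ℤ) ≡ ((x.ev env).b2 : ℤ) +
            (((ab2 κ (x.ev env).i s).2 : ℤ) - ((ab2 κ (x.ev env).i s).1 : ℤ))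
            [ZMOD (md κ u.length (x.ev env).i : ℤ)] :=
          h5.trans (Int.ModEq.add_left _ (ab2_spec κ (x.ev env).i u.length s))
        exact (cong_iff (md κ u.length (x.ev env).i) (x.ev env).b2 (z.ev env).b2
          (ab2 κ (x.ev env).i s).1 (ab2 κ (x.ev env).i s).2 hx2 e1 (by unfold md; omega)
          (by unfold md; omega)).mpr h9
  · rw [tr_orF]
    apply exists_congr
    intro i
    simp only [tr_and, tr_TBE, tr_eq, Ex.eval, DE.ev]

/-- adjacency of main codes -/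
noncomputable def MAdjE (κ d y g : ℕ) (x z : DE) : Ex :=
  .and (validE κ d y x) (.and (validE κ d y z) (.or (A1E κ d y g x z) (A1E κ d y g z x)))

theorem tr_MAdjE (κ d y g : ℕ) (x z : DE) (u : List Bool) (env : List ℕ)
    (hy : env.getD y 0 = u.length) (hY : (κ * κ.factorial + 1) ^ d < u.length)
    (hxi : (x.ev env).i < κ) (hzi : (z.ev env).i < κ) :
    tr u env (MAdjE κ d y g x z) ↔ MAdj κ d u (env.getD g 0) (x.ev env) (z.ev env) := by
  unfold MAdjE MAdj
  simp only [tr_and, tr_or, tr_validE κ d y _ u env hy]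
  constructor
  · rintro ⟨h1, h2, h3⟩
    refine ⟨h1, h2, ?_⟩
    rw [tr_A1E κ d y g x z u env hy hY h1.1 h1.2.1 h2.1 h2.2.1 hxi,
      tr_A1E κ d y g z x u env hy hY h2.1 h2.2.1 h1.1 h1.2.1 hzi] at h3
    exact h3
  · rintro ⟨h1, h2, h3⟩
    refine ⟨h1, h2, ?_⟩
    rw [tr_A1E κ d y g x z u env hy hY h1.1 h1.2.1 h2.1 h2.2.1 hxi,
      tr_A1E κ d y g z x u env hy hY h2.1 h2.2.1 h1.1 h1.2.1 hzi]
    exact h3

/-- the leaf test, in the environment `[r, t, l', l, z.., x.., q, p, g, n, Y]` -/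
def leafE (κ : ℕ) : Ex :=
  .and (.eq (.var 13) (.add (.mul (.var 1) (.num (A0 κ))) (.var 0)))
    (.or (.and (.eq (.var 3) (.num 0)) (.and (.lt (.num 0) (.var 2))
        (.lt (.var 2) (.add (codeE κ 18 (.var 1) ⟨13, 12, 11, 10, 9⟩) (.num 3)))))
      (.and (.eq (.var 2) (.num 0)) (.and (.lt (.num 0) (.var 3))
        (.lt (.var 3) (.add (codeE κ 18 (.var 1) ⟨13, 12, 11, 10, 9⟩) (.num 3))))))

/-- first digits: `x`, second digits: `z`, in the environment
`[l', l, z.b2, z.b1, z.i, z.c, z.θ, x.b2, x.b1, x.i, x.c, x.θ, q, p, g, n, Y]` -/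
def xE : DE := ⟨11, 10, 9, 8, 7⟩
def zE : DE := ⟨6, 5, 4, 3, 2⟩

/-- body of the adjacency predicate -/
noncomputable def bodyE (κ d : ℕ) : Ex :=
  .and (.eq (.var 13) (.add (.mul (codeE κ 16 (.var 11) xE) (LmE κ 16)) (.var 1)))
    (.and (.eq (.var 12) (.add (.mul (codeE κ 16 (.var 6) zE) (LmE κ 16)) (.var 0)))
      (.or (.and (.eq (.var 1) (.num 0)) (.and (.eq (.var 0) (.num 0)) (MAdjE κ d 16 14 xE zE)))
        (.and (.and (.eq (.var 11) (.var 6)) (.and (.eq (.var 10) (.var 5))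
          (.and (.eq (.var 9) (.var 4)) (.and (.eq (.var 8) (.var 3)) (.eq (.var 7) (.var 2))))))
          (.and (validE κ d 16 xE)
            (.ex (.var 16) (.ex (.num (A0 κ)) (leafE κ)))))))

/-- the adjacency predicate -/
noncomputable def DAdjE (κ d : ℕ) : Ex :=
  .ex (.var 4) (.ex (.add (.var 5) (.num 1)) (.ex (.num κ) (.ex (BdE κ 7) (.ex (BdE κ 8)
    (.ex (.var 9) (.ex (.add (.var 10) (.num 1)) (.ex (.num κ) (.ex (BdE κ 12) (.ex (BdE κ 13)
      (.ex (LmE κ 14) (.ex (LmE κ 15) (bodyE κ d))))))))))))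

theorem leaf_iff (κ : ℕ) (u : List Bool) (l l' zb2 zb1 zi zc zθ q p g n : ℕ) (X : Dg)
    (hX : X.θ < u.length) :
    (∃ t < u.length, ∃ r < A0 κ, tr u [r, t, l', l, zb2, zb1, zi, zc, zθ, X.b2, X.b1, X.i, X.c,
      X.θ, q, p, g, n, u.length] (leafE κ)) ↔
    ((l = 0 ∧ 1 ≤ l' ∧ l' ≤ X.cls κ u.length + 2) ∨
      (l' = 0 ∧ 1 ≤ l ∧ l ≤ X.cls κ u.length + 2)) := by
  have hA : 0 < A0 κ := by unfold A0; positivity
  have key : ∀ t r : ℕ, tr u [r, t, l', l, zb2, zb1, zi, zc, zθ, X.b2, X.b1, X.i, X.c,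
      X.θ, q, p, g, n, u.length] (leafE κ) ↔
      (X.θ = t * A0 κ + r ∧
        ((l = 0 ∧ 0 < l' ∧ l' < ({ X with θ := t } : Dg).code κ u.length + 3) ∨
          (l' = 0 ∧ 0 < l ∧ l < ({ X with θ := t } : Dg).code κ u.length + 3))) := by
    intro t r
    simp only [leafE, tr_and, tr_or, tr_eq, tr_lt, Ex.eval, codeE_eval]
    rfl
  simp only [key]
  constructor
  · rintro ⟨t, ht, r, hr, h1, h2⟩
    have h3 : X.θ / A0 κ = t := by
      rw [h1, mul_comm, Nat.mul_add_div hA, Nat.div_eq_of_lt hr, add_zero]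
    unfold Dg.cls
    rw [h3]
    rcases h2 with ⟨a, b, c⟩ | ⟨a, b, c⟩
    · left; exact ⟨a, b, by omega⟩
    · right; exact ⟨a, b, by omega⟩
  · intro h
    refine ⟨X.θ / A0 κ, lt_of_le_of_lt (Nat.div_le_self _ _) hX, X.θ % A0 κ,
      Nat.mod_lt _ hA, (Nat.div_add_mod' _ _).symm, ?_⟩
    unfold Dg.cls at h
    rcases h with ⟨a, b, c⟩ | ⟨a, b, c⟩
    · left; exact ⟨a, b, by omega⟩
    · right; exact ⟨a, b, by omega⟩

theorem body_iff (κ d : ℕ) (u : List Bool) (l l' q p g n : ℕ) (X Z : Dg)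
    (hY : (κ * κ.factorial + 1) ^ d < u.length)
    (hX : X.θ < u.length) (hXi : X.i < κ) (hZi : Z.i < κ) :
    tr u [l', l, Z.b2, Z.b1, Z.i, Z.c, Z.θ, X.b2, X.b1, X.i, X.c, X.θ, q, p, g, n, u.length]
      (bodyE κ d) ↔
    (p = X.code κ u.length * Lm κ u.length + l ∧ q = Z.code κ u.length * Lm κ u.length + l' ∧
    ((l = 0 ∧ l' = 0 ∧ MAdj κ d u g X Z) ∨
      (X = Z ∧ Valid κ d u X ∧
        ((l = 0 ∧ 1 ≤ l' ∧ l' ≤ X.cls κ u.length + 2) ∨
          (l' = 0 ∧ 1 ≤ l ∧ l ≤ X.cls κ u.length + 2))))) := by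
  have h1 : tr u [l', l, Z.b2, Z.b1, Z.i, Z.c, Z.θ, X.b2, X.b1, X.i, X.c, X.θ, q, p, g, n,
      u.length] (MAdjE κ d 16 14 xE zE) ↔ MAdj κ d u g X Z :=
    tr_MAdjE κ d 16 14 xE zE u _ rfl hY hXi hZi
  have h2 : tr u [l', l, Z.b2, Z.b1, Z.i, Z.c, Z.θ, X.b2, X.b1, X.i, X.c, X.θ, q, p, g, n,
      u.length] (validE κ d 16 xE) ↔ Valid κ d u X :=
    tr_validE κ d 16 xE u _ rfl
  have h3 := leaf_iff κ u l l' Z.b2 Z.b1 Z.i Z.c Z.θ q p g n X hX
  have h4 : X = Z ↔ (X.θ = Z.θ ∧ X.c = Z.c ∧ X.i = Z.i ∧ X.b1 = Z.b1 ∧ X.b2 = Z.b2) := by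
    cases X
    cases Z
    simp
  simp only [bodyE, tr_and, tr_or, tr_eq, tr_ex, h1, h2]
  rw [h4, ← h3]
  simp only [Ex.eval, codeE_eval, LmE_eval]
  rfl

theorem DAdjE_iff (κ d : ℕ) (u : List Bool) (q p g n : ℕ)
    (hY : (κ * κ.factorial + 1) ^ d < u.length) :
    tr u [q, p, g, n, u.length] (DAdjE κ d) ↔ DAdj κ d u g p q := by
  unfold DAdjE DAdj
  simp only [tr_ex]
  constructor
  · rintro ⟨xθ, hxθ, xc, hxc, xi, hxi, xb1, hxb1, xb2, hxb2, zθ, hzθ, zc, hzc, zi, hzi, zb1, hzb1,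
      zb2, hzb2, l, hl, l', hl', hb⟩
    have k1 : xθ < u.length := hxθ
    have k2 : xc < u.length + 1 := hxc
    have k3 : xi < κ := hxi
    have k4 : xb1 < Bd κ u.length := by rw [BdE_eval] at hxb1; exact hxb1
    have k5 : xb2 < Bd κ u.length := by rw [BdE_eval] at hxb2; exact hxb2
    have k6 : zθ < u.length := hzθ
    have k7 : zc < u.length + 1 := hzc
    have k8 : zi < κ := hzi
    have k9 : zb1 < Bd κ u.length := by rw [BdE_eval] at hzb1; exact hzb1
    have k10 : zb2 < Bd κ u.length := by rw [BdE_eval] at hzb2; exact hzb2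
    have k11 : l < Lm κ u.length := by rw [LmE_eval] at hl; exact hl
    have k12 : l' < Lm κ u.length := by rw [LmE_eval] at hl'; exact hl'
    have h := (body_iff κ d u l l' q p g n ⟨xθ, xc, xi, xb1, xb2⟩ ⟨zθ, zc, zi, zb1, zb2⟩ hY k1 k3
      k8).mp hb
    exact ⟨⟨xθ, xc, xi, xb1, xb2⟩, ⟨zθ, zc, zi, zb1, zb2⟩, l, l', ⟨k1, k2, k3, k4, k5⟩,
      ⟨k6, k7, k8, k9, k10⟩, k11, k12, h⟩
  · rintro ⟨X, Z, l, l', ⟨k1, k2, k3, k4, k5⟩, ⟨k6, k7, k8, k9, k10⟩, k11, k12, h⟩
    refine ⟨X.θ, k1, X.c, k2, X.i, k3, X.b1, ?_, X.b2, ?_, Z.θ, k6, Z.c, k7, Z.i, k8, Z.b1, ?_,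
      Z.b2, ?_, l, ?_, l', ?_, (body_iff κ d u l l' q p g n X Z hY k1 k3 k8).mpr h⟩
    · rw [BdE_eval]; exact k4
    · rw [BdE_eval]; exact k5
    · rw [BdE_eval]; exact k9
    · rw [BdE_eval]; exact k10
    · rw [LmE_eval]; exact k11
    · rw [LmE_eval]; exact k12

/-! ## degrees -/

/-- degree bounds with a parameter -/
def OkT (T : ℕ) (e : Ex) : Prop := e.vdeg ≤ 8 ∧ e.tdeg ≤ T

theorem okT_and {T : ℕ} {a b : Ex} (hT : 12 ≤ T) (ha : OkT T a) (hb : OkT T b) :
    OkT T (.and a b) := by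
  unfold OkT at *
  simp only [Ex.vdeg, Ex.tdeg]
  omega

theorem okT_or {T : ℕ} {a b : Ex} (hT : 12 ≤ T) (ha : OkT T a) (hb : OkT T b) :
    OkT T (.or a b) := by
  unfold OkT at *
  simp only [Ex.vdeg, Ex.tdeg]
  omega

theorem okT_of {T : ℕ} {a : Ex} (hT : 12 ≤ T) (ha : Ok a) : OkT T a :=
  ⟨ha.1, ha.2.trans hT⟩

/-- one quantifier -/
def gs (T : ℕ) : ℕ := 12 + 9 * (T + 10) + 10

theorem okT_ex {T : ℕ} {b e : Ex} (hb : Ok b) (he : OkT T e) : OkT (gs T) (.ex b e) := by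
  unfold Ok at hb
  unfold OkT gs at *
  simp only [Ex.vdeg, Ex.tdeg]
  refine ⟨by omega, ?_⟩
  have h1 : (b.vdeg + 1) * (e.tdeg + e.vdeg + 2) ≤ 9 * (T + 10) :=
    Nat.mul_le_mul (by omega) (by omega)
  omega

theorem gs_le (T : ℕ) : 12 ≤ gs T := by unfold gs; omega

theorem ok_TBE {κ d : ℕ} (x : Cat κ d) (t t' : ℕ) : Ok (TBE x (.var t) (.var t')) := by
  unfold Ok TBE
  simp [Ex.vdeg, Ex.tdeg]

theorem ok_TBE0 {κ d : ℕ} (x : Cat κ d) (t : ℕ) : Ok (TBE x (.var t) (.num 0)) := by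
  unfold Ok TBE
  simp [Ex.vdeg, Ex.tdeg]

theorem ok_kindE (y c : ℕ) (k : Kind) : Ok (kindE y c k) := by
  cases k with
  | cont β => cases β <;> simp [kindE, Ok, Ex.vdeg, Ex.tdeg]
  | _ => simp [kindE, Ok, Ex.vdeg, Ex.tdeg]

theorem ok_validE (κ d y : ℕ) (x : DE) : Ok (validE κ d y x) := by
  unfold validE
  refine ok_and (ok_lt (ok_var _) (ok_mdE _ _ _)) (ok_and (ok_lt (ok_var _) (ok_mdE _ _ _))
    (ok_or (ok_orF fun k => ok_and (ok_TBE0 _ _) (ok_kindE _ _ _))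
      (ok_and (ok_TBE0 _ _) (ok_and (ok_eq (ok_var _) (ok_num _)) (ok_and
        (ok_eq (ok_var _) (ok_num _)) (ok_and (ok_eq (ok_var _) (ok_num _))
          (ok_eq (ok_var _) (ok_num _))))))))

theorem ok_congE (κ y i xb yb α β : ℕ) : Ok (congE (mdE κ y i) xb yb α β) := by
  unfold congE
  have h1 : Ok (.add (.var yb) (.num α)) := ok_add (ok_var _) (ok_num _)
  have h2 : Ok (.add (.var xb) (.num β)) := ok_add (ok_var _) (ok_num _)
  exact ok_or (ok_eq h1 h2) (ok_or (ok_eq h1 (ok_add h2 (ok_mdE _ _ _)))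
    (ok_eq (ok_add h1 (ok_mdE _ _ _)) h2))

theorem ok_outE (xc yc : ℕ) (o : Out) : Ok (outE xc yc o) := by
  cases o <;> simp [outE, Ok, Ex.vdeg, Ex.tdeg]

theorem ok_flagE (g xi : ℕ) (f : Fin 3) : Ok (flagE g xi f) := by
  fin_cases f <;> simp [flagE, Ok, Ex.vdeg, Ex.tdeg]

theorem ok_A1E (κ d y g : ℕ) (x z : DE) : Ok (A1E κ d y g x z) := by
  unfold A1E
  refine ok_or (ok_orF fun a => ok_and (ok_TBE _ _ _) (ok_and (ok_outE _ _ _)
    (ok_and (ok_eq (ok_var _) (ok_var _)) (ok_and (ok_congE _ _ _ _ _ _ _)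
      (ok_and (ok_orF fun i => ok_and (ok_eq (ok_var _) (ok_num _)) (ok_congE _ _ _ _ _ _ _))
        (ok_flagE _ _ _)))))) (ok_orF fun i => ok_and (ok_TBE _ _ _)
    (ok_and (ok_eq (ok_var _) (ok_num _)) (ok_and (ok_eq (ok_var _) (ok_num _))
      (ok_and (ok_eq (ok_var _) (ok_num _)) (ok_eq (ok_var _) (ok_num _))))))

theorem ok_MAdjE (κ d y g : ℕ) (x z : DE) : Ok (MAdjE κ d y g x z) :=
  ok_and (ok_validE _ _ _ _) (ok_and (ok_validE _ _ _ _) (ok_or (ok_A1E _ _ _ _ _ _)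
    (ok_A1E _ _ _ _ _ _)))

theorem okT_leafE (κ : ℕ) : Ok (leafE κ) := by
  simp [leafE, codeE, BdE, Ok, Ex.vdeg, Ex.tdeg]

theorem okT_bodyE (κ d : ℕ) : OkT (gs (gs 12)) (bodyE κ d) := by
  have hT : 12 ≤ gs (gs 12) := gs_le _
  have e1 : Ok (.eq (.var 13) (.add (.mul (codeE κ 16 (.var 11) xE) (LmE κ 16)) (.var 1))) := by
    simp [codeE, xE, LmE, nME, BdE, Ok, Ex.vdeg, Ex.tdeg]
  have e2 : Ok (.eq (.var 12) (.add (.mul (codeE κ 16 (.var 6) zE) (LmE κ 16)) (.var 0))) := by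
    simp [codeE, zE, LmE, nME, BdE, Ok, Ex.vdeg, Ex.tdeg]
  have e3 : ∀ a b : ℕ, Ok (.eq (.var a) (.var b)) := fun a b => ok_eq (ok_var _) (ok_var _)
  unfold bodyE
  refine okT_and hT (okT_of hT e1) (okT_and hT (okT_of hT e2) (okT_or hT ?_ ?_))
  · exact okT_of hT (ok_and (ok_eq (ok_var _) (ok_num _)) (ok_and (ok_eq (ok_var _) (ok_num _))
      (ok_MAdjE _ _ _ _ _ _)))
  · refine okT_and hT (okT_of hT (ok_and (e3 _ _) (ok_and (e3 _ _) (ok_and (e3 _ _)
      (ok_and (e3 _ _) (e3 _ _)))))) (okT_and hT (okT_of hT (ok_validE _ _ _ _)) ?_)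
    exact okT_ex (ok_var _) (okT_ex (ok_num _) (okT_leafE κ))

theorem ok_BdE (κ y : ℕ) : Ok (BdE κ y) := ok_add (ok_var _) (ok_num _)

theorem ok_LmE (κ y : ℕ) : Ok (LmE κ y) := by
  simp [LmE, nME, BdE, Ok, Ex.vdeg, Ex.tdeg]

theorem okT_DAdjE (κ d : ℕ) : OkT (gs^[12] (gs (gs 12))) (DAdjE κ d) := by
  unfold DAdjE
  have e1 : ∀ y : ℕ, Ok (.add (.var y) (.num 1)) := fun y => ok_add (ok_var _) (ok_num _)
  exact okT_ex (ok_var _) (okT_ex (e1 _) (okT_ex (ok_num _) (okT_ex (ok_BdE _ _)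
    (okT_ex (ok_BdE _ _) (okT_ex (ok_var _) (okT_ex (e1 _) (okT_ex (ok_num _)
      (okT_ex (ok_BdE _ _) (okT_ex (ok_BdE _ _) (okT_ex (ok_LmE _ _) (okT_ex (ok_LmE _ _)
        (okT_bodyE κ d))))))))))))

end DXm

theorem dx : DXStatement := by
  refine ⟨40 + DXm.gs^[12] (DXm.gs (DXm.gs 12)), ?_⟩
  intro κ d _
  refine ⟨DXm.nVE κ 0, DXm.DAdjE κ d, (κ * κ.factorial + 1) ^ d + 1, ?_, ?_⟩
  · have h1 := (DXm.okT_DAdjE κ d).2
    have h2 : (DXm.nVE κ 0).vdeg + (DXm.nVE κ 0).tdeg ≤ 40 := by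
      simp [DXm.nVE, DXm.LmE, DXm.nME, DXm.BdE, Ex.vdeg, Ex.tdeg]
    omega
  · intro u hu
    refine ⟨by rw [DXm.nVE_eval]; rfl, ?_⟩
    intro g p q _ _ _
    exact DXm.DAdjE_iff κ d u q p g _ (by omega)

end P310
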