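import Vale.Agent.P310.DigitLoc

/-!
# P310: module DI, parts D and E: the digits of the vertices and the adjacency
-/

set_option linter.unusedSectionVars false

namespace P310
namespace DI

/-- the parameters -/
abbrev PP (κ m : ℕ) (M : Fin 2 → Fin m → Fin m → ZMod 2) (Y : ℕ) : Par :=
  ⟨κ, fun i => Y + i.val * κ.factorial, m, M⟩

section

variable {κ m : ℕ} {M : Fin 2 → Fin m → Fin m → ZMod 2} {Y : ℕ}

theorem pt_ext (b b' : (PP κ m M Y).Pt) (h0 : b.1.val = b'.1.val) (h1 : b.2.1.val = b'.2.1.val)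
    (h2 : b.2.2.val = b'.2.2.val) : b = b' := by
  obtain ⟨i, r1, r2⟩ := b
  obtain ⟨i', r1', r2'⟩ := b'
  have h3 : i = i' := Fin.ext h0
  subst h3
  have h4 : r1 = r1' := ZMod.val_injective _ h1
  have h5 : r2 = r2' := ZMod.val_injective _ h2
  subst h4 h5
  rfl

theorem pt_lt1 (b : (PP κ m M Y).Pt) : b.2.1.val < md κ Y b.1.val := ZMod.val_lt b.2.1

theorem pt_lt2 (b : (PP κ m M Y).Pt) : b.2.2.val < md κ Y b.1.val := ZMod.val_lt b.2.2

theorem md_le (i : ℕ) (hi : i < κ) : md κ Y i ≤ Bd κ Y := by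
  unfold md Bd
  have := Nat.mul_le_mul_right κ.factorial hi.le
  omega

theorem pt_mk (i b1 b2 : ℕ) (hi : i < κ) (h1 : b1 < md κ Y i) (h2 : b2 < md κ Y i) :
    ∃ b : (PP κ m M Y).Pt, b.1.val = i ∧ b.2.1.val = b1 ∧ b.2.2.val = b2 :=
  ⟨⟨⟨i, hi⟩, ((b1 : ZMod _), (b2 : ZMod _))⟩, rfl, ZMod.val_cast_of_lt h1, ZMod.val_cast_of_lt h2⟩

theorem val_cong (n : ℕ) (x y : ZMod (n + 1)) (h : ℤ) :
    x = y + (h : ZMod (n + 1)) ↔ (x.val : ℤ) ≡ (y.val : ℤ) + h [ZMOD ((n + 1 : ℕ) : ℤ)] := by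
  rw [← ZMod.intCast_eq_intCast_iff]
  push_cast
  rw [ZMod.natCast_zmod_val, ZMod.natCast_zmod_val]

theorem tr_iff (b b' : (PP κ m M Y).Pt) (h : ℤ × ℤ) :
    b' = (PP κ m M Y).tr b h ↔ b'.1.val = b.1.val ∧
      (b'.2.1.val : ℤ) ≡ (b.2.1.val : ℤ) + h.1 [ZMOD (md κ Y b.1.val : ℤ)] ∧
      (b'.2.2.val : ℤ) ≡ (b.2.2.val : ℤ) + h.2 [ZMOD (md κ Y b.1.val : ℤ)] := by
  obtain ⟨i, r1, r2⟩ := b
  obtain ⟨i', r1', r2'⟩ := b'
  constructor
  · intro h1
    unfold Par.tr at h1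
    simp only [Sigma.mk.injEq] at h1
    obtain ⟨rfl, h2⟩ := h1
    have h3 := eq_of_heq h2
    simp only [Prod.mk.injEq] at h3
    exact ⟨rfl, (val_cong _ _ _ _).1 h3.1, (val_cong _ _ _ _).1 h3.2⟩
  · rintro ⟨h0, h1, h2⟩
    have h3 : i' = i := Fin.ext h0
    subst h3
    have h4 : r1' = r1 + (h.1 : ZMod _) := (val_cong _ _ _ _).2 h1
    have h5 : r2' = r2 + (h.2 : ZMod _) := (val_cong _ _ _ _).2 h2
    rw [h4, h5]
    rfl

theorem pt_zero1 (i : Fin κ) : ((PP κ m M Y).pt i (0, 0)).2.1.val = 0 := by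
  have h : ((PP κ m M Y).pt i (0, 0)).2.1 = 0 := Int.cast_zero
  rw [h]
  exact ZMod.val_zero

theorem pt_zero2 (i : Fin κ) : ((PP κ m M Y).pt i (0, 0)).2.2.val = 0 := by
  have h : ((PP κ m M Y).pt i (0, 0)).2.2 = 0 := Int.cast_zero
  rw [h]
  exact ZMod.val_zero

theorem tr_zero (b : (PP κ m M Y).Pt) : (PP κ m M Y).tr b (0, 0) = b := by
  obtain ⟨i, r1, r2⟩ := b
  unfold Par.tr
  simp

end

section

variable {d : ℕ} (T : Tmpl d) (m κ : ℕ) (M : Fin 2 → Fin m → Fin m → ZMod 2) (u : List Bool)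

/-- the XOR system -/
abbrev SS : XSys := (T.horn u).xsys (PP κ m M u.length)

/-- position of a residue -/
def ppt {κ m : ℕ} {M : Fin 2 → Fin m → Fin m → ZMod 2} {Y : ℕ} (c : ℕ) (b : (PP κ m M Y).Pt)
    (θ : ℕ) : Dg := ⟨θ, c, b.1.val, b.2.1.val, b.2.2.val⟩

/-- digits of a class, with a given `θ` -/
noncomputable def pos : (SS T m κ M u).Cls → ℕ → Dg
  | Sum.inl (Sum.inl (x, _, b)) => ppt x.2.val b
  | Sum.inl (Sum.inr (r, _, _, b)) => ppt r.1.2.val b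
  | Sum.inr (Sum.inl (r, _, _, b)) => ppt r.1.2.val b
  | Sum.inr (Sum.inr _) => fun θ => ⟨θ, 0, 0, 0, 0⟩

/-- family of a class -/
def famC : (SS T m κ M u).Cls → Ty T m
  | Sum.inl (Sum.inl (x, j, _)) => Sum.inl (Sum.inl (x.1, j))
  | Sum.inl (Sum.inr (r, l, s, _)) => Sum.inl (Sum.inr (r.1.1, l, s))
  | Sum.inr (Sum.inl (r, l, s, _)) => Sum.inr (Sum.inl (r.1.1, l, s))
  | Sum.inr (Sum.inr l) => Sum.inr (Sum.inr l)

/-- label of a main vertex -/
noncomputable def lab : (SS T m κ M u).Main → Lab T m κ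
  | Sum.inl (Sum.inl (x, j, _), b) => .bank x.1 j b
  | Sum.inl (Sum.inr (r, l, s, _), b) => .path r.1.1 l s b
  | Sum.inr ⟨Sum.inl (r, l, s, b), a⟩ =>
      .eq r.1.1 l s (b4 (T.horn u) (PP κ m M u.length) r l s b a)
  | Sum.inr ⟨Sum.inr l, a⟩ => .seq l (bS (T.horn u) (PP κ m M u.length) l a)

/-- digits of a main vertex -/
noncomputable def dig (μ : (SS T m κ M u).Main) : Dg :=
  pos T m κ M u ((SS T m κ M u).cls μ) (lab T m κ M u μ).no

/-- number of leaves -/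
noncomputable def CC (c : (SS T m κ M u).Cls) : ℕ :=
  (pos T m κ M u c (fno T m (famC T m κ M u c))).code κ u.length + 2

theorem fam_lab (μ : (SS T m κ M u).Main) :
    (lab T m κ M u μ).fam = famC T m κ M u ((SS T m κ M u).cls μ) := by
  rcases μ with ⟨⟨x, j, b⟩ | ⟨r, l, s, b⟩, β⟩ | ⟨⟨r, l, s, b⟩ | l, a⟩ <;> rfl

theorem pos_θ (c : (SS T m κ M u).Cls) (θ : ℕ) : (pos T m κ M u c θ).θ = θ := by
  rcases c with (⟨x, j, b⟩ | ⟨r, l, s, b⟩) | (⟨r, l, s, b⟩ | l) <;> rfl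

theorem pos_cls (c : (SS T m κ M u).Cls) (θ θ' : ℕ) :
    ({ pos T m κ M u c θ with θ := θ' } : Dg) = pos T m κ M u c θ' := by
  rcases c with (⟨x, j, b⟩ | ⟨r, l, s, b⟩) | (⟨r, l, s, b⟩ | l) <;> rfl

theorem hC (μ : (SS T m κ M u).Main) :
    CC T m κ M u ((SS T m κ M u).cls μ) = (dig T m κ M u μ).cls κ u.length + 2 := by
  unfold CC Dg.cls dig
  rw [pos_cls, pos_θ, Lab.no_div, fam_lab]

theorem pos_ok (hκ : 1 ≤ κ) (c : (SS T m κ M u).Cls) (θ : ℕ) (hθ : θ < u.length) :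
    (pos T m κ M u c θ).ok κ u.length := by
  have key : ∀ (c : Fin (u.length + 1)) (b : (PP κ m M u.length).Pt),
      (ppt c.val b θ).ok κ u.length := by
    intro c b
    refine ⟨hθ, c.isLt, b.1.isLt, ?_, ?_⟩
    · exact lt_of_lt_of_le (pt_lt1 b) (md_le _ b.1.isLt)
    · exact lt_of_lt_of_le (pt_lt2 b) (md_le _ b.1.isLt)
  rcases c with (⟨x, j, b⟩ | ⟨r, l, s, b⟩) | (⟨r, l, s, b⟩ | l)
  · exact key x.2 b
  · exact key r.1.2 b
  · exact key r.1.2 b
  · refine ⟨hθ, Nat.succ_pos _, hκ, ?_, ?_⟩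
    · unfold Bd; exact Nat.succ_pos _
    · unfold Bd; exact Nat.succ_pos _

theorem fno_lt (t : Ty T m) : fno T m t < nLab T m κ := by
  have h1 : fno T m t + 1 ≤ Fintype.card (Ty T m) := (Fintype.equivFin (Ty T m) t).isLt
  have h2 : 1 ≤ A0 κ := Nat.one_le_two_pow
  unfold nLab
  calc fno T m t < Fintype.card (Ty T m) * 1 := by omega
    _ ≤ _ := Nat.mul_le_mul_left _ h2

theorem CC_lt (hκ : 1 ≤ κ) (hY : nLab T m κ ≤ u.length) (c : (SS T m κ M u).Cls) :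
    CC T m κ M u c < nM κ u.length + 2 := by
  unfold CC
  have h := code_lt κ u.length _
    (pos_ok T m κ M u hκ c _ (lt_of_lt_of_le (fno_lt T m κ (famC T m κ M u c)) hY))
  omega

theorem CC_inj (hκ : 1 ≤ κ) (hY : nLab T m κ ≤ u.length) :
    Function.Injective (CC T m κ M u) := by
  intro c c' h
  unfold CC at h
  have h0 : ∀ c : (SS T m κ M u).Cls,
      (pos T m κ M u c (fno T m (famC T m κ M u c))).ok κ u.length := fun c =>
    pos_ok T m κ M u hκ c _ (lt_of_lt_of_le (fno_lt T m κ _) hY)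
  obtain ⟨_, hxc, hxi, hx1, hx2⟩ := h0 c
  obtain ⟨_, hyc, hyi, hy1, hy2⟩ := h0 c'
  have h1 := code_inj κ u.length _ _ hxc hxi hx1 hx2 hyc hyi hy1 hy2 (by omega)
  have h2 : famC T m κ M u c = famC T m κ M u c' := by
    apply fno_inj
    have h3 := congrArg Dg.θ h1
    rwa [pos_θ, pos_θ] at h3
  have kR : ∀ (r r' : (T.horn u).R), r.1.1 = r'.1.1 → r.1.2.val = r'.1.2.val → r = r' := by
    intro r r' h1 h2
    exact Subtype.ext (Prod.ext h1 (Fin.ext h2))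
  rcases c with (⟨x, j, b⟩ | ⟨r, l, s, b⟩) | (⟨r, l, s, b⟩ | l) <;>
    rcases c' with (⟨x', j', b'⟩ | ⟨r', l', s', b'⟩) | (⟨r', l', s', b'⟩ | l') <;>
    simp only [famC, Sum.inl.injEq, Sum.inr.injEq, Prod.mk.injEq, reduceCtorEq] at h2
  · obtain ⟨h3, rfl⟩ := h2
    have hb : b = b' := pt_ext b b' (congrArg Dg.i h1) (congrArg Dg.b1 h1) (congrArg Dg.b2 h1)
    have hx : x = x' := Prod.ext h3 (Fin.ext (congrArg Dg.c h1))
    rw [hb, hx]
  · obtain ⟨h3, rfl, rfl⟩ := h2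
    have hb : b = b' := pt_ext b b' (congrArg Dg.i h1) (congrArg Dg.b1 h1) (congrArg Dg.b2 h1)
    have hx : r = r' := kR _ _ h3 (congrArg Dg.c h1)
    rw [hb, hx]
  · obtain ⟨h3, rfl, rfl⟩ := h2
    have hb : b = b' := pt_ext b b' (congrArg Dg.i h1) (congrArg Dg.b1 h1) (congrArg Dg.b2 h1)
    have hx : r = r' := kR _ _ h3 (congrArg Dg.c h1)
    rw [hb, hx]
  · rw [h2]

theorem hdist : Dist (T.horn u) := by
  constructor
  · intro r q x h y h1 h2 h7
    obtain ⟨⟨x0, sh⟩, h3, h4⟩ := Option.map_eq_some_iff.1 h1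
    obtain ⟨y0, h5, h6⟩ := Option.map_eq_some_iff.1 h2
    apply T.ne_co _ _ _ _ _ h3 h5
    have h8 : x = (x0, r.1.2) := ((Prod.mk.inj h4).1).symm
    have h9 : y = (y0, _) := h6.symm
    have h10 := h8.symm.trans (h7.trans h9)
    exact (Prod.mk.inj h10).1
  · intro r x h x' h' h1 h2 h7
    obtain ⟨⟨x0, sh⟩, h3, h4⟩ := Option.map_eq_some_iff.1 h1
    obtain ⟨⟨y0, sh'⟩, h5, h6⟩ := Option.map_eq_some_iff.1 h2
    apply T.ne_pr _ _ _ _ _ h3 h5
    have h8 : x = (x0, r.1.2) := ((Prod.mk.inj h4).1).symm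
    have h9 : x' = (y0, r.1.2) := ((Prod.mk.inj h6).1).symm
    have h10 := h8.symm.trans (h7.trans h9)
    exact (Prod.mk.inj h10).1

theorem dig_inj : Function.Injective (dig T m κ M u) := by
  intro μ μ' h
  have h1 : lab T m κ M u μ = lab T m κ M u μ' := by
    apply Lab.no_inj
    have h3 := congrArg Dg.θ h
    unfold dig at h3
    rwa [pos_θ, pos_θ] at h3
  have kR : ∀ (r r' : (T.horn u).R), r.1.1 = r'.1.1 → r.1.2.val = r'.1.2.val → r = r' := by
    intro r r' h1 h2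
    exact Subtype.ext (Prod.ext h1 (Fin.ext h2))
  rcases μ with ⟨⟨x, j, b⟩ | ⟨r, l, s, b⟩, β⟩ | ⟨⟨r, l, s, b⟩ | l, a⟩ <;>
    rcases μ' with ⟨⟨x', j', b'⟩ | ⟨r', l', s', b'⟩, β'⟩ | ⟨⟨r', l', s', b'⟩ | l', a'⟩ <;>
    simp only [lab, Lab.bank.injEq, Lab.path.injEq, Lab.eq.injEq, Lab.seq.injEq,
      reduceCtorEq] at h1
  · obtain ⟨h3, rfl, rfl⟩ := h1
    have hb : b = b' := pt_ext b b' (congrArg Dg.i h) (congrArg Dg.b1 h) (congrArg Dg.b2 h)
    have hx : x = x' := Prod.ext h3 (Fin.ext (congrArg Dg.c h))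
    rw [hb, hx]
  · obtain ⟨h3, rfl, rfl, rfl⟩ := h1
    have hb : b = b' := pt_ext b b' (congrArg Dg.i h) (congrArg Dg.b1 h) (congrArg Dg.b2 h)
    have hx : r = r' := kR _ _ h3 (congrArg Dg.c h)
    rw [hb, hx]
  · obtain ⟨h3, rfl, rfl, h4⟩ := h1
    have hb : b = b' := pt_ext b b' (congrArg Dg.i h) (congrArg Dg.b1 h) (congrArg Dg.b2 h)
    have hx : r = r' := kR _ _ h3 (congrArg Dg.c h)
    subst hb hx
    rw [b4_inj _ _ (hdist T u) _ _ _ _ _ _ h4]
  · obtain ⟨rfl, h4⟩ := h1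
    rw [bS_inj _ _ _ _ _ h4]

/-- present slots -/
theorem sl4_none (r : (T.horn u).R) (l s : Fin m) (b : (PP κ m M u.length).Pt) (q : Fin 4) :
    sl4 (T.horn u) (PP κ m M u.length) r l s b q = none ↔ ¬ pres T m M r.1.1 l s q := by
  have h0 : sl4 (T.horn u) (PP κ m M u.length) r l s b 0 = none ↔ ¬ pres T m M r.1.1 l s 0 := by
    rw [sl4_0]
    show _ ↔ ¬ (0 < s.val)
    by_cases h : 0 < s.val
    · rw [dif_pos h]
      simp [h]
    · rw [dif_neg h]
      simp [h]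
  have h1 : sl4 (T.horn u) (PP κ m M u.length) r l s b 1 = none ↔ ¬ pres T m M r.1.1 l s 1 := by
    rw [sl4_1]
    show _ ↔ ¬ (s.val + 1 < m ∨ T.co r.1.1 ≠ none)
    by_cases h : s.val + 1 < m
    · rw [if_pos h]
      simp [h]
    · rw [if_neg h]
      have h2 : (T.horn u).co r = none ↔ T.co r.1.1 = none := Option.map_eq_none_iff
      refine Option.map_eq_none_iff.trans (h2.trans ?_)
      simp [h]
  have h2 : sl4 (T.horn u) (PP κ m M u.length) r l s b 2 = none ↔ ¬ pres T m M r.1.1 l s 2 := by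
    rw [sl4_2]
    show (if M (T.ty r.1.1) l s = 0 then _ else _) = none ↔ ¬ (M (T.ty r.1.1) l s ≠ 0)
    by_cases h : M (T.ty r.1.1) l s = 0
    · rw [if_pos h]
      simp [h]
    · rw [if_neg h]
      obtain ⟨x, g, hx⟩ := (T.horn u).pr0 r
      rw [hx]
      simp [h]
  have h3 : sl4 (T.horn u) (PP κ m M u.length) r l s b 3 = none ↔ ¬ pres T m M r.1.1 l s 3 := by
    rw [sl4_3]
    show (if M (T.ty r.1.1) l s = 0 then _ else _) = none ↔
      ¬ (M (T.ty r.1.1) l s ≠ 0 ∧ T.pr r.1.1 1 ≠ none)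
    by_cases h : M (T.ty r.1.1) l s = 0
    · rw [if_pos h]
      simp [h]
    · rw [if_neg h]
      have h2 : (T.horn u).pr r 1 = none ↔ T.pr r.1.1 1 = none := Option.map_eq_none_iff
      refine Option.map_eq_none_iff.trans (h2.trans ?_)
      simp [h]
  fin_cases q
  · exact h0
  · exact h1
  · exact h2
  · exact h3

variable (hTB : ∀ (x : Cat κ d) (θ θ' : ℕ), TB (u := u) x θ θ' ↔ Pred T m κ M x θ θ')

include hTB

theorem valid_iff (x : Dg) (t : Lab T m κ) (hx : x.θ = t.no) :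
    Valid κ d u x ↔ x.b1 < md κ u.length x.i ∧ x.b2 < md κ u.length x.i ∧
      ((∃ k : Kind, vrel T m κ M t k ∧ k.en u x.c = true) ∨
        (srel T m κ t ∧ x.c = 0 ∧ x.i = 0 ∧ x.b1 = 0 ∧ x.b2 = 0)) := by
  unfold Valid
  simp only [hTB]
  constructor
  · rintro ⟨h1, h2, h3⟩
    refine ⟨h1, h2, ?_⟩
    rcases h3 with ⟨k, ⟨_, t', h4, h5⟩, h6⟩ | ⟨⟨_, t', h4, h5⟩, h6⟩
    · rw [hx] at h4
      rw [Lab.no_inj _ _ h4]
      exact Or.inl ⟨k, h5, h6⟩
    · rw [hx] at h4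
      rw [Lab.no_inj _ _ h4]
      exact Or.inr ⟨h5, h6⟩
  · rintro ⟨h1, h2, h3⟩
    refine ⟨h1, h2, ?_⟩
    rcases h3 with ⟨k, h5, h6⟩ | ⟨h5, h6⟩
    · exact Or.inl ⟨k, ⟨rfl, t, hx, h5⟩, h6⟩
    · exact Or.inr ⟨⟨rfl, t, hx, h5⟩, h6⟩

theorem valid_lab (x : Dg) (h : Valid κ d u x) : ∃ t : Lab T m κ, x.θ = t.no := by
  obtain ⟨h1, h2, h3⟩ := h
  simp only [hTB] at h3
  rcases h3 with ⟨k, ⟨_, t', h4, h5⟩, h6⟩ | ⟨⟨_, t', h4, h5⟩, h6⟩
  · exact ⟨t', h4⟩
  · exact ⟨t', h4⟩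

theorem dig_valid (μ : (SS T m κ M u).Main) : Valid κ d u (dig T m κ M u μ) := by
  refine (valid_iff T m κ M u hTB _ (lab T m κ M u μ) (pos_θ _ _ _ _ _ _ _)).2 ?_
  rcases μ with ⟨⟨x, j, b⟩ | ⟨r, l, s, b⟩, β⟩ | ⟨⟨r, l, s, b⟩ | l, a⟩
  · exact ⟨pt_lt1 b, pt_lt2 b, Or.inl ⟨Kind.all, rfl, rfl⟩⟩
  · exact ⟨pt_lt1 b, pt_lt2 b, Or.inl ⟨_, rfl, r.2⟩⟩
  · refine ⟨pt_lt1 b, pt_lt2 b, Or.inl ⟨_, ⟨rfl, ?_, ?_⟩, r.2⟩⟩
    · intro q hq
      exact b4_none _ _ _ _ _ _ _ _ ((sl4_none T m κ M u r l s b q).2 hq)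
    · exact b4_sum _ _ (hdist T u) _ _ _ _ _
  · exact ⟨Nat.succ_pos _, Nat.succ_pos _,
      Or.inr ⟨bS_sum (T.horn u) (PP κ m M u.length) l a, rfl, rfl, rfl, rfl⟩⟩

theorem dig_surj (x : Dg) (hok : x.ok κ u.length) (hv : Valid κ d u x) :
    ∃ μ, dig T m κ M u μ = x := by
  obtain ⟨t, ht⟩ := valid_lab T m κ M u hTB x hv
  rw [valid_iff T m κ M u hTB x t ht] at hv
  obtain ⟨θ, c, i, b1, b2⟩ := x
  obtain ⟨_, hc, hi, _, _⟩ := hok
  simp only at ht hv hc hi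
  subst ht
  obtain ⟨h1, h2, h3⟩ := hv
  rcases h3 with ⟨k, h3, h4⟩ | ⟨h3, h4, h5, h6, h7⟩
  · obtain ⟨b, hb0, hb1, hb2⟩ := pt_mk (M := M) i b1 b2 hi h1 h2
    subst hb0 hb1 hb2
    cases t with
    | bank x j β => exact ⟨Sum.inl (Sum.inl ((x, ⟨c, hc⟩), j, b), β), rfl⟩
    | path ρ l s β =>
      have h5 : (T.kind ρ).en u c = true := by
        have h6 : k = T.kind ρ := h3
        rw [← h6]
        exact h4
      exact ⟨Sum.inl (Sum.inr (⟨(ρ, ⟨c, hc⟩), h5⟩, l, s, b), β), rfl⟩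
    | eq ρ l s a =>
      obtain ⟨h6, h7, h8⟩ := h3
      have h5 : (T.kind ρ).en u c = true := by
        rw [← h6]
        exact h4
      let r : (T.horn u).R := ⟨(ρ, ⟨c, hc⟩), h5⟩
      obtain ⟨β, hβ⟩ := b4_surj (T.horn u) (PP κ m M u.length) (hdist T u) r l s b a
        (fun q hq => h7 q ((sl4_none T m κ M u r l s b q).1 hq)) h8
      refine ⟨Sum.inr ⟨Sum.inl (r, l, s, b), β⟩, ?_⟩
      show ppt c b (Lab.eq (κ := κ) ρ l s (b4 (T.horn u) (PP κ m M u.length) r l s b β)).no = _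
      rw [hβ]
      rfl
    | seq l a => exact h3.elim
  · cases t with
    | bank x j β => exact h3.elim
    | path ρ l s β => exact h3.elim
    | eq ρ l s a => exact h3.elim
    | seq l a =>
      obtain ⟨β, hβ⟩ := bS_surj (T.horn u) (PP κ m M u.length) l a h3
      refine ⟨Sum.inr ⟨Sum.inr l, β⟩, ?_⟩
      show (⟨(Lab.seq (T := T) l (bS (T.horn u) (PP κ m M u.length) l β)).no, 0, 0, 0, 0⟩ : Dg) = _
      rw [hβ, h4, h5, h6, h7]

theorem A1_iff (g : ℕ) (x y : Dg) (t t' : Lab T m κ) (hx : x.θ = t.no) (hy : y.θ = t'.no) :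
    A1 κ d u g x y ↔
      (∃ (o : Out) (s : Sh d) (f : Fin 3), arel T m κ M t t' o s f ∧
        (match o with
          | .same => y.c = x.c
          | .succ => y.c = x.c + 1
          | .zero => y.c = 0) ∧
        y.i = x.i ∧
        (y.b1 : ℤ) ≡ (x.b1 : ℤ) + (s.val u.length).1 [ZMOD (md κ u.length x.i : ℤ)] ∧
        (y.b2 : ℤ) ≡ (x.b2 : ℤ) + (s.val u.length).2 [ZMOD (md κ u.length x.i : ℤ)] ∧
        (f = 1 → g = 0 ∨ x.i ≠ 0) ∧ (f = 2 → g = 1 ∧ x.i = 0)) ∨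
      (∃ i : Fin κ, brel T m κ t t' i ∧ y.i = i.val ∧ y.c = 0 ∧ y.b1 = 0 ∧ y.b2 = 0) := by
  unfold A1
  simp only [hTB]
  constructor
  · rintro (⟨o, s, f, ⟨t1, t2, h1, h2, h3⟩, h4⟩ | ⟨i, ⟨t1, t2, h1, h2, h3⟩, h4⟩)
    · rw [hx] at h1
      rw [hy] at h2
      rw [Lab.no_inj _ _ h1, Lab.no_inj _ _ h2]
      exact Or.inl ⟨o, s, f, h3, h4⟩
    · rw [hx] at h1
      rw [hy] at h2
      rw [Lab.no_inj _ _ h1, Lab.no_inj _ _ h2]
      exact Or.inr ⟨i, h3, h4⟩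
  · rintro (⟨o, s, f, h3, h4⟩ | ⟨i, h3, h4⟩)
    · exact Or.inl ⟨o, s, f, ⟨t, t', hx, hy, h3⟩, h4⟩
    · exact Or.inr ⟨i, ⟨t, t', hx, hy, h3⟩, h4⟩

/-- adjacency: equation against path variable -/
theorem adj_path (g : Bool) (r : (T.horn u).R) (l s : Fin m) (b : (PP κ m M u.length).Pt)
    (a : (SS T m κ M u).Loc (Sum.inl (r, l, s, b) : (T.horn u).Con (PP κ m M u.length)))
    (r' : (T.horn u).R) (l' s' : Fin m) (b' : (PP κ m M u.length).Pt) (β : ZMod 2) :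
    A1 κ d u (if g then 1 else 0) (dig T m κ M u (Sum.inr ⟨Sum.inl (r, l, s, b), a⟩))
      (dig T m κ M u (Sum.inl (Sum.inr (r', l', s', b'), β))) ↔
    (SS T m κ M u).adjVE g (Sum.inr (r', l', s', b')) β
      (Sum.inl (r, l, s, b) : (T.horn u).Con (PP κ m M u.length)) a := by
  refine (A1_iff T m κ M u hTB _ _ _ (.eq r.1.1 l s (b4 (T.horn u) (PP κ m M u.length) r l s b a))
    (.path r'.1.1 l' s' β) rfl rfl).trans ?_
  refine Iff.trans ?_ (adj4_iff (T.horn u) (PP κ m M u.length) (hdist T u) g _ β r l s b a).symm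
  have kR : ∀ (r r' : (T.horn u).R), r.1.1 = r'.1.1 → r.1.2.val = r'.1.2.val → r = r' := by
    intro r r' h1 h2
    exact Subtype.ext (Prod.ext h1 (Fin.ext h2))
  have s0 : sl4 (T.horn u) (PP κ m M u.length) r l s b 0 = some (Sum.inr (r', l', s', b')) ↔
      r' = r ∧ l' = l ∧ s'.val + 1 = s.val ∧ b' = b := by
    rw [sl4_0]
    constructor
    · intro h
      split_ifs at h with h1
      have h2 := Option.some.inj h
      simp only [Horn.path, Sum.inr.injEq, Prod.mk.injEq] at h2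
      obtain ⟨rfl, rfl, h3, rfl⟩ := h2
      refine ⟨rfl, rfl, ?_, rfl⟩
      rw [← h3]
      show s.val - 1 + 1 = s.val
      omega
    · rintro ⟨rfl, rfl, h3, rfl⟩
      rw [dif_pos (by omega)]
      have h4 : (⟨s.val - 1, by omega⟩ : Fin m) = s' := Fin.ext (by simp only; omega)
      simp only [Horn.path, h4]
  have s1 : sl4 (T.horn u) (PP κ m M u.length) r l s b 1 = some (Sum.inr (r', l', s', b')) ↔
      s.val + 1 < m ∧ r' = r ∧ l' = l ∧ s' = s ∧ b' = b := by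
    rw [sl4_1]
    constructor
    · intro h
      split_ifs at h with h1
      · have h2 := Option.some.inj h
        simp only [Horn.path, Sum.inr.injEq, Prod.mk.injEq] at h2
        obtain ⟨rfl, rfl, rfl, rfl⟩ := h2
        exact ⟨h1, rfl, rfl, rfl, rfl⟩
      · obtain ⟨y, _, hy⟩ := Option.map_eq_some_iff.1 h
        cases hy
    · rintro ⟨h1, rfl, rfl, rfl, rfl⟩
      rw [if_pos h1]
  have s2 : sl4 (T.horn u) (PP κ m M u.length) r l s b 2 ≠ some (Sum.inr (r', l', s', b')) := by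
    rw [sl4_2]
    intro h
    split_ifs at h with h1
    obtain ⟨y, _, hy⟩ := Option.map_eq_some_iff.1 h
    cases hy
  have s3 : sl4 (T.horn u) (PP κ m M u.length) r l s b 3 ≠ some (Sum.inr (r', l', s', b')) := by
    rw [sl4_3]
    intro h
    split_ifs at h with h1
    obtain ⟨y, _, hy⟩ := Option.map_eq_some_iff.1 h
    cases hy
  have hco : (T.horn u).co r = none ↔ T.co r.1.1 = none := Option.map_eq_none_iff
  have st : (T.horn u).ctw (PP κ m M u.length) (Sum.inl (r, l, s, b)) =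
      some (Sum.inr (r', l', s', b')) ↔
      twp T m r.1.1 s ∧ b.1.val = 0 ∧ r' = r ∧ l' = l ∧ s'.val + 1 = s.val ∧ b' = b := by
    unfold Horn.ctw
    simp only
    constructor
    · intro h
      split_ifs at h with h1
      have h2 := Option.some.inj h
      simp only [Horn.path, Sum.inr.injEq, Prod.mk.injEq] at h2
      obtain ⟨rfl, rfl, h3, rfl⟩ := h2
      refine ⟨⟨hco.1 h1.1, h1.2.1, h1.2.2.1⟩, h1.2.2.2, rfl, rfl, ?_, rfl⟩
      rw [← h3]
      show s.val - 1 + 1 = s.val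
      have := h1.2.2.1
      omega
    · rintro ⟨h1, h2, rfl, rfl, h3, rfl⟩
      have h5 : (T.horn u).isTw (PP κ m M u.length) r' s b' := ⟨hco.2 h1.1, h1.2.1, h1.2.2, h2⟩
      rw [dif_pos h5]
      have h4 : (⟨s.val - 1, by omega⟩ : Fin m) = s' := Fin.ext (by simp only; omega)
      simp only [Horn.path, h4]
  have hz : b' = b ↔ b'.1.val = b.1.val ∧
      (b'.2.1.val : ℤ) ≡ (b.2.1.val : ℤ) + (Sh.val u.length (Sh.z : Sh d)).1
        [ZMOD (md κ u.length b.1.val : ℤ)] ∧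
      (b'.2.2.val : ℤ) ≡ (b.2.2.val : ℤ) + (Sh.val u.length (Sh.z : Sh d)).2
        [ZMOD (md κ u.length b.1.val : ℤ)] := by
    rw [← tr_iff b b' (Sh.val u.length (Sh.z : Sh d))]
    have : (PP κ m M u.length).tr b (Sh.val u.length (Sh.z : Sh d)) = b := tr_zero b
    rw [this]
  generalize hA : b4 (T.horn u) (PP κ m M u.length) r l s b a = A
  constructor
  · rintro (⟨o, sh, f, ⟨h1, rfl, rfl, rfl, h2⟩, h3, h4, h5, h6, h7, h8⟩ | ⟨i, h1, _⟩)
    · have hb : b' = b := hz.2 ⟨h4, h5, h6⟩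
      have hr : r' = r := kR _ _ h1.symm h3
      subst hb hr
      rcases h2 with ⟨h9, h10⟩ | ⟨rfl, h9, rfl, h11⟩
      · refine ⟨0, s0.2 ⟨rfl, rfl, h9, rfl⟩, ?_⟩
        rcases h10 with ⟨h10, rfl, h11⟩ | ⟨h10, rfl, h11⟩ | ⟨h10, rfl, h11⟩
        · rw [if_neg, add_zero]
          · exact h11
          · rintro ⟨_, h12⟩
            exact h10 (st.1 h12).1
        · rw [if_neg, add_zero]
          · exact h11
          · rintro ⟨h12, h13⟩
            rcases h7 rfl with h14 | h14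
            · rw [h12] at h14
              simp at h14
            · exact h14 (st.1 h13).2.1
        · rw [if_pos]
          · exact h11
          · obtain ⟨h12, h13⟩ := h8 rfl
            refine ⟨?_, st.2 ⟨h10, h13, rfl, rfl, h9, rfl⟩⟩
            rcases g with _ | _
            · simp at h12
            · rfl
      · refine ⟨1, s1.2 ⟨h9, rfl, rfl, rfl, rfl⟩, ?_⟩
        rw [if_neg, add_zero]
        · exact h11
        · rintro ⟨_, h12⟩
          have := (st.1 h12).2.2.2.2.1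
          omega
    · exact h1.elim
  · rintro ⟨q, hq, h⟩
    left
    fin_cases q
    · obtain ⟨rfl, rfl, h3, rfl⟩ := s0.1 hq
      by_cases ht : g = true ∧ (T.horn u).ctw (PP κ m M u.length) (Sum.inl (r', l', s, b')) =
          some (Sum.inr (r', l', s', b'))
      · rw [if_pos ht] at h
        obtain ⟨h4, h5, _⟩ := st.1 ht.2
        refine ⟨Out.same, Sh.z, 2, ⟨rfl, rfl, rfl, rfl, Or.inl ⟨h3, Or.inr (Or.inr ⟨h4, rfl, h⟩)⟩⟩,
          rfl, (hz.1 rfl).1, (hz.1 rfl).2.1, (hz.1 rfl).2.2, ?_, ?_⟩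
        · intro h6
          exact absurd h6 (by decide)
        · intro _
          refine ⟨?_, h5⟩
          rw [ht.1]
          rfl
      · rw [if_neg ht, add_zero] at h
        by_cases h4 : twp T m r'.1.1 s
        · refine ⟨Out.same, Sh.z, 1, ⟨rfl, rfl, rfl, rfl, Or.inl ⟨h3, Or.inr (Or.inl ⟨h4, rfl, h⟩)⟩⟩,
            rfl, (hz.1 rfl).1, (hz.1 rfl).2.1, (hz.1 rfl).2.2, ?_, ?_⟩
          · intro _
            rcases g with _ | _
            · exact Or.inl rfl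
            · right
              intro h5
              exact ht ⟨rfl, st.2 ⟨h4, h5, rfl, rfl, h3, rfl⟩⟩
          · intro h6
            exact absurd h6 (by decide)
        · refine ⟨Out.same, Sh.z, 0, ⟨rfl, rfl, rfl, rfl, Or.inl ⟨h3, Or.inl ⟨h4, rfl, h⟩⟩⟩,
            rfl, (hz.1 rfl).1, (hz.1 rfl).2.1, (hz.1 rfl).2.2, ?_, ?_⟩
          · intro h6
            exact absurd h6 (by decide)
          · intro h6
            exact absurd h6 (by decide)
    · obtain ⟨h1, rfl, rfl, rfl, rfl⟩ := s1.1 hq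
      rw [if_neg, add_zero] at h
      · refine ⟨Out.same, Sh.z, 0, ⟨rfl, rfl, rfl, rfl, Or.inr ⟨rfl, h1, rfl, h⟩⟩,
          rfl, (hz.1 rfl).1, (hz.1 rfl).2.1, (hz.1 rfl).2.2, ?_, ?_⟩
        · intro h6
          exact absurd h6 (by decide)
        · intro h6
          exact absurd h6 (by decide)
      · rintro ⟨_, h12⟩
        have := (st.1 h12).2.2.2.2.1
        omega
    · exact (s2 hq).elim
    · exact (s3 hq).elim

/-- adjacency: equation against bank variable -/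
theorem adj_bank (g : Bool) (r : (T.horn u).R) (l s : Fin m) (b : (PP κ m M u.length).Pt)
    (a : (SS T m κ M u).Loc (Sum.inl (r, l, s, b) : (T.horn u).Con (PP κ m M u.length)))
    (x : (T.horn u).X) (j : Fin m) (b' : (PP κ m M u.length).Pt) (β : ZMod 2) :
    A1 κ d u (if g then 1 else 0) (dig T m κ M u (Sum.inr ⟨Sum.inl (r, l, s, b), a⟩))
      (dig T m κ M u (Sum.inl (Sum.inl (x, j, b'), β))) ↔
    (SS T m κ M u).adjVE g (Sum.inl (x, j, b')) β
      (Sum.inl (r, l, s, b) : (T.horn u).Con (PP κ m M u.length)) a := by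
  refine (A1_iff T m κ M u hTB _ _ _ (.eq r.1.1 l s (b4 (T.horn u) (PP κ m M u.length) r l s b a))
    (.bank x.1 j β) rfl rfl).trans ?_
  refine Iff.trans ?_ (adj4_iff (T.horn u) (PP κ m M u.length) (hdist T u) g _ β r l s b a).symm
  have htw : ¬ (g = true ∧ (T.horn u).ctw (PP κ m M u.length) (Sum.inl (r, l, s, b)) =
      some (Sum.inl (x, j, b'))) := by
    rintro ⟨_, h⟩
    unfold Horn.ctw at h
    simp only at h
    split_ifs at h with h1
    cases h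
  simp only [if_neg htw, add_zero]
  have s0 : sl4 (T.horn u) (PP κ m M u.length) r l s b 0 ≠ some (Sum.inl (x, j, b')) := by
    rw [sl4_0]
    intro h
    split_ifs at h with h1
    cases h
  have s1 : sl4 (T.horn u) (PP κ m M u.length) r l s b 1 = some (Sum.inl (x, j, b')) ↔
      ¬ s.val + 1 < m ∧ T.co r.1.1 = some x.1 ∧ x.2 = (T.out r.1.1).app u.length r.1.2 ∧
        j = l ∧ b' = b := by
    rw [sl4_1]
    constructor
    · intro h
      split_ifs at h with h1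
      · cases h
      · obtain ⟨y, hy, h2⟩ := Option.map_eq_some_iff.1 h
        obtain ⟨y0, hy0, rfl⟩ := Option.map_eq_some_iff.1 hy
        have h3 := Sum.inl.inj h2
        have h4 := Prod.mk.inj h3
        have h5 := Prod.mk.inj h4.2
        rw [← h4.1]
        exact ⟨h1, hy0, rfl, h5.1.symm, h5.2.symm⟩
    · rintro ⟨h1, h2, h3, rfl, rfl⟩
      rw [if_neg h1]
      refine Option.map_eq_some_iff.2 ⟨x, ?_, rfl⟩
      exact Option.map_eq_some_iff.2 ⟨x.1, h2, Prod.ext rfl h3.symm⟩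
  have s23 : ∀ q : Fin 2, (if (M (T.ty r.1.1) l s) = 0 then none
      else ((T.horn u).pr r q).map fun a => (T.horn u).bank (PP κ m M u.length) a.1 s
        ((PP κ m M u.length).tr b a.2)) = some (Sum.inl (x, j, b')) ↔
      M (T.ty r.1.1) l s ≠ 0 ∧ j = s ∧ x.2 = r.1.2 ∧ ∃ sh, T.pr r.1.1 q = some (x.1, sh) ∧
        b' = (PP κ m M u.length).tr b (sh.val u.length) := by
    intro q
    constructor
    · intro h
      split_ifs at h with h1
      obtain ⟨⟨y, h0⟩, hy, h2⟩ := Option.map_eq_some_iff.1 h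
      obtain ⟨⟨y0, sh⟩, hy0, h6⟩ := Option.map_eq_some_iff.1 hy
      obtain ⟨rfl, rfl⟩ := Prod.mk.inj h6
      have h3 := Sum.inl.inj h2
      have h4 := Prod.mk.inj h3
      have h5 := Prod.mk.inj h4.2
      rw [← h4.1]
      exact ⟨h1, h5.1.symm, rfl, sh, hy0, h5.2.symm⟩
    · rintro ⟨h1, rfl, h3, sh, h4, rfl⟩
      rw [if_neg h1]
      refine Option.map_eq_some_iff.2 ⟨(x, sh.val u.length), ?_, rfl⟩
      exact Option.map_eq_some_iff.2 ⟨(x.1, sh), h4, Prod.ext (Prod.ext rfl h3.symm) rfl⟩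
  have s2 := s23 0
  have s3 := s23 1
  have e2 := sl4_2 (T.horn u) (PP κ m M u.length) r l s b
  have e3 := sl4_3 (T.horn u) (PP κ m M u.length) r l s b
  have hz : b' = b ↔ b'.1.val = b.1.val ∧
      (b'.2.1.val : ℤ) ≡ (b.2.1.val : ℤ) + (Sh.val u.length (Sh.z : Sh d)).1
        [ZMOD (md κ u.length b.1.val : ℤ)] ∧
      (b'.2.2.val : ℤ) ≡ (b.2.2.val : ℤ) + (Sh.val u.length (Sh.z : Sh d)).2
        [ZMOD (md κ u.length b.1.val : ℤ)] := by
    rw [← tr_iff b b' (Sh.val u.length (Sh.z : Sh d))]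
    have : (PP κ m M u.length).tr b (Sh.val u.length (Sh.z : Sh d)) = b := tr_zero b
    rw [this]
  have hout : x.2 = (T.out r.1.1).app u.length r.1.2 ↔
      (match T.out r.1.1 with
        | .same => x.2.val = r.1.2.val
        | .succ => x.2.val = r.1.2.val + 1
        | .zero => x.2.val = 0) := by
    rcases ho : T.out r.1.1 with _ | _ | _
    · exact Fin.ext_iff
    · have h1 := T.out_succ _ ho
      have h2 := r.2
      rw [h1] at h2
      have h3 : r.1.2.val < u.length := by simpa [Kind.en] using h2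
      have h4 : ((Out.succ).app u.length r.1.2).val = r.1.2.val + 1 := by
        show min (r.1.2.val + 1) u.length = _
        omega
      rw [Fin.ext_iff, h4]
    · exact Fin.ext_iff
  constructor
  · rintro (⟨o, sh, f, h2, h3, h4, h5, h6, h7, h8⟩ | ⟨i, h1, _⟩)
    · rcases h2 with ⟨h9, h10, rfl, rfl, rfl, rfl, h11⟩ | ⟨h9, rfl, rfl, rfl, h10⟩
      · refine ⟨1, s1.2 ⟨by omega, h10, hout.2 h3, rfl, hz.2 ⟨h4, h5, h6⟩⟩, h11⟩
      · rcases h10 with ⟨h10, h11⟩ | ⟨h10, h11⟩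
        · refine ⟨2, e2.trans (s2.2 ⟨h9, rfl, Fin.ext h3, sh, h10, ?_⟩), h11⟩
          exact (tr_iff b b' _).2 ⟨h4, h5, h6⟩
        · refine ⟨3, e3.trans (s3.2 ⟨h9, rfl, Fin.ext h3, sh, h10, ?_⟩), h11⟩
          exact (tr_iff b b' _).2 ⟨h4, h5, h6⟩
    · exact h1.elim
  · rintro ⟨q, hq, h⟩
    left
    fin_cases q
    · exact (s0 hq).elim
    · obtain ⟨h1, h2, h3, h4, h5⟩ := s1.1 hq
      obtain ⟨h6, h7, h8⟩ := hz.1 h5
      refine ⟨T.out r.1.1, Sh.z, 0, Or.inl ⟨by have := s.isLt; omega, h2, h4, rfl, rfl, rfl, h⟩,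
        hout.1 h3, h6, h7, h8, ?_, ?_⟩
      · intro h6
        exact absurd h6 (by decide)
      · intro h6
        exact absurd h6 (by decide)
    · obtain ⟨h1, h2, h3, sh, h4, h5⟩ := s2.1 (e2.symm.trans hq)
      obtain ⟨h6, h7, h8⟩ := (tr_iff b b' _).1 h5
      refine ⟨Out.same, sh, 0, Or.inr ⟨h1, h2, rfl, rfl, Or.inl ⟨h4, h⟩⟩,
        congrArg Fin.val h3, h6, h7, h8, ?_, ?_⟩
      · intro h6
        exact absurd h6 (by decide)
      · intro h6
        exact absurd h6 (by decide)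
    · obtain ⟨h1, h2, h3, sh, h4, h5⟩ := s3.1 (e3.symm.trans hq)
      obtain ⟨h6, h7, h8⟩ := (tr_iff b b' _).1 h5
      refine ⟨Out.same, sh, 0, Or.inr ⟨h1, h2, rfl, rfl, Or.inr ⟨h4, h⟩⟩,
        congrArg Fin.val h3, h6, h7, h8, ?_, ?_⟩
      · intro h6
        exact absurd h6 (by decide)
      · intro h6
        exact absurd h6 (by decide)

/-- adjacency: seed equation against bank variable -/
theorem adj_seed (g : Bool) (l : Fin m)
    (a : (SS T m κ M u).Loc (Sum.inr l : (T.horn u).Con (PP κ m M u.length)))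
    (x : (T.horn u).X) (j : Fin m) (b' : (PP κ m M u.length).Pt) (β : ZMod 2) :
    A1 κ d u (if g then 1 else 0) (dig T m κ M u (Sum.inr ⟨Sum.inr l, a⟩))
      (dig T m κ M u (Sum.inl (Sum.inl (x, j, b'), β))) ↔
    (SS T m κ M u).adjVE g (Sum.inl (x, j, b')) β
      (Sum.inr l : (T.horn u).Con (PP κ m M u.length)) a := by
  refine (A1_iff T m κ M u hTB _ _ _ (.seq l (bS (T.horn u) (PP κ m M u.length) l a))
    (.bank x.1 j β) rfl rfl).trans ?_
  refine Iff.trans ?_ (adjS_iff (T.horn u) (PP κ m M u.length) g _ β l a).symm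
  constructor
  · rintro (⟨o, sh, f, h2, _⟩ | ⟨i, ⟨h1, rfl, h2⟩, h3, h4, h5, h6⟩)
    · exact h2.elim
    · refine ⟨i, ?_, h2⟩
      have hx : x = (T.horn u).seed := Prod.ext h1 (Fin.ext h4)
      have hb : b' = (PP κ m M u.length).pt i (0, 0) := by
        apply pt_ext
        · exact h3
        · exact h5.trans (pt_zero1 i).symm
        · exact h6.trans (pt_zero2 i).symm
      rw [hx, hb]
  · rintro ⟨q, hq, h⟩
    right
    have h3 := Sum.inl.inj hq
    obtain ⟨h4, h5⟩ := Prod.mk.inj h3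
    obtain ⟨h6, h7⟩ := Prod.mk.inj h5
    refine ⟨q, ⟨?_, h6, h⟩, ?_, ?_, ?_, ?_⟩
    · rw [h4]; rfl
    · show b'.1.val = q.val
      rw [h7]; rfl
    · show x.2.val = 0
      rw [h4]; rfl
    · show b'.2.1.val = 0
      rw [h7]
      exact pt_zero1 q
    · show b'.2.2.val = 0
      rw [h7]
      exact pt_zero2 q

/-- adjacency: seed equation against path variable -/
theorem adj_seed' (g : Bool) (l : Fin m)
    (a : (SS T m κ M u).Loc (Sum.inr l : (T.horn u).Con (PP κ m M u.length)))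
    (r' : (T.horn u).R) (l' s' : Fin m) (b' : (PP κ m M u.length).Pt) (β : ZMod 2) :
    A1 κ d u (if g then 1 else 0) (dig T m κ M u (Sum.inr ⟨Sum.inr l, a⟩))
      (dig T m κ M u (Sum.inl (Sum.inr (r', l', s', b'), β))) ↔
    (SS T m κ M u).adjVE g (Sum.inr (r', l', s', b')) β
      (Sum.inr l : (T.horn u).Con (PP κ m M u.length)) a := by
  refine (A1_iff T m κ M u hTB _ _ _ (.seq l (bS (T.horn u) (PP κ m M u.length) l a))
    (.path r'.1.1 l' s' β) rfl rfl).trans ?_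
  refine Iff.trans ?_ (adjS_iff (T.horn u) (PP κ m M u.length) g _ β l a).symm
  constructor
  · rintro (⟨o, sh, f, h2, _⟩ | ⟨i, h1, _⟩)
    · exact h2.elim
    · exact h1.elim
  · rintro ⟨q, hq, h⟩
    cases hq

theorem adj_VE (g : Bool) (μ ν : (SS T m κ M u).Main) :
    A1 κ d u (if g then 1 else 0) (dig T m κ M u μ) (dig T m κ M u ν) ↔
      ∃ e a v β, μ = Sum.inr ⟨e, a⟩ ∧ ν = Sum.inl (v, β) ∧ (SS T m κ M u).adjVE g v β e a := by
  have hne : ∀ t t' : Lab T m κ, (∀ o s f, ¬ arel T m κ M t t' o s f) →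
      (∀ i, ¬ brel T m κ t t' i) → lab T m κ M u μ = t → lab T m κ M u ν = t' →
      ¬ A1 κ d u (if g then 1 else 0) (dig T m κ M u μ) (dig T m κ M u ν) := by
    intro t t' h1 h2 h3 h4 h5
    rcases (A1_iff T m κ M u hTB _ _ _ t t' (by rw [← h3]; exact pos_θ _ _ _ _ _ _ _)
      (by rw [← h4]; exact pos_θ _ _ _ _ _ _ _)).1 h5 with ⟨o, sh, f, h6, _⟩ | ⟨i, h6, _⟩
    · exact h1 _ _ _ h6
    · exact h2 _ h6
  rcases μ with ⟨v, β⟩ | ⟨e, a⟩
  · refine ⟨fun h => (hne _ _ ?_ ?_ rfl rfl h).elim, ?_⟩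
    · rcases v with ⟨x, j, b⟩ | ⟨r, l, s, b⟩
      · exact fun _ _ _ h => h
      · exact fun _ _ _ h => h
    · rcases v with ⟨x, j, b⟩ | ⟨r, l, s, b⟩
      · exact fun _ h => h
      · exact fun _ h => h
    · rintro ⟨_, _, _, _, h, _⟩
      cases h
  · rcases ν with ⟨v, β⟩ | ⟨e', a'⟩
    · have hkey : A1 κ d u (if g then 1 else 0) (dig T m κ M u (Sum.inr ⟨e, a⟩))
          (dig T m κ M u (Sum.inl (v, β))) ↔ (SS T m κ M u).adjVE g v β e a := by
        rcases e with ⟨r, l, s, b⟩ | l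
        · rcases v with ⟨x, j, b'⟩ | ⟨r', l', s', b'⟩
          · exact adj_bank T m κ M u hTB g r l s b a x j b' β
          · exact adj_path T m κ M u hTB g r l s b a r' l' s' b' β
        · rcases v with ⟨x, j, b'⟩ | ⟨r', l', s', b'⟩
          · exact adj_seed T m κ M u hTB g l a x j b' β
          · exact adj_seed' T m κ M u hTB g l a r' l' s' b' β
      rw [hkey]
      constructor
      · intro h
        exact ⟨e, a, v, β, rfl, rfl, h⟩
      · rintro ⟨e1, a1, v1, β1, h1, h2, h3⟩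
        cases h1
        cases h2
        exact h3
    · refine ⟨fun h => (hne _ _ ?_ ?_ rfl rfl h).elim, ?_⟩
      · rcases e with ⟨r, l, s, b⟩ | l <;> rcases e' with ⟨r', l', s', b'⟩ | l' <;>
          exact fun _ _ _ h => h
      · rcases e with ⟨r, l, s, b⟩ | l <;> rcases e' with ⟨r', l', s', b'⟩ | l' <;>
          exact fun _ h => h
      · rintro ⟨_, _, _, _, _, h, _⟩
        cases h

theorem hM (g : Bool) (μ ν : (SS T m κ M u).Main) :
    MAdj κ d u (if g then 1 else 0) (dig T m κ M u μ) (dig T m κ M u ν) ↔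
      (SS T m κ M u).adjM g μ ν := by
  unfold MAdj
  have h1 := dig_valid T m κ M u hTB μ
  have h2 := dig_valid T m κ M u hTB ν
  rw [adj_VE T m κ M u hTB, adj_VE T m κ M u hTB]
  simp only [h1, h2, true_and]
  constructor
  · rintro (⟨e, a, v, β, rfl, rfl, h⟩ | ⟨e, a, v, β, rfl, rfl, h⟩)
    · exact h
    · exact h
  · intro h
    rcases μ with ⟨v, β⟩ | ⟨e, a⟩ <;> rcases ν with ⟨v', β'⟩ | ⟨e', a'⟩
    · exact h.elim
    · exact Or.inr ⟨_, _, _, _, rfl, rfl, h⟩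
    · exact Or.inl ⟨_, _, _, _, rfl, rfl, h⟩
    · exact h.elim

end

end DI

/-- **Module DI.** -/
theorem di : DIStatement := by
  intro κ d m M T hκ hm
  refine ⟨DI.Y1 T m κ, ?_⟩
  intro Y hY _
  obtain ⟨u, rfl, hTB⟩ := DI.exists_table T m κ M Y hY
  refine ⟨u, rfl, ?_⟩
  rintro P rfl
  have hn : DI.nLab T m κ ≤ u.length := by
    refine le_trans ?_ hY
    unfold DI.Y1
    omega
  have hlt : ∀ t : DI.Lab T m κ, t.no < u.length := fun t => lt_of_lt_of_le t.no_lt hn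
  obtain ⟨D, fD, e, he⟩ := DI.numbering (κ := κ) (Y := u.length) d u (DI.SS T m κ M u)
    (DI.CC T m κ M u) rfl (DI.dig T m κ M u)
    (fun μ => DI.pos_ok T m κ M u hκ _ _ (hlt _))
    (DI.dig_valid T m κ M u hTB) (DI.dig_inj T m κ M u)
    (DI.dig_surj T m κ M u hTB) (DI.hC T m κ M u)
    (fun μ => by
      have h1 := DI.hC T m κ M u μ
      have h2 := DI.CC_lt T m κ M u hκ hn ((DI.SS T m κ M u).cls μ)
      omega)
    (DI.hM T m κ M u hTB)
  exact ⟨DI.CC T m κ M u, D, fD, DI.CC_inj T m κ M u hκ hn, fun c => by unfold DI.CC; omega, e, he⟩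

end P310
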