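import Vale.Agent.P310.ExBlocks

/-!
# Module EX: compilation of expressions
-/


namespace P310

open Function (update)

/-- polynomial bound for values -/
theorem ex_value (e : Ex) : ∃ V : ℕ, ∀ (u : List Bool) (env : List ℕ) (X : ℕ),
    (∀ x ∈ env, x ≤ X) → e.eval u env ≤ V * (X + 2) ^ e.vdeg := by
  have hpos : ∀ X d : ℕ, 1 ≤ (X + 2) ^ d := fun X d => Nat.one_le_pow _ _ (by omega)
  induction e with
  | var i =>
    refine ⟨1, fun u env X h => ?_⟩
    have h1 : env.getD i 0 ≤ X := by
      by_cases hi : i < env.length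
      · rw [List.getD_eq_getElem _ _ hi]
        exact h _ (List.getElem_mem _)
      · rw [List.getD_eq_default _ _ (by omega)]
        exact Nat.zero_le _
    simp only [Ex.eval, Ex.vdeg, pow_one]
    omega
  | num c =>
    refine ⟨c, fun u env X h => ?_⟩
    simp [Ex.eval, Ex.vdeg]
  | add a b iha ihb =>
    obtain ⟨V, hV⟩ := iha
    obtain ⟨W, hW⟩ := ihb
    refine ⟨V + W, fun u env X h => ?_⟩
    have h1 := hV u env X h
    have h2 := hW u env X h
    have h3 : (X + 2) ^ a.vdeg ≤ (X + 2) ^ (max a.vdeg b.vdeg) :=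
      Nat.pow_le_pow_right (by omega) (le_max_left _ _)
    have h4 : (X + 2) ^ b.vdeg ≤ (X + 2) ^ (max a.vdeg b.vdeg) :=
      Nat.pow_le_pow_right (by omega) (le_max_right _ _)
    have h5 := Nat.mul_le_mul_left V h3
    have h6 := Nat.mul_le_mul_left W h4
    simp only [Ex.eval, Ex.vdeg, add_mul]
    omega
  | mul a b iha ihb =>
    obtain ⟨V, hV⟩ := iha
    obtain ⟨W, hW⟩ := ihb
    refine ⟨V * W, fun u env X h => ?_⟩
    have h1 := hV u env X h
    have h2 := hW u env X h
    simp only [Ex.eval, Ex.vdeg, pow_add]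
    calc _ ≤ (V * (X + 2) ^ a.vdeg) * (W * (X + 2) ^ b.vdeg) := Nat.mul_le_mul h1 h2
      _ = _ := by ring
  | eq a b _ _ =>
    refine ⟨1, fun u env X h => ?_⟩
    simp only [Ex.eval, Ex.vdeg, pow_zero]
    split_ifs <;> omega
  | lt a b _ _ =>
    refine ⟨1, fun u env X h => ?_⟩
    simp only [Ex.eval, Ex.vdeg, pow_zero]
    split_ifs <;> omega
  | and a b _ _ =>
    refine ⟨1, fun u env X h => ?_⟩
    simp only [Ex.eval, Ex.vdeg, pow_zero]
    split_ifs <;> omega
  | or a b _ _ =>
    refine ⟨1, fun u env X h => ?_⟩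
    simp only [Ex.eval, Ex.vdeg, pow_zero]
    split_ifs <;> omega
  | bit a _ =>
    refine ⟨1, fun u env X h => ?_⟩
    simp only [Ex.eval, Ex.vdeg, pow_zero]
    split_ifs <;> omega
  | ex a b _ _ =>
    refine ⟨1, fun u env X h => ?_⟩
    simp only [Ex.eval, Ex.vdeg, pow_zero]
    split_ifs <;> omega

/-- stores with free registers -/
structure Free (s : Store) (n : ℕ) : Prop where
  sc : ∀ r, 2 ≤ r → r < 6 → s r = []
  hi : ∀ r, 6 + n ≤ r → s r = []

/-- the environment read off a store -/
def envOf (s : Store) (loc : List ℕ) : List ℕ := loc.map fun p => (s (6 + p)).length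

/-- the registers of the environment hold numbers `≤ X` -/
def Holds (s : Store) (loc : List ℕ) (X : ℕ) : Prop := ∀ p ∈ loc, ∃ k ≤ X, s (6 + p) = rep k

theorem envOf_le {s : Store} {loc : List ℕ} {X : ℕ} (h : Holds s loc X) :
    ∀ x ∈ envOf s loc, x ≤ X := by
  intro x hx
  unfold envOf at hx
  rw [List.mem_map] at hx
  obtain ⟨p, hp, rfl⟩ := hx
  obtain ⟨k, hk, h1⟩ := h p hp
  rw [h1, List.length_replicate]
  exact hk

theorem envOf_congr {s s' : Store} {loc : List ℕ} (h : ∀ p ∈ loc, s' (6 + p) = s (6 + p)) :
    envOf s' loc = envOf s loc := by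
  unfold envOf
  refine List.map_congr_left fun p hp => ?_
  rw [h p hp]

/-- the compilation statement for one expression -/
def CompOf (e : Ex) (D : ℕ) : Prop :=
  ∀ (n : ℕ) (loc : List ℕ), (∀ p ∈ loc, p < n) → ∃ (c : Cmd) (C : ℕ), ∀ (s : Store) (X : ℕ),
    Free s n → Holds s loc X →
    Rn c s (update s (6 + n) (rep (e.eval (s 1) (envOf s loc)))) (C * (X + 2) ^ D)

/-- binary operations -/
theorem comp_bin (a b e : Ex) (Da Db D : ℕ) (ha : CompOf a Da) (hb : CompOf b Db)
    (hDa : Da ≤ D) (hDb : Db ≤ D) (F : ℕ → ℕ → ℕ)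
    (he : ∀ u env, e.eval u env = F (a.eval u env) (b.eval u env))
    (m : ℕ → ℕ → Cmd) (G : ℕ → ℕ → ℕ)
    (hm : ∀ (A B : ℕ), 6 ≤ A → 6 ≤ B → A ≠ B → ∀ (s : Store) (x y : ℕ), s A = rep x →
      s B = rep y → (∀ r, 2 ≤ r → r < 6 → s r = []) →
      Rn (m A B) s (update (update s B []) A (rep (F x y))) (G x y))
    (CG : ℕ) (hG : ∀ (u : List Bool) (env : List ℕ) (X : ℕ), (∀ x ∈ env, x ≤ X) →
      G (a.eval u env) (b.eval u env) ≤ CG * (X + 2) ^ D) : CompOf e D := by
  intro n loc hloc
  obtain ⟨ca, Ca, hca⟩ := ha n loc hloc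
  obtain ⟨cb, Cb, hcb⟩ := hb (n + 1) loc (fun p hp => (hloc p hp).trans (Nat.lt_succ_self n))
  refine ⟨.seq ca (.seq cb (m (6 + n) (6 + n + 1))), Ca + Cb + CG + 2, ?_⟩
  intro s X hs hh
  have h1 := hca s X hs hh
  have hne : ∀ p ∈ loc, (6 + p ≠ 6 + n) := by
    intro p hp h
    have := hloc p hp
    omega
  have e1 : ∀ v, envOf (update s (6 + n) v) loc = envOf s loc := by
    intro v
    refine envOf_congr fun p hp => ?_
    rw [Function.update_of_ne (hne p hp)]
  have h2 := hcb (update s (6 + n) (rep (a.eval (s 1) (envOf s loc)))) X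
    ⟨fun r hr hr' => by
      rw [Function.update_of_ne (by omega)]
      exact hs.sc r hr hr', fun r hr => by
      rw [Function.update_of_ne (by omega)]
      exact hs.hi r (by omega)⟩
    (fun p hp => by
      rw [Function.update_of_ne (hne p hp)]
      exact hh p hp)
  rw [e1, Function.update_of_ne (by omega)] at h2
  have h3 := hm (6 + n) (6 + n + 1) (by omega) (by omega) (by omega)
    (update (update s (6 + n) (rep (a.eval (s 1) (envOf s loc)))) (6 + (n + 1))
      (rep (b.eval (s 1) (envOf s loc)))) (a.eval (s 1) (envOf s loc))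
    (b.eval (s 1) (envOf s loc))
    (by rw [Function.update_of_ne (by omega), Function.update_self])
    (by rw [show 6 + n + 1 = 6 + (n + 1) by omega, Function.update_self])
    (fun r hr hr' => by
      rw [Function.update_of_ne (by omega), Function.update_of_ne (by omega)]
      exact hs.sc r hr hr')
  have h4 := hG (s 1) (envOf s loc) X (envOf_le hh)
  refine (Rn.seq h1 (Rn.seq h2 h3)).conv rfl ?_ ?_
  · rw [he]
    have h5 : s (6 + n + 1) = [] := hs.hi _ (by omega)
    (funext r; simp only [Function.update_apply]; split_ifs <;> first | rfl | (exfalso; omega) | exact rep_tail _ | (subst_vars; simp_all [rep_tail]; done) | (subst_vars; simp_all [rep_tail]; omega))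
  · have h5 : Ca * (X + 2) ^ Da ≤ Ca * (X + 2) ^ D :=
      Nat.mul_le_mul_left _ (Nat.pow_le_pow_right (by omega) hDa)
    have h6 : Cb * (X + 2) ^ Db ≤ Cb * (X + 2) ^ D :=
      Nat.mul_le_mul_left _ (Nat.pow_le_pow_right (by omega) hDb)
    have h7 : 1 ≤ (X + 2) ^ D := Nat.one_le_pow _ _ (by omega)
    have h8 : (Ca + Cb + CG + 2) * (X + 2) ^ D = Ca * (X + 2) ^ D + Cb * (X + 2) ^ D +
      CG * (X + 2) ^ D + 2 * (X + 2) ^ D := by ring
    omega

/-- bound for linear costs -/
theorem comp_lin (a b : Ex) : ∃ CG : ℕ, ∀ (u : List Bool) (env : List ℕ) (X : ℕ),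
    (∀ x ∈ env, x ≤ X) → ∀ D, max a.vdeg b.vdeg ≤ D →
      20 * (a.eval u env + b.eval u env + 1) ≤ CG * (X + 2) ^ D := by
  obtain ⟨V, hV⟩ := ex_value a
  obtain ⟨W, hW⟩ := ex_value b
  refine ⟨20 * (V + W + 1), fun u env X h D hD => ?_⟩
  have h1 := hV u env X h
  have h2 := hW u env X h
  have h3 : V * (X + 2) ^ a.vdeg ≤ V * (X + 2) ^ D :=
    Nat.mul_le_mul_left _ (Nat.pow_le_pow_right (by omega) ((le_max_left _ _).trans hD))
  have h4 : W * (X + 2) ^ b.vdeg ≤ W * (X + 2) ^ D :=
    Nat.mul_le_mul_left _ (Nat.pow_le_pow_right (by omega) ((le_max_right _ _).trans hD))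
  have h7 : 1 ≤ (X + 2) ^ D := Nat.one_le_pow _ _ (by omega)
  have h8 : 20 * (V + W + 1) * (X + 2) ^ D = 20 * (V * (X + 2) ^ D) + 20 * (W * (X + 2) ^ D) +
    20 * (X + 2) ^ D := by ring
  omega

theorem comp_of_ex (e : Ex) : CompOf e e.tdeg := by
  induction e with
  | var i =>
    intro n loc hloc
    by_cases hi : i < loc.length
    · refine ⟨copyC (6 + loc[i]) (6 + n) 2, 10, ?_⟩
      intro s X hs hh
      have hp := hloc _ (List.getElem_mem hi)
      obtain ⟨k, hk, h1⟩ := hh _ (List.getElem_mem hi)
      have h2 := copy_run (a := 6 + loc[i]) (b := 6 + n) (c := 2) (by omega) (by omega) (by omega)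
        s h1 (m := 0) (hs.hi _ le_rfl) (hs.sc 2 le_rfl (by omega))
      refine h2.conv rfl ?_ ?_
      · have h3 : (Ex.var i).eval (s 1) (envOf s loc) = k := by
          simp only [Ex.eval, envOf]
          rw [List.getD_eq_getElem _ _ (by rw [List.length_map]; exact hi), List.getElem_map, h1,
            List.length_replicate]
        rw [h3, Nat.zero_add]
      · simp only [Ex.tdeg]
        nlinarith
    · refine ⟨.skip, 1, ?_⟩
      intro s X hs hh
      refine (Rn.skip s).conv rfl ?_ ?_
      · have h3 : (Ex.var i).eval (s 1) (envOf s loc) = 0 := by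
          simp only [Ex.eval, envOf]
          rw [List.getD_eq_default]
          rw [List.length_map]
          omega
        rw [h3]
        have h4 : s (6 + n) = [] := hs.hi _ le_rfl
        (funext r; simp only [Function.update_apply]; split_ifs <;> first | rfl | (exfalso; omega) | exact rep_tail _ | (subst_vars; simp_all [rep_tail]; done) | (subst_vars; simp_all [rep_tail]; omega))
      · rw [Nat.one_mul]
        exact Nat.one_le_pow _ _ (by omega)
  | num k =>
    intro n loc hloc
    induction k with
    | zero =>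
      refine ⟨.skip, 1, ?_⟩
      intro s X hs hh
      refine (Rn.skip s).conv rfl ?_ ?_
      · simp only [Ex.eval]
        have h4 : s (6 + n) = [] := hs.hi _ le_rfl
        (funext r; simp only [Function.update_apply]; split_ifs <;> first | rfl | (exfalso; omega) | exact rep_tail _ | (subst_vars; simp_all [rep_tail]; done) | (subst_vars; simp_all [rep_tail]; omega))
      · rw [Nat.one_mul]
        exact Nat.one_le_pow _ _ (by omega)
    | succ k ih =>
      obtain ⟨c, C, hc⟩ := ih
      refine ⟨.seq c (.push (6 + n) true), C + 2, ?_⟩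
      intro s X hs hh
      refine (Rn.seq (hc s X hs hh) (Rn.push (6 + n) true _)).conv rfl ?_ ?_
      · simp only [Ex.eval, Function.update_self, Function.update_idem]
        rfl
      · simp only [Ex.tdeg, pow_one]
        nlinarith
  | add a b iha ihb =>
    obtain ⟨CG, hCG⟩ := comp_lin a b
    refine comp_bin a b _ _ _ _ iha ihb ((le_max_left _ _).trans (le_max_left _ _))
      ((le_max_right _ _).trans (le_max_left _ _)) (fun x y => x + y) (fun _ _ => rfl)
      (fun A B => moveC B A) (fun x y => 20 * (x + y + 1)) ?_ CG ?_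
    · intro A B hA hB hAB s x y hx hy hs
      exact (move_run hAB.symm s hy hx).mono (by omega)
    · intro u env X h
      refine hCG u env X h _ ?_
      simp only [Ex.tdeg]
      omega
  | mul a b iha ihb =>
    obtain ⟨V, hV⟩ := ex_value a
    obtain ⟨W, hW⟩ := ex_value b
    refine comp_bin a b _ _ _ _ iha ihb ((le_max_left _ _).trans (le_max_left _ _))
      ((le_max_right _ _).trans (le_max_left _ _)) (fun x y => x * y) (fun _ _ => rfl)
      (fun A B => mulC A B) (fun x y => 20 * ((x + 1) * (y + 1))) ?_
      (20 * ((V + 1) * (W + 1))) ?_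
    · intro A B hA hB hAB s x y hx hy hs
      exact mul_run hA hB hAB s hx hy (hs 2 le_rfl (by omega)) (hs 3 (by omega) (by omega))
    · intro u env X h
      have h1 := hV u env X h
      have h2 := hW u env X h
      have h3 : 1 ≤ (X + 2) ^ a.vdeg := Nat.one_le_pow _ _ (by omega)
      have h4 : 1 ≤ (X + 2) ^ b.vdeg := Nat.one_le_pow _ _ (by omega)
      have h5 : a.eval u env + 1 ≤ (V + 1) * (X + 2) ^ a.vdeg := by
        rw [add_mul]
        omega
      have h6 : b.eval u env + 1 ≤ (W + 1) * (X + 2) ^ b.vdeg := by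
        rw [add_mul]
        omega
      have h7 := Nat.mul_le_mul h5 h6
      have h8 : (X + 2) ^ (a.vdeg + b.vdeg) ≤ (X + 2) ^ (Ex.mul a b).tdeg := by
        refine Nat.pow_le_pow_right (by omega) ?_
        simp only [Ex.tdeg]
        omega
      calc 20 * ((a.eval u env + 1) * (b.eval u env + 1))
          ≤ 20 * ((V + 1) * (X + 2) ^ a.vdeg * ((W + 1) * (X + 2) ^ b.vdeg)) :=
            Nat.mul_le_mul_left _ h7
        _ = 20 * ((V + 1) * (W + 1)) * (X + 2) ^ (a.vdeg + b.vdeg) := by
            rw [pow_add]; ring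
        _ ≤ _ := Nat.mul_le_mul_left _ h8
  | eq a b iha ihb =>
    obtain ⟨CG, hCG⟩ := comp_lin a b
    refine comp_bin a b _ _ _ _ iha ihb ((le_max_left _ _).trans (le_max_left _ _))
      ((le_max_right _ _).trans (le_max_left _ _)) (fun x y => if x = y then 1 else 0)
      (fun _ _ => rfl) (fun A B => eqC A B) (fun x y => 20 * (x + y + 1)) ?_ CG ?_
    · intro A B hA hB hAB s x y hx hy hs
      exact eq_run hA hB hAB s hx hy (hs 2 le_rfl (by omega))
    · intro u env X h
      refine hCG u env X h _ ?_
      simp only [Ex.tdeg]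
      omega
  | lt a b iha ihb =>
    obtain ⟨CG, hCG⟩ := comp_lin a b
    refine comp_bin a b _ _ _ _ iha ihb ((le_max_left _ _).trans (le_max_left _ _))
      ((le_max_right _ _).trans (le_max_left _ _)) (fun x y => if x < y then 1 else 0)
      (fun _ _ => rfl) (fun A B => ltC A B) (fun x y => 20 * (x + y + 1)) ?_ CG ?_
    · intro A B hA hB hAB s x y hx hy hs
      exact lt_run hA hB hAB s hx hy (hs 2 le_rfl (by omega))
    · intro u env X h
      refine hCG u env X h _ ?_
      simp only [Ex.tdeg]
      omega
  | and a b iha ihb =>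
    obtain ⟨CG, hCG⟩ := comp_lin a b
    refine comp_bin a b _ _ _ _ iha ihb ((le_max_left _ _).trans (le_max_left _ _))
      ((le_max_right _ _).trans (le_max_left _ _))
      (fun x y => if x ≠ 0 ∧ y ≠ 0 then 1 else 0)
      (fun _ _ => rfl) (fun A B => andC A B) (fun x y => 20 * (x + y + 1)) ?_ CG ?_
    · intro A B hA hB hAB s x y hx hy hs
      exact and_run hA hB hAB s hx hy (hs 2 le_rfl (by omega))
    · intro u env X h
      refine hCG u env X h _ ?_
      simp only [Ex.tdeg]
      omega
  | or a b iha ihb =>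
    obtain ⟨CG, hCG⟩ := comp_lin a b
    refine comp_bin a b _ _ _ _ iha ihb ((le_max_left _ _).trans (le_max_left _ _))
      ((le_max_right _ _).trans (le_max_left _ _))
      (fun x y => if x ≠ 0 ∨ y ≠ 0 then 1 else 0)
      (fun _ _ => rfl) (fun A B => orC A B) (fun x y => 20 * (x + y + 1)) ?_ CG ?_
    · intro A B hA hB hAB s x y hx hy hs
      exact or_run hA hB hAB s hx hy (hs 2 le_rfl (by omega))
    · intro u env X h
      refine hCG u env X h _ ?_
      simp only [Ex.tdeg]
      omega
  | bit a iha =>
    intro n loc hloc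
    obtain ⟨ca, Ca, hca⟩ := iha n loc hloc
    obtain ⟨V, hV⟩ := ex_value a
    refine ⟨.seq ca (bitC (6 + n)), Ca + 20 * (V + 1) + 1, ?_⟩
    intro s X hs hh
    have h1 := hca s X hs hh
    have h2 := bit_run (a := 6 + n) (by omega)
      (update s (6 + n) (rep (a.eval (s 1) (envOf s loc)))) (x := a.eval (s 1) (envOf s loc))
      (Function.update_self _ _ _)
      (by rw [Function.update_of_ne (by omega)]; exact hs.sc 2 le_rfl (by omega))
    have e1 : update s (6 + n) (rep (a.eval (s 1) (envOf s loc))) 1 = s 1 :=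
      Function.update_of_ne (by omega) _ _
    rw [e1] at h2
    refine (Rn.seq h1 h2).conv rfl ?_ ?_
    · rw [Function.update_idem]
      rfl
    · have h3 := hV (s 1) (envOf s loc) X (envOf_le hh)
      have h4 : Ca * (X + 2) ^ a.tdeg ≤ Ca * (X + 2) ^ (Ex.bit a).tdeg :=
        Nat.mul_le_mul_left _ (Nat.pow_le_pow_right (by omega) (le_max_left _ _))
      have h5 : V * (X + 2) ^ a.vdeg ≤ V * (X + 2) ^ (Ex.bit a).tdeg :=
        Nat.mul_le_mul_left _ (Nat.pow_le_pow_right (by omega)
          (le_trans (Nat.le_add_right _ 3) (le_max_right _ _)))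
      have h6 : 1 ≤ (X + 2) ^ (Ex.bit a).tdeg := Nat.one_le_pow _ _ (by omega)
      have h7 : (Ca + 20 * (V + 1) + 1) * (X + 2) ^ (Ex.bit a).tdeg =
        Ca * (X + 2) ^ (Ex.bit a).tdeg + 20 * (V * (X + 2) ^ (Ex.bit a).tdeg) +
        20 * (X + 2) ^ (Ex.bit a).tdeg + (X + 2) ^ (Ex.bit a).tdeg := by ring
      omega
  | ex b e ihb ihe =>
    intro n loc hloc
    obtain ⟨cb, Cb, hcb⟩ := ihb n loc hloc
    obtain ⟨ce, Ce, hce⟩ := ihe (n + 3) ((n + 1) :: loc) (by
      intro p hp
      rcases List.mem_cons.1 hp with h | h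
      · omega
      · have := hloc p h
        omega)
    obtain ⟨V, hV⟩ := ex_value b
    obtain ⟨W, hW⟩ := ex_value e
    refine ⟨.seq cb (exC (6 + n) ce), Cb + V * (Ce * (V + 1) ^ e.tdeg +
      2 * (W * (V + 1) ^ e.vdeg) + 20) + 21, ?_⟩
    intro s X hs hh
    have h1 := hcb s X hs hh
    have hb1 := hV (s 1) (envOf s loc) X (envOf_le hh)
    obtain ⟨x, hx⟩ : ∃ x, x = b.eval (s 1) (envOf s loc) := ⟨_, rfl⟩
    obtain ⟨X', hX'⟩ : ∃ X', X' = X + V * (X + 2) ^ b.vdeg := ⟨_, rfl⟩
    rw [← hx] at h1 hb1
    obtain ⟨val, hval⟩ : ∃ val : ℕ → ℕ, val = fun i => e.eval (s 1) (i :: envOf s loc) :=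
      ⟨_, rfl⟩
    have hW' : ∀ i < x, val i ≤ W * (X' + 2) ^ e.vdeg := by
      intro i hi
      rw [hval]
      refine hW (s 1) (i :: envOf s loc) X' ?_
      intro y hy
      rcases List.mem_cons.1 hy with h | h
      · omega
      · have := envOf_le hh y h
        omega
    have h2 := ex_run (a := 6 + n) (update s (6 + n) (rep x)) (x := x) val ce
      (Ce * (X' + 2) ^ e.tdeg) (W * (X' + 2) ^ e.vdeg) (Function.update_self _ _ _)
      (by rw [Function.update_of_ne (by omega)]; exact hs.hi _ (by omega))
      (by rw [Function.update_of_ne (by omega)]; exact hs.hi _ (by omega))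
      (by rw [Function.update_of_ne (by omega)]; exact hs.hi _ (by omega))
      (by
        intro i hi
        have h3 := hce (update (update (update (update s (6 + n) (rep x)) (6 + n)
          (rep (x - i - 1))) (6 + n + 1) (rep i)) (6 + n + 2) (rep (cnt val i))) X'
          ⟨fun r hr hr' => by
            rw [Function.update_of_ne (by omega), Function.update_of_ne (by omega),
              Function.update_of_ne (by omega), Function.update_of_ne (by omega)]
            exact hs.sc r hr hr', fun r hr => by
            rw [Function.update_of_ne (by omega), Function.update_of_ne (by omega),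
              Function.update_of_ne (by omega), Function.update_of_ne (by omega)]
            exact hs.hi r (by omega)⟩
          (by
            intro p hp
            rcases List.mem_cons.1 hp with h | h
            · subst h
              refine ⟨i, by omega, ?_⟩
              rw [Function.update_of_ne (by omega), show 6 + (n + 1) = 6 + n + 1 by omega,
                Function.update_self]
            · have hpn := hloc p h
              obtain ⟨k, hk, h4⟩ := hh p h
              refine ⟨k, by omega, ?_⟩
              rw [Function.update_of_ne (by omega), Function.update_of_ne (by omega),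
                Function.update_of_ne (by omega), Function.update_of_ne (by omega)]
              exact h4)
        have h4 : envOf (update (update (update (update s (6 + n) (rep x)) (6 + n)
          (rep (x - i - 1))) (6 + n + 1) (rep i)) (6 + n + 2) (rep (cnt val i)))
          ((n + 1) :: loc) = i :: envOf s loc := by
          change (_ :: envOf _ loc) = _
          congr 1
          · change List.length (update (update (update (update s (6 + n) (rep x)) (6 + n)
              (rep (x - i - 1))) (6 + n + 1) (rep i)) (6 + n + 2) (rep (cnt val i))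
              (6 + (n + 1))) = i
            rw [Function.update_of_ne (by omega), show 6 + (n + 1) = 6 + n + 1 by omega,
              Function.update_self, List.length_replicate]
          · refine envOf_congr fun p hp => ?_
            have hpn := hloc p hp
            rw [Function.update_of_ne (by omega), Function.update_of_ne (by omega),
                Function.update_of_ne (by omega), Function.update_of_ne (by omega)]
        have h5 : (update (update (update (update s (6 + n) (rep x)) (6 + n)
          (rep (x - i - 1))) (6 + n + 1) (rep i)) (6 + n + 2) (rep (cnt val i))) 1 = s 1 := by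
          rw [Function.update_of_ne (by omega), Function.update_of_ne (by omega),
                Function.update_of_ne (by omega), Function.update_of_ne (by omega)]
        rw [h4, h5] at h3
        have h6 : e.eval (s 1) (i :: envOf s loc) = val i := by rw [hval]
        rw [h6] at h3
        exact h3)
      hW'
    refine (Rn.seq h1 h2).conv rfl ?_ ?_
    · rw [Function.update_idem, hval, hx]
      rfl
    · have hZ : 1 ≤ X + 2 := by omega
      have hZb : (X + 2) ^ b.vdeg ≤ (X + 2) ^ (b.vdeg + 1) :=
        Nat.pow_le_pow_right hZ (Nat.le_succ _)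
      have hZ1 : X + 2 ≤ (X + 2) ^ (b.vdeg + 1) := by
        calc X + 2 = (X + 2) ^ 1 := (pow_one _).symm
          _ ≤ _ := Nat.pow_le_pow_right hZ (by omega)
      have hXX : X' + 2 ≤ (V + 1) * (X + 2) ^ (b.vdeg + 1) := by
        have := Nat.mul_le_mul_left V hZb
        rw [add_mul, one_mul, hX']
        omega
      obtain ⟨E, hE⟩ : ∃ E, E = (b.vdeg + 1) * (e.tdeg + e.vdeg + 2) := ⟨_, rfl⟩
      have hp1 : ∀ d, d ≤ e.tdeg + e.vdeg + 2 → (X' + 2) ^ d ≤ (V + 1) ^ d * (X + 2) ^ E := by
        intro d hd
        calc (X' + 2) ^ d ≤ ((V + 1) * (X + 2) ^ (b.vdeg + 1)) ^ d := Nat.pow_le_pow_left hXX d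
          _ = (V + 1) ^ d * (X + 2) ^ ((b.vdeg + 1) * d) := by rw [mul_pow, ← pow_mul]
          _ ≤ _ := by
            refine Nat.mul_le_mul_left _ (Nat.pow_le_pow_right hZ ?_)
            rw [hE]
            exact Nat.mul_le_mul_left _ hd
      have hT := Nat.mul_le_mul_left Ce (hp1 e.tdeg (by omega))
      have hW2 := Nat.mul_le_mul_left W (hp1 e.vdeg (by omega))
      have hE1 : 1 ≤ (X + 2) ^ E := Nat.one_le_pow _ _ hZ
      have hD : (Ex.ex b e).tdeg = max b.tdeg E + b.vdeg + 2 := by
        rw [hE]
        rfl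
      have hs1 : Ce * (X' + 2) ^ e.tdeg + 2 * (W * (X' + 2) ^ e.vdeg) + 20 ≤
          (Ce * (V + 1) ^ e.tdeg + 2 * (W * (V + 1) ^ e.vdeg) + 20) * (X + 2) ^ E := by
        have : (Ce * (V + 1) ^ e.tdeg + 2 * (W * (V + 1) ^ e.vdeg) + 20) * (X + 2) ^ E =
          Ce * ((V + 1) ^ e.tdeg * (X + 2) ^ E) + 2 * (W * ((V + 1) ^ e.vdeg * (X + 2) ^ E)) +
          20 * (X + 2) ^ E := by ring
        omega
      have hs2 := Nat.mul_le_mul hb1 hs1
      have hs3 : V * (X + 2) ^ b.vdeg *
          ((Ce * (V + 1) ^ e.tdeg + 2 * (W * (V + 1) ^ e.vdeg) + 20) * (X + 2) ^ E) ≤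
          V * (Ce * (V + 1) ^ e.tdeg + 2 * (W * (V + 1) ^ e.vdeg) + 20) *
            (X + 2) ^ (Ex.ex b e).tdeg := by
        calc _ = V * (Ce * (V + 1) ^ e.tdeg + 2 * (W * (V + 1) ^ e.vdeg) + 20) *
            (X + 2) ^ (b.vdeg + E) := by rw [pow_add]; ring
          _ ≤ _ := by
            refine Nat.mul_le_mul_left _ (Nat.pow_le_pow_right hZ ?_)
            rw [hD]
            omega
      have hs4 : Cb * (X + 2) ^ b.tdeg ≤ Cb * (X + 2) ^ (Ex.ex b e).tdeg := by
        refine Nat.mul_le_mul_left _ (Nat.pow_le_pow_right hZ ?_)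
        rw [hD]
        omega
      have hs5 : 1 ≤ (X + 2) ^ (Ex.ex b e).tdeg := Nat.one_le_pow _ _ hZ
      have hs6 : (Cb + V * (Ce * (V + 1) ^ e.tdeg + 2 * (W * (V + 1) ^ e.vdeg) + 20) + 21) *
          (X + 2) ^ (Ex.ex b e).tdeg = Cb * (X + 2) ^ (Ex.ex b e).tdeg +
          V * (Ce * (V + 1) ^ e.tdeg + 2 * (W * (V + 1) ^ e.vdeg) + 20) *
            (X + 2) ^ (Ex.ex b e).tdeg + 21 * (X + 2) ^ (Ex.ex b e).tdeg := by ring
      omega

/-- **Module EX**. -/
theorem ex : EXStatement := by
  intro e n
  obtain ⟨c, C, hc⟩ := comp_of_ex e n ((List.range n).reverse) (by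
    intro p hp
    rw [List.mem_reverse, List.mem_range] at hp
    exact hp)
  refine ⟨c, C, ?_⟩
  intro u out env X hlen hu henv
  have hget : ∀ p, p < n → envStore u out env (6 + p) = rep (env.reverse.getD p 0) := by
    intro p hp
    unfold envStore
    rw [if_neg (by omega), if_neg (by omega), if_neg (by omega)]
    rw [show 6 + p - 6 = p by omega]
  have hfree : Free (envStore u out env) n := by
    refine ⟨?_, ?_⟩
    · intro r hr hr'
      unfold envStore
      rw [if_neg (by omega), if_neg (by omega), if_pos hr']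
    · intro r hr
      unfold envStore
      rw [if_neg (by omega), if_neg (by omega), if_neg (by omega)]
      rw [List.getD_eq_default _ _ (by rw [List.length_reverse]; omega)]
      rfl
  have henvOf : envOf (envStore u out env) ((List.range n).reverse) = env := by
    unfold envOf
    apply List.ext_getElem
    · rw [List.length_map, List.length_reverse, List.length_range, hlen]
    · intro i h1 h2
      rw [List.getElem_map, List.getElem_reverse, List.getElem_range]
      rw [List.length_map, List.length_reverse, List.length_range] at h1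
      rw [List.length_range, hget _ (by omega), List.length_replicate]
      rw [List.getD_eq_getElem _ _ (by rw [List.length_reverse]; omega), List.getElem_reverse]
      congr 1
      omega
  have hholds : Holds (envStore u out env) ((List.range n).reverse) X := by
    intro p hp
    rw [List.mem_reverse, List.mem_range] at hp
    refine ⟨_, ?_, hget p hp⟩
    rw [List.getD_eq_getElem _ _ (by rw [List.length_reverse]; omega)]
    exact henv _ (List.mem_reverse.1 (List.getElem_mem _))
  obtain ⟨t, ht, hr⟩ := hc (envStore u out env) X hfree hholds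
  refine ⟨t, ht, ?_⟩
  have h1 : envStore u out env 1 = u := by
    unfold envStore
    rw [if_neg (by omega), if_pos rfl]
  rw [henvOf, h1] at hr
  have h2 : update (envStore u out env) (6 + n) (rep (e.eval u env)) =
      envStore u out (e.eval u env :: env) := by
    funext r
    by_cases hr6 : r = 6 + n
    · subst hr6
      rw [Function.update_self]
      unfold envStore
      rw [if_neg (by omega), if_neg (by omega), if_neg (by omega)]
      rw [show 6 + n - 6 = n by omega, List.reverse_cons,
        List.getD_append_right _ _ _ _ (by rw [List.length_reverse]; omega)]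
      rw [List.length_reverse, hlen, Nat.sub_self]
      rfl
    · rw [Function.update_of_ne hr6]
      unfold envStore
      by_cases h0 : r = 0
      · rw [if_pos h0, if_pos h0]
      · by_cases h1 : r = 1
        · rw [if_neg h0, if_neg h0, if_pos h1, if_pos h1]
        · by_cases h6 : r < 6
          · rw [if_neg h0, if_neg h0, if_neg h1, if_neg h1, if_pos h6, if_pos h6]
          · rw [if_neg h0, if_neg h0, if_neg h1, if_neg h1, if_neg h6, if_neg h6]
            congr 1
            rw [List.reverse_cons]
            by_cases hlt : r - 6 < n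
            · rw [List.getD_append _ _ _ _ (by rw [List.length_reverse]; omega)]
            · rw [List.getD_eq_default _ _ (by rw [List.length_reverse]; omega),
                List.getD_eq_default _ _ (by
                  rw [List.length_append, List.length_reverse, List.length_singleton]
                  omega)]
  rw [← h2]
  exact hr

end P310
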