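import Vale.Agent.P310.Ex

/-!
# Module GN: the generator program
-/

namespace P310

namespace GN

/-- run within time `T` -/
def RT (c : Cmd) (s s' : Store) (T : ℕ) : Prop := ∃ t ≤ T, c.Run s s' t

theorem RT.mono {c : Cmd} {s s' : Store} {T T' : ℕ} (h : RT c s s' T) (hT : T ≤ T') :
    RT c s s' T' := by
  obtain ⟨t, ht, hr⟩ := h
  exact ⟨t, ht.trans hT, hr⟩

theorem RT.seq {c d : Cmd} {s s' s'' : Store} {T T' : ℕ} (h : RT c s s' T) (h' : RT d s' s'' T') :
    RT (.seq c d) s s'' (T + T' + 1) := by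
  obtain ⟨t, ht, hr⟩ := h
  obtain ⟨t', ht', hr'⟩ := h'
  exact ⟨t + t' + 1, by omega, .seq hr hr'⟩

theorem RT.push {s s' : Store} {σ : ℕ} {b : Bool}
    (h : Function.update s σ (b :: s σ) = s') : RT (.push σ b) s s' 1 :=
  ⟨1, le_rfl, h ▸ .push σ b s⟩

theorem RT.pop {s s' : Store} {σ : ℕ}
    (h : Function.update s σ (s σ).tail = s') : RT (.pop σ) s s' 1 :=
  ⟨1, le_rfl, h ▸ .pop σ s⟩

theorem RT.iteE {σ : ℕ} {ce cf ct : Cmd} {s s' : Store} {T : ℕ} (h0 : s σ = [])
    (h : RT ce s s' T) : RT (.ite σ ce cf ct) s s' (T + 1) := by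
  obtain ⟨t, ht, hr⟩ := h
  exact ⟨t + 1, by omega, .iteE h0 hr⟩

theorem RT.iteF {σ : ℕ} {ce cf ct : Cmd} {s s' : Store} {T : ℕ} (h0 : (s σ).head? = some false)
    (h : RT cf s s' T) : RT (.ite σ ce cf ct) s s' (T + 1) := by
  obtain ⟨t, ht, hr⟩ := h
  exact ⟨t + 1, by omega, .iteF h0 hr⟩

theorem RT.iteT {σ : ℕ} {ce cf ct : Cmd} {s s' : Store} {T : ℕ} (h0 : (s σ).head? = some true)
    (h : RT ct s s' T) : RT (.ite σ ce cf ct) s s' (T + 1) := by
  obtain ⟨t, ht, hr⟩ := h
  exact ⟨t + 1, by omega, .iteT h0 hr⟩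

theorem RT.loopE {σ : ℕ} {c : Cmd} {s : Store} (h0 : s σ = []) : RT (.loop σ c) s s 1 :=
  ⟨1, le_rfl, .loopE h0⟩

theorem RT.loopN {σ : ℕ} {c : Cmd} {s s' s'' : Store} {T T' : ℕ} (h0 : s σ ≠ [])
    (h : RT c s s' T) (h' : RT (.loop σ c) s' s'' T') : RT (.loop σ c) s s'' (T + T' + 1) := by
  obtain ⟨t, ht, hr⟩ := h
  obtain ⟨t', ht', hr'⟩ := h'
  exact ⟨t + t' + 1, by omega, .loopN h0 hr hr'⟩

/-- count-down loop -/
theorem RT.loopDown {σ : ℕ} {c : Cmd} {T : ℕ} (S : ℕ → Store) (h0 : S 0 σ = []) :
    ∀ m : ℕ, (∀ k < m, S (k + 1) σ ≠ [] ∧ RT c (S (k + 1)) (S k) T) →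
      RT (.loop σ c) (S m) (S 0) (m * (T + 1) + 1)
  | 0, _ => by simpa using RT.loopE h0
  | m + 1, h => by
      have h1 := h m (Nat.lt_succ_self m)
      have h2 := RT.loopDown S h0 m (fun k hk => h k (Nat.lt_succ_of_lt hk))
      refine (RT.loopN h1.1 h1.2 h2).mono ?_
      ring_nf
      omega

/-- explicit stores -/
def W (u out w : List Bool) (Y n g p q a : ℕ) : Store
  | 0 => out
  | 1 => u
  | 2 => w
  | 3 => []
  | 4 => []
  | 5 => []
  | 6 => List.replicate Y true
  | 7 => List.replicate n true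
  | 8 => List.replicate g true
  | 9 => List.replicate p true
  | 10 => List.replicate q true
  | 11 => List.replicate a true
  | _ => []

theorem init_eq (u : List Bool) :
    (fun r => if r = 1 then u else [] : Store) = W u [] [] 0 0 0 0 0 0 := by
  funext r
  rcases r with _|_|_|_|_|_|_|_|_|_|_|_|r <;> simp [W]

theorem env1 (u out : List Bool) (Y : ℕ) : envStore u out [Y] = W u out [] Y 0 0 0 0 0 := by
  funext r
  rcases r with _|_|_|_|_|_|_|_|_|_|_|_|r <;> simp [W, envStore]

theorem env2 (u out : List Bool) (Y n : ℕ) :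
    envStore u out [n, Y] = W u out [] Y n 0 0 0 0 := by
  funext r
  rcases r with _|_|_|_|_|_|_|_|_|_|_|_|r <;> simp [W, envStore]

theorem env5 (u out : List Bool) (Y n g p q : ℕ) :
    envStore u out [q, p, g, n, Y] = W u out [] Y n g p q 0 := by
  funext r
  rcases r with _|_|_|_|_|_|_|_|_|_|_|_|r <;> simp [W, envStore]

theorem env6 (u out : List Bool) (Y n g p q a : ℕ) :
    envStore u out [a, q, p, g, n, Y] = W u out [] Y n g p q a := by
  funext r
  rcases r with _|_|_|_|_|_|_|_|_|_|_|_|r <;> simp [W, envStore]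

/-! ### update lemmas -/

section upd
variable (u out w : List Bool) (Y n g p q a : ℕ)

theorem u0 (b : Bool) : Function.update (W u out w Y n g p q a) 0 (b :: W u out w Y n g p q a 0) =
    W u (b :: out) w Y n g p q a := by
  funext r
  rcases r with _|_|_|_|_|_|_|_|_|_|_|_|r <;> simp [W, Function.update]

theorem u1 (b : Bool) : Function.update (W u out w Y n g p q a) 1 (b :: W u out w Y n g p q a 1) =
    W (b :: u) out w Y n g p q a := by
  funext r
  rcases r with _|_|_|_|_|_|_|_|_|_|_|_|r <;> simp [W, Function.update]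

theorem d1 (b : Bool) : Function.update (W (b :: u) out w Y n g p q a) 1
    (W (b :: u) out w Y n g p q a 1).tail = W u out w Y n g p q a := by
  funext r
  rcases r with _|_|_|_|_|_|_|_|_|_|_|_|r <;> simp [W, Function.update]

theorem u2 (b : Bool) : Function.update (W u out w Y n g p q a) 2 (b :: W u out w Y n g p q a 2) =
    W u out (b :: w) Y n g p q a := by
  funext r
  rcases r with _|_|_|_|_|_|_|_|_|_|_|_|r <;> simp [W, Function.update]

theorem d2 (b : Bool) : Function.update (W u out (b :: w) Y n g p q a) 2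
    (W u out (b :: w) Y n g p q a 2).tail = W u out w Y n g p q a := by
  funext r
  rcases r with _|_|_|_|_|_|_|_|_|_|_|_|r <;> simp [W, Function.update]

theorem u6 : Function.update (W u out w Y n g p q a) 6 (true :: W u out w Y n g p q a 6) =
    W u out w (Y + 1) n g p q a := by
  funext r
  rcases r with _|_|_|_|_|_|_|_|_|_|_|_|r <;>
    simp [W, Function.update, List.replicate_succ]

theorem u7 : Function.update (W u out w Y n g p q a) 7 (true :: W u out w Y n g p q a 7) =
    W u out w Y (n + 1) g p q a := by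
  funext r
  rcases r with _|_|_|_|_|_|_|_|_|_|_|_|r <;>
    simp [W, Function.update, List.replicate_succ]

theorem d7 : Function.update (W u out w Y (n + 1) g p q a) 7
    (W u out w Y (n + 1) g p q a 7).tail = W u out w Y n g p q a := by
  funext r
  rcases r with _|_|_|_|_|_|_|_|_|_|_|_|r <;>
    simp [W, Function.update, List.replicate_succ]

theorem u8 : Function.update (W u out w Y n g p q a) 8 (true :: W u out w Y n g p q a 8) =
    W u out w Y n (g + 1) p q a := by
  funext r
  rcases r with _|_|_|_|_|_|_|_|_|_|_|_|r <;>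
    simp [W, Function.update, List.replicate_succ]

theorem d8 : Function.update (W u out w Y n (g + 1) p q a) 8
    (W u out w Y n (g + 1) p q a 8).tail = W u out w Y n g p q a := by
  funext r
  rcases r with _|_|_|_|_|_|_|_|_|_|_|_|r <;>
    simp [W, Function.update, List.replicate_succ]

theorem u9 : Function.update (W u out w Y n g p q a) 9 (true :: W u out w Y n g p q a 9) =
    W u out w Y n g (p + 1) q a := by
  funext r
  rcases r with _|_|_|_|_|_|_|_|_|_|_|_|r <;>
    simp [W, Function.update, List.replicate_succ]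

theorem d9 : Function.update (W u out w Y n g (p + 1) q a) 9
    (W u out w Y n g (p + 1) q a 9).tail = W u out w Y n g p q a := by
  funext r
  rcases r with _|_|_|_|_|_|_|_|_|_|_|_|r <;>
    simp [W, Function.update, List.replicate_succ]

theorem u10 : Function.update (W u out w Y n g p q a) 10 (true :: W u out w Y n g p q a 10) =
    W u out w Y n g p (q + 1) a := by
  funext r
  rcases r with _|_|_|_|_|_|_|_|_|_|_|_|r <;>
    simp [W, Function.update, List.replicate_succ]

theorem d10 : Function.update (W u out w Y n g p (q + 1) a) 10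
    (W u out w Y n g p (q + 1) a 10).tail = W u out w Y n g p q a := by
  funext r
  rcases r with _|_|_|_|_|_|_|_|_|_|_|_|r <;>
    simp [W, Function.update, List.replicate_succ]

theorem d11 : Function.update (W u out w Y n g p q (a + 1)) 11
    (W u out w Y n g p q (a + 1) 11).tail = W u out w Y n g p q a := by
  funext r
  rcases r with _|_|_|_|_|_|_|_|_|_|_|_|r <;>
    simp [W, Function.update, List.replicate_succ]

end upd

/-! ### the length of the input -/

def len1 : Cmd := .loop 1 (.ite 1 .skip (.seq (.push 2 false) (.seq (.push 6 true) (.pop 1)))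
  (.seq (.push 2 true) (.seq (.push 6 true) (.pop 1))))

def len2 : Cmd := .loop 2 (.ite 2 .skip (.seq (.push 1 false) (.pop 2))
  (.seq (.push 1 true) (.pop 2)))

theorem len1_run : ∀ (x w : List Bool) (k : ℕ),
    RT len1 (W x [] w k 0 0 0 0 0) (W [] [] (x.reverse ++ w) (k + x.length) 0 0 0 0 0)
      (7 * x.length + 1)
  | [], w, k => RT.loopE (σ := 1) (s := W [] [] w k 0 0 0 0 0) rfl
  | b :: x, w, k => by
      have ih := len1_run x (b :: w) (k + 1)
      have hbody : ∀ b : Bool, RT (.seq (.push 2 b) (.seq (.push 6 true) (.pop 1)))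
          (W (b :: x) [] w k 0 0 0 0 0) (W x [] (b :: w) (k + 1) 0 0 0 0 0) 5 := by
        intro b
        exact (RT.push (u2 ..)).seq ((RT.push (u6 ..)).seq (RT.pop (d1 ..)))
      have hb : RT (.ite 1 .skip (.seq (.push 2 false) (.seq (.push 6 true) (.pop 1)))
          (.seq (.push 2 true) (.seq (.push 6 true) (.pop 1))))
          (W (b :: x) [] w k 0 0 0 0 0) (W x [] (b :: w) (k + 1) 0 0 0 0 0) 6 := by
        cases b with
        | false => exact RT.iteF rfl (hbody false)
        | true => exact RT.iteT rfl (hbody true)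
      have h := RT.loopN (σ := 1) (s := W (b :: x) [] w k 0 0 0 0 0) (by simp [W]) hb ih
      have e1 : x.reverse ++ b :: w = (b :: x).reverse ++ w := by simp
      have e2 : k + 1 + x.length = k + (b :: x).length := by simp; omega
      rw [e1, e2] at h
      refine h.mono ?_
      simp only [List.length_cons]
      omega

theorem len2_run (out : List Bool) (Y n g p q a : ℕ) : ∀ (w x : List Bool),
    RT len2 (W x out w Y n g p q a) (W (w.reverse ++ x) out [] Y n g p q a)
      (5 * w.length + 1)
  | [], x => RT.loopE (σ := 2) (s := W x out [] Y n g p q a) rfl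
  | b :: w, x => by
      have ih := len2_run out Y n g p q a w (b :: x)
      have hbody : ∀ b : Bool, RT (.seq (.push 1 b) (.pop 2))
          (W x out (b :: w) Y n g p q a) (W (b :: x) out w Y n g p q a) 3 := by
        intro b
        exact (RT.push (u1 ..)).seq (RT.pop (d2 ..))
      have hb : RT (.ite 2 .skip (.seq (.push 1 false) (.pop 2)) (.seq (.push 1 true) (.pop 2)))
          (W x out (b :: w) Y n g p q a) (W (b :: x) out w Y n g p q a) 4 := by
        cases b with
        | false => exact RT.iteF rfl (hbody false)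
        | true => exact RT.iteT rfl (hbody true)
      have h := RT.loopN (σ := 2) (s := W x out (b :: w) Y n g p q a) (by simp [W]) hb ih
      have e1 : w.reverse ++ b :: x = (b :: w).reverse ++ x := by simp
      rw [e1] at h
      refine h.mono ?_
      simp only [List.length_cons]
      omega

theorem len_run (u : List Bool) :
    RT (.seq len1 len2) (fun r => if r = 1 then u else []) (envStore u [] [u.length])
      (12 * u.length + 3) := by
  rw [init_eq, env1]
  have h1 := len1_run u [] 0
  have h2 := len2_run [] (0 + u.length) 0 0 0 0 0 (u.reverse ++ []) []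
  have h := h1.seq h2
  have e : (u.reverse ++ []).reverse ++ [] = u := by simp
  rw [e, Nat.zero_add] at h
  refine h.mono ?_
  simp only [List.append_nil, List.length_reverse]
  omega

/-! ### copying register 7 -/

def cpB (σ : ℕ) : Cmd := .seq (.pop 7) (.seq (.push 2 true) (.push σ true))
def back : Cmd := .loop 2 (.seq (.pop 2) (.push 7 true))
def cp (σ : ℕ) : Cmd := .seq (.loop 7 (cpB σ)) back

theorem back_run (u out : List Bool) (Y g p q a : ℕ) : ∀ k n : ℕ,
    RT back (W u out (List.replicate k true) Y n g p q a) (W u out [] Y (n + k) g p q a)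
      (4 * k + 1)
  | 0, n => RT.loopE (σ := 2) (s := W u out [] Y n g p q a) rfl
  | k + 1, n => by
      have ih := back_run u out Y g p q a k (n + 1)
      have hb : RT (.seq (.pop 2) (.push 7 true))
          (W u out (List.replicate (k + 1) true) Y n g p q a)
          (W u out (List.replicate k true) Y (n + 1) g p q a) 3 := by
        rw [List.replicate_succ]
        exact (RT.pop (d2 ..)).seq (RT.push (u7 ..))
      have h := RT.loopN (σ := 2)
        (s := W u out (List.replicate (k + 1) true) Y n g p q a) (by simp [W]) hb ih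
      rw [show n + 1 + k = n + (k + 1) by omega] at h
      exact h.mono (by omega)

theorem cp10_run (u out : List Bool) (Y n g p : ℕ) :
    RT (cp 10) (W u out [] Y n g p 0 0) (W u out [] Y n g p n 0) (10 * n + 3) := by
  have key : ∀ m k q : ℕ, RT (.loop 7 (cpB 10)) (W u out (List.replicate k true) Y m g p q 0)
      (W u out (List.replicate (k + m) true) Y 0 g p (q + m) 0) (6 * m + 1) := by
    intro m
    induction m with
    | zero =>
      intro k q
      simpa using RT.loopE (σ := 7) (s := W u out (List.replicate k true) Y 0 g p q 0) rfl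
    | succ m ih =>
      intro k q
      have hb : RT (cpB 10) (W u out (List.replicate k true) Y (m + 1) g p q 0)
          (W u out (List.replicate (k + 1) true) Y m g p (q + 1) 0) 5 := by
        rw [List.replicate_succ]
        exact (RT.pop (d7 ..)).seq ((RT.push (u2 ..)).seq (RT.push (u10 ..)))
      have h := RT.loopN (σ := 7) (s := W u out (List.replicate k true) Y (m + 1) g p q 0)
        (by simp [W]) hb (ih (k + 1) (q + 1))
      rw [show k + 1 + m = k + (m + 1) by omega, show q + 1 + m = q + (m + 1) by omega] at h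
      exact h.mono (by omega)
  have h1 := key n 0 0
  have h2 := back_run u out Y g p (0 + n) 0 (0 + n) 0
  have h := RT.seq h1 h2
  simp only [Nat.zero_add, List.replicate_zero] at h
  exact h.mono (by omega)

theorem cp9_run (u out : List Bool) (Y n g : ℕ) :
    RT (cp 9) (W u out [] Y n g 0 0 0) (W u out [] Y n g n 0 0) (10 * n + 3) := by
  have key : ∀ m k p : ℕ, RT (.loop 7 (cpB 9)) (W u out (List.replicate k true) Y m g p 0 0)
      (W u out (List.replicate (k + m) true) Y 0 g (p + m) 0 0) (6 * m + 1) := by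
    intro m
    induction m with
    | zero =>
      intro k p
      simpa using RT.loopE (σ := 7) (s := W u out (List.replicate k true) Y 0 g p 0 0) rfl
    | succ m ih =>
      intro k p
      have hb : RT (cpB 9) (W u out (List.replicate k true) Y (m + 1) g p 0 0)
          (W u out (List.replicate (k + 1) true) Y m g (p + 1) 0 0) 5 := by
        rw [List.replicate_succ]
        exact (RT.pop (d7 ..)).seq ((RT.push (u2 ..)).seq (RT.push (u9 ..)))
      have h := RT.loopN (σ := 7) (s := W u out (List.replicate k true) Y (m + 1) g p 0 0)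
        (by simp [W]) hb (ih (k + 1) (p + 1))
      rw [show k + 1 + m = k + (m + 1) by omega, show p + 1 + m = p + (m + 1) by omega] at h
      exact h.mono (by omega)
  have h1 := key n 0 0
  have h2 := back_run u out Y g (0 + n) 0 0 (0 + n) 0
  have h := RT.seq h1 h2
  simp only [Nat.zero_add, List.replicate_zero] at h
  exact h.mono (by omega)

/-! ### clearing register 11 -/

theorem clear_run (u out : List Bool) (Y n g p q : ℕ) : ∀ a : ℕ,
    RT (.loop 11 (.pop 11)) (W u out [] Y n g p q a) (W u out [] Y n g p q 0) (2 * a + 1)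
  | 0 => by simpa using RT.loopE (σ := 11) (s := W u out [] Y n g p q 0) rfl
  | a + 1 => by
      have ih := clear_run u out Y n g p q a
      have h := RT.loopN (σ := 11) (s := W u out [] Y n g p q (a + 1)) (by simp [W])
        (RT.pop (d11 ..)) ih
      exact h.mono (by omega)

/-! ### the main loops -/

/-- body of the innermost loop -/
def bodyQ (cA : Cmd) : Cmd :=
  .seq (.pop 10) (.seq cA (.seq (.ite 11 (.push 0 false) (.push 0 true) (.push 0 true))
    (.loop 11 (.pop 11))))

def rowLoop (cA : Cmd) : Cmd := .seq (cp 10) (.loop 10 (bodyQ cA))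
def bodyP (cA : Cmd) : Cmd := .seq (.pop 9) (rowLoop cA)
def sqLoop (cA : Cmd) : Cmd := .seq (cp 9) (.loop 9 (bodyP cA))

/-- `cA` evaluates `A` in time `T` for the environments `[q, p, g, n, Y]` -/
def Good (cA : Cmd) (A : Ex) (u : List Bool) (n T : ℕ) : Prop :=
  ∀ (out : List Bool) (q p g : ℕ), q < n → p < n → g < 2 →
    RT cA (envStore u out [q, p, g, n, u.length])
      (envStore u out (A.eval u [q, p, g, n, u.length] :: [q, p, g, n, u.length])) T ∧
      A.eval u [q, p, g, n, u.length] ≤ T

def fA (A : Ex) (u : List Bool) (n g p q : ℕ) : Bool :=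
  decide (A.eval u [q, p, g, n, u.length] ≠ 0)

theorem bodyQ_run {cA : Cmd} {A : Ex} {u : List Bool} {n T : ℕ} (h : Good cA A u n T)
    (out : List Bool) (g p q : ℕ) (hq : q < n) (hp : p < n) (hg : g < 2) :
    RT (bodyQ cA) (W u out [] u.length n g p (q + 1) 0)
      (W u (fA A u n g p q :: out) [] u.length n g p q 0) (3 * T + 7) := by
  obtain ⟨h1, h2⟩ := h out q p g hq hp hg
  rw [env5, env6] at h1
  set a := A.eval u [q, p, g, n, u.length] with ha
  have h3 : RT (.ite 11 (.push 0 false) (.push 0 true) (.push 0 true))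
      (W u out [] u.length n g p q a) (W u (fA A u n g p q :: out) [] u.length n g p q a) 2 := by
    by_cases ha0 : a = 0
    · have hf : fA A u n g p q = false := by simp [fA, ← ha, ha0]
      rw [hf]
      exact RT.iteE (by simp [W, ha0]) (RT.push (u0 ..))
    · have hf : fA A u n g p q = true := by simp [fA, ← ha, ha0]
      rw [hf]
      refine RT.iteT ?_ (RT.push (u0 ..))
      obtain ⟨a', ha'⟩ := Nat.exists_eq_succ_of_ne_zero ha0
      simp [W, ha', List.replicate_succ]
  have h4 := clear_run u (fA A u n g p q :: out) u.length n g p q a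
  exact ((RT.pop (d10 ..)).seq (h1.seq (h3.seq h4))).mono (by omega)

theorem drop_range_succ {n k : ℕ} (h : k < n) :
    (List.range n).drop k = k :: (List.range n).drop (k + 1) := by
  rw [List.drop_eq_getElem_cons (by simpa using h)]
  simp

theorem rowLoop_run {cA : Cmd} {A : Ex} {u : List Bool} {n T : ℕ} (h : Good cA A u n T)
    (out : List Bool) (g p : ℕ) (hp : p < n) (hg : g < 2) :
    RT (rowLoop cA) (W u out [] u.length n g p 0 0)
      (W u ((List.range n).map (fA A u n g p) ++ out) [] u.length n g p 0 0)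
      (10 * n + 3 + (n * (3 * T + 8) + 1) + 1) := by
  refine (cp10_run u out u.length n g p).seq ?_
  let S : ℕ → Store := fun k =>
    W u (((List.range n).drop k).map (fA A u n g p) ++ out) [] u.length n g p k 0
  have hS := RT.loopDown (σ := 10) (c := bodyQ cA) (T := 3 * T + 7) S rfl n (by
    intro k hk
    refine ⟨by simp [S, W], ?_⟩
    have := bodyQ_run h (((List.range n).drop (k + 1)).map (fA A u n g p) ++ out) g p k hk hp hg
    have e : fA A u n g p k :: (((List.range n).drop (k + 1)).map (fA A u n g p) ++ out) =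
        ((List.range n).drop k).map (fA A u n g p) ++ out := by
      rw [drop_range_succ hk]; rfl
    rw [e] at this
    exact this)
  have e1 : S n = W u out [] u.length n g p n 0 := by
    simp [S, List.drop_eq_nil_of_le]
  have e2 : S 0 = W u ((List.range n).map (fA A u n g p) ++ out) [] u.length n g p 0 0 := by
    simp [S]
  rw [e1, e2] at hS
  exact hS

theorem sqLoop_run {cA : Cmd} {A : Ex} {u : List Bool} {n T : ℕ} (h : Good cA A u n T)
    (out : List Bool) (g : ℕ) (hg : g < 2) :
    RT (sqLoop cA) (W u out [] u.length n g 0 0 0)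
      (W u ((List.range n).flatMap (fun p => (List.range n).map (fA A u n g p)) ++ out) []
        u.length n g 0 0 0)
      (10 * n + 3 + (n * (1 + (10 * n + 3 + (n * (3 * T + 8) + 1) + 1) + 1 + 1) + 1) + 1) := by
  refine (cp9_run u out u.length n g).seq ?_
  let S : ℕ → Store := fun k =>
    W u (((List.range n).drop k).flatMap (fun p => (List.range n).map (fA A u n g p)) ++ out) []
      u.length n g k 0 0
  have hS := RT.loopDown (σ := 9) (c := bodyP cA)
    (T := 1 + (10 * n + 3 + (n * (3 * T + 8) + 1) + 1) + 1) S rfl n (by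
    intro k hk
    refine ⟨by simp [S, W], ?_⟩
    have h1 := rowLoop_run h (((List.range n).drop (k + 1)).flatMap
      (fun p => (List.range n).map (fA A u n g p)) ++ out) g k hk hg
    have e : (List.range n).map (fA A u n g k) ++ (((List.range n).drop (k + 1)).flatMap
        (fun p => (List.range n).map (fA A u n g p)) ++ out) =
        ((List.range n).drop k).flatMap (fun p => (List.range n).map (fA A u n g p)) ++ out := by
      rw [drop_range_succ hk, List.flatMap_cons, List.append_assoc]
    rw [e] at h1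
    exact (RT.pop (d9 ..)).seq h1)
  have e1 : S n = W u out [] u.length n g n 0 0 := by
    simp [S, List.drop_eq_nil_of_le]
  have e2 : S 0 = W u ((List.range n).flatMap (fun p => (List.range n).map (fA A u n g p)) ++ out)
      [] u.length n g 0 0 0 := by
    simp [S]
  rw [e1, e2] at hS
  exact hS

/-- the whole program -/
def gen (cN cA : Cmd) : Cmd :=
  .seq (.seq len1 len2) (.seq cN (.seq (.push 8 true) (.seq (sqLoop cA)
    (.seq (.pop 8) (sqLoop cA)))))

theorem gen_run {cN cA : Cmd} {N A : Ex} {u : List Bool} {T TN : ℕ}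
    (hN : RT cN (envStore u [] [u.length]) (envStore u [] (N.eval u [u.length] :: [u.length])) TN)
    (h : Good cA A u (N.eval u [u.length]) T) :
    ∃ s', RT (gen cN cA) (fun r => if r = 1 then u else []) s'
      (12 * u.length + TN + 2 * (10 * (N.eval u [u.length]) + 3 +
        ((N.eval u [u.length]) * (1 + (10 * (N.eval u [u.length]) + 3 +
        ((N.eval u [u.length]) * (3 * T + 8) + 1) + 1) + 1 + 1) + 1) + 1) + 20) ∧
      s' 0 = genWord N A u := by
  set n := N.eval u [u.length] with hn
  rw [env2] at hN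
  have h0 := len_run u
  have h8 : RT (.push 8 true) (W u [] [] u.length n 0 0 0 0) (W u [] [] u.length n 1 0 0 0) 1 :=
    RT.push (u8 ..)
  have hs1 := sqLoop_run h [] 1 (by omega)
  rw [List.append_nil] at hs1
  set o1 := (List.range n).flatMap (fun p => (List.range n).map (fA A u n 1 p)) with ho1
  have h8' : RT (.pop 8) (W u o1 [] u.length n 1 0 0 0) (W u o1 [] u.length n 0 0 0 0) 1 :=
    RT.pop (d8 ..)
  have hs0 := sqLoop_run h o1 0 (by omega)
  refine ⟨_, (h0.seq (hN.seq (h8.seq (hs1.seq (h8'.seq hs0))))).mono (by omega), ?_⟩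
  have h2 : List.range 2 = [0, 1] := rfl
  show _ ++ o1 = _
  rw [genWord, ho1, h2, List.flatMap_cons, List.flatMap_cons, List.flatMap_nil, List.append_nil]
  rfl

/-! ### bounds -/

theorem eval_bound : ∀ e : Ex, ∃ K : ℕ, ∀ (u : List Bool) (env : List ℕ) (X : ℕ),
    (∀ x ∈ env, x ≤ X) → e.eval u env ≤ K * (X + 2) ^ e.vdeg := by
  intro e
  have h01 : ∀ (P : Prop) [Decidable P], (if P then 1 else 0 : ℕ) ≤ 1 := by
    intro P _; split <;> omega
  induction e with
  | var i =>
    refine ⟨1, fun u env X h => ?_⟩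
    simp only [Ex.eval, Ex.vdeg, pow_one, one_mul]
    rw [List.getD_eq_getElem?_getD]
    by_cases hi : i < env.length
    · rw [List.getElem?_eq_getElem hi, Option.getD_some]
      exact (h _ (List.getElem_mem hi)).trans (by omega)
    · rw [List.getElem?_eq_none (by omega)]
      simp
  | num c => exact ⟨c, fun u env X h => by simp [Ex.eval, Ex.vdeg]⟩
  | add a b ha hb =>
    obtain ⟨Ka, hKa⟩ := ha
    obtain ⟨Kb, hKb⟩ := hb
    refine ⟨Ka + Kb, fun u env X h => ?_⟩
    simp only [Ex.eval, Ex.vdeg]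
    have h1 := hKa u env X h
    have h2 := hKb u env X h
    have p1 : (X + 2) ^ a.vdeg ≤ (X + 2) ^ (max a.vdeg b.vdeg) :=
      Nat.pow_le_pow_right (by omega) (le_max_left _ _)
    have p2 : (X + 2) ^ b.vdeg ≤ (X + 2) ^ (max a.vdeg b.vdeg) :=
      Nat.pow_le_pow_right (by omega) (le_max_right _ _)
    calc a.eval u env + b.eval u env ≤ Ka * (X + 2) ^ a.vdeg + Kb * (X + 2) ^ b.vdeg :=
          Nat.add_le_add h1 h2
      _ ≤ Ka * (X + 2) ^ (max a.vdeg b.vdeg) + Kb * (X + 2) ^ (max a.vdeg b.vdeg) :=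
          Nat.add_le_add (Nat.mul_le_mul_left _ p1) (Nat.mul_le_mul_left _ p2)
      _ = (Ka + Kb) * (X + 2) ^ (max a.vdeg b.vdeg) := by ring
  | mul a b ha hb =>
    obtain ⟨Ka, hKa⟩ := ha
    obtain ⟨Kb, hKb⟩ := hb
    refine ⟨Ka * Kb, fun u env X h => ?_⟩
    simp only [Ex.eval, Ex.vdeg]
    have h1 := hKa u env X h
    have h2 := hKb u env X h
    calc a.eval u env * b.eval u env ≤ (Ka * (X + 2) ^ a.vdeg) * (Kb * (X + 2) ^ b.vdeg) :=
          Nat.mul_le_mul h1 h2
      _ = Ka * Kb * (X + 2) ^ (a.vdeg + b.vdeg) := by rw [pow_add]; ring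
  | eq a b _ _ => exact ⟨1, fun u env X h => by simpa [Ex.eval, Ex.vdeg] using h01 _⟩
  | lt a b _ _ => exact ⟨1, fun u env X h => by simpa [Ex.eval, Ex.vdeg] using h01 _⟩
  | and a b _ _ => exact ⟨1, fun u env X h => by simpa [Ex.eval, Ex.vdeg] using h01 _⟩
  | or a b _ _ => exact ⟨1, fun u env X h => by simpa [Ex.eval, Ex.vdeg] using h01 _⟩
  | bit e _ => exact ⟨1, fun u env X h => by simpa [Ex.eval, Ex.vdeg] using h01 _⟩
  | ex b e _ _ => exact ⟨1, fun u env X h => by simpa [Ex.eval, Ex.vdeg] using h01 _⟩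

theorem vdeg_le_tdeg (e : Ex) : e.vdeg ≤ e.tdeg := by
  cases e <;> simp only [Ex.vdeg, Ex.tdeg] <;> omega

end GN

open GN in
theorem gn (hEX : EXStatement) : GNStatement := by
  intro N A
  obtain ⟨cN, CN, hcN⟩ := hEX N 1
  obtain ⟨cA, CA, hcA⟩ := hEX A 5
  obtain ⟨KN, hKN⟩ := eval_bound N
  obtain ⟨KA, hKA⟩ := eval_bound A
  -- constants
  set e := A.tdeg with he
  refine ⟨gen cN cA, CN + 12 + 100 * ((CA + KA + 4) * (KN + 2) ^ (e + 3)) + 30, fun u => ?_⟩
  set Z := u.length + 2 with hZ
  have hZ1 : 1 ≤ Z := by omega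
  set n := N.eval u [u.length] with hn
  have hnK : n ≤ KN * Z ^ N.vdeg := hKN u [u.length] u.length (by simp)
  set X := KN * Z ^ N.vdeg + u.length + 1 with hX
  set P := X + 2 with hP
  have hP1 : 1 ≤ P := by omega
  have hnP : n ≤ P := by omega
  set T := (CA + KA) * P ^ e with hT
  have hgood : Good cA A u n T := by
    intro out q p g hq hp hg
    have hmem : ∀ x ∈ [q, p, g, n, u.length], x ≤ X := by
      intro x hx
      simp only [List.mem_cons, List.not_mem_nil, or_false] at hx
      rcases hx with rfl | rfl | rfl | rfl | rfl <;> omega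
    constructor
    · obtain ⟨t, ht, hr⟩ := hcA u out [q, p, g, n, u.length] X rfl (by omega) hmem
      refine ⟨t, ht.trans ?_, hr⟩
      rw [hT]
      exact Nat.mul_le_mul_right _ (by omega)
    · refine (hKA u [q, p, g, n, u.length] X hmem).trans ?_
      rw [hT]
      exact Nat.mul_le_mul (by omega) (Nat.pow_le_pow_right hP1 (vdeg_le_tdeg A))
  have hNrun : RT cN (envStore u [] [u.length]) (envStore u [] (n :: [u.length]))
      (CN * Z ^ N.tdeg) := by
    obtain ⟨t, ht, hr⟩ := hcN u [] [u.length] u.length rfl le_rfl (by simp)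
    exact ⟨t, ht, hr⟩
  obtain ⟨s', ⟨t, ht, hr⟩, hs'⟩ := gen_run hNrun hgood
  refine ⟨t, ht.trans ?_, s', hr, hs'⟩
  -- numeric estimate
  rw [← hn]
  set D := (N.vdeg + 1) * (e + N.tdeg + 10) with hD
  have hPZ : P ≤ (KN + 2) * Z ^ (N.vdeg + 1) := by
    have h1 : Z ^ N.vdeg ≤ Z ^ (N.vdeg + 1) := Nat.pow_le_pow_right hZ1 (by omega)
    have h2 : Z ≤ Z ^ (N.vdeg + 1) := by
      calc Z = Z ^ 1 := (pow_one _).symm
        _ ≤ Z ^ (N.vdeg + 1) := Nat.pow_le_pow_right hZ1 (by omega)
    have h3 : KN * Z ^ N.vdeg ≤ KN * Z ^ (N.vdeg + 1) := Nat.mul_le_mul_left _ h1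
    calc P = KN * Z ^ N.vdeg + (Z + 1) := by omega
      _ ≤ KN * Z ^ (N.vdeg + 1) + 2 * Z ^ (N.vdeg + 1) := by
          refine Nat.add_le_add h3 ?_
          omega
      _ = (KN + 2) * Z ^ (N.vdeg + 1) := by ring
  have hPe : P ^ (e + 3) ≤ (KN + 2) ^ (e + 3) * Z ^ D := by
    calc P ^ (e + 3) ≤ ((KN + 2) * Z ^ (N.vdeg + 1)) ^ (e + 3) := Nat.pow_le_pow_left hPZ _
      _ = (KN + 2) ^ (e + 3) * Z ^ ((N.vdeg + 1) * (e + 3)) := by rw [mul_pow, ← pow_mul]
      _ ≤ (KN + 2) ^ (e + 3) * Z ^ D := by
          refine Nat.mul_le_mul_left _ (Nat.pow_le_pow_right hZ1 ?_)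
          exact Nat.mul_le_mul_left _ (by omega)
  have hZt : Z ^ N.tdeg ≤ Z ^ D := by
    refine Nat.pow_le_pow_right hZ1 ?_
    have : 1 * (e + N.tdeg + 10) ≤ (N.vdeg + 1) * (e + N.tdeg + 10) :=
      Nat.mul_le_mul_right _ (by omega)
    omega
  have hZ1D : Z ≤ Z ^ D := by
    calc Z = Z ^ 1 := (pow_one _).symm
      _ ≤ Z ^ D := by
        refine Nat.pow_le_pow_right hZ1 ?_
        have : 1 * (e + N.tdeg + 10) ≤ (N.vdeg + 1) * (e + N.tdeg + 10) :=
          Nat.mul_le_mul_right _ (by omega)
        omega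
  -- the loops
  have hPe0 : 1 ≤ P ^ e := Nat.one_le_pow _ _ hP1
  set c := CA + KA + 4 with hc
  have hT8 : 3 * T + 8 ≤ 5 * (c * P ^ e) := by
    have : T + 4 * P ^ e = c * P ^ e := by rw [hT, hc]; ring
    have h2 : c * P ^ e ≥ T + 4 * P ^ e := this.le
    omega
  have hce : 1 ≤ c * P ^ e := Nat.one_le_iff_ne_zero.mpr (by positivity)
  set R := c * P ^ e with hR
  have hRR : ∀ k : ℕ, R * P ^ k ≤ R * P ^ 3 ∨ 3 < k := by
    intro k
    by_cases hk : k ≤ 3
    · exact Or.inl (Nat.mul_le_mul_left _ (Nat.pow_le_pow_right hP1 hk))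
    · exact Or.inr (by omega)
  have hinner : 10 * n + 3 + (n * (3 * T + 8) + 1) + 1 ≤ 20 * (R * P) := by
    have a1 : n * (3 * T + 8) ≤ P * (5 * R) := Nat.mul_le_mul hnP hT8
    have a2 : P ≤ R * P := Nat.le_mul_of_pos_left _ (by omega)
    have a3 : 1 ≤ R * P := Nat.one_le_iff_ne_zero.mpr (by positivity)
    have a4 : P * (5 * R) = 5 * (R * P) := by ring
    omega
  have houter : 10 * n + 3 + (n * (1 + (10 * n + 3 + (n * (3 * T + 8) + 1) + 1) + 1 + 1) + 1) + 1
      ≤ 40 * (R * P ^ 2) := by
    have b1 : n * (1 + (10 * n + 3 + (n * (3 * T + 8) + 1) + 1) + 1 + 1) ≤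
        P * (23 * (R * P)) := by
      refine Nat.mul_le_mul hnP ?_
      have a3 : 1 ≤ R * P := Nat.one_le_iff_ne_zero.mpr (by positivity)
      omega
    have b2 : P * (23 * (R * P)) = 23 * (R * P ^ 2) := by ring
    have b3 : P ≤ R * P ^ 2 := by
      calc P = 1 * P * 1 := by ring
        _ ≤ R * P * P := Nat.mul_le_mul (Nat.mul_le_mul_right _ hce) hP1
        _ = R * P ^ 2 := by ring
    omega
  have hfin : R * P ^ 2 ≤ (c * (KN + 2) ^ (e + 3)) * Z ^ D := by
    calc R * P ^ 2 ≤ R * P ^ 3 := Nat.mul_le_mul_left _ (Nat.pow_le_pow_right hP1 (by omega))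
      _ = c * P ^ (e + 3) := by rw [hR, pow_add]; ring
      _ ≤ c * ((KN + 2) ^ (e + 3) * Z ^ D) := Nat.mul_le_mul_left _ hPe
      _ = (c * (KN + 2) ^ (e + 3)) * Z ^ D := by ring
  have hCN : CN * Z ^ N.tdeg ≤ CN * Z ^ D := Nat.mul_le_mul_left _ hZt
  have hZD1 : 1 ≤ Z ^ D := Nat.one_le_pow _ _ hZ1
  calc 12 * u.length + CN * Z ^ N.tdeg + 2 * (10 * n + 3 +
        (n * (1 + (10 * n + 3 + (n * (3 * T + 8) + 1) + 1) + 1 + 1) + 1) + 1) + 20
      ≤ 12 * Z ^ D + CN * Z ^ D + 2 * (40 * ((c * (KN + 2) ^ (e + 3)) * Z ^ D)) + 20 * Z ^ D := by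
        have := Nat.mul_le_mul_left 40 hfin
        omega
    _ ≤ (CN + 12 + 100 * (c * (KN + 2) ^ (e + 3)) + 30) * Z ^ D := by
        have e1 : (CN + 12 + 100 * (c * (KN + 2) ^ (e + 3)) + 30) * Z ^ D =
          12 * Z ^ D + CN * Z ^ D + 100 * ((c * (KN + 2) ^ (e + 3)) * Z ^ D) + 30 * Z ^ D := by
          ring
        rw [e1]
        omega

end P310
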