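import Vale.Agent.P310.Horn

/-!
# Module HC: a Horn derivation gives a narrow XOR derivation
-/

namespace P310

namespace XSys

variable (S : XSys)

namespace HC

theorem mem_fsupp (f : S.Var → ZMod 2) (v : S.Var) : v ∈ S.fsupp f ↔ f v ≠ 0 := by
  simp [fsupp]

theorem fsupp_add (f g : S.Var → ZMod 2) : S.fsupp (f + g) ⊆ S.fsupp f ∪ S.fsupp g := by
  intro v hv
  rw [mem_fsupp] at hv
  rw [Finset.mem_union, mem_fsupp, mem_fsupp]
  by_contra h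
  push Not at h
  exact hv (by simp [h.1, h.2])

theorem fsupp_sum {ι : Type} (s : Finset ι) (f : ι → S.Var → ZMod 2) :
    S.fsupp (∑ i ∈ s, f i) ⊆ s.biUnion fun i => S.fsupp (f i) := by
  intro v hv
  rw [mem_fsupp, Finset.sum_apply] at hv
  obtain ⟨i, hi, h⟩ := Finset.exists_ne_zero_of_sum_ne_zero hv
  exact Finset.mem_biUnion.2 ⟨i, hi, (mem_fsupp S _ _).2 h⟩

theorem card_sum_le {ι : Type} [Fintype ι] (f : ι → S.Var → ZMod 2) (n : ℕ)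
    (h : ∀ i, (S.fsupp (f i)).card ≤ n) :
    (S.fsupp (∑ i, f i)).card ≤ Fintype.card ι * n :=
  le_trans (Finset.card_le_card (fsupp_sum S _ _))
    (by simpa using Finset.card_biUnion_le_card_mul Finset.univ _ n fun i _ => h i)

theorem form_add_self (f : S.Form) : f + f = 0 := by
  ext
  · exact CharTwo.add_self_eq_zero _
  · exact CharTwo.add_self_eq_zero _

theorem cancel (w : ℕ) (f g : S.Form) (h : S.Derv w (f + g)) (hg : S.Derv w g)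
    (hc : (S.fsupp f.1 ∪ S.fsupp g.1).card ≤ w) : S.Derv w f := by
  have e : f = f + g + g := by rw [add_assoc, form_add_self, add_zero]
  rw [e]
  refine Derv.add _ _ h hg (le_trans (Finset.card_le_card ?_) hc)
  exact Finset.union_subset (fsupp_add S _ _) Finset.subset_union_right

/-- adding the equations one by one -/
theorem exchange {ι : Type} [Fintype ι] [DecidableEq ι] (w : ℕ) (A G : ι → S.Form)
    (hw : 3 * Fintype.card ι + 4 ≤ w)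
    (hA : ∀ i, (S.fsupp (A i).1).card ≤ 1) (hG : ∀ i, (S.fsupp (G i).1).card ≤ 3)
    (hE : ∀ i, S.Derv w (A i + G i)) (h0 : S.Derv w (∑ i, A i)) : S.Derv w (∑ i, G i) := by
  have key : ∀ T : Finset ι, S.Derv w (∑ i, if i ∈ T then G i else A i) := by
    intro T
    induction T using Finset.induction_on with
    | empty => simpa using h0
    | insert a T ha ih =>
      have e : (∑ i, if i ∈ insert a T then G i else A i) =
          (∑ i, if i ∈ T then G i else A i) + (A a + G a) := by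
        rw [← Finset.add_sum_erase _ _ (Finset.mem_univ a),
          ← Finset.add_sum_erase (Finset.univ) (fun i => if i ∈ T then G i else A i)
            (Finset.mem_univ a)]
        rw [if_pos (Finset.mem_insert_self a T)]
        simp only [if_neg ha]
        have : ∑ i ∈ Finset.univ.erase a, (if i ∈ insert a T then G i else A i) =
            ∑ i ∈ Finset.univ.erase a, (if i ∈ T then G i else A i) := by
          refine Finset.sum_congr rfl fun i hi => ?_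
          have hne : i ≠ a := (Finset.mem_erase.1 hi).1
          simp [Finset.mem_insert, hne]
        rw [this]
        have h2 : A a + A a = 0 := form_add_self S _
        calc G a + ∑ i ∈ Finset.univ.erase a, (if i ∈ T then G i else A i)
            = (A a + A a) + (G a + ∑ i ∈ Finset.univ.erase a, (if i ∈ T then G i else A i)) := by
              rw [h2, zero_add]
          _ = A a + ∑ i ∈ Finset.univ.erase a, (if i ∈ T then G i else A i) + (A a + G a) := by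
              abel
      rw [e]
      refine Derv.add _ _ ih (hE a) (le_trans (Finset.card_union_le _ _) (le_trans ?_ hw))
      have h1 : (S.fsupp (∑ i, if i ∈ T then G i else A i).1).card ≤ Fintype.card ι * 3 := by
        rw [Prod.fst_sum]
        refine card_sum_le S _ 3 fun i => ?_
        split_ifs
        · exact hG i
        · exact le_trans (hA i) (by norm_num)
      have h2 : (S.fsupp (A a + G a).1).card ≤ 4 := by
        refine le_trans (Finset.card_le_card (fsupp_add S _ _)) ?_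
        refine le_trans (Finset.card_union_le _ _) ?_
        have := hA a
        have := hG a
        omega
      omega
  simpa using key Finset.univ

end HC

end XSys

namespace Horn

variable (𝓗 : Horn) (P : Par)

namespace HC

/-- at most one variable -/
def Thin (f : 𝓗.Var P → ZMod 2) : Prop := ∃ T : Finset (𝓗.Var P), T.card ≤ 1 ∧ ∀ u, u ∉ T → f u = 0

theorem thin_sg (v : 𝓗.Var P) : Thin 𝓗 P (𝓗.sg P v) := by
  refine ⟨{v}, by simp, fun u hu => ?_⟩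
  rw [Finset.mem_singleton] at hu
  unfold sg
  exact Pi.single_eq_of_ne hu 1

theorem thin_zero : Thin 𝓗 P 0 := ⟨∅, by simp, fun u _ => rfl⟩

theorem thin_smul (c : ZMod 2) (f : 𝓗.Var P → ZMod 2) (h : Thin 𝓗 P f) : Thin 𝓗 P (c • f) := by
  obtain ⟨T, hT, hf⟩ := h
  exact ⟨T, hT, fun u hu => by simp [hf u hu]⟩

theorem card_thin (f : (𝓗.xsys P).Var → ZMod 2) (h : Thin 𝓗 P f) :
    ((𝓗.xsys P).fsupp f).card ≤ 1 := by
  obtain ⟨T, hT, hf⟩ := h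
  refine le_trans (Finset.card_le_card (t := T) ?_) hT
  intro u hu
  by_contra hne
  exact (XSys.HC.mem_fsupp (𝓗.xsys P) f u).1 hu (hf u hne)

/-- typed versions of the forms -/
def PV (ρ : 𝓗.R) (l s : Fin P.m) (b : P.Pt) : (𝓗.xsys P).Var → ZMod 2 := 𝓗.prev P ρ l s b
def NX (ρ : 𝓗.R) (l s : Fin P.m) (b : P.Pt) : (𝓗.xsys P).Var → ZMod 2 := 𝓗.next P ρ l s b
def KY (ρ : 𝓗.R) (q : Fin 2) (l s : Fin P.m) (b : P.Pt) : (𝓗.xsys P).Var → ZMod 2 :=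
  𝓗.key P ρ q l s b
def SG (v : 𝓗.Var P) : (𝓗.xsys P).Var → ZMod 2 := 𝓗.sg P v
def FA (x : 𝓗.X) (j : Fin P.m) (g : ℤ × ℤ) : (𝓗.xsys P).Var → ZMod 2 :=
  ∑ i : Fin P.κ, SG 𝓗 P (𝓗.bank P x j (P.pt i g))

theorem card_SG (v : 𝓗.Var P) : ((𝓗.xsys P).fsupp (SG 𝓗 P v)).card ≤ 1 :=
  card_thin 𝓗 P _ (thin_sg 𝓗 P v)

theorem card_PV (ρ : 𝓗.R) (l s : Fin P.m) (b : P.Pt) :
    ((𝓗.xsys P).fsupp (PV 𝓗 P ρ l s b)).card ≤ 1 := by
  refine card_thin 𝓗 P _ ?_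
  unfold PV prev
  split_ifs
  · exact thin_sg 𝓗 P _
  · exact thin_zero 𝓗 P

theorem card_NX (ρ : 𝓗.R) (l s : Fin P.m) (b : P.Pt) :
    ((𝓗.xsys P).fsupp (NX 𝓗 P ρ l s b)).card ≤ 1 := by
  refine card_thin 𝓗 P _ ?_
  unfold NX next
  split_ifs
  · exact thin_sg 𝓗 P _
  · split
    · exact thin_sg 𝓗 P _
    · exact thin_zero 𝓗 P

theorem card_KY (ρ : 𝓗.R) (q : Fin 2) (l s : Fin P.m) (b : P.Pt) :
    ((𝓗.xsys P).fsupp (KY 𝓗 P ρ q l s b)).card ≤ 1 := by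
  refine card_thin 𝓗 P _ ?_
  unfold KY key
  split
  · exact thin_smul 𝓗 P _ _ (thin_sg 𝓗 P _)
  · exact thin_zero 𝓗 P

theorem KY_some (ρ : 𝓗.R) (q : Fin 2) (l s : Fin P.m) (b : P.Pt) (x : 𝓗.X) (h : ℤ × ℤ)
    (hp : 𝓗.pr ρ q = some (x, h)) :
    KY 𝓗 P ρ q l s b = P.M (𝓗.ty ρ) l s • SG 𝓗 P (𝓗.bank P x s (P.tr b h)) := by
  have : 𝓗.key P ρ q l s b = P.M (𝓗.ty ρ) l s • 𝓗.sg P (𝓗.bank P x s (P.tr b h)) := by
    unfold key
    rw [hp]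
  exact this

theorem KY_none (ρ : 𝓗.R) (q : Fin 2) (l s : Fin P.m) (b : P.Pt)
    (hp : 𝓗.pr ρ q = none) : KY 𝓗 P ρ q l s b = 0 := by
  have : 𝓗.key P ρ q l s b = 0 := by
    unfold key
    rw [hp]
  exact this

theorem PV_zero (ρ : 𝓗.R) (l s : Fin P.m) (b : P.Pt) (h : s.val = 0) : PV 𝓗 P ρ l s b = 0 := by
  have : 𝓗.prev P ρ l s b = 0 := by
    unfold prev
    rw [dif_neg (by omega)]
  exact this

theorem PV_succ (ρ : 𝓗.R) (l : Fin P.m) (n : ℕ) (hn : n + 1 < P.m) (b : P.Pt) :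
    PV 𝓗 P ρ l ⟨n + 1, hn⟩ b = NX 𝓗 P ρ l ⟨n, by omega⟩ b := by
  have : 𝓗.prev P ρ l ⟨n + 1, hn⟩ b = 𝓗.next P ρ l ⟨n, by omega⟩ b := by
    unfold prev next
    rw [dif_pos (Nat.succ_pos n), if_pos hn]
    rfl
  exact this

theorem NX_some (ρ : 𝓗.R) (l s : Fin P.m) (b : P.Pt) (h : ¬ (s.val + 1 < P.m)) (y : 𝓗.X)
    (hy : 𝓗.co ρ = some y) : NX 𝓗 P ρ l s b = SG 𝓗 P (𝓗.bank P y l b) := by
  have : 𝓗.next P ρ l s b = 𝓗.sg P (𝓗.bank P y l b) := by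
    unfold next
    rw [if_neg h, hy]
  exact this

theorem NX_none (ρ : 𝓗.R) (l s : Fin P.m) (b : P.Pt) (h : ¬ (s.val + 1 < P.m))
    (hy : 𝓗.co ρ = none) : NX 𝓗 P ρ l s b = 0 := by
  have : 𝓗.next P ρ l s b = 0 := by
    unfold next
    rw [if_neg h, hy]
  exact this

theorem key_sum (ρ : 𝓗.R) (q : Fin 2) (l s : Fin P.m) (g : ℤ × ℤ) (x : 𝓗.X) (h : ℤ × ℤ)
    (hp : 𝓗.pr ρ q = some (x, h)) :
    ∑ i, KY 𝓗 P ρ q l s (P.pt i g) = P.M (𝓗.ty ρ) l s • FA 𝓗 P x s (g + h) := by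
  unfold FA
  rw [Finset.smul_sum]
  refine Finset.sum_congr rfl fun i _ => ?_
  rw [KY_some 𝓗 P ρ q l s _ x h hp, Par.tr_pt]

/-- sums of keys are derivable from the premises -/
theorem derv_key (w : ℕ) (ρ : 𝓗.R) (q : Fin 2) (l s : Fin P.m) (g : ℤ × ℤ)
    (hf : ∀ x h, 𝓗.pr ρ q = some (x, h) → (𝓗.xsys P).Derv w (FA 𝓗 P x s (g + h), 0)) :
    (𝓗.xsys P).Derv w (∑ i, KY 𝓗 P ρ q l s (P.pt i g), 0) := by
  rcases hp : 𝓗.pr ρ q with _ | ⟨x, h⟩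
  · have : ∑ i, KY 𝓗 P ρ q l s (P.pt i g) = 0 :=
      Finset.sum_eq_zero fun i _ => KY_none 𝓗 P ρ q l s _ hp
    rw [this]
    exact XSys.Derv.zero
  · rw [key_sum 𝓗 P ρ q l s g x h hp]
    have h2 : ∀ c : ZMod 2, c = 0 ∨ c = 1 := by decide
    rcases h2 (P.M (𝓗.ty ρ) l s) with h0 | h1
    · rw [h0, zero_smul]
      exact XSys.Derv.zero
    · rw [h1, one_smul]
      exact hf x h hp

/-- the constant of an equation -/
def cst (ρ : 𝓗.R) (s : Fin P.m) (b : P.Pt) : ZMod 2 := if 𝓗.isTw P ρ s b then 1 else 0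

theorem con_fst (ρ : 𝓗.R) (l s : Fin P.m) (b : P.Pt) :
    (𝓗.xsys P).form (Sum.inl (ρ, l, s, b)) = PV 𝓗 P ρ l s b +
        (NX 𝓗 P ρ l s b + KY 𝓗 P ρ 0 l s b + KY 𝓗 P ρ 1 l s b) := by
  have : (𝓗.xsys P).form (Sum.inl (ρ, l, s, b)) =
    PV 𝓗 P ρ l s b + NX 𝓗 P ρ l s b + KY 𝓗 P ρ 0 l s b + KY 𝓗 P ρ 1 l s b := rfl
  rw [this]
  abel

theorem con_eq (ρ : 𝓗.R) (l s : Fin P.m) (b : P.Pt) :
    (𝓗.xsys P).con (Sum.inl (ρ, l, s, b)) =
      ((PV 𝓗 P ρ l s b, 0) : (𝓗.xsys P).Form) +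
        (NX 𝓗 P ρ l s b + KY 𝓗 P ρ 0 l s b + KY 𝓗 P ρ 1 l s b, cst 𝓗 P ρ s b) := by
  refine Prod.ext ?_ ?_
  · exact con_fst 𝓗 P ρ l s b
  · have h : (if (𝓗.ctw P (Sum.inl (ρ, l, s, b))).isSome = true then (1 : ZMod 2) else 0) =
        0 + cst 𝓗 P ρ s b := by
      unfold cst
      rw [zero_add]
      by_cases ht : 𝓗.isTw P ρ s b
      · have h2 : (𝓗.ctw P (Sum.inl (ρ, l, s, b))).isSome = true := by
          simp only [ctw]
          rw [dif_pos ht]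
          rfl
        rw [if_pos h2, if_pos ht]
      · have h2 : ¬ (𝓗.ctw P (Sum.inl (ρ, l, s, b))).isSome = true := by
          simp only [ctw]
          rw [dif_neg ht]
          simp
        rw [if_neg h2, if_neg ht]
    exact h

/-- one step: from `∑ prev` to `∑ next` -/
theorem step (w : ℕ) (hw : 3 * P.κ + 4 ≤ w) (ρ : 𝓗.R) (l s : Fin P.m) (g : ℤ × ℤ)
    (hf : ∀ q x h, 𝓗.pr ρ q = some (x, h) → (𝓗.xsys P).Derv w (FA 𝓗 P x s (g + h), 0))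
    (h0 : (𝓗.xsys P).Derv w (∑ i, PV 𝓗 P ρ l s (P.pt i g), 0)) :
    (𝓗.xsys P).Derv w (∑ i, NX 𝓗 P ρ l s (P.pt i g), ∑ i, cst 𝓗 P ρ s (P.pt i g)) := by
  have hG3 : ∀ b : P.Pt, ((𝓗.xsys P).fsupp
      (NX 𝓗 P ρ l s b + KY 𝓗 P ρ 0 l s b + KY 𝓗 P ρ 1 l s b)).card ≤ 3 := by
    intro b
    have h1 := card_NX 𝓗 P ρ l s b
    have h2 := card_KY 𝓗 P ρ 0 l s b
    have h3 := card_KY 𝓗 P ρ 1 l s b
    have h4 := Finset.card_le_card (XSys.HC.fsupp_add (𝓗.xsys P)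
      (NX 𝓗 P ρ l s b + KY 𝓗 P ρ 0 l s b) (KY 𝓗 P ρ 1 l s b))
    have h5 := Finset.card_le_card (XSys.HC.fsupp_add (𝓗.xsys P)
      (NX 𝓗 P ρ l s b) (KY 𝓗 P ρ 0 l s b))
    have h6 := Finset.card_union_le ((𝓗.xsys P).fsupp (NX 𝓗 P ρ l s b + KY 𝓗 P ρ 0 l s b))
      ((𝓗.xsys P).fsupp (KY 𝓗 P ρ 1 l s b))
    have h7 := Finset.card_union_le ((𝓗.xsys P).fsupp (NX 𝓗 P ρ l s b))
      ((𝓗.xsys P).fsupp (KY 𝓗 P ρ 0 l s b))
    omega
  have hG2 : ∀ b : P.Pt, ((𝓗.xsys P).fsupp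
      (NX 𝓗 P ρ l s b + KY 𝓗 P ρ 1 l s b)).card ≤ 2 := by
    intro b
    have h1 := card_NX 𝓗 P ρ l s b
    have h3 := card_KY 𝓗 P ρ 1 l s b
    have h5 := Finset.card_le_card (XSys.HC.fsupp_add (𝓗.xsys P)
      (NX 𝓗 P ρ l s b) (KY 𝓗 P ρ 1 l s b))
    have h7 := Finset.card_union_le ((𝓗.xsys P).fsupp (NX 𝓗 P ρ l s b))
      ((𝓗.xsys P).fsupp (KY 𝓗 P ρ 1 l s b))
    omega
  have hE : ∀ i : Fin P.κ, (𝓗.xsys P).Derv w
      (((PV 𝓗 P ρ l s (P.pt i g), 0) : (𝓗.xsys P).Form) +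
        (NX 𝓗 P ρ l s (P.pt i g) + KY 𝓗 P ρ 0 l s (P.pt i g) + KY 𝓗 P ρ 1 l s (P.pt i g),
          cst 𝓗 P ρ s (P.pt i g))) := by
    intro i
    rw [← con_eq 𝓗 P ρ l s (P.pt i g)]
    refine XSys.Derv.ax _ ?_
    rw [con_fst]
    have h1 := Finset.card_le_card (XSys.HC.fsupp_add (𝓗.xsys P) (PV 𝓗 P ρ l s (P.pt i g))
      (NX 𝓗 P ρ l s (P.pt i g) + KY 𝓗 P ρ 0 l s (P.pt i g) + KY 𝓗 P ρ 1 l s (P.pt i g)))
    have h2 := Finset.card_union_le ((𝓗.xsys P).fsupp (PV 𝓗 P ρ l s (P.pt i g)))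
      ((𝓗.xsys P).fsupp (NX 𝓗 P ρ l s (P.pt i g) + KY 𝓗 P ρ 0 l s (P.pt i g) +
        KY 𝓗 P ρ 1 l s (P.pt i g)))
    have h3 := hG3 (P.pt i g)
    have h4 := card_PV 𝓗 P ρ l s (P.pt i g)
    omega
  -- the sum of all equations
  have hA : (𝓗.xsys P).Derv w (∑ i : Fin P.κ, ((PV 𝓗 P ρ l s (P.pt i g), 0) :
      (𝓗.xsys P).Form)) := by
    have e : (∑ i : Fin P.κ, ((PV 𝓗 P ρ l s (P.pt i g), 0) : (𝓗.xsys P).Form)) =
        (∑ i, PV 𝓗 P ρ l s (P.pt i g), 0) := by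
      refine Prod.ext ?_ ?_
      · rw [Prod.fst_sum]
      · rw [Prod.snd_sum]
        simp
    rw [e]
    exact h0
  have h1 := XSys.HC.exchange (𝓗.xsys P) w
    (fun i : Fin P.κ => ((PV 𝓗 P ρ l s (P.pt i g), 0) : (𝓗.xsys P).Form))
    (fun i : Fin P.κ => ((NX 𝓗 P ρ l s (P.pt i g) + KY 𝓗 P ρ 0 l s (P.pt i g) +
        KY 𝓗 P ρ 1 l s (P.pt i g), cst 𝓗 P ρ s (P.pt i g)) : (𝓗.xsys P).Form))
    (by simpa using hw) (fun i => card_PV 𝓗 P ρ l s (P.pt i g)) (fun i => hG3 (P.pt i g)) hE hA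
  -- remove the keys
  have e1 : (∑ i : Fin P.κ, ((NX 𝓗 P ρ l s (P.pt i g) + KY 𝓗 P ρ 0 l s (P.pt i g) +
        KY 𝓗 P ρ 1 l s (P.pt i g), cst 𝓗 P ρ s (P.pt i g)) : (𝓗.xsys P).Form)) =
      ((∑ i, (NX 𝓗 P ρ l s (P.pt i g) + KY 𝓗 P ρ 1 l s (P.pt i g)),
        ∑ i, cst 𝓗 P ρ s (P.pt i g)) : (𝓗.xsys P).Form) +
      (∑ i, KY 𝓗 P ρ 0 l s (P.pt i g), 0) := by
    refine Prod.ext ?_ ?_
    · rw [Prod.fst_sum, Prod.fst_add, ← Finset.sum_add_distrib]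
      refine Finset.sum_congr rfl fun i _ => ?_
      change NX 𝓗 P ρ l s (P.pt i g) + KY 𝓗 P ρ 0 l s (P.pt i g) +
        KY 𝓗 P ρ 1 l s (P.pt i g) = NX 𝓗 P ρ l s (P.pt i g) + KY 𝓗 P ρ 1 l s (P.pt i g) +
        KY 𝓗 P ρ 0 l s (P.pt i g)
      abel
    · rw [Prod.snd_sum, Prod.snd_add, add_zero]
  rw [e1] at h1
  have c2 : ((𝓗.xsys P).fsupp (∑ i, (NX 𝓗 P ρ l s (P.pt i g) +
      KY 𝓗 P ρ 1 l s (P.pt i g)))).card ≤ P.κ * 2 := by
    simpa using XSys.HC.card_sum_le (𝓗.xsys P) (fun i : Fin P.κ => NX 𝓗 P ρ l s (P.pt i g) +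
      KY 𝓗 P ρ 1 l s (P.pt i g)) 2 (fun i => hG2 (P.pt i g))
  have ck : ∀ q : Fin 2, ((𝓗.xsys P).fsupp (∑ i, KY 𝓗 P ρ q l s (P.pt i g))).card ≤
      P.κ * 1 := by
    intro q
    simpa using XSys.HC.card_sum_le (𝓗.xsys P) (fun i : Fin P.κ => KY 𝓗 P ρ q l s (P.pt i g)) 1
      (fun i => card_KY 𝓗 P ρ q l s (P.pt i g))
  have cn : ((𝓗.xsys P).fsupp (∑ i, NX 𝓗 P ρ l s (P.pt i g))).card ≤ P.κ * 1 := by
    simpa using XSys.HC.card_sum_le (𝓗.xsys P) (fun i : Fin P.κ => NX 𝓗 P ρ l s (P.pt i g)) 1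
      (fun i => card_NX 𝓗 P ρ l s (P.pt i g))
  have h2 := XSys.HC.cancel (𝓗.xsys P) w _ _ h1
    (derv_key 𝓗 P w ρ 0 l s g fun x h hp => hf 0 x h hp) (by
      refine le_trans (Finset.card_union_le _ _) ?_
      have := ck 0
      dsimp only
      omega)
  have e2 : ((∑ i, (NX 𝓗 P ρ l s (P.pt i g) + KY 𝓗 P ρ 1 l s (P.pt i g)),
        ∑ i, cst 𝓗 P ρ s (P.pt i g)) : (𝓗.xsys P).Form) =
      ((∑ i, NX 𝓗 P ρ l s (P.pt i g), ∑ i, cst 𝓗 P ρ s (P.pt i g)) : (𝓗.xsys P).Form) +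
      (∑ i, KY 𝓗 P ρ 1 l s (P.pt i g), 0) := by
    refine Prod.ext ?_ ?_
    · rw [Prod.fst_add, ← Finset.sum_add_distrib]
    · rw [Prod.snd_add, add_zero]
  rw [e2] at h2
  exact XSys.HC.cancel (𝓗.xsys P) w _ _ h2
    (derv_key 𝓗 P w ρ 1 l s g fun x h hp => hf 1 x h hp) (by
      refine le_trans (Finset.card_union_le _ _) ?_
      have := ck 1
      dsimp only
      omega)

theorem cst_zero (ρ : 𝓗.R) (s : Fin P.m) (b : P.Pt) (h : ¬ (𝓗.co ρ = none ∧ s.val + 1 = P.m)) :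
    cst 𝓗 P ρ s b = 0 := by
  unfold cst
  rw [if_neg]
  unfold isTw
  tauto

/-- all prefix sums -/
theorem chain (w : ℕ) (hw : 3 * P.κ + 4 ≤ w) (ρ : 𝓗.R) (l : Fin P.m) (g : ℤ × ℤ)
    (hf : ∀ q x h s, 𝓗.pr ρ q = some (x, h) → (𝓗.xsys P).Derv w (FA 𝓗 P x s (g + h), 0)) :
    ∀ (n : ℕ) (hn : n < P.m), (𝓗.xsys P).Derv w (∑ i, NX 𝓗 P ρ l ⟨n, hn⟩ (P.pt i g),
      ∑ i, cst 𝓗 P ρ ⟨n, hn⟩ (P.pt i g)) := by
  intro n
  induction n with
  | zero =>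
    intro hn
    refine step 𝓗 P w hw ρ l ⟨0, hn⟩ g (fun q x h hp => hf q x h _ hp) ?_
    have : (∑ i, PV 𝓗 P ρ l ⟨0, hn⟩ (P.pt i g)) = 0 :=
      Finset.sum_eq_zero fun i _ => PV_zero 𝓗 P ρ l _ _ rfl
    rw [this]
    exact XSys.Derv.zero
  | succ n ih =>
    intro hn
    refine step 𝓗 P w hw ρ l ⟨n + 1, hn⟩ g (fun q x h hp => hf q x h _ hp) ?_
    have h1 := ih (by omega)
    have e1 : (∑ i, PV 𝓗 P ρ l ⟨n + 1, hn⟩ (P.pt i g)) =
        ∑ i, NX 𝓗 P ρ l ⟨n, by omega⟩ (P.pt i g) :=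
      Finset.sum_congr rfl fun i _ => PV_succ 𝓗 P ρ l n hn _
    have e2 : (∑ i, cst 𝓗 P ρ ⟨n, by omega⟩ (P.pt i g)) = 0 := by
      refine Finset.sum_eq_zero fun i _ => cst_zero 𝓗 P ρ _ _ ?_
      rintro ⟨_, h⟩
      have : n + 1 = P.m := h
      omega
    rw [e1, ← e2]
    exact h1

theorem derv_fact (w : ℕ) (hm : 2 ≤ P.m) (hw : 3 * P.κ + 4 ≤ w) (x : 𝓗.X) (g : ℤ × ℤ)
    (h : 𝓗.Der x g) : ∀ j, (𝓗.xsys P).Derv w (FA 𝓗 P x j g, 0) := by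
  induction h with
  | seed =>
    intro j
    have h1 : (𝓗.xsys P).con (Sum.inr j) = (FA 𝓗 P 𝓗.seed j (0, 0), 0) := by
      refine Prod.ext rfl ?_
      have h : (if (𝓗.ctw P (Sum.inr j)).isSome = true then (1 : ZMod 2) else 0) = 0 := by
        simp [ctw]
      exact h
    rw [← h1]
    refine XSys.Derv.ax _ ?_
    have h2 : (𝓗.xsys P).form (Sum.inr j) = FA 𝓗 P 𝓗.seed j (0, 0) := rfl
    rw [h2]
    unfold FA
    have := XSys.HC.card_sum_le (𝓗.xsys P)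
      (fun i : Fin P.κ => SG 𝓗 P (𝓗.bank P 𝓗.seed j (P.pt i (0, 0)))) 1
      (fun i => card_SG 𝓗 P _)
    rw [Fintype.card_fin] at this
    omega
  | rule ρ g y hy hp ih =>
    intro j
    have hlast : P.m - 1 < P.m := by omega
    have h1 := chain 𝓗 P w hw ρ j g (fun q x h s hq => ih q x h hq s) (P.m - 1) hlast
    have e1 : (∑ i, NX 𝓗 P ρ j ⟨P.m - 1, hlast⟩ (P.pt i g)) = FA 𝓗 P y j g := by
      unfold FA
      refine Finset.sum_congr rfl fun i _ => NX_some 𝓗 P ρ j _ _ ?_ y hy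
      simp only
      omega
    have e2 : (∑ i, cst 𝓗 P ρ ⟨P.m - 1, hlast⟩ (P.pt i g)) = 0 := by
      refine Finset.sum_eq_zero fun i _ => cst_zero 𝓗 P ρ _ _ ?_
      rintro ⟨h, _⟩
      rw [hy] at h
      exact absurd h (by simp)
    rw [e1, e2] at h1
    exact h1

end HC

/-- **Module HC.** -/
theorem hc : Horn.DervStatement := by
  intro 𝓗 P hm hκ hacc
  obtain ⟨ρ, g, hco, hp⟩ := hacc
  have hlast : P.m - 1 < P.m := by omega
  have h0 : 0 < P.m := by omega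
  have h1 := HC.chain 𝓗 P (3 * P.κ + 4) le_rfl ρ ⟨0, h0⟩ g
    (fun q x h s hq => HC.derv_fact 𝓗 P _ hm le_rfl x (g + h) (hp q x h hq) s) (P.m - 1) hlast
  have e1 : (∑ i, HC.NX 𝓗 P ρ ⟨0, h0⟩ ⟨P.m - 1, hlast⟩ (P.pt i g)) = 0 := by
    refine Finset.sum_eq_zero fun i _ => HC.NX_none 𝓗 P ρ _ _ _ ?_ hco
    simp only
    omega
  have e2 : (∑ i, HC.cst 𝓗 P ρ ⟨P.m - 1, hlast⟩ (P.pt i g)) = 1 := by
    rw [Finset.sum_eq_single (⟨0, hκ⟩ : Fin P.κ)]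
    · unfold HC.cst
      rw [if_pos]
      refine ⟨hco, ?_, ?_, rfl⟩
      · simp only; omega
      · simp only; omega
    · intro i _ hi
      unfold HC.cst
      rw [if_neg]
      rintro ⟨_, _, _, h⟩
      refine hi (Fin.ext ?_)
      exact h
    · intro h
      exact absurd (Finset.mem_univ _) h
  rw [e1, e2] at h1
  exact h1

end Horn

end P310
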