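import Vale.Agent.P310.HornFan

/-!
# P310 module HS: a Horn template simulating a stack machine
-/

namespace P310
namespace HSim

open Fan

/-- base relations -/
inductive BR (L S α : Type) (d : ℕ)
  | sd
  | u
  | v (j : Fin (d + 1))
  | inn
  | z0
  | p (l : L)
  | s (σ : S) (a : Option α)
  | b (σ : S) (a : Option α)

theorem br_finite (L S α : Type) (d : ℕ) [Finite L] [Finite S] [Finite α] :
    Finite (BR L S α d) := by
  let f : BR L S α d → Fin 8 × Option (Fin (d + 1)) × Option L × Option S × Option (Option α) :=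
    fun x => match x with
      | .sd => (0, none, none, none, none)
      | .u => (1, none, none, none, none)
      | .v j => (2, some j, none, none, none)
      | .inn => (3, none, none, none, none)
      | .z0 => (4, none, none, none, none)
      | .p l => (5, none, some l, none, none)
      | .s σ a => (6, none, none, some σ, some a)
      | .b σ a => (7, none, none, some σ, some a)
  refine Finite.of_injective f ?_
  intro x y h
  cases x <;> cases y <;> simp [f] at h ⊢ <;> exact h

variable {S α : Type} [DecidableEq S] (D : SM S α) (inp : S) (sym : Bool → α) (d : ℕ)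

/-- non-halting labels -/
def NH (l : D.L) : Prop := D.instr l ≠ .accept ∧ D.instr l ≠ .reject

/-- the rules -/
inductive Rl : Body (BR D.L S α d) d → Prop
  | u0 : Rl ⟨.all, .same, (.sd, .z), none, some .u⟩
  | u1 : Rl ⟨.lt, .succ, (.u, .dn), none, some .u⟩
  | v0 : Rl ⟨.last, .zero, (.u, .z), none, some (.v 0)⟩
  | vs (j : Fin d) : Rl ⟨.lt, .succ, (.v j.castSucc, .lev j), none, some (.v j.castSucc)⟩
  | vz (j : Fin d) : Rl ⟨.lt, .zero, (.v j.castSucc, .z), none, some (.v j.succ)⟩
  | inU : Rl ⟨.lt, .zero, (.u, .z), none, some .inn⟩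
  | inV : Rl ⟨.all, .same, (.v (Fin.last d), .z), none, some .inn⟩
  | inp (b : Bool) : Rl ⟨.cont b, .zero, (.u, .z), none, some (.s inp (some (sym b)))⟩
  | inpN : Rl ⟨.all, .same, (.v (Fin.last d), .z), none, some (.s inp none)⟩
  | oth (σ : S) : σ ≠ inp → Rl ⟨.all, .same, (.inn, .z), none, some (.s σ none)⟩
  | pst : Rl ⟨.all, .same, (.inn, .z), none, some (.p D.start)⟩
  | z00 : Rl ⟨.all, .same, (.sd, .z), none, some .z0⟩
  | zt (l : D.L) : NH D l → Rl ⟨.all, .same, (.z0, .tm), some (.p l, .tm), some .z0⟩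
  | pu (l : D.L) (σ : S) (a : α) (l' : D.L) : D.instr l = .push σ a l' →
      Rl ⟨.all, .same, (.p l, .tm), none, some (.p l')⟩
  | po (l : D.L) (σ : S) (l' : D.L) : D.instr l = .pop σ l' →
      Rl ⟨.all, .same, (.p l, .tm), none, some (.p l')⟩
  | pk (l : D.L) (σ : S) (f : Option α → D.L) (o : Option α) : D.instr l = .peek σ f →
      Rl ⟨.all, .same, (.p l, .tm), some (.b σ o, .tm), some (.p (f o))⟩
  | bz (σ : S) (o : Option α) : Rl ⟨.all, .same, (.s σ o, .z), some (.z0, .z), some (.b σ o)⟩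
  | bs (σ : S) (o : Option α) (l : D.L) :
      Rl ⟨.all, .same, (.b σ o, .dn), some (.p l, .z), some (.b σ o)⟩
  | sps (l : D.L) (σ : S) (a : α) (l' : D.L) (o : Option α) : D.instr l = .push σ a l' →
      Rl ⟨.all, .same, (.p l, .tm), some (.s σ o, .ps), some (.s σ o)⟩
  | top (l : D.L) (σ : S) (a : α) (l' : D.L) : D.instr l = .push σ a l' →
      Rl ⟨.all, .same, (.p l, .tm), some (.z0, .tm), some (.s σ (some a))⟩
  | spp (l : D.L) (σ : S) (l' : D.L) (o : Option α) : D.instr l = .pop σ l' →
      Rl ⟨.all, .same, (.p l, .tm), some (.s σ o, .pp), some (.s σ o)⟩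
  | keep (l : D.L) (σ : S) (o : Option α) : NH D l →
      (∀ σ' a l', D.instr l = .push σ' a l' → σ' ≠ σ) →
      (∀ σ' l', D.instr l = .pop σ' l' → σ' ≠ σ) →
      Rl ⟨.all, .same, (.p l, .tm), some (.s σ o, .tm), some (.s σ o)⟩
  | acc (l : D.L) : D.instr l = .accept → Rl ⟨.all, .same, (.p l, .z), none, none⟩

theorem rl_seed (b : Body (BR D.L S α d) d) (h : Rl D inp sym d b) : b.co ≠ some .sd := by
  cases h <;> simp

theorem rl_succ (b : Body (BR D.L S α d) d) (h : Rl D inp sym d b) (hs : b.out = .succ) :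
    b.kind = .lt := by
  cases h <;> simp_all

/-- the intended facts; `cf` the configurations of the machine, `τ` the halting time, `N` the
width -/
def Inv (Y N τ : ℕ) (cf : ℕ → D.L × (S → List α)) :
    BR D.L S α d → Fin (Y + 1) → ℤ × ℤ → Prop
  | .sd, c, g => c = 0 ∧ g = (0, 0)
  | .u, c, g => g = (0, (c.val : ℤ))
  | .v j, c, g => ∃ r : ℕ, g = (0, ((Y + r : ℕ) : ℤ)) ∧ c.val * Y ^ j.val ≤ r ∧
      r < (c.val + 1) * Y ^ j.val ∧ (j = Fin.last d → c = 0)
  | .inn, c, g => c = 0 ∧ ∃ s : ℕ, g = (0, (s : ℤ)) ∧ s < N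
  | .z0, c, g => c = 0 ∧ ∃ t : ℕ, g = ((t : ℤ), 0) ∧ t ≤ τ
  | .p l, c, g => c = 0 ∧ ∃ t s : ℕ, g = ((t : ℤ), (s : ℤ)) ∧ t ≤ τ ∧ s < N ∧ (cf t).1 = l
  | .s σ o, c, g => c = 0 ∧ ∃ t s : ℕ, g = ((t : ℤ), (s : ℤ)) ∧ t ≤ τ ∧ s < N ∧
      ((cf t).2 σ)[s]? = o
  | .b σ o, c, g => c = 0 ∧ ∃ t s : ℕ, g = ((t : ℤ), (s : ℤ)) ∧ t ≤ τ ∧ s < N ∧
      ((cf t).2 σ).head? = o

/-- the next address in time -/
theorem sh_tm {Y : ℕ} {g : ℤ × ℤ} {a b : ℤ} (h : g + (Sh.tm : Sh d).val Y = (a, b)) :
    g = (a + 1, b) := by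
  obtain ⟨x, y⟩ := g
  simp only [Sh.val, Prod.mk_add_mk, Prod.mk.injEq] at h ⊢
  omega

theorem sh_z {Y : ℕ} {g : ℤ × ℤ} {a b : ℤ} (h : g + (Sh.z : Sh d).val Y = (a, b)) :
    g = (a, b) := by
  obtain ⟨x, y⟩ := g
  simp only [Sh.val, Prod.mk_add_mk, Prod.mk.injEq] at h ⊢
  omega

theorem sh_dn {Y : ℕ} {g : ℤ × ℤ} {a b : ℤ} (h : g + (Sh.dn : Sh d).val Y = (a, b)) :
    g = (a, b + 1) := by
  obtain ⟨x, y⟩ := g
  simp only [Sh.val, Prod.mk_add_mk, Prod.mk.injEq] at h ⊢
  omega

theorem sh_ps {Y : ℕ} {g : ℤ × ℤ} {a b : ℤ} (h : g + (Sh.ps : Sh d).val Y = (a, b)) :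
    g = (a + 1, b + 1) := by
  obtain ⟨x, y⟩ := g
  simp only [Sh.val, Prod.mk_add_mk, Prod.mk.injEq] at h ⊢
  omega

theorem sh_pp {Y : ℕ} {g : ℤ × ℤ} {a b : ℤ} (h : g + (Sh.pp : Sh d).val Y = (a, b)) :
    g = (a + 1, b - 1) := by
  obtain ⟨x, y⟩ := g
  simp only [Sh.val, Prod.mk_add_mk, Prod.mk.injEq] at h ⊢
  omega

theorem sh_lev {Y : ℕ} {j : Fin d} {g : ℤ × ℤ} {a b : ℤ}
    (h : g + (Sh.lev j : Sh d).val Y = (a, b)) : g = (a, b + (Y : ℤ) ^ j.val) := by
  obtain ⟨x, y⟩ := g
  simp only [Sh.val, Prod.mk_add_mk, Prod.mk.injEq] at h ⊢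
  constructor
  · linarith [h.1]
  · linarith [h.2]

/-- the initial stacks -/
def st0 (u : List Bool) : S → List α := fun σ => if σ = inp then u.map sym else []

theorem step_push {D : SM S α} {c : D.L × (S → List α)} {σ : S} {a : α} {l' : D.L}
    (h : D.instr c.1 = .push σ a l') :
    D.step c = (l', Function.update c.2 σ (a :: c.2 σ)) := by
  unfold SM.step
  rw [h]

theorem step_pop {D : SM S α} {c : D.L × (S → List α)} {σ : S} {l' : D.L}
    (h : D.instr c.1 = .pop σ l') :
    D.step c = (l', Function.update c.2 σ (c.2 σ).tail) := by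
  unfold SM.step
  rw [h]

theorem step_peek {D : SM S α} {c : D.L × (S → List α)} {σ : S} {f : Option α → D.L}
    (h : D.instr c.1 = .peek σ f) :
    D.step c = (f (c.2 σ).head?, c.2) := by
  unfold SM.step
  rw [h]

/-- stacks which are not touched -/
theorem step_keep {D : SM S α} {c : D.L × (S → List α)} {σ : S}
    (h1 : ∀ σ' a l', D.instr c.1 = .push σ' a l' → σ' ≠ σ)
    (h2 : ∀ σ' l', D.instr c.1 = .pop σ' l' → σ' ≠ σ) : (D.step c).2 σ = c.2 σ := by
  unfold SM.step
  rcases h : D.instr c.1 with ⟨σ', a, l'⟩ | ⟨σ', l'⟩ | ⟨σ', f⟩ | _ | _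
  · simp [Function.update_of_ne (h1 _ _ _ h).symm]
  · simp [Function.update_of_ne (h2 _ _ h).symm]
  · rfl
  · rfl
  · rfl

section sound
variable {D inp sym d} {u : List Bool} {τ : ℕ} {cf : ℕ → D.L × (S → List α)}

theorem lt_of_nh (hτ : ¬ NH D (cf τ).1) {t : ℕ} (ht : t ≤ τ) (h : NH D (cf t).1) : t + 1 ≤ τ := by
  rcases Nat.lt_or_ge t τ with h1 | h1
  · exact h1
  · have : t = τ := le_antisymm ht h1
    subst this
    exact absurd h hτ

theorem sound (h0 : cf 0 = (D.start, st0 inp sym u)) (hs : ∀ t, cf (t + 1) = D.step (cf t))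
    (hτ : ¬ NH D (cf τ).1) (x : BR D.L S α d) (c : Fin (u.length + 1)) (g : ℤ × ℤ)
    (h : PDer (Rl D inp sym d) .sd u x c g) :
    Inv D d u.length (u.length + u.length ^ d) τ cf x c g := by
  induction h with
  | seed => exact ⟨rfl, rfl⟩
  | rule b c g y hb hen hy hp0 hp1 ih0 ih1 =>
    cases hb with
    | u0 =>
      obtain rfl := Option.some.inj hy
      obtain ⟨rfl, h1⟩ := ih0
      exact sh_z d h1
    | u1 =>
      obtain rfl := Option.some.inj hy
      have hc : c.val < u.length := by simpa [Kind.en] using hen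
      have h1 := sh_dn d ih0
      show g = _
      rw [h1]
      simp only [Out.app, Prod.mk.injEq, true_and]
      rw [min_eq_left (by omega)]
      push_cast
      ring
    | v0 =>
      obtain rfl := Option.some.inj hy
      have hc : c.val = u.length := by simpa [Kind.en] using hen
      have h1 := sh_z d ih0
      refine ⟨0, ?_, by simp [Out.app], by simp, fun _ => rfl⟩
      rw [h1, hc]
      simp
    | vs j =>
      obtain rfl := Option.some.inj hy
      have hc : c.val < u.length := by simpa [Kind.en] using hen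
      obtain ⟨r, h1, h2, h3, -⟩ := ih0
      have h4 := sh_lev d h1
      refine ⟨r + u.length ^ j.val, ?_, ?_, ?_, ?_⟩
      · rw [h4]
        push_cast
        simp only [Prod.mk.injEq, true_and]
        ring
      · simp only [Out.app]
        rw [min_eq_left (by omega), add_mul, one_mul]
        exact Nat.add_le_add_right h2 _
      · simp only [Out.app]
        rw [min_eq_left (by omega), add_mul (c.val + 1), one_mul]
        exact Nat.add_lt_add_right h3 _
      · intro h
        exact absurd h (Fin.castSucc_lt_last j).ne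
    | vz j =>
      obtain rfl := Option.some.inj hy
      have hc : c.val < u.length := by simpa [Kind.en] using hen
      obtain ⟨r, h1, h2, h3, -⟩ := ih0
      refine ⟨r, sh_z d h1, by simp [Out.app], ?_, fun _ => rfl⟩
      simp only [Out.app, Fin.val_zero, zero_add, one_mul, Fin.val_succ]
      calc r < (c.val + 1) * u.length ^ j.val := h3
        _ ≤ u.length * u.length ^ j.val := Nat.mul_le_mul_right _ hc
        _ = u.length ^ (j.val + 1) := by rw [pow_succ, mul_comm]
    | inU =>
      obtain rfl := Option.some.inj hy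
      have hc : c.val < u.length := by simpa [Kind.en] using hen
      exact ⟨rfl, c.val, sh_z d ih0, by omega⟩
    | inV =>
      obtain rfl := Option.some.inj hy
      obtain ⟨r, h1, h2, h3, h4⟩ := ih0
      obtain rfl := h4 rfl
      refine ⟨rfl, u.length + r, sh_z d h1, ?_⟩
      simpa using h3
    | inp b =>
      obtain rfl := Option.some.inj hy
      have hc : c.val < u.length ∧ u.getD c.val false = b := by simpa [Kind.en] using hen
      refine ⟨rfl, 0, c.val, sh_z d ih0, by omega, by omega, ?_⟩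
      rw [h0]
      simp only [st0, if_true, List.getElem?_map]
      have := hc.2
      rw [List.getD_eq_getElem?_getD, List.getElem?_eq_getElem hc.1] at this
      rw [List.getElem?_eq_getElem hc.1]
      simp only [Option.getD_some] at this
      rw [this]
      rfl
    | inpN =>
      obtain rfl := Option.some.inj hy
      obtain ⟨r, h1, h2, h3, h4⟩ := ih0
      obtain rfl := h4 rfl
      refine ⟨rfl, 0, u.length + r, sh_z d h1, by omega, by simpa using h3, ?_⟩
      rw [h0]
      simp [st0]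
    | oth σ hσ =>
      obtain rfl := Option.some.inj hy
      obtain ⟨rfl, s, h1, h2⟩ := ih0
      refine ⟨rfl, 0, s, sh_z d h1, by omega, h2, ?_⟩
      rw [h0]
      simp [st0, hσ]
    | pst =>
      obtain rfl := Option.some.inj hy
      obtain ⟨rfl, s, h1, h2⟩ := ih0
      exact ⟨rfl, 0, s, sh_z d h1, by omega, h2, by rw [h0]⟩
    | z00 =>
      obtain rfl := Option.some.inj hy
      obtain ⟨rfl, h1⟩ := ih0
      exact ⟨rfl, 0, sh_z d h1, by omega⟩
    | zt l hl =>
      obtain rfl := Option.some.inj hy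
      obtain ⟨rfl, t, h1, h2⟩ := ih0
      obtain ⟨-, t', s, h3, h4, h5, h6⟩ := ih1 _ _ rfl
      have e1 := sh_tm d h1
      have e2 := sh_tm d h3
      rw [e1] at e2
      simp only [Prod.mk.injEq] at e2
      have ht : t = t' := by omega
      subst ht
      refine ⟨rfl, t + 1, ?_, lt_of_nh hτ h2 (by rw [h6]; exact hl)⟩
      rw [e1]
      push_cast
      rfl
    | pu l σ a l' hl =>
      obtain rfl := Option.some.inj hy
      obtain ⟨rfl, t, s, h1, h2, h3, h4⟩ := ih0
      subst h4
      refine ⟨rfl, t + 1, s, ?_, lt_of_nh hτ h2 ⟨by rw [hl]; simp, by rw [hl]; simp⟩, h3, ?_⟩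
      · rw [sh_tm d h1]
        push_cast
        rfl
      · rw [hs, step_push hl]
    | po l σ l' hl =>
      obtain rfl := Option.some.inj hy
      obtain ⟨rfl, t, s, h1, h2, h3, h4⟩ := ih0
      subst h4
      refine ⟨rfl, t + 1, s, ?_, lt_of_nh hτ h2 ⟨by rw [hl]; simp, by rw [hl]; simp⟩, h3, ?_⟩
      · rw [sh_tm d h1]
        push_cast
        rfl
      · rw [hs, step_pop hl]
    | pk l σ f o hl =>
      obtain rfl := Option.some.inj hy
      obtain ⟨rfl, t, s, h1, h2, h3, h4⟩ := ih0
      obtain ⟨-, t', s', h1', h2', h3', h4'⟩ := ih1 _ _ rfl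
      subst h4
      have e1 := sh_tm d h1
      have e2 := sh_tm d h1'
      rw [e1] at e2
      simp only [Prod.mk.injEq] at e2
      have ht : t = t' := by omega
      subst ht
      refine ⟨rfl, t + 1, s, ?_, lt_of_nh hτ h2 ⟨by rw [hl]; simp, by rw [hl]; simp⟩, h3, ?_⟩
      · rw [e1]
        push_cast
        rfl
      · rw [hs, step_peek hl, h4']
    | bz σ o =>
      obtain rfl := Option.some.inj hy
      obtain ⟨rfl, t, s, h1, h2, h3, h4⟩ := ih0
      obtain ⟨-, t', h1', h2'⟩ := ih1 _ _ rfl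
      have e1 := sh_z d h1
      have e2 := sh_z d h1'
      rw [e1] at e2
      simp only [Prod.mk.injEq] at e2
      have ht : t = t' := by omega
      have hs0 : s = 0 := by omega
      subst ht hs0
      refine ⟨rfl, t, 0, e1, h2, h3, ?_⟩
      rw [List.head?_eq_getElem?, h4]
    | bs σ o l =>
      obtain rfl := Option.some.inj hy
      obtain ⟨rfl, t, s, h1, h2, h3, h4⟩ := ih0
      obtain ⟨-, t', s', h1', h2', h3', h4'⟩ := ih1 _ _ rfl
      have e1 := sh_dn d h1
      have e2 := sh_z d h1'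
      rw [e1] at e2
      simp only [Prod.mk.injEq] at e2
      refine ⟨rfl, t, s + 1, ?_, h2, by omega, h4⟩
      rw [e1]
      push_cast
      rfl
    | sps l σ a l' o hl =>
      obtain rfl := Option.some.inj hy
      obtain ⟨rfl, t, s, h1, h2, h3, h4⟩ := ih0
      obtain ⟨-, t', s', h1', h2', h3', h4'⟩ := ih1 _ _ rfl
      subst h4
      have e1 := sh_tm d h1
      have e2 := sh_ps d h1'
      rw [e1] at e2
      simp only [Prod.mk.injEq] at e2
      have ht : t = t' := by omega
      have hss : s = s' + 1 := by omega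
      subst ht hss
      refine ⟨rfl, t + 1, s' + 1, ?_, lt_of_nh hτ h2 ⟨by rw [hl]; simp, by rw [hl]; simp⟩, h3, ?_⟩
      · rw [e1]
        push_cast
        rfl
      · rw [hs, step_push hl]
        simpa using h4'
    | top l σ a l' hl =>
      obtain rfl := Option.some.inj hy
      obtain ⟨rfl, t, s, h1, h2, h3, h4⟩ := ih0
      obtain ⟨-, t', h1', h2'⟩ := ih1 _ _ rfl
      subst h4
      have e1 := sh_tm d h1
      have e2 := sh_tm d h1'
      rw [e1] at e2
      simp only [Prod.mk.injEq] at e2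
      have ht : t = t' := by omega
      have hs0 : s = 0 := by omega
      subst ht hs0
      refine ⟨rfl, t + 1, 0, ?_, lt_of_nh hτ h2 ⟨by rw [hl]; simp, by rw [hl]; simp⟩, h3, ?_⟩
      · rw [e1]
        push_cast
        rfl
      · rw [hs, step_push hl]
        simp
    | spp l σ l' o hl =>
      obtain rfl := Option.some.inj hy
      obtain ⟨rfl, t, s, h1, h2, h3, h4⟩ := ih0
      obtain ⟨-, t', s', h1', h2', h3', h4'⟩ := ih1 _ _ rfl
      subst h4
      have e1 := sh_tm d h1
      have e2 := sh_pp d h1'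
      rw [e1] at e2
      simp only [Prod.mk.injEq] at e2
      have ht : t = t' := by omega
      have hss : s' = s + 1 := by omega
      subst ht hss
      refine ⟨rfl, t + 1, s, ?_, lt_of_nh hτ h2 ⟨by rw [hl]; simp, by rw [hl]; simp⟩, h3, ?_⟩
      · rw [e1]
        push_cast
        rfl
      · rw [hs, step_pop hl]
        simpa using h4'
    | keep l σ o hl hl1 hl2 =>
      obtain rfl := Option.some.inj hy
      obtain ⟨rfl, t, s, h1, h2, h3, h4⟩ := ih0
      obtain ⟨-, t', s', h1', h2', h3', h4'⟩ := ih1 _ _ rfl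
      subst h4
      have e1 := sh_tm d h1
      have e2 := sh_tm d h1'
      rw [e1] at e2
      simp only [Prod.mk.injEq] at e2
      have ht : t = t' := by omega
      have hss : s = s' := by omega
      subst ht hss
      refine ⟨rfl, t + 1, s, ?_, lt_of_nh hτ h2 hl, h3, ?_⟩
      · rw [e1]
        push_cast
        rfl
      · rw [hs, step_keep hl1 hl2]
        exact h4'
    | acc l hl => simp at hy

end sound

section complete
variable {D inp sym d} {u : List Bool} {τ : ℕ} {cf : ℕ → D.L × (S → List α)}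

theorem mk1 {k : Kind} {o : Out} {x : BR D.L S α d} {h : Sh d} {y : BR D.L S α d}
    {c c' : Fin (u.length + 1)} {g g' : ℤ × ℤ}
    (hr : Rl D inp sym d ⟨k, o, (x, h), none, some y⟩) (hen : k.en u c = true)
    (hp : PDer (Rl D inp sym d) .sd u x c g') (hg : g + h.val u.length = g')
    (hc : o.app u.length c = c') : PDer (Rl D inp sym d) .sd u y c' g := by
  subst hg hc
  exact PDer.rule ⟨k, o, (x, h), none, some y⟩ c g y hr hen rfl hp (by intro x h h'; cases h')

theorem mk2 {x : BR D.L S α d} {h : Sh d} {x' : BR D.L S α d} {h' : Sh d} {y : BR D.L S α d}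
    {g g' g'' : ℤ × ℤ}
    (hr : Rl D inp sym d ⟨.all, .same, (x, h), some (x', h'), some y⟩)
    (hp : PDer (Rl D inp sym d) .sd u x 0 g') (hg : g + h.val u.length = g')
    (hp' : PDer (Rl D inp sym d) .sd u x' 0 g'') (hg' : g + h'.val u.length = g'') :
    PDer (Rl D inp sym d) .sd u y 0 g := by
  subst hg hg'
  refine PDer.rule ⟨.all, .same, (x, h), some (x', h'), some y⟩ 0 g y hr rfl rfl hp ?_
  intro x'' h'' e
  obtain ⟨rfl, rfl⟩ := Prod.mk.inj (Option.some.inj e)
  exact hp'

theorem c_u (c : ℕ) (hc : c < u.length + 1) :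
    PDer (Rl D inp sym d) .sd u .u ⟨c, hc⟩ (0, (c : ℤ)) := by
  induction c with
  | zero => exact mk1 Rl.u0 rfl PDer.seed (by simp [Sh.val]) rfl
  | succ c ih =>
    refine mk1 Rl.u1 (c := ⟨c, by omega⟩) ?_ (ih (by omega)) ?_ ?_
    · simp [Kind.en]
      omega
    · simp [Sh.val]
    · simp only [Out.app, Fin.mk.injEq]
      omega

theorem c_chain (j : ℕ) (hj : j < d)
    (hb : ∀ r : ℕ, r < u.length ^ j →
      PDer (Rl D inp sym d) .sd u (.v ⟨j, by omega⟩) 0 (0, ((u.length + r : ℕ) : ℤ)))
    (c : ℕ) (hc : c < u.length + 1) (r : ℕ) (h1 : c * u.length ^ j ≤ r)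
    (h2 : r < (c + 1) * u.length ^ j) :
    PDer (Rl D inp sym d) .sd u (.v ⟨j, by omega⟩) ⟨c, hc⟩ (0, ((u.length + r : ℕ) : ℤ)) := by
  induction c generalizing r with
  | zero => exact hb r (by simpa using h2)
  | succ c ih =>
    rw [add_mul, one_mul] at h1
    rw [add_mul (c + 1), one_mul] at h2
    refine mk1 (Rl.vs ⟨j, hj⟩) (c := ⟨c, by omega⟩) ?_ (ih (by omega) (r - u.length ^ j)
      (by omega) (by omega)) ?_ ?_
    · simp [Kind.en]
      omega
    · simp only [Sh.val, Prod.mk_add_mk, add_zero, Prod.mk.injEq, true_and]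
      have : u.length ^ j ≤ r := by
        have : 0 ≤ c * u.length ^ j := by positivity
        omega
      push_cast [Nat.cast_sub this]
      ring
    · simp only [Out.app, Fin.mk.injEq]
      omega

theorem c_v (hY : 1 ≤ u.length) (j : ℕ) (hj : j < d + 1) (r : ℕ) (hr : r < u.length ^ j) :
    PDer (Rl D inp sym d) .sd u (.v ⟨j, hj⟩) 0 (0, ((u.length + r : ℕ) : ℤ)) := by
  induction j generalizing r with
  | zero =>
    obtain rfl : r = 0 := by simpa using hr
    refine mk1 Rl.v0 (c := ⟨u.length, by omega⟩) ?_ (c_u u.length (by omega)) ?_ rfl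
    · simp [Kind.en]
    · simp [Sh.val]
  | succ j ih =>
    have hpos : 0 < u.length ^ j := by positivity
    have hq : r / u.length ^ j < u.length := by
      rw [Nat.div_lt_iff_lt_mul hpos]
      rw [pow_succ, mul_comm] at hr
      exact hr
    refine mk1 (Rl.vz ⟨j, by omega⟩) (c := ⟨r / u.length ^ j, by omega⟩) ?_
      (c_chain j (by omega) (fun r hr => ih (by omega) r hr) (r / u.length ^ j) (by omega) r
        (Nat.div_mul_le_self r _) ?_) ?_ rfl
    · simpa [Kind.en] using hq
    · have := Nat.lt_div_mul_add (a := r) hpos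
      rw [add_mul, one_mul]
      exact this
    · simp [Sh.val]

theorem c_inn (hY : 1 ≤ u.length) (s : ℕ) (hs : s < u.length + u.length ^ d) :
    PDer (Rl D inp sym d) .sd u .inn 0 (0, (s : ℤ)) := by
  rcases Nat.lt_or_ge s u.length with h | h
  · refine mk1 Rl.inU (c := ⟨s, by omega⟩) ?_ (c_u s (by omega)) (by simp [Sh.val]) rfl
    simpa [Kind.en] using h
  · have := c_v (D := D) (inp := inp) (sym := sym) (d := d) hY d (by omega) (s - u.length) (by omega)
    rw [show u.length + (s - u.length) = s by omega] at this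
    exact mk1 Rl.inV rfl this (by simp [Sh.val]) rfl

theorem c_main (hY : 1 ≤ u.length) (h0 : cf 0 = (D.start, st0 inp sym u))
    (hs : ∀ t, cf (t + 1) = D.step (cf t)) (hτ : ∀ t, t < τ → NH D (cf t).1)
    (hτd : τ < u.length ^ d) (t : ℕ) (ht : t ≤ τ) :
    (∀ s : ℕ, s < u.length + u.length ^ d →
      PDer (Rl D inp sym d) .sd u (.p (cf t).1) 0 ((t : ℤ), (s : ℤ))) ∧
    (∀ (σ : S) (s : ℕ), s + t < u.length + u.length ^ d →
      PDer (Rl D inp sym d) .sd u (.s σ ((cf t).2 σ)[s]?) 0 ((t : ℤ), (s : ℤ))) ∧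
    PDer (Rl D inp sym d) .sd u .z0 0 ((t : ℤ), 0) := by
  induction t with
  | zero =>
    refine ⟨fun s hs' => ?_, fun σ s hs' => ?_, ?_⟩
    · rw [h0]
      exact mk1 Rl.pst rfl (c_inn hY s hs') (by simp [Sh.val]) rfl
    · rw [h0]
      by_cases hσ : σ = inp
      · subst hσ
        simp only [st0, if_true]
        rcases Nat.lt_or_ge s u.length with h | h
        · have e : (u.map sym)[s]? = some (sym (u.getD s false)) := by
            rw [List.getElem?_map, List.getD_eq_getElem?_getD, List.getElem?_eq_getElem h]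
            rfl
          rw [e]
          refine mk1 (Rl.inp (u.getD s false)) (c := ⟨s, by omega⟩) ?_ (c_u s (by omega))
            (by simp [Sh.val]) rfl
          simpa [Kind.en] using h
        · have e : (u.map sym)[s]? = none := by
            rw [List.getElem?_eq_none_iff]
            simpa using h
          rw [e]
          have := c_v (D := D) (inp := σ) (sym := sym) (d := d) hY d (by omega) (s - u.length) (by omega)
          rw [show u.length + (s - u.length) = s by omega] at this
          exact mk1 Rl.inpN rfl this (by simp [Sh.val]) rfl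
      · simp only [st0, hσ, if_false, List.getElem?_nil]
        exact mk1 (Rl.oth σ hσ) rfl (c_inn hY s (by omega)) (by simp [Sh.val]) rfl
    · exact mk1 Rl.z00 rfl PDer.seed (by simp [Sh.val]) rfl
  | succ t ih =>
    obtain ⟨ihp, ihs, ihz⟩ := ih (by omega)
    have hnh := hτ t (by omega)
    have hB : ∀ (σ : S) (s : ℕ), s < u.length + u.length ^ d →
        PDer (Rl D inp sym d) .sd u (.b σ ((cf t).2 σ).head?) 0 ((t : ℤ), (s : ℤ)) := by
      intro σ s
      induction s with
      | zero =>
        intro _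
        rw [List.head?_eq_getElem?]
        exact mk2 (Rl.bz σ _) (ihs σ 0 (by omega)) (by simp [Sh.val]) ihz (by simp [Sh.val])
      | succ s ih =>
        intro hs'
        exact mk2 (Rl.bs σ _ (cf t).1) (ih (by omega)) (by simp [Sh.val]) (ihp (s + 1) hs')
          (by simp [Sh.val])
    have keep : ∀ (σ : S) (s : ℕ), (∀ σ' a l', D.instr (cf t).1 = .push σ' a l' → σ' ≠ σ) →
        (∀ σ' l', D.instr (cf t).1 = .pop σ' l' → σ' ≠ σ) →
        s + (t + 1) < u.length + u.length ^ d →
        PDer (Rl D inp sym d) .sd u (.s σ ((cf (t + 1)).2 σ)[s]?) 0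
          (((t + 1 : ℕ) : ℤ), (s : ℤ)) := by
      intro σ s h1 h2 h3
      rw [hs, step_keep h1 h2]
      exact mk2 (Rl.keep _ σ _ hnh h1 h2) (ihp s (by omega)) (by simp [Sh.val])
        (ihs σ s (by omega)) (by simp [Sh.val])
    refine ⟨?_, ?_, ?_⟩
    · intro s hs'
      rcases hi : D.instr (cf t).1 with ⟨σ, a, l'⟩ | ⟨σ, l'⟩ | ⟨σ, f⟩ | _ | _
      · rw [hs, step_push hi]
        exact mk1 (Rl.pu _ σ a l' hi) rfl (ihp s hs') (by simp [Sh.val]) rfl
      · rw [hs, step_pop hi]
        exact mk1 (Rl.po _ σ l' hi) rfl (ihp s hs') (by simp [Sh.val]) rfl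
      · rw [hs, step_peek hi]
        exact mk2 (Rl.pk _ σ f _ hi) (ihp s hs') (by simp [Sh.val]) (hB σ s hs')
          (by simp [Sh.val])
      · exact absurd hi hnh.1
      · exact absurd hi hnh.2
    · intro σ' s hs'
      rcases hi : D.instr (cf t).1 with ⟨σ, a, l'⟩ | ⟨σ, l'⟩ | ⟨σ, f⟩ | _ | _
      · by_cases hσ : σ' = σ
        · subst hσ
          rw [hs, step_push hi]
          simp only [Function.update_self]
          rcases s with _ | s
          · simp only [List.getElem?_cons_zero]
            exact mk2 (Rl.top _ σ' a l' hi) (ihp 0 (by omega)) (by simp [Sh.val]) ihz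
              (by simp [Sh.val])
          · simp only [List.getElem?_cons_succ]
            exact mk2 (Rl.sps _ σ' a l' _ hi) (ihp (s + 1) (by omega)) (by simp [Sh.val])
              (ihs σ' s (by omega)) (by simp [Sh.val])
        · exact keep σ' s (fun σ'' a' l'' h => by
            rw [hi] at h
            obtain ⟨rfl, -, -⟩ := Instr.push.inj h
            exact fun e => hσ e.symm) (fun σ'' l'' h => by rw [hi] at h; cases h) hs'
      · by_cases hσ : σ' = σ
        · subst hσ
          rw [hs, step_pop hi]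
          simp only [Function.update_self, List.getElem?_tail]
          exact mk2 (Rl.spp _ σ' l' _ hi) (ihp s (by omega)) (by simp [Sh.val])
              (ihs σ' (s + 1) (by omega)) (by simp [Sh.val])
        · exact keep σ' s (fun σ'' a' l'' h => by rw [hi] at h; cases h) (fun σ'' l'' h => by
            rw [hi] at h
            obtain ⟨rfl, -⟩ := Instr.pop.inj h
            exact fun e => hσ e.symm) hs'
      · exact keep σ' s (fun σ'' a' l'' h => by rw [hi] at h; cases h)
          (fun σ'' l'' h => by rw [hi] at h; cases h) hs'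
      · exact absurd hi hnh.1
      · exact absurd hi hnh.2
    · exact mk2 (Rl.zt (cf t).1 hnh) ihz (by simp [Sh.val]) (ihp 0 (by positivity))
        (by simp [Sh.val])

end complete

/-- bounds for the addresses of intended facts -/
theorem inv_bound {Y τ : ℕ} (hd : 1 ≤ d) (hY : 10 ≤ Y) (hτ : τ < Y ^ d)
    {cf : ℕ → D.L × (S → List α)} (x : BR D.L S α d) (c : Fin (Y + 1)) (g : ℤ × ℤ)
    (h : Inv D d Y (Y + Y ^ d) τ cf x c g) :
    0 ≤ g.1 ∧ g.1 ≤ (Y : ℤ) ^ d ∧ 0 ≤ g.2 ∧ g.2 ≤ 2 * (Y : ℤ) ^ d := by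
  have hYd : Y ≤ Y ^ d := Nat.le_self_pow (by omega) Y
  have e : ((Y ^ d : ℕ) : ℤ) = (Y : ℤ) ^ d := by push_cast; rfl
  rw [← e]
  have hc := c.isLt
  cases x with
  | sd =>
    obtain ⟨-, rfl⟩ := h
    simp only
    omega
  | u =>
    obtain rfl : g = (0, (c.val : ℤ)) := h
    simp only
    omega
  | v j =>
    obtain ⟨r, rfl, h1, h2, h3⟩ := h
    simp only
    have h4 : Y + r ≤ 2 * Y ^ d := by
      rcases eq_or_ne j (Fin.last d) with hj | hj
      · obtain rfl := h3 hj
        subst hj
        simp at h2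
        omega
      · have hj' : j.val < d := by
          have := j.isLt
          have h5 : j.val ≠ d := fun h => hj (Fin.ext h)
          omega
        obtain ⟨e', rfl⟩ : ∃ e', d = e' + 1 := ⟨d - 1, by omega⟩
        have h6 : Y ^ j.val ≤ Y ^ e' := Nat.pow_le_pow_right (by omega) (by omega)
        have h7 : (c.val + 1) * Y ^ j.val ≤ (Y + 1) * Y ^ e' := Nat.mul_le_mul (by omega) h6
        have h8 : Y ^ (e' + 1) = Y * Y ^ e' := by rw [pow_succ, mul_comm]
        have h9 : (Y + 1) * Y ^ e' = Y * Y ^ e' + Y ^ e' := by ring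
        rcases Nat.eq_zero_or_pos e' with h10 | h10
        · subst h10
          simp at h8 h9 h7 ⊢
          omega
        · have h11 : Y ≤ Y ^ e' := Nat.le_self_pow (by omega) Y
          have h12 : 2 * Y ^ e' ≤ Y * Y ^ e' := Nat.mul_le_mul_right _ (by omega)
          omega
    omega
  | inn =>
    obtain ⟨-, s, rfl, h1⟩ := h
    simp only
    omega
  | z0 =>
    obtain ⟨-, t, rfl, h1⟩ := h
    simp only
    omega
  | p l =>
    obtain ⟨-, t, s, rfl, h1, h2, -⟩ := h
    simp only
    omega
  | s σ o =>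
    obtain ⟨-, t, s, rfl, h1, h2, -⟩ := h
    simp only
    omega
  | b σ o =>
    obtain ⟨-, t, s, rfl, h1, h2, -⟩ := h
    simp only
    omega

end HSim

open Fan HSim in
/-- **Module HS.** -/
theorem hs : HSStatement := by
  classical
  intro S α _ _ _ _ D inp sym d hd
  have := br_finite D.L S α d
  obtain ⟨T, hT⟩ := fan_out (Rl D inp sym d) .sd (rl_seed D inp sym d) (rl_succ D inp sym d)
  refine ⟨T, fun u hu t ht => ?_⟩
  obtain ⟨hT1, hT2⟩ := hT u
  have hst : (fun σ => if σ = inp then u.map sym else []) = st0 inp sym u := rfl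
  rw [hst]
  set cf : ℕ → D.L × (S → List α) := fun t => D.run (st0 inp sym u) t with hcf
  have h0 : cf 0 = (D.start, st0 inp sym u) := rfl
  have hs : ∀ t, cf (t + 1) = D.step (cf t) := fun t => by
    simp only [hcf, SM.run]
    rw [Function.iterate_succ_apply']
  have key : (D.Acc (st0 inp sym u) t ∨ D.Rej (st0 inp sym u) t) →
      ∃ τ, τ ≤ t ∧ (∀ t', t' < τ → NH D (cf t').1) ∧ ¬ NH D (cf τ).1 ∧ cf t = cf τ := by
    intro h
    have hex : ∃ t, ¬ NH D (cf t).1 := by
      refine ⟨t, fun hn => ?_⟩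
      rcases h with h | h
      · exact hn.1 h
      · exact hn.2 h
    have hle : Nat.find hex ≤ t := Nat.find_min' hex (fun hn => by
      rcases h with h | h
      · exact hn.1 h
      · exact hn.2 h)
    refine ⟨Nat.find hex, hle, fun t' ht' => ?_, Nat.find_spec hex, ?_⟩
    · have := Nat.find_min hex ht'
      exact not_not.mp this
    · obtain ⟨k, hk⟩ := Nat.exists_eq_add_of_le hle
      rw [hk]
      clear hk
      have hfix : D.step (cf (Nat.find hex)) = cf (Nat.find hex) := by
        have hn := Nat.find_spec hex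
        unfold SM.step
        rcases hi : D.instr (cf (Nat.find hex)).1 with ⟨σ, a, l'⟩ | ⟨σ, l'⟩ | ⟨σ, f⟩ | _ | _
        · exact absurd ⟨by rw [hi]; simp, by rw [hi]; simp⟩ hn
        · exact absurd ⟨by rw [hi]; simp, by rw [hi]; simp⟩ hn
        · exact absurd ⟨by rw [hi]; simp, by rw [hi]; simp⟩ hn
        · rfl
        · rfl
      induction k with
      | zero => rfl
      | succ k ih => rw [← add_assoc, hs, ih, hfix]
  refine ⟨?_, ?_, ?_⟩
  · intro hA
    obtain ⟨τ, h1, h2, h3, h4⟩ := key (Or.inl hA)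
    rw [hT1]
    have hacc : D.instr (cf τ).1 = .accept := by rw [← h4]; exact hA
    have := (c_main (d := d) (by omega) h0 hs h2 (by omega) τ le_rfl).1 0 (by omega)
    refine ⟨⟨.all, .same, (.p (cf τ).1, .z), none, none⟩, 0, ((τ : ℤ), 0), Rl.acc _ hacc, rfl, rfl,
      ?_, by intro x h h'; cases h'⟩
    simpa [Sh.val] using this
  · intro hR hA
    obtain ⟨τ, h1, h2, h3, h4⟩ := key (Or.inr hR)
    rw [hT1] at hA
    obtain ⟨b, c, g, hb, hen, hco, hp0, hp1⟩ := hA
    cases hb with
    | acc l hl =>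
      have := sound h0 hs h3 _ _ _ hp0
      obtain ⟨-, t', s, -, h5, -, h6⟩ := this
      rcases Nat.lt_or_ge t' τ with h7 | h7
      · exact (h2 t' h7).1 (by rw [h6]; exact hl)
      · obtain rfl : t' = τ := le_antisymm h5 h7
        have h8 : D.instr (cf t').1 = .reject := by rw [← h4]; exact hR
        rw [h6, hl] at h8
        cases h8
    | _ => cases hco
  · intro h x g hx
    obtain ⟨τ, h1, h2, h3, h4⟩ := key h
    obtain ⟨y, c, hy⟩ := hT2 x g hx
    exact inv_bound D d hd hu (by omega) y c g (sound h0 hs h3 _ _ _ hy)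

end P310
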