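import Vale.Agent.P310.Digit

/-!
# Module IV: WL equivalence is invariant under isomorphism
-/

namespace P310

theorem col_iso {k : ℕ} {V V' : Type} [Fintype V] [Fintype V'] (G : SimpleGraph V)
    (G' : SimpleGraph V') (e : G ≃g G') (r : ℕ) :
    ∀ x : Fin k → V, col G' k r (fun i => e (x i)) = col G k r x := by
  induction r with
  | zero =>
    intro x
    simp only [col, EmbeddingLike.apply_eq_iff_eq, e.map_adj_iff]
    rfl
  | succ r ih =>
    intro x
    refine Prod.ext (ih x) ?_
    simp only [col]
    have h1 : (Finset.univ : Finset V').val =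
        (Finset.univ : Finset V).val.map (fun v => e v) := by
      have := congrArg Finset.val (Finset.map_univ_equiv e.toEquiv)
      rw [← this]
      rfl
    rw [h1, Multiset.map_map]
    apply Multiset.map_congr rfl
    intro y _
    funext i
    simp only [Function.comp]
    rw [← ih]
    congr 1
    funext j
    by_cases hj : j = i <;> simp [hj]

theorem map_col_iso {k : ℕ} {V V' : Type} [Fintype V] [Fintype V'] (G : SimpleGraph V)
    (G' : SimpleGraph V') (e : G ≃g G') (r : ℕ) :
    (Finset.univ : Finset (Fin k → V')).val.map (col G' k r) =
      (Finset.univ : Finset (Fin k → V)).val.map (col G k r) := by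
  classical
  have h1 : (Finset.univ : Finset (Fin k → V')).val =
      (Finset.univ : Finset (Fin k → V)).val.map (fun x i => e (x i)) := by
    have := congrArg Finset.val (Finset.map_univ_equiv (Equiv.arrowCongr (Equiv.refl (Fin k))
      e.toEquiv))
    rw [← this]
    rfl
  rw [h1, Multiset.map_map]
  apply Multiset.map_congr rfl
  intro x _
  exact col_iso G G' e r x

theorem iv : IVStatement := by
  intro k V W V' W' _ _ _ _ G H G' H' ⟨e⟩ ⟨f⟩
  unfold WLEquiv
  simp only [map_col_iso G G' e, map_col_iso H H' f]

end P310
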