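import Vale.Agent.P310.Tmpl

/-!
# Module SP: separation by the Chinese remainder theorem
-/

namespace P310

/-- the moduli are pairwise coprime -/
theorem isMod_coprime (P : Par) (Y : ℕ) (hP : P.IsMod Y) (hY : P.κ.factorial ∣ Y)
    (i j : Fin P.κ) (hij : i ≠ j) : Nat.Coprime (P.p' i + 1) (P.p' j + 1) := by
  wlog hlt : i < j generalizing i j
  · exact (this j i hij.symm (lt_of_le_of_ne (not_lt.mp hlt) hij.symm)).symm
  rw [hP i, hP j]
  apply Nat.Coprime.symm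
  rw [Nat.coprime_iff_gcd_eq_one]
  by_contra hne
  obtain ⟨q, hq, hdvd⟩ := Nat.exists_prime_and_dvd hne
  have h1 : q ∣ Y + j.val * P.κ.factorial + 1 := hdvd.trans (Nat.gcd_dvd_left _ _)
  have h2 : q ∣ Y + i.val * P.κ.factorial + 1 := hdvd.trans (Nat.gcd_dvd_right _ _)
  have h3 : q ∣ (j.val - i.val) * P.κ.factorial := by
    have h4 := Nat.dvd_sub h1 h2
    have h5 : Y + j.val * P.κ.factorial + 1 - (Y + i.val * P.κ.factorial + 1) =
        (j.val - i.val) * P.κ.factorial := by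
      rw [Nat.sub_mul]
      have : i.val * P.κ.factorial ≤ j.val * P.κ.factorial :=
        Nat.mul_le_mul_right _ (by exact_mod_cast hlt.le)
      omega
    rwa [h5] at h4
  have h6 : q ∣ P.κ.factorial := by
    rcases (hq.dvd_mul).mp h3 with h | h
    · have hpos : 0 < j.val - i.val := by
        have : i.val < j.val := hlt
        omega
      have hle : q ≤ j.val - i.val := Nat.le_of_dvd hpos h
      exact Nat.dvd_factorial hq.pos (by have := j.isLt; omega)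
    · exact h
  have h7 : q ∣ 1 := by
    have h8 : q ∣ Y + i.val * P.κ.factorial :=
      Nat.dvd_add (h6.trans hY) (h6.trans (Dvd.intro_left _ rfl))
    exact (Nat.dvd_add_right h8).mp h2
  exact hq.one_lt.ne' (Nat.dvd_one.mp h7)

theorem pt_eq_dvd (P : Par) (i : Fin P.κ) (g g' : ℤ × ℤ) (h : P.pt i g = P.pt i g') :
    ((P.p' i + 1 : ℕ) : ℤ) ∣ g.1 - g'.1 ∧ ((P.p' i + 1 : ℕ) : ℤ) ∣ g.2 - g'.2 := by
  unfold Par.pt at h
  have h1 := eq_of_heq (Sigma.mk.inj h).2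
  simp only [Prod.mk.injEq] at h1
  obtain ⟨ha, hb⟩ := h1
  constructor
  · have := (ZMod.intCast_eq_intCast_iff_dvd_sub g'.1 g.1 (P.p' i + 1)).mp ha.symm
    exact this
  · have := (ZMod.intCast_eq_intCast_iff_dvd_sub g'.2 g.2 (P.p' i + 1)).mp hb.symm
    exact this

theorem card_lt_of_dvd (P : Par) (Y d : ℕ) (hP : P.IsMod Y) (hY : P.κ.factorial ∣ Y)
    (A : Finset (Fin P.κ)) (a : ℤ) (ha : a ≠ 0) (hlt : |a| < ((Y : ℤ) + 1) ^ (d + 1))
    (hA : ∀ i ∈ A, ((P.p' i + 1 : ℕ) : ℤ) ∣ a) : A.card < d + 1 := by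
  by_contra hc
  have hc : d + 1 ≤ A.card := not_lt.mp hc
  have h1 : ∏ i ∈ A, ((P.p' i + 1 : ℕ) : ℤ) ∣ a := by
    apply Finset.prod_dvd_of_coprime
    · intro i _ j _ hij
      exact Nat.isCoprime_iff_coprime.mpr (isMod_coprime P Y hP hY i j hij)
    · exact hA
  have h2 : ((Y : ℤ) + 1) ^ A.card ≤ ∏ i ∈ A, ((P.p' i + 1 : ℕ) : ℤ) := by
    rw [← Finset.prod_const]
    apply Finset.prod_le_prod
    · intro i _
      positivity
    · intro i _
      rw [hP i]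
      push_cast
      have : (0 : ℤ) ≤ (i.val : ℤ) * (P.κ.factorial : ℤ) := by positivity
      linarith
  have h3 : ∏ i ∈ A, ((P.p' i + 1 : ℕ) : ℤ) ≤ |a| :=
    Int.le_of_dvd (abs_pos.mpr ha) ((dvd_abs _ _).mpr h1)
  have h4 : ((Y : ℤ) + 1) ^ (d + 1) ≤ ((Y : ℤ) + 1) ^ A.card :=
    pow_le_pow_right₀ (by linarith [Int.natCast_nonneg Y]) hc
  linarith

theorem agree_lt (P : Par) (Y d : ℕ) (hP : P.IsMod Y) (hY : P.κ.factorial ∣ Y) (g g' : ℤ × ℤ)
    (hne : g ≠ g') (h1 : |g.1 - g'.1| < ((Y : ℤ) + 1) ^ (d + 1))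
    (h2 : |g.2 - g'.2| < ((Y : ℤ) + 1) ^ (d + 1)) : P.agree g g' < d + 1 := by
  unfold Par.agree
  have hor : g.1 - g'.1 ≠ 0 ∨ g.2 - g'.2 ≠ 0 := by
    by_contra hc
    push Not at hc
    exact hne (Prod.ext (by linarith [hc.1]) (by linarith [hc.2]))
  rcases hor with h | h
  · apply card_lt_of_dvd P Y d hP hY _ _ h h1
    intro i hi
    exact (pt_eq_dvd P i g g' (Finset.mem_filter.mp hi).2).1
  · apply card_lt_of_dvd P Y d hP hY _ _ h h2
    intro i hi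
    exact (pt_eq_dvd P i g g' (Finset.mem_filter.mp hi).2).2

theorem Sh.val_bd {d : ℕ} (Y : ℕ) (hY : 10 ≤ Y) (s : Sh d) :
    -1 ≤ (s.val Y).1 ∧ (s.val Y).1 ≤ 0 ∧ -((Y : ℤ) ^ d) ≤ (s.val Y).2 ∧ (s.val Y).2 ≤ 1 := by
  have hY' : (10 : ℤ) ≤ (Y : ℤ) := by exact_mod_cast hY
  have hpow : (1 : ℤ) ≤ (Y : ℤ) ^ d := one_le_pow₀ (by linarith)
  cases s with
  | z => simp only [Sh.val]; refine ⟨?_, ?_, ?_, ?_⟩ <;> linarith
  | tm => simp only [Sh.val]; refine ⟨?_, ?_, ?_, ?_⟩ <;> linarith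
  | ps => simp only [Sh.val]; refine ⟨?_, ?_, ?_, ?_⟩ <;> linarith
  | pp => simp only [Sh.val]; refine ⟨?_, ?_, ?_, ?_⟩ <;> linarith
  | dn => simp only [Sh.val]; refine ⟨?_, ?_, ?_, ?_⟩ <;> linarith
  | lev j =>
    simp only [Sh.val]
    have h1 : (Y : ℤ) ^ j.val ≤ (Y : ℤ) ^ d := pow_le_pow_right₀ (by linarith) j.isLt.le
    have h2 : (0 : ℤ) ≤ (Y : ℤ) ^ j.val := by positivity
    refine ⟨?_, ?_, ?_, ?_⟩ <;> linarith

theorem sp : SPStatement := by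
  intro d T u P hP hdvd hY hd hbd
  set Y := u.length with hYdef
  have hY' : (10 : ℤ) ≤ (Y : ℤ) := by exact_mod_cast hY
  have hpow : (1 : ℤ) ≤ (Y : ℤ) ^ d := one_le_pow₀ (by linarith)
  have hbig : 10 * (Y : ℤ) ^ d ≤ ((Y : ℤ) + 1) ^ (d + 1) := by
    rw [pow_succ]
    have h1 : (Y : ℤ) ^ d ≤ ((Y : ℤ) + 1) ^ d :=
      pow_le_pow_left₀ (by linarith) (by linarith) d
    nlinarith
  constructor
  · intro x g g' hg hg' hne
    obtain ⟨a1, a2, a3, a4⟩ := hbd x g hg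
    obtain ⟨b1, b2, b3, b4⟩ := hbd x g' hg'
    apply agree_lt P Y d hP hdvd g g' hne
    · rw [abs_lt]; constructor <;> linarith
    · rw [abs_lt]; constructor <;> linarith
  · intro ρ q q' x x' h h' g g' hpr hpr' hg hg' hne
    obtain ⟨a1, a2, a3, a4⟩ := hbd x g hg
    obtain ⟨b1, b2, b3, b4⟩ := hbd x' g' hg'
    obtain ⟨s, hs⟩ : ∃ s : Sh d, h = s.val Y := by
      simp only [Tmpl.horn, Option.map_eq_some_iff] at hpr
      obtain ⟨a, _, ha⟩ := hpr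
      exact ⟨a.2, (congrArg Prod.snd ha).symm⟩
    obtain ⟨s', hs'⟩ : ∃ s : Sh d, h' = s.val Y := by
      simp only [Tmpl.horn, Option.map_eq_some_iff] at hpr'
      obtain ⟨a, _, ha⟩ := hpr'
      exact ⟨a.2, (congrArg Prod.snd ha).symm⟩
    obtain ⟨c1, c2, c3, c4⟩ := Sh.val_bd Y hY s
    obtain ⟨e1, e2, e3, e4⟩ := Sh.val_bd Y hY s'
    rw [← hs] at c1 c2 c3 c4
    rw [← hs'] at e1 e2 e3 e4
    apply agree_lt P Y d hP hdvd _ _ hne
    · simp only [Prod.fst_sub]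
      rw [abs_lt]; constructor <;> linarith
    · simp only [Prod.snd_sub]
      rw [abs_lt]; constructor <;> linarith

end P310
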