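import Vale.Agent.P310.Horn

/-!
# Module ST: existence of heavy matrices (counting argument)
-/

namespace P310
namespace Horn

open Finset

/-- number of subsets with at most `k` elements -/
theorem card_small (α : Type) [Fintype α] [DecidableEq α] (k : ℕ) :
    (univ.filter fun s : Finset α => s.card ≤ k).card ≤ (Fintype.card α + 1) ^ k := by
  have h : (univ.filter fun s : Finset α => s.card ≤ k) ⊆
      (univ : Finset (Fin k → Option α)).image
        (fun f => univ.filter fun a => ∃ i, f i = some a) := by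
    intro s hs
    rw [mem_filter] at hs
    rw [mem_image]
    refine ⟨fun i => s.toList[i.val]?, mem_univ _, ?_⟩
    ext a
    simp only [mem_filter, mem_univ, true_and]
    constructor
    · rintro ⟨i, hi⟩
      exact Finset.mem_toList.mp (List.mem_of_getElem? hi)
    · intro ha
      obtain ⟨n, hn, hn'⟩ := List.getElem_of_mem (Finset.mem_toList.mpr ha)
      have h1 : n < k := by
        rw [Finset.length_toList] at hn
        omega
      exact ⟨⟨n, h1⟩, List.getElem?_eq_some_iff.mpr ⟨hn, hn'⟩⟩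
  calc _ ≤ _ := card_le_card h
    _ ≤ _ := card_image_le
    _ = _ := by simp [Fintype.card_option]

/-- column sums -/
def csum {m : ℕ} (B : Fin 2 × Fin m → Finset (Fin m)) (M : Fin 2 → Fin m → Fin m → ZMod 2)
    (j : Fin m) : ZMod 2 :=
  ∑ a : Fin 2 × Fin m, (if j ∈ B a then M a.1 a.2 j else 0)

theorem csum_add {m : ℕ} (B : Fin 2 × Fin m → Finset (Fin m))
    (M M' : Fin 2 → Fin m → Fin m → ZMod 2) (j : Fin m) :
    csum B (M + M') j = csum B M j + csum B M' j := by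
  unfold csum
  rw [← sum_add_distrib]
  apply sum_congr rfl
  intro a _
  split_ifs
  · rfl
  · simp

theorem bad_card {m : ℕ} (B : Fin 2 × Fin m → Finset (Fin m)) (Z : Finset (Fin m)) :
    (univ.filter fun M : Fin 2 → Fin m → Fin m → ZMod 2 =>
      (univ.filter fun j : Fin m => csum B M j ≠ 0) = Z).card * 2 ^ (univ.biUnion B).card ≤
      Fintype.card (Fin 2 → Fin m → Fin m → ZMod 2) := by
  classical
  have hex : ∀ j : {j // j ∈ univ.biUnion B}, ∃ a, j.1 ∈ B a := by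
    intro j
    obtain ⟨a, _, ha⟩ := mem_biUnion.mp j.2
    exact ⟨a, ha⟩
  choose a ha using hex
  let E : ({j // j ∈ univ.biUnion B} → ZMod 2) → Fin 2 → Fin m → Fin m → ZMod 2 :=
    fun v t l j => if h : j ∈ univ.biUnion B then (if (t, l) = a ⟨j, h⟩ then v ⟨j, h⟩ else 0) else 0
  have hE : ∀ v (j : {j // j ∈ univ.biUnion B}), csum B (E v) j.1 = v j := by
    intro v j
    unfold csum
    rw [Finset.sum_eq_single (a j)]
    · rw [if_pos (ha j)]
      simp only [E, Prod.mk.eta]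
      rw [dif_pos j.2]
      simp
    · intro b _ hb
      by_cases h1 : j.1 ∈ B b
      · rw [if_pos h1]
        simp only [E, Prod.mk.eta]
        rw [dif_pos j.2]
        simp [hb]
      · rw [if_neg h1]
    · intro h
      exact absurd (mem_univ _) h
  have hcard : (univ : Finset ({j // j ∈ univ.biUnion B} → ZMod 2)).card =
      2 ^ (univ.biUnion B).card := by
    rw [Finset.card_univ, Fintype.card_fun, ZMod.card, Fintype.card_coe]
  rw [← hcard, ← card_product, ← Finset.card_univ]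
  apply card_le_card_of_injOn (fun p => p.1 + E p.2)
  · intro p _
    exact mem_coe.mpr (mem_univ _)
  · rintro ⟨M, v⟩ h1 ⟨M', v'⟩ h2 h3
    simp only [coe_product, Set.mem_prod, mem_coe, mem_filter, mem_univ, true_and, and_true]
      at h1 h2
    simp only at h3
    have h4 : ∀ j, csum B M j = csum B M' j := by
      intro j
      have h5 : csum B M j ≠ 0 ↔ csum B M' j ≠ 0 := by
        have h6 : j ∈ (univ.filter fun j : Fin m => csum B M j ≠ 0) ↔
            j ∈ (univ.filter fun j : Fin m => csum B M' j ≠ 0) := by rw [h1, h2]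
        simpa using h6
      have h7 : ∀ x y : ZMod 2, (x ≠ 0 ↔ y ≠ 0) → x = y := by decide
      exact h7 _ _ h5
    have h8 : v = v' := by
      funext j
      have h9 := congrArg (fun M => csum B M j.1) h3
      simp only [csum_add, hE, h4 j.1] at h9
      exact add_left_cancel h9
    subst h8
    have h10 : M = M' := add_right_cancel h3
    rw [h10]

/-- start bits -/
def stt {m : ℕ} (hm : 0 < m) (B : Fin 2 × Fin m → Finset (Fin m)) : Finset (Fin 2 × Fin m) :=
  univ.filter fun a => (⟨0, hm⟩ : Fin m) ∈ B a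

/-- cut points -/
def ctt {m : ℕ} (B : Fin 2 × Fin m → Finset (Fin m)) : Finset (Σ _ : Fin 2 × Fin m, Fin m) :=
  univ.sigma fun a => univ.filter fun s : Fin m =>
      ∃ h : s.val + 1 < m, ¬ (s ∈ B a ↔ (⟨s.val + 1, h⟩ : Fin m) ∈ B a)

theorem code_inj {m : ℕ} (hm : 0 < m) (B B' : Fin 2 × Fin m → Finset (Fin m))
    (h1 : stt hm B = stt hm B') (h2 : ctt B = ctt B') : B = B' := by
    have h3 : ∀ a, (⟨0, hm⟩ : Fin m) ∈ B a ↔ (⟨0, hm⟩ : Fin m) ∈ B' a := by
      intro a
      have h0 : a ∈ stt hm B ↔ a ∈ stt hm B' := by rw [h1]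
      simpa only [stt, mem_filter, mem_univ, true_and] using h0
    have h4 : ∀ a (s : Fin m), (∃ h : s.val + 1 < m, ¬ (s ∈ B a ↔ (⟨s.val + 1, h⟩ : Fin m) ∈ B a))
        ↔ (∃ h : s.val + 1 < m, ¬ (s ∈ B' a ↔ (⟨s.val + 1, h⟩ : Fin m) ∈ B' a)) := by
      intro a s
      have h0 : (⟨a, s⟩ : Σ _ : Fin 2 × Fin m, Fin m) ∈ ctt B ↔
        (⟨a, s⟩ : Σ _ : Fin 2 × Fin m, Fin m) ∈ ctt B' := by rw [h2]
      simpa only [ctt, mem_sigma, mem_filter, mem_univ, true_and] using h0
    funext a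
    have h5 : ∀ n (hn : n < m), (⟨n, hn⟩ : Fin m) ∈ B a ↔ (⟨n, hn⟩ : Fin m) ∈ B' a := by
      intro n
      induction n with
      | zero =>
        intro hn
        exact h3 a
      | succ n ih =>
        intro hn
        have h6 := ih (by omega)
        have h7 := h4 a ⟨n, by omega⟩
        have h8 : (∃ h : n + 1 < m, ¬ ((⟨n, by omega⟩ : Fin m) ∈ B a ↔
            (⟨n + 1, h⟩ : Fin m) ∈ B a)) ↔ ¬ ((⟨n, by omega⟩ : Fin m) ∈ B a ↔
            (⟨n + 1, hn⟩ : Fin m) ∈ B a) :=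
          ⟨fun ⟨_, h⟩ => h, fun h => ⟨hn, h⟩⟩
        have h9 : (∃ h : n + 1 < m, ¬ ((⟨n, by omega⟩ : Fin m) ∈ B' a ↔
            (⟨n + 1, h⟩ : Fin m) ∈ B' a)) ↔ ¬ ((⟨n, by omega⟩ : Fin m) ∈ B' a ↔
            (⟨n + 1, hn⟩ : Fin m) ∈ B' a) :=
          ⟨fun ⟨_, h⟩ => h, fun h => ⟨hn, h⟩⟩
        rw [h8, h9] at h7
        have key : ∀ P P' Q Q' : Prop, (P ↔ P') → (¬(P ↔ Q) ↔ ¬(P' ↔ Q')) → (Q ↔ Q') := by
          intro P P' Q Q' a b
          by_cases p : P <;> by_cases q : Q <;> by_cases p' : P' <;> by_cases q' : Q' <;>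
            simp_all
        exact key _ _ _ _ h6 h7
    ext s
    exact h5 s.val s.isLt

theorem card_ctt {m : ℕ} (B : Fin 2 × Fin m → Finset (Fin m)) :
    (ctt B).card = ∑ a, cuts (B a) := by
  unfold ctt
  rw [Finset.card_sigma]
  rfl

/-- families with few cuts and few nonempty members -/
theorem fam_card (m N c : ℕ) (hm : 0 < m) (𝓑 : Finset (Fin 2 × Fin m → Finset (Fin m)))
    (hB : ∀ B ∈ 𝓑, (univ.filter fun a => (B a).Nonempty).card ≤ N ∧ ∑ a, cuts (B a) ≤ c) :
    𝓑.card ≤ (2 * m + 1) ^ N * (2 * m * m + 1) ^ c := by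
  classical
  have hinj : Set.InjOn (fun B => (stt hm B, ctt B)) (𝓑 : Set (Fin 2 × Fin m → Finset (Fin m))) := by
    intro B _ B' _ h
    exact code_inj hm B B' (congrArg Prod.fst h) (congrArg Prod.snd h)
  have h1 : 𝓑.card ≤ ((univ.filter fun s : Finset (Fin 2 × Fin m) => s.card ≤ N) ×ˢ
        (univ.filter fun s : Finset (Σ _ : Fin 2 × Fin m, Fin m) => s.card ≤ c)).card := by
    apply card_le_card_of_injOn (fun B => (stt hm B, ctt B)) _ hinj
    intro B hB'
    have hB2 := hB B (mem_coe.mp hB')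
    rw [mem_coe, mem_product, mem_filter, mem_filter]
    refine ⟨⟨mem_univ _, ?_⟩, mem_univ _, ?_⟩
    · refine le_trans (card_le_card ?_) hB2.1
      intro a ha
      simp only [stt, mem_filter, mem_univ, true_and] at ha ⊢
      exact ⟨_, ha⟩
    · have h1 := card_ctt B
      simp only
      rw [h1]
      exact hB2.2
  refine h1.trans ?_
  rw [card_product]
  apply Nat.mul_le_mul
  · refine (card_small _ N).trans (le_of_eq ?_)
    simp
  · refine (card_small _ c).trans (le_of_eq ?_)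
    simp

theorem exists_star (m N c w δ : ℕ) (hm : 0 < m)
    (h : (2 * m + 1) ^ N * (2 * m * m + 1) ^ c * (m + 1) ^ w < 2 ^ (δ + 1)) :
    ∃ M, Star m N c w δ M := by
  classical
  by_contra hno
  push Not at hno
  let 𝓑 := univ.filter fun B : Fin 2 × Fin m → Finset (Fin m) =>
      (univ.filter fun a => (B a).Nonempty).card ≤ N ∧ ∑ a, cuts (B a) ≤ c
  let 𝓑' := 𝓑.filter fun B => δ < (univ.biUnion B).card
  let 𝓩 := univ.filter fun Z : Finset (Fin m) => Z.card ≤ w
  let bad : (Fin 2 × Fin m → Finset (Fin m)) × Finset (Fin m) →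
      Finset (Fin 2 → Fin m → Fin m → ZMod 2) := fun p =>
    univ.filter fun M => (univ.filter fun j : Fin m => csum p.1 M j ≠ 0) = p.2
  have h1 : (univ : Finset (Fin 2 → Fin m → Fin m → ZMod 2)) ⊆ (𝓑' ×ˢ 𝓩).biUnion bad := by
    intro M _
    have h2 := hno M
    unfold Star at h2
    push Not at h2
    obtain ⟨B, hB1, hB2, hB3, hB4⟩ := h2
    rw [mem_biUnion]
    refine ⟨(B, univ.filter fun j : Fin m => csum B M j ≠ 0), ?_, ?_⟩
    · simp only [mem_product, 𝓑', 𝓑, 𝓩, mem_filter, mem_univ, true_and]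
      exact ⟨⟨⟨hB1, hB2⟩, hB4⟩, hB3⟩
    · simp [bad]
  have hΩ : 0 < Fintype.card (Fin 2 → Fin m → Fin m → ZMod 2) := Fintype.card_pos
  have h2 : Fintype.card (Fin 2 → Fin m → Fin m → ZMod 2) ≤ ∑ p ∈ 𝓑' ×ˢ 𝓩, (bad p).card := by
    rw [← Finset.card_univ]
    exact (card_le_card h1).trans card_biUnion_le
  have h3 : Fintype.card (Fin 2 → Fin m → Fin m → ZMod 2) * 2 ^ (δ + 1) ≤
      (𝓑' ×ˢ 𝓩).card * Fintype.card (Fin 2 → Fin m → Fin m → ZMod 2) := by
    calc Fintype.card (Fin 2 → Fin m → Fin m → ZMod 2) * 2 ^ (δ + 1)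
        ≤ (∑ p ∈ 𝓑' ×ˢ 𝓩, (bad p).card) * 2 ^ (δ + 1) := Nat.mul_le_mul_right _ h2
      _ = ∑ p ∈ 𝓑' ×ˢ 𝓩, (bad p).card * 2 ^ (δ + 1) := by rw [Finset.sum_mul]
      _ ≤ ∑ p ∈ 𝓑' ×ˢ 𝓩, Fintype.card (Fin 2 → Fin m → Fin m → ZMod 2) := by
        apply Finset.sum_le_sum
        intro p hp
        simp only [mem_product, 𝓑', mem_filter] at hp
        refine le_trans ?_ (bad_card p.1 p.2)
        apply Nat.mul_le_mul_left
        exact Nat.pow_le_pow_right (by norm_num) hp.1.2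
      _ = (𝓑' ×ˢ 𝓩).card * Fintype.card (Fin 2 → Fin m → Fin m → ZMod 2) := by
        rw [Finset.sum_const, smul_eq_mul]
  have h4 : 2 ^ (δ + 1) ≤ (𝓑' ×ˢ 𝓩).card := by
    rw [mul_comm] at h3
    exact Nat.le_of_mul_le_mul_right h3 hΩ
  have h5 : (𝓑' ×ˢ 𝓩).card ≤ (2 * m + 1) ^ N * (2 * m * m + 1) ^ c * (m + 1) ^ w := by
    rw [card_product]
    apply Nat.mul_le_mul
    · apply fam_card m N c hm
      intro B hB
      simp only [𝓑', 𝓑, mem_filter, mem_univ, true_and] at hB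
      exact hB.1
    · refine (card_small _ w).trans (le_of_eq ?_)
      simp
  omega

theorem exists_large (r K : ℕ) : ∃ n : ℕ, 0 < n ∧ (4 * (r + 2) ^ 2 * n ^ 2) ^ K < 2 ^ n := by
  have h1 := tendsto_pow_const_div_const_pow_of_one_lt (2 * K) (show (1 : ℝ) < 2 by norm_num)
  have hC : (0 : ℝ) < (4 * ((r : ℝ) + 2) ^ 2) ^ K := by positivity
  have h2 : ∀ᶠ n : ℕ in Filter.atTop, (n : ℝ) ^ (2 * K) / 2 ^ n < 1 / (4 * ((r : ℝ) + 2) ^ 2) ^ K :=
    h1.eventually (gt_mem_nhds (by positivity))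
  obtain ⟨n, hn, hn1⟩ := (h2.and (Filter.eventually_gt_atTop 0)).exists
  refine ⟨n, hn1, ?_⟩
  have h3 : (n : ℝ) ^ (2 * K) * (4 * ((r : ℝ) + 2) ^ 2) ^ K < 2 ^ n := by
    rw [div_lt_div_iff₀ (by positivity) hC] at hn
    linarith
  have h4 : ((4 * ((r : ℝ) + 2) ^ 2 * (n : ℝ) ^ 2) ^ K) < 2 ^ n := by
    rw [mul_pow, ← pow_mul]
    linarith
  exact_mod_cast h4

theorem st : StarStatement := by
  intro N c w r
  obtain ⟨n, hn, hlt⟩ := exists_large r (N + c + w)
  refine ⟨(r + 2) * n, n - 1, ?_⟩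
  have hm2 : 2 ≤ (r + 2) * n := by nlinarith
  obtain ⟨M, hM⟩ := exists_star ((r + 2) * n) N c w (n - 1) (by omega) (by
    have e1 : n - 1 + 1 = n := by omega
    rw [e1]
    refine lt_of_le_of_lt ?_ hlt
    set m := (r + 2) * n with hm
    have e2 : 4 * (r + 2) ^ 2 * n ^ 2 = 4 * m ^ 2 := by rw [hm]; ring
    rw [e2, pow_add, pow_add]
    apply Nat.mul_le_mul
    · apply Nat.mul_le_mul
      · apply Nat.pow_le_pow_left
        nlinarith
      · apply Nat.pow_le_pow_left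
        nlinarith
    · apply Nat.pow_le_pow_left
      nlinarith)
  refine ⟨M, hm2, ?_, hM⟩
  have e1 : n - 1 + 1 = n := by omega
  rw [e1]
  nlinarith

end Horn
end P310
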