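import Vale.Agent.P310.SM

/-!
# P310 module TS: Turing machine to stack machine with constant overhead
-/

namespace P310
namespace TSm

/-- phases of the simulation of one step -/
inductive Phase (Γ : Type)
  | rd
  | w0
  | w1
  | w2
  | w3 (a : Γ)
  | w4 (a : Γ)
  deriving DecidableEq, Fintype

/-- labels: state, symbols read, tape number, phase -/
abbrev Lab (A : TM) : Type :=
  A.Q × (Fin (A.r + 1) → A.Γ) × Fin (A.r + 2) × Phase A.Γ

variable {A : TM} {S : Type}

/-- phases for a real tape `i'` -/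
def instrT (ψ : TStack A → S) (q : A.Q) (g : Fin (A.r + 1) → A.Γ) (i : Fin (A.r + 2))
    (i' : Fin (A.r + 1)) (nx : Fin (A.r + 2)) : Phase A.Γ → Instr (Lab A) S A.Γ
  | .rd => .peek (ψ (.inr i')) (fun o => (q, Function.update g i' (o.getD A.blank), nx, .rd))
  | .w0 => .pop (ψ (.inr i')) (q, g, i, .w1)
  | .w1 =>
    match (A.δ q g).2.2 i' with
    | .right => .push (ψ (.inl i')) ((A.δ q g).2.1 i') (q, g, nx, .w0)
    | .stay => .push (ψ (.inr i')) ((A.δ q g).2.1 i') (q, g, nx, .w0)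
    | .left => .push (ψ (.inr i')) ((A.δ q g).2.1 i') (q, g, i, .w2)
  | .w2 => .peek (ψ (.inl i')) (fun o => (q, g, i, .w3 (o.getD A.blank)))
  | .w3 a => .pop (ψ (.inl i')) (q, g, i, .w4 a)
  | .w4 a => .push (ψ (.inr i')) a (q, g, nx, .w0)

/-- phases after the last tape -/
def instrE (ψ : TStack A → S) (q : A.Q) (g : Fin (A.r + 1) → A.Γ) :
    Phase A.Γ → Instr (Lab A) S A.Γ
  | .rd => .peek (ψ (.inr 0)) (fun _ => (q, g, 0, .w0))
  | _ => .peek (ψ (.inr 0)) (fun _ => ((A.δ q g).1, g, 0, .rd))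

/-- the program -/
def instr (ψ : TStack A → S) (l : Lab A) : Instr (Lab A) S A.Γ :=
  if l.1 = A.accept then .accept
  else if l.1 = A.reject then .reject
  else if h : l.2.2.1.val < A.r + 1 then
    instrT ψ l.1 l.2.1 l.2.2.1 ⟨l.2.2.1.val, h⟩ ⟨l.2.2.1.val + 1, by omega⟩ l.2.2.2
  else instrE ψ l.1 l.2.1 l.2.2.2

/-- the stack machine -/
def mach (ψ : TStack A → S) : SM S A.Γ where
  L := Lab A
  instr := instr ψ
  start := (A.start, fun _ => A.blank, 0, .rd)

/-- one tape is represented by two stacks -/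
def SimT (b : A.Γ) (tp : ℤ → A.Γ) (p : ℤ) (l r : List A.Γ) : Prop :=
  (∀ n : ℕ, (r[n]?).getD b = tp (p + n)) ∧ (∀ n : ℕ, (l[n]?).getD b = tp (p - 1 - n))

theorem simT_right {b : A.Γ} {tp : ℤ → A.Γ} {p : ℤ} {l r : List A.Γ} (h : SimT b tp p l r)
    (a : A.Γ) : SimT b (Function.update tp p a) (p + 1) (a :: l) r.tail := by
  constructor
  · intro n
    rw [List.getElem?_tail, Function.update_of_ne (by omega), h.1 (n + 1)]
    congr 1
    push_cast
    ring
  · intro n
    rcases n with _ | n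
    · simp
    · rw [List.getElem?_cons_succ, Function.update_of_ne (by push_cast; omega), h.2 n]
      congr 1
      push_cast
      ring

theorem simT_stay {b : A.Γ} {tp : ℤ → A.Γ} {p : ℤ} {l r : List A.Γ} (h : SimT b tp p l r)
    (a : A.Γ) : SimT b (Function.update tp p a) p l (a :: r.tail) := by
  constructor
  · intro n
    rcases n with _ | n
    · simp
    · rw [List.getElem?_cons_succ, List.getElem?_tail, Function.update_of_ne (by push_cast; omega),
        h.1 (n + 1)]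
  · intro n
    rw [Function.update_of_ne (by omega), h.2 n]

theorem simT_left {b : A.Γ} {tp : ℤ → A.Γ} {p : ℤ} {l r : List A.Γ} (h : SimT b tp p l r)
    (a : A.Γ) : SimT b (Function.update tp p a) (p - 1) l.tail
      (l.head?.getD b :: a :: r.tail) := by
  constructor
  · intro n
    rcases n with _ | _ | n
    · have := h.2 0
      rw [← List.head?_eq_getElem?] at this
      rw [List.getElem?_cons_zero, Function.update_of_ne (by push_cast; omega), Option.getD_some,
        this]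
      congr 1
    · simp
    · rw [List.getElem?_cons_succ, List.getElem?_cons_succ, List.getElem?_tail,
        Function.update_of_ne (by push_cast; omega), h.1 (n + 1)]
      congr 1
      push_cast
      ring_nf
  · intro n
    rw [List.getElem?_tail, Function.update_of_ne (by omega), h.2 (n + 1)]
    congr 1
    push_cast
    ring

theorem instr_T (ψ : TStack A → S) {q : A.Q} (h1 : q ≠ A.accept) (h2 : q ≠ A.reject)
    (g : Fin (A.r + 1) → A.Γ) (i : ℕ) (hi : i < A.r + 1) (p : Phase A.Γ) :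
    instr ψ (q, g, (⟨i, by omega⟩ : Fin (A.r + 2)), p) =
      instrT ψ q g ⟨i, by omega⟩ ⟨i, hi⟩ ⟨i + 1, by omega⟩ p := by
  simp [instr, h1, h2, hi]

theorem instr_E (ψ : TStack A → S) {q : A.Q} (h1 : q ≠ A.accept) (h2 : q ≠ A.reject)
    (g : Fin (A.r + 1) → A.Γ) (p : Phase A.Γ) :
    instr ψ (q, g, (⟨A.r + 1, by omega⟩ : Fin (A.r + 2)), p) = instrE ψ q g p := by
  simp [instr, h1, h2]

variable [DecidableEq S]

/-- execution of one instruction -/
def exec (i : Instr (Lab A) S A.Γ) (c : Lab A × (S → List A.Γ)) : Lab A × (S → List A.Γ) :=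
  match i with
  | .push σ a l => (l, Function.update c.2 σ (a :: c.2 σ))
  | .pop σ l => (l, Function.update c.2 σ (c.2 σ).tail)
  | .peek σ f => (f (c.2 σ).head?, c.2)
  | .accept => c
  | .reject => c

/-- one step -/
def stp (ψ : TStack A → S) (c : Lab A × (S → List A.Γ)) : Lab A × (S → List A.Γ) :=
  exec (instr ψ c.1) c

theorem step_eq (ψ : TStack A → S) : (mach ψ).step = stp ψ := by
  funext c
  have key : ∀ i : Instr (mach ψ).L S A.Γ, (mach ψ).instr c.1 = i →
      (mach ψ).step c = exec i c := by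
    intro i h
    unfold SM.step
    rw [h]
    cases i <;> rfl
  exact key _ rfl

theorem stp_T (ψ : TStack A → S) {q : A.Q} (h1 : q ≠ A.accept) (h2 : q ≠ A.reject)
    (g : Fin (A.r + 1) → A.Γ) (i : ℕ) (hi : i < A.r + 1) (p : Phase A.Γ) (st : S → List A.Γ) :
    stp ψ ((q, g, (⟨i, by omega⟩ : Fin (A.r + 2)), p), st) =
      exec (instrT ψ q g ⟨i, by omega⟩ ⟨i, hi⟩ ⟨i + 1, by omega⟩ p)
        ((q, g, (⟨i, by omega⟩ : Fin (A.r + 2)), p), st) := by
  unfold stp
  rw [instr_T ψ h1 h2 g i hi p]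

theorem stp_E (ψ : TStack A → S) {q : A.Q} (h1 : q ≠ A.accept) (h2 : q ≠ A.reject)
    (g : Fin (A.r + 1) → A.Γ) (p : Phase A.Γ) (st : S → List A.Γ) :
    stp ψ ((q, g, (⟨A.r + 1, by omega⟩ : Fin (A.r + 2)), p), st) =
      exec (instrE ψ q g p) ((q, g, (⟨A.r + 1, by omega⟩ : Fin (A.r + 2)), p), st) := by
  unfold stp
  rw [instr_E ψ h1 h2 g p]

/-- reading phase -/
theorem read_phase (ψ : TStack A → S) {q : A.Q} (h1 : q ≠ A.accept) (h2 : q ≠ A.reject)
    (g : Fin (A.r + 1) → A.Γ) (st : S → List A.Γ) (i : ℕ) (hi : i ≤ A.r + 1) :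
    ∃ g' : Fin (A.r + 1) → A.Γ,
      (stp ψ)^[i] ((q, g, 0, Phase.rd), st) =
        ((q, g', (⟨i, by omega⟩ : Fin (A.r + 2)), Phase.rd), st) ∧
      ∀ j : Fin (A.r + 1), j.val < i → g' j = ((st (ψ (.inr j))).head?).getD A.blank := by
  induction i with
  | zero => exact ⟨g, rfl, fun j hj => absurd hj (by omega)⟩
  | succ i ih =>
    obtain ⟨g', e, hg⟩ := ih (by omega)
    refine ⟨Function.update g' ⟨i, by omega⟩ (((st (ψ (.inr ⟨i, by omega⟩))).head?).getD A.blank),
      ?_, ?_⟩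
    · rw [Function.iterate_succ_apply', e, stp_T ψ h1 h2 g' i (by omega) Phase.rd]
      rfl
    · intro j hj
      by_cases hji : j = ⟨i, by omega⟩
      · rw [hji]
        simp
      · rw [Function.update_of_ne hji]
        apply hg
        have : j.val ≠ i := fun h => hji (Fin.ext h)
        omega

/-- treatment of one tape -/
theorem write_tape (ψ : TStack A → S) (hψ : Function.Injective ψ) {q : A.Q} (h1 : q ≠ A.accept)
    (h2 : q ≠ A.reject)
    (g : Fin (A.r + 1) → A.Γ) (st : S → List A.Γ) (i : ℕ) (hi : i < A.r + 1)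
    (tp : ℤ → A.Γ) (p : ℤ)
    (hs : SimT A.blank tp p (st (ψ (.inl ⟨i, hi⟩))) (st (ψ (.inr ⟨i, hi⟩)))) :
    ∃ n ≤ 5, ∃ st' : S → List A.Γ,
      (stp ψ)^[n] ((q, g, (⟨i, by omega⟩ : Fin (A.r + 2)), Phase.w0), st) =
        ((q, g, (⟨i + 1, by omega⟩ : Fin (A.r + 2)), Phase.w0), st') ∧
      SimT A.blank (Function.update tp p ((A.δ q g).2.1 ⟨i, hi⟩))
        (p + ((A.δ q g).2.2 ⟨i, hi⟩).disp)
        (st' (ψ (.inl ⟨i, hi⟩))) (st' (ψ (.inr ⟨i, hi⟩))) ∧
      (∀ j : Fin (A.r + 1), j.val ≠ i → st' (ψ (.inl j)) = st (ψ (.inl j)) ∧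
        st' (ψ (.inr j)) = st (ψ (.inr j))) := by
  have hlr : ψ (.inl ⟨i, hi⟩) ≠ ψ (.inr ⟨i, hi⟩) := fun h => by simpa using hψ h
  have hrl : ψ (.inr ⟨i, hi⟩) ≠ ψ (.inl ⟨i, hi⟩) := fun h => by simpa using hψ h
  have hjll : ∀ j : Fin (A.r + 1), j.val ≠ i → ψ (.inl j) ≠ ψ (.inl ⟨i, hi⟩) := fun j hj h => by
    have := hψ h
    simp only [Sum.inl.injEq] at this
    exact hj (congrArg Fin.val this)
  have hjlr : ∀ j : Fin (A.r + 1), ψ (.inl j) ≠ ψ (.inr ⟨i, hi⟩) := fun j h => by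
    simpa using hψ h
  have hjrl : ∀ j : Fin (A.r + 1), ψ (.inr j) ≠ ψ (.inl ⟨i, hi⟩) := fun j h => by
    simpa using hψ h
  have hjrr : ∀ j : Fin (A.r + 1), j.val ≠ i → ψ (.inr j) ≠ ψ (.inr ⟨i, hi⟩) := fun j hj h => by
    have := hψ h
    simp only [Sum.inr.injEq] at this
    exact hj (congrArg Fin.val this)
  rcases hd : (A.δ q g).2.2 ⟨i, hi⟩ with _ | _ | _
  · -- left
    refine ⟨5, le_rfl, Function.update (Function.update (Function.update (Function.update st
      (ψ (.inr ⟨i, hi⟩)) (st (ψ (.inr ⟨i, hi⟩))).tail) (ψ (.inr ⟨i, hi⟩))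
        ((A.δ q g).2.1 ⟨i, hi⟩ :: (st (ψ (.inr ⟨i, hi⟩))).tail)) (ψ (.inl ⟨i, hi⟩))
        (st (ψ (.inl ⟨i, hi⟩))).tail) (ψ (.inr ⟨i, hi⟩))
        ((st (ψ (.inl ⟨i, hi⟩))).head?.getD A.blank :: (A.δ q g).2.1 ⟨i, hi⟩ ::
          (st (ψ (.inr ⟨i, hi⟩))).tail), ?_, ?_, ?_⟩
    · rw [Function.iterate_succ_apply, stp_T ψ h1 h2 g i hi Phase.w0]
      simp only [instrT, exec]
      rw [Function.iterate_succ_apply, stp_T ψ h1 h2 g i hi Phase.w1]
      simp only [instrT, hd, exec]
      rw [Function.iterate_succ_apply, stp_T ψ h1 h2 g i hi Phase.w2]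
      simp only [instrT, exec]
      rw [Function.iterate_succ_apply, stp_T ψ h1 h2 g i hi (Phase.w3 _)]
      simp only [instrT, exec]
      rw [Function.iterate_succ_apply, stp_T ψ h1 h2 g i hi (Phase.w4 _)]
      simp only [instrT, exec, Function.iterate_zero, id]
      simp [Function.update_of_ne, hlr, hrl]
    · have := simT_left hs ((A.δ q g).2.1 ⟨i, hi⟩)
      simpa [Function.update_of_ne, hlr, hrl, Dir.disp, sub_eq_add_neg] using this
    · intro j hj
      simp [Function.update_of_ne, hjll j hj, hjlr j, hjrl j, hjrr j hj]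
  · -- stay
    refine ⟨2, by norm_num, Function.update (Function.update st
      (ψ (.inr ⟨i, hi⟩)) (st (ψ (.inr ⟨i, hi⟩))).tail) (ψ (.inr ⟨i, hi⟩))
        ((A.δ q g).2.1 ⟨i, hi⟩ :: (st (ψ (.inr ⟨i, hi⟩))).tail), ?_, ?_, ?_⟩
    · rw [Function.iterate_succ_apply, stp_T ψ h1 h2 g i hi Phase.w0]
      simp only [instrT, exec]
      rw [Function.iterate_succ_apply, stp_T ψ h1 h2 g i hi Phase.w1]
      simp only [instrT, hd, exec, Function.iterate_zero, id]
      simp [Function.update_of_ne, hlr, hrl]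
    · have := simT_stay hs ((A.δ q g).2.1 ⟨i, hi⟩)
      simpa [Function.update_of_ne, hlr, hrl, Dir.disp] using this
    · intro j hj
      simp [Function.update_of_ne, hjll j hj, hjlr j, hjrl j, hjrr j hj]
  · -- right
    refine ⟨2, by norm_num, Function.update (Function.update st
      (ψ (.inr ⟨i, hi⟩)) (st (ψ (.inr ⟨i, hi⟩))).tail) (ψ (.inl ⟨i, hi⟩))
        ((A.δ q g).2.1 ⟨i, hi⟩ :: st (ψ (.inl ⟨i, hi⟩))), ?_, ?_, ?_⟩
    · rw [Function.iterate_succ_apply, stp_T ψ h1 h2 g i hi Phase.w0]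
      simp only [instrT, exec]
      rw [Function.iterate_succ_apply, stp_T ψ h1 h2 g i hi Phase.w1]
      simp only [instrT, hd, exec, Function.iterate_zero, id]
      simp [hlr]
    · have := simT_right hs ((A.δ q g).2.1 ⟨i, hi⟩)
      simpa [Function.update_of_ne, hlr, hrl, Dir.disp] using this
    · intro j hj
      simp [Function.update_of_ne, hjll j hj, hjlr j, hjrl j, hjrr j hj]

/-- writing phase -/
theorem write_phase (ψ : TStack A → S) (hψ : Function.Injective ψ) {q : A.Q} (h1 : q ≠ A.accept)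
    (h2 : q ≠ A.reject) (g : Fin (A.r + 1) → A.Γ) (st : S → List A.Γ)
    (tp : Fin (A.r + 1) → ℤ → A.Γ) (p : Fin (A.r + 1) → ℤ)
    (hs : ∀ j, SimT A.blank (tp j) (p j) (st (ψ (.inl j))) (st (ψ (.inr j)))) (i : ℕ)
    (hi : i ≤ A.r + 1) :
    ∃ n ≤ 5 * i, ∃ st' : S → List A.Γ,
      (stp ψ)^[n] ((q, g, 0, Phase.w0), st) =
        ((q, g, (⟨i, by omega⟩ : Fin (A.r + 2)), Phase.w0), st') ∧
      (∀ j : Fin (A.r + 1), j.val < i → SimT A.blank
        (Function.update (tp j) (p j) ((A.δ q g).2.1 j))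
        (p j + ((A.δ q g).2.2 j).disp) (st' (ψ (.inl j))) (st' (ψ (.inr j)))) ∧
      (∀ j : Fin (A.r + 1), i ≤ j.val →
        SimT A.blank (tp j) (p j) (st' (ψ (.inl j))) (st' (ψ (.inr j)))) := by
  induction i with
  | zero => exact ⟨0, by omega, st, rfl, fun j hj => absurd hj (by omega), fun j _ => hs j⟩
  | succ i ih =>
    obtain ⟨n, hn, st', e, ha, hb⟩ := ih (by omega)
    obtain ⟨m, hm, st'', e', hc, hd⟩ := write_tape ψ hψ h1 h2 g st' i (by omega)
      (tp ⟨i, by omega⟩) (p ⟨i, by omega⟩) (hb ⟨i, by omega⟩ le_rfl)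
    refine ⟨m + n, by omega, st'', ?_, ?_, ?_⟩
    · rw [Function.iterate_add_apply, e, e']
    · intro j hj
      by_cases hji : j.val = i
      · have : j = ⟨i, by omega⟩ := Fin.ext hji
        rw [this]
        exact hc
      · rw [(hd j hji).1, (hd j hji).2]
        exact ha j (by omega)
    · intro j hj
      rw [(hd j (by omega)).1, (hd j (by omega)).2]
      exact hb j (by omega)

/-- simulation relation -/
def Sim (ψ : TStack A → S) (c : Cfg A) (d : Lab A × (S → List A.Γ)) : Prop :=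
  (∃ g, d.1 = (c.q, g, 0, Phase.rd)) ∧
    ∀ j, SimT A.blank (c.tape j) (c.pos j) (d.2 (ψ (.inl j))) (d.2 (ψ (.inr j)))

theorem one_step (ψ : TStack A → S) (hψ : Function.Injective ψ) (c : Cfg A)
    (d : Lab A × (S → List A.Γ)) (h : Sim ψ c d) :
    ∃ n ≤ 6 * (A.r + 1) + 2, Sim ψ (A.step c) ((stp ψ)^[n] d) := by
  by_cases hq : c.q = A.accept ∨ c.q = A.reject
  · refine ⟨0, by omega, ?_⟩
    unfold TM.step
    rw [if_pos hq]
    exact h
  · have h1 : c.q ≠ A.accept := fun e => hq (Or.inl e)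
    have h2 : c.q ≠ A.reject := fun e => hq (Or.inr e)
    obtain ⟨⟨g, hg⟩, hs⟩ := h
    obtain ⟨d1, d2⟩ := d
    simp only at hg hs
    subst hg
    obtain ⟨g', e1, hg'⟩ := read_phase ψ h1 h2 g d2 (A.r + 1) le_rfl
    have hgg : g' = fun i => c.tape i (c.pos i) := by
      funext j
      rw [hg' j j.isLt, List.head?_eq_getElem?]
      have := (hs j).1 0
      simpa using this
    obtain ⟨n, hn, st', e2, ha, -⟩ := write_phase ψ hψ h1 h2 g' d2 c.tape c.pos hs (A.r + 1) le_rfl
    refine ⟨1 + (n + (1 + (A.r + 1))), by omega, ?_⟩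
    rw [Function.iterate_add_apply, Function.iterate_add_apply _ n, Function.iterate_add_apply,
      e1, Function.iterate_one, stp_E ψ h1 h2]
    simp only [instrE, exec]
    rw [e2, stp_E ψ h1 h2]
    simp only [instrE, exec]
    unfold TM.step
    rw [if_neg hq]
    refine ⟨⟨g', ?_⟩, ?_⟩
    · simp [hgg]
    · intro j
      have := ha j j.isLt
      rw [hgg] at this
      exact this

theorem many_steps (ψ : TStack A → S) (hψ : Function.Injective ψ) (c : Cfg A)
    (d : Lab A × (S → List A.Γ)) (h : Sim ψ c d) (t : ℕ) :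
    ∃ n ≤ (6 * (A.r + 1) + 2) * t, Sim ψ ((A.step)^[t] c) ((stp ψ)^[n] d) := by
  induction t with
  | zero => exact ⟨0, by omega, h⟩
  | succ t ih =>
    obtain ⟨n, hn, hs⟩ := ih
    obtain ⟨m, hm, hs'⟩ := one_step ψ hψ _ _ hs
    refine ⟨m + n, by nlinarith, ?_⟩
    rw [Function.iterate_succ_apply', Function.iterate_add_apply]
    exact hs'

end TSm

/-- Module TS. -/
theorem ts : TSStatement := by
  intro A S _ ψ hψ
  refine ⟨TSm.mach ψ, 6 * (A.r + 1) + 2, ?_⟩
  intro w st h0 hl hr t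
  have hsim : TSm.Sim ψ (A.init w) ((A.start, fun _ => A.blank, 0, TSm.Phase.rd), st) := by
    refine ⟨⟨_, rfl⟩, ?_⟩
    intro j
    constructor
    · intro n
      by_cases hj : j = 0
      · subst hj
        simp only [TM.init, h0, List.getElem?_map]
        simp
        cases w[n]? <;> rfl
      · simp only [TM.init, hr j hj]
        simp [hj]
    · intro n
      simp only [TM.init, hl j]
      rw [if_neg (by omega)]
      simp
  obtain ⟨n, hn, hs⟩ := TSm.many_steps ψ hψ _ _ hsim t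
  obtain ⟨⟨g, hg⟩, -⟩ := hs
  have hrun : (TSm.mach ψ).run st n =
      (TSm.stp ψ)^[n] ((A.start, fun _ => A.blank, 0, TSm.Phase.rd), st) := by
    unfold SM.run
    rw [TSm.step_eq]
    rfl
  constructor
  · intro hA
    refine ⟨n, by omega, ?_⟩
    unfold SM.Acc
    rw [hrun]
    show TSm.instr ψ _ = _
    rw [hg]
    unfold TM.AcceptsIn at hA
    unfold TSm.instr
    rw [if_pos hA]
    rfl
  · intro hR
    refine ⟨n, by omega, ?_⟩
    unfold SM.Rej
    rw [hrun]
    show TSm.instr ψ _ = _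
    rw [hg]
    unfold TM.RejectsIn at hR
    unfold TSm.instr
    rw [if_neg (by rw [hR]; exact A.acc_ne_rej.symm), if_pos hR]
    rfl

end P310
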