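import Vale.Agent.P310.XG

/-!
# Module XC: narrow refutations are found by `k`-WL
-/

namespace P310

namespace XC

open Classical in
/-- equal images of the universe as multisets: a matching permutation -/
theorem exists_perm {V α : Type} [Fintype V] (f g : V → α)
    (h : (Finset.univ : Finset V).val.map f = (Finset.univ : Finset V).val.map g) :
    ∃ π : Equiv.Perm V, ∀ z, f z = g (π z) := by
  have hc : ∀ a : α, Nonempty ({z // f z = a} ≃ {z // g z = a}) := by
    intro a
    rw [← Fintype.card_eq, Fintype.card_subtype, Fintype.card_subtype]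
    have h1 := congrArg (Multiset.count a) h
    rw [Multiset.count_map, Multiset.count_map] at h1
    have e1 : ∀ f' : V → α, (Finset.univ.filter fun z => f' z = a).card =
        Multiset.card ((Finset.univ : Finset V).val.filter fun z => a = f' z) := by
      intro f'
      rw [Finset.card_def, Finset.filter_val]
      congr 1
      refine Multiset.filter_congr fun z _ => ?_
      exact eq_comm
    rw [e1, e1]
    exact h1
  let E' : ∀ a, {z // f z = a} ≃ {z // g z = a} := fun a => Classical.choice (hc a)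
  let π : V ≃ V := (Equiv.sigmaFiberEquiv f).symm.trans
    ((Equiv.sigmaCongrRight E').trans (Equiv.sigmaFiberEquiv g))
  refine ⟨π, fun z => ?_⟩
  exact ((E' (f z)) ⟨z, rfl⟩).2.symm

variable {V : Type} [Fintype V] (G H : SimpleGraph V) (k : ℕ)

/-- same colour after every number of rounds -/
def Eqv (x y : Fin k → V) : Prop := ∀ r, col G k r x = col H k r y

variable {G H k}

theorem col_mono {x y : Fin k → V} {r : ℕ} : ∀ {r' : ℕ}, r ≤ r' →
    col G k r' x = col H k r' y → col G k r x = col H k r y := by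
  intro r' hr
  induction hr with
  | refl => exact fun h => h
  | step hr ih =>
    intro h
    exact ih (congrArg Prod.fst h)

/-- replace the `i`-th entry -/
def rep (x : Fin k → V) (i : Fin k) (z : V) : Fin k → V := fun j => if j = i then z else x j

theorem Eqv.step {x y : Fin k → V} (h : Eqv G H k x y) :
    ∃ π : Equiv.Perm V, ∀ z i, Eqv G H k (rep x i z) (rep y i (π z)) := by
  have h1 : ∀ r, ∃ π : Equiv.Perm V, ∀ z,
      (fun i => col G k r (rep x i z)) = (fun i => col H k r (rep y i (π z))) := by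
    intro r
    have := congrArg Prod.snd (h (r + 1))
    exact exists_perm (fun z => fun i => col G k r (rep x i z))
      (fun z => fun i => col H k r (rep y i z)) this
  choose π hπ using h1
  obtain ⟨σ, hσ⟩ := Finite.exists_infinite_fiber π
  have hinf : (π ⁻¹' {σ}).Infinite := Set.infinite_coe_iff.mp hσ
  refine ⟨σ, fun z i r => ?_⟩
  obtain ⟨r', hr', hrr⟩ := hinf.exists_gt r
  have h2 : π r' = σ := hr'
  have h3 := congrFun (hπ r' z) i
  rw [h2] at h3
  exact col_mono hrr.le h3

theorem exists_eqv [Nonempty V] (h : WLEquiv k G H) :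
    ∃ x y : Fin k → V, Eqv G H k x y := by
  obtain ⟨v⟩ := ‹Nonempty V›
  let x : Fin k → V := fun _ => v
  have h1 : ∀ r, ∃ y, col G k r x = col H k r y := by
    intro r
    have hm : col G k r x ∈ (Finset.univ : Finset (Fin k → V)).val.map (col G k r) :=
      Multiset.mem_map_of_mem _ (Finset.mem_univ x)
    rw [h r] at hm
    obtain ⟨y, _, hy⟩ := Multiset.mem_map.mp hm
    exact ⟨y, hy.symm⟩
  choose y hy using h1
  obtain ⟨y₀, hy₀⟩ := Finite.exists_infinite_fiber y
  have hinf : (y ⁻¹' {y₀}).Infinite := Set.infinite_coe_iff.mp hy₀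
  refine ⟨x, y₀, fun r => ?_⟩
  obtain ⟨r', hr', hrr⟩ := hinf.exists_gt r
  have h2 : y r' = y₀ := hr'
  have h3 := hy r'
  rw [h2] at h3
  exact col_mono hrr.le h3

theorem Eqv.adj {x y : Fin k → V} (h : Eqv G H k x y) (i j : Fin k) :
    G.Adj (x i) (x j) ↔ H.Adj (y i) (y j) := by
  have h1 := congrArg Prod.snd (h 0)
  have h2 := congrFun (congrFun h1 i) j
  exact iff_of_eq h2

/-- degrees are preserved -/
theorem Eqv.deg {x y : Fin k → V} (hk : 2 ≤ k) (h : Eqv G H k x y) (i : Fin k) :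
    Nat.card {z // G.Adj (x i) z} = Nat.card {z // H.Adj (y i) z} := by
  obtain ⟨π, hπ⟩ := h.step
  obtain ⟨j, hj⟩ : ∃ j : Fin k, j ≠ i := by
    have : Nontrivial (Fin k) := Fin.nontrivial_iff_two_le.mpr hk
    exact exists_ne i
  refine Nat.card_congr (π.subtypeEquiv fun z => ?_)
  have := (hπ z j).adj i j
  simpa [rep, hj.symm] using this

end XC

namespace XSys

open XC

variable {S : XSys} {C : S.Cls → ℕ} {D : Type}

theorem not_leaf_adj (g : Bool) (ν : Σ μ : S.Main, Fin (C (S.cls μ))) :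
    Nat.card {z // (S.graph C D g).Adj (Sum.inr (Sum.inl ν)) z} = 1 := by
  rw [Nat.card_eq_one_iff_unique]
  refine ⟨⟨?_⟩, ⟨⟨Sum.inl ν.1, rfl⟩⟩⟩
  rintro ⟨z, hz⟩ ⟨z', hz'⟩
  have key : ∀ z, (S.graph C D g).Adj (Sum.inr (Sum.inl ν)) z → z = Sum.inl ν.1 := by
    intro z hz
    rcases z with μ | ν' | d
    · have : ν.1 = μ := hz
      rw [this]
    · exact hz.elim
    · exact hz.elim
  exact Subtype.ext ((key z hz).trans (key z' hz').symm)

theorem dummy_deg (g : Bool) (d : D) :
    Nat.card {z // (S.graph C D g).Adj (Sum.inr (Sum.inr d)) z} = 0 := by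
  rw [Nat.card_eq_zero]
  refine Or.inl ⟨?_⟩
  rintro ⟨z, hz⟩
  rcases z with μ | ν' | d'
  · exact hz.elim
  · exact hz.elim
  · exact hz.elim

theorem main_deg [Fintype D] (hC : ∀ c, 2 ≤ C c) (g : Bool) (μ : S.Main) :
    2 ≤ Nat.card {z // (S.graph C D g).Adj (Sum.inl μ) z} := by
  let f : Fin (C (S.cls μ)) → {z // (S.graph C D g).Adj (Sum.inl μ) z} :=
    fun t => ⟨Sum.inr (Sum.inl ⟨μ, t⟩), rfl⟩
  have hf : Function.Injective f := by
    intro t t' h
    have h1 := congrArg Subtype.val h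
    have h2 := Sum.inl.inj (Sum.inr.inj h1)
    exact eq_of_heq (Sigma.mk.inj h2).2
  have := Nat.card_le_card_of_injective f hf
  rw [Nat.card_eq_fintype_card, Fintype.card_fin] at this
  exact (hC _).trans this

/-- a leaf -/
def IsLeaf (z : S.Vx C D) : Prop := ∃ ν, z = Sum.inr (Sum.inl ν)

theorem isLeaf_iff [Fintype D] (hC : ∀ c, 2 ≤ C c) (g : Bool) (z : S.Vx C D) :
    IsLeaf z ↔ Nat.card {z' // (S.graph C D g).Adj z z'} = 1 := by
  rcases z with μ | ν | d
  · constructor
    · rintro ⟨ν, hν⟩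
      exact (Sum.inl_ne_inr hν).elim
    · intro h
      have := main_deg (D := D) hC g μ
      omega
  · exact ⟨fun _ => not_leaf_adj g ν, fun _ => ⟨ν, rfl⟩⟩
  · constructor
    · rintro ⟨ν, hν⟩
      exact (Sum.inr_ne_inl (Sum.inr.inj hν)).elim
    · intro h
      rw [dummy_deg] at h
      omega

theorem main_iff [Fintype D] (hC : ∀ c, 2 ≤ C c) (g : Bool) (z : S.Vx C D) :
    (∃ μ, z = Sum.inl μ) ↔ 2 ≤ Nat.card {z' // (S.graph C D g).Adj z z'} := by
  rcases z with μ | ν | d
  · exact ⟨fun _ => main_deg hC g μ, fun _ => ⟨μ, rfl⟩⟩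
  · constructor
    · rintro ⟨μ, hμ⟩
      exact (Sum.inr_ne_inl hμ).elim
    · intro h
      rw [not_leaf_adj] at h
      omega
  · constructor
    · rintro ⟨μ, hμ⟩
      exact (Sum.inr_ne_inl hμ).elim
    · intro h
      rw [dummy_deg] at h
      omega

theorem leaves_card (g : Bool) (μ : S.Main) :
    Nat.card {z : S.Vx C D // (S.graph C D g).Adj (Sum.inl μ) z ∧ IsLeaf z} = C (S.cls μ) := by
  let f : Fin (C (S.cls μ)) → {z : S.Vx C D // (S.graph C D g).Adj (Sum.inl μ) z ∧ IsLeaf z} :=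
    fun t => ⟨Sum.inr (Sum.inl ⟨μ, t⟩), rfl, ⟨_, rfl⟩⟩
  have hf : Function.Bijective f := by
    constructor
    · intro t t' h
      have h1 := congrArg Subtype.val h
      have h2 := Sum.inl.inj (Sum.inr.inj h1)
      exact eq_of_heq (Sigma.mk.inj h2).2
    · rintro ⟨z, hz, ν, rfl⟩
      obtain ⟨μ', t⟩ := ν
      have : μ' = μ := hz
      subst this
      exact ⟨t, rfl⟩
  rw [← Nat.card_congr (Equiv.ofBijective f hf), Nat.card_eq_fintype_card, Fintype.card_fin]

section main
variable [Fintype D] {k : ℕ}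

/-- the relation on tuples for the two graphs -/
abbrev EQ (S : XSys) (C : S.Cls → ℕ) (D : Type) [Fintype D] (k : ℕ) (x y : Fin k → S.Vx C D) :
    Prop := Eqv (S.graph C D false) (S.graph C D true) k x y

theorem EQ.cls (hinj : Function.Injective C) (hC : ∀ c, 2 ≤ C c) (hk : 2 ≤ k)
    {x y : Fin k → S.Vx C D} (h : EQ S C D k x y) {i : Fin k} {μ : S.Main} (hi : x i = Sum.inl μ) :
    ∃ ν, y i = Sum.inl ν ∧ S.cls ν = S.cls μ := by
  have h1 := (main_iff hC false (x i)).mp ⟨μ, hi⟩
  rw [Eqv.deg hk h i] at h1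
  obtain ⟨ν, hν⟩ := (main_iff hC true (y i)).mpr h1
  refine ⟨ν, hν, hinj ?_⟩
  rw [← leaves_card (C := C) (D := D) true ν, ← leaves_card (C := C) (D := D) false μ, ← hi, ← hν]
  obtain ⟨π, hπ⟩ := h.step
  obtain ⟨j, hj⟩ : ∃ j : Fin k, j ≠ i := by
    have : Nontrivial (Fin k) := Fin.nontrivial_iff_two_le.mpr hk
    exact exists_ne i
  refine (Nat.card_congr (π.subtypeEquiv fun z => ?_)).symm
  have h2 := (hπ z j).adj i j
  have h3 := (hπ z j).deg hk j
  have e1 : rep x j z j = z := by simp [rep]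
  have e2 : rep y j (π z) j = π z := by simp [rep]
  have e3 : rep x j z i = x i := by simp [rep, hj.symm]
  have e4 : rep y j (π z) i = y i := by simp [rep, hj.symm]
  rw [e1, e2] at h3
  rw [e1, e2, e3, e4] at h2
  rw [h2, isLeaf_iff hC false z, isLeaf_iff hC true (π z), h3]

theorem EQ.var (hinj : Function.Injective C) (hC : ∀ c, 2 ≤ C c) (hk : 2 ≤ k)
    {x y : Fin k → S.Vx C D} (h : EQ S C D k x y) {i : Fin k} {v : S.Var} {b : ZMod 2}
    (hi : x i = Sum.inl (Sum.inl (v, b))) : ∃ b', y i = Sum.inl (Sum.inl (v, b')) := by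
  obtain ⟨ν, hν, hc⟩ := h.cls hinj hC hk hi
  rcases ν with ⟨v', b'⟩ | ⟨e, a⟩
  · have : v' = v := Sum.inl.inj hc
    subst this
    exact ⟨b', hν⟩
  · exact (Sum.inr_ne_inl hc).elim

theorem EQ.eqn (hinj : Function.Injective C) (hC : ∀ c, 2 ≤ C c) (hk : 2 ≤ k)
    {x y : Fin k → S.Vx C D} (h : EQ S C D k x y) {i : Fin k} {e : S.Con} {a : S.Loc e}
    (hi : x i = Sum.inl (Sum.inr ⟨e, a⟩)) : ∃ a', y i = Sum.inl (Sum.inr ⟨e, a'⟩) := by
  obtain ⟨ν, hν, hc⟩ := h.cls hinj hC hk hi
  rcases ν with ⟨v', b'⟩ | ⟨e', a'⟩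
  · exact (Sum.inl_ne_inr hc).elim
  · have : e' = e := Sum.inr.inj hc
    subst this
    exact ⟨a', hν⟩

/-- `x, y` list the variables of `A` with values `β, β'` -/
def Lists (x y : Fin k → S.Vx C D) (A : Finset S.Var) (β β' : S.Var → ZMod 2) : Prop :=
  ∀ v ∈ A, ∃ i, x i = Sum.inl (Sum.inl (v, β v)) ∧ y i = Sum.inl (Sum.inl (v, β' v))

theorem free_index {x y : Fin k → S.Vx C D} {A : Finset S.Var} {β β' : S.Var → ZMod 2}
    (h : Lists x y A β β') (hA : A.card < k) :
    ∃ j : Fin k, ∀ v ∈ A, ∃ i, i ≠ j ∧ x i = Sum.inl (Sum.inl (v, β v)) ∧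
      y i = Sum.inl (Sum.inl (v, β' v)) := by
  classical
  have : Nonempty (Fin k) := ⟨⟨0, by omega⟩⟩
  choose! ι hι using h
  obtain ⟨j, hj⟩ : ∃ j : Fin k, j ∉ A.image ι := by
    by_contra hcon
    push Not at hcon
    have h1 : (Finset.univ : Finset (Fin k)) ⊆ A.image ι := fun j _ => hcon j
    have h2 := Finset.card_le_card h1
    rw [Finset.card_univ, Fintype.card_fin] at h2
    have h3 := Finset.card_image_le (s := A) (f := ι)
    omega
  refine ⟨j, fun v hv => ⟨ι v, ?_, hι v hv⟩⟩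
  intro hcon
  exact hj (hcon ▸ Finset.mem_image_of_mem ι hv)

theorem EQ.extend (hinj : Function.Injective C) (hC : ∀ c, 2 ≤ C c) (hk : 2 ≤ k)
    (T : Finset S.Var) (hT : T.card ≤ k) : ∀ (m : ℕ) (A : Finset S.Var), A ⊆ T →
    (T \ A).card = m → ∀ (x y : Fin k → S.Vx C D) (β β' : S.Var → ZMod 2), EQ S C D k x y →
      Lists x y A β β' → ∃ x' y' : Fin k → S.Vx C D, ∃ γ γ' : S.Var → ZMod 2, EQ S C D k x' y' ∧
        Lists x' y' T γ γ' ∧ ∀ v ∈ A, γ v = β v ∧ γ' v = β' v := by
  intro m
  induction m with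
  | zero =>
    intro A hA hm x y β β' h hl
    have : T ⊆ A := Finset.sdiff_eq_empty_iff_subset.mp (Finset.card_eq_zero.mp hm)
    exact ⟨x, y, β, β', h, fun v hv => hl v (this hv), fun v _ => ⟨rfl, rfl⟩⟩
  | succ m ih =>
    intro A hA hm x y β β' h hl
    obtain ⟨v, hv⟩ : (T \ A).Nonempty := Finset.card_pos.mp (by omega)
    obtain ⟨hvT, hvA⟩ := Finset.mem_sdiff.mp hv
    have hcard : A.card < k := by
      have h1 : (insert v A).card ≤ T.card :=
        Finset.card_le_card (Finset.insert_subset hvT hA)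
      rw [Finset.card_insert_of_notMem hvA] at h1
      omega
    obtain ⟨j, hj⟩ := free_index hl hcard
    obtain ⟨π, hπ⟩ := h.step
    have h' : EQ S C D k (rep x j (Sum.inl (Sum.inl (v, 0)))) (rep y j (π _)) :=
      hπ (Sum.inl (Sum.inl (v, 0))) j
    obtain ⟨b', hb'⟩ := h'.var hinj hC hk (i := j) (v := v) (b := 0) (by simp [rep])
    have hl' : Lists (rep x j (Sum.inl (Sum.inl (v, 0))))
        (rep y j (π (Sum.inl (Sum.inl (v, 0))))) (insert v A)
        (Function.update β v 0) (Function.update β' v b') := by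
      intro u hu
      by_cases huv : u = v
      · subst huv
        refine ⟨j, ?_, ?_⟩
        · simp [rep]
        · rw [hb']; simp
      · have huA : u ∈ A := (Finset.mem_insert.mp hu).resolve_left huv
        obtain ⟨i, hij, hx, hy⟩ := hj u huA
        refine ⟨i, ?_, ?_⟩
        · simp [rep, hij, hx, huv]
        · simp [rep, hij, hy, huv]
    have hm' : (T \ insert v A).card = m := by
      have h1 : T \ insert v A = (T \ A).erase v := by
        ext u
        simp only [Finset.mem_sdiff, Finset.mem_insert, Finset.mem_erase]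
        tauto
      rw [h1, Finset.card_erase_of_mem hv, hm]
      rfl
    obtain ⟨x', y', γ, γ', he, hl'', hγ⟩ :=
      ih (insert v A) (Finset.insert_subset hvT hA) hm' _ _ _ _ h' hl'
    refine ⟨x', y', γ, γ', he, hl'', fun u hu => ?_⟩
    have huv : u ≠ v := fun hh => hvA (hh ▸ hu)
    obtain ⟨h1, h2⟩ := hγ u (Finset.mem_insert_of_mem hu)
    rw [h1, h2]
    simp [huv]

theorem zmod2_ne_zero {a : ZMod 2} (h : a ≠ 0) : a = 1 := by
  revert h; revert a; decide

theorem derv_sound (hinj : Function.Injective C) (hC : ∀ c, 2 ≤ C c) {w : ℕ} (hw : w + 1 ≤ k)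
    (hk : 2 ≤ k) {p : S.Form} (hp : S.Derv w p) :
    ∀ (x y : Fin k → S.Vx C D) (β β' : S.Var → ZMod 2), EQ S C D k x y →
      Lists x y (S.fsupp p.1) β β' → ∑ v, p.1 v * (β v + β' v) = p.2 := by
  induction hp with
  | zero =>
    intro x y β β' _ _
    simp
  | ax e he =>
    intro x y β β' h hl
    have hl : Lists x y (S.fsupp (S.form e)) β β' := hl
    obtain ⟨j, hj⟩ := free_index hl (by omega)
    obtain ⟨π, hπ⟩ := h.step
    let a0 : S.Loc e := ⟨0, fun _ _ => rfl, by simp⟩
    have h' : EQ S C D k (rep x j (Sum.inl (Sum.inr ⟨e, a0⟩))) (rep y j (π _)) :=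
      hπ (Sum.inl (Sum.inr ⟨e, a0⟩)) j
    obtain ⟨a', ha'⟩ := h'.eqn hinj hC hk (i := j) (e := e) (a := a0) (by simp [rep])
    have key : ∀ v, S.form e v ≠ 0 →
        β v + β' v = a'.1 v + (if S.tw e = some v then 1 else 0) := by
      intro v hv
      obtain ⟨i, hij, hx, hy⟩ := hj v (by simp [fsupp, hv])
      have h1 := h'.adj i j
      rw [ha'] at h1
      simp only [rep, hij, if_false, if_true, hx, hy] at h1
      have h2 : (S.graph C D false).Adj (Sum.inl (Sum.inl (v, β v))) (Sum.inl (Sum.inr ⟨e, a0⟩)) ↔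
          β v = 0 := by
        show (S.form e v ≠ 0 ∧ (0 : ZMod 2) + (if false = true ∧ S.tw e = some v then 1 else 0) =
          β v) ↔ _
        simp [hv, eq_comm]
      have h3 : (S.graph C D true).Adj (Sum.inl (Sum.inl (v, β' v))) (Sum.inl (Sum.inr ⟨e, a'⟩)) ↔
          a'.1 v + (if S.tw e = some v then 1 else 0) = β' v := by
        show (S.form e v ≠ 0 ∧ a'.1 v + (if true = true ∧ S.tw e = some v then 1 else 0) =
          β' v) ↔ _
        simp [hv]
      rw [h2, h3] at h1
      generalize a'.1 v + (if S.tw e = some v then 1 else 0) = c at h1 ⊢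
      generalize β v = s at h1 ⊢
      generalize β' v = t at h1 ⊢
      revert s t c
      decide
    show ∑ v, S.form e v * (β v + β' v) = if (S.tw e).isSome then 1 else 0
    have h1 : ∀ v, S.form e v * (β v + β' v) =
        a'.1 v + (if S.tw e = some v then 1 else 0) := by
      intro v
      by_cases hv : S.form e v = 0
      · rw [hv, zero_mul, a'.2.1 v hv]
        have : S.tw e ≠ some v := fun hh => S.tw_mem e v hh hv
        simp [this]
      · rw [key v hv, zmod2_ne_zero hv, one_mul]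
    rw [Finset.sum_congr rfl fun v _ => h1 v, Finset.sum_add_distrib, a'.2.2, zero_add]
    cases htw : S.tw e with
    | none => simp
    | some u => simp
  | add f g hf hg hc ihf ihg =>
    intro x y β β' h hl
    have hsub : S.fsupp (f + g).1 ⊆ S.fsupp f.1 ∪ S.fsupp g.1 := by
      intro v hv
      simp only [fsupp, Finset.mem_filter, Finset.mem_univ, true_and, Finset.mem_union] at hv ⊢
      by_contra hcon
      push Not at hcon
      apply hv
      show f.1 v + g.1 v = 0
      rw [hcon.1, hcon.2, add_zero]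
    obtain ⟨x', y', γ, γ', he, hl', hγ⟩ := EQ.extend hinj hC hk (S.fsupp f.1 ∪ S.fsupp g.1)
      (by omega) _ (S.fsupp (f + g).1) hsub rfl x y β β' h hl
    have h1 := ihf x' y' γ γ' he (fun v hv => hl' v (Finset.mem_union_left _ hv))
    have h2 := ihg x' y' γ γ' he (fun v hv => hl' v (Finset.mem_union_right _ hv))
    have h3 : ∑ v, (f + g).1 v * (β v + β' v) = ∑ v, (f + g).1 v * (γ v + γ' v) := by
      refine Finset.sum_congr rfl fun v _ => ?_
      by_cases hv : (f + g).1 v = 0
      · rw [hv, zero_mul, zero_mul]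
      · obtain ⟨e1, e2⟩ := hγ v (by simp only [fsupp, Finset.mem_filter, Finset.mem_univ, true_and]; exact hv)
        rw [e1, e2]
    rw [h3]
    show ∑ v, (f.1 v + g.1 v) * (γ v + γ' v) = f.2 + g.2
    rw [← h1, ← h2, ← Finset.sum_add_distrib]
    exact Finset.sum_congr rfl fun v _ => add_mul _ _ _

end main

theorem xc : CompleteStatement := by
  intro S C hinj hC D _ k w hw hk hne hd hwl
  obtain ⟨x, y, h⟩ := exists_eqv hwl
  have := derv_sound hinj hC hw hk hd x y 0 0 h (by
    intro v hv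
    simp [fsupp] at hv)
  simp at this

end XSys

end P310
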