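import Vale.Agent.P310.XG

/-!
# Module XS (soundness)

A family of affine forms containing the equations, closed under additions supported in the union
of `k + 1` cells and not containing `(0, 1)`, gives `k`-WL equivalence of the untwisted and the
twisted graph.
-/

namespace P310

namespace XSys

variable (S : XSys)

/-- value of a linear form at an assignment -/
def ev (f α : S.Var → ZMod 2) : ZMod 2 := ∑ v, f v * α v

theorem z2_add_self (a : ZMod 2) : a + a = 0 := by
  revert a; decide

theorem z2_cases (a : ZMod 2) : a = 0 ∨ a = 1 := by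
  revert a; decide

theorem z2_eq_one_of_ne {a : ZMod 2} (h : a ≠ 0) : a = 1 := by
  rcases z2_cases a with h' | h'
  · exact absurd h' h
  · exact h'

theorem z2_eq_of_add {a b : ZMod 2} (h : a + b = 0) : a = b := by
  revert a b; decide

theorem mem_fsupp {f : S.Var → ZMod 2} {v : S.Var} : v ∈ S.fsupp f ↔ f v ≠ 0 := by
  simp [fsupp]

theorem ev_add (f g α : S.Var → ZMod 2) : S.ev (f + g) α = S.ev f α + S.ev g α := by
  simp [ev, add_mul, Finset.sum_add_distrib]

theorem ev_congr {f α β : S.Var → ZMod 2} (h : ∀ v ∈ S.fsupp f, α v = β v) :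
    S.ev f α = S.ev f β := by
  unfold ev
  refine Finset.sum_congr rfl fun v _ => ?_
  by_cases hv : f v = 0
  · simp [hv]
  · rw [h v ((S.mem_fsupp).2 hv)]

/-- a linear functional on affine forms is determined by its values on unit vectors -/
theorem dual_apply (φ : ((S.Var → ZMod 2) × ZMod 2) →ₗ[ZMod 2] ZMod 2)
    (f : S.Var → ZMod 2) (c : ZMod 2) :
    φ (f, c) = S.ev f (fun v => φ (Pi.single v 1, 0)) + c * φ (0, 1) := by
  have h1 : (f, c) = (∑ v, f v • ((Pi.single v (1 : ZMod 2) : S.Var → ZMod 2), (0 : ZMod 2)))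
      + c • ((0 : S.Var → ZMod 2), (1 : ZMod 2)) := by
    refine Prod.ext ?_ ?_
    · funext w
      simp [Prod.fst_sum, Finset.sum_apply, Pi.single_apply]
    · simp [Prod.snd_sum]
  rw [h1, map_add, map_sum, map_smul]
  simp only [map_smul, smul_eq_mul, ev]

/-- Extension of solutions (linear algebra over `F_2`). -/
theorem exists_extension (L : Set S.Form) (D D' : Finset S.Var) (h0 : (0 : S.Form) ∈ L)
    (hadd : ∀ f ∈ L, ∀ g ∈ L, S.fsupp f.1 ⊆ D' → S.fsupp g.1 ⊆ D' → f + g ∈ L)
    (α : S.Var → ZMod 2)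
    (hα : ∀ f ∈ L, S.fsupp f.1 ⊆ D → S.ev f.1 α = f.2) :
    ∃ β : S.Var → ZMod 2, (∀ v ∈ D, β v = α v) ∧
      ∀ f ∈ L, S.fsupp f.1 ⊆ D' → S.ev f.1 β = f.2 := by
  classical
  -- the subspace of forms supported in `D'`
  let W : Submodule (ZMod 2) ((S.Var → ZMod 2) × ZMod 2) :=
    { carrier := {f | f ∈ L ∧ S.fsupp f.1 ⊆ D'}
      add_mem' := by
        rintro f g ⟨hf, hf'⟩ ⟨hg, hg'⟩
        refine ⟨hadd f hf g hg hf' hg', ?_⟩
        intro v hv
        rw [S.mem_fsupp] at hv
        by_cases hfv : f.1 v = 0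
        · refine hg' ((S.mem_fsupp).2 ?_)
          intro hgv
          exact hv (by simp [hfv, hgv])
        · exact hf' ((S.mem_fsupp).2 hfv)
      zero_mem' := by
        refine ⟨h0, ?_⟩
        intro v hv
        rw [S.mem_fsupp] at hv
        exact absurd rfl hv
      smul_mem' := by
        rintro c f ⟨hf, hf'⟩
        rcases z2_cases c with rfl | rfl
        · rw [zero_smul]
          refine ⟨h0, ?_⟩
          intro v hv
          rw [S.mem_fsupp] at hv
          exact absurd rfl hv
        · rw [one_smul]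
          exact ⟨hf, hf'⟩ }
  -- the graph of `α` on forms supported in `D`
  let Ψ : (S.Var → ZMod 2) →ₗ[ZMod 2] ((S.Var → ZMod 2) × ZMod 2) :=
    { toFun := fun t => ((fun v => if v ∈ D then t v else 0), ∑ v ∈ D, t v * α v)
      map_add' := by
        intro s t
        refine Prod.ext ?_ ?_
        · funext v
          by_cases hv : v ∈ D <;> simp [hv]
        · simp [add_mul, Finset.sum_add_distrib]
      map_smul' := by
        intro c t
        refine Prod.ext ?_ ?_
        · funext v
          by_cases hv : v ∈ D <;> simp [hv]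
        · simp [Finset.mul_sum, mul_assoc] }
  have hΨ : ∀ t, S.ev (Ψ t).1 α = (Ψ t).2 := by
    intro t
    change ∑ v, (if v ∈ D then t v else 0) * α v = ∑ v ∈ D, t v * α v
    simp [ite_mul, Finset.sum_ite_mem]
  have hnot : ((0 : S.Var → ZMod 2), (1 : ZMod 2)) ∉ W ⊔ LinearMap.range Ψ := by
    intro hmem
    rw [Submodule.mem_sup] at hmem
    obtain ⟨f, ⟨hf, hf'⟩, g, ⟨t, rfl⟩, hfg⟩ := hmem
    have hfst : ∀ v, f.1 v + (Ψ t).1 v = 0 := by
      intro v
      have := congrArg Prod.fst hfg
      exact congrFun this v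
    have hsnd : f.2 + (Ψ t).2 = 1 := congrArg Prod.snd hfg
    have hfeq : f.1 = (Ψ t).1 := by
      funext v
      exact z2_eq_of_add (hfst v)
    have hsup : S.fsupp f.1 ⊆ D := by
      intro v hv
      rw [S.mem_fsupp, hfeq] at hv
      by_contra hvD
      apply hv
      change (if v ∈ D then t v else 0) = 0
      simp [hvD]
    have h2 := hα f hf hsup
    rw [hfeq, hΨ] at h2
    rw [h2, z2_add_self] at hsnd
    exact absurd hsnd (by decide)
  obtain ⟨φ, hφ, hker⟩ := Submodule.exists_le_ker_of_notMem hnot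
  have hφ1 : φ (0, 1) = 1 := z2_eq_one_of_ne hφ
  refine ⟨fun v => φ (Pi.single v 1, 0), ?_, ?_⟩
  · intro v hv
    have hmem : Ψ (Pi.single v 1) ∈ W ⊔ LinearMap.range Ψ :=
      Submodule.mem_sup_right ⟨_, rfl⟩
    have h2 : φ (Ψ (Pi.single v 1)) = 0 := hker hmem
    have h3 : Ψ (Pi.single v 1) = (Pi.single v 1, α v) := by
      refine Prod.ext ?_ ?_
      · funext w
        change (if w ∈ D then (Pi.single v (1 : ZMod 2) : S.Var → ZMod 2) w else 0) = _
        by_cases hw : w = v
        · subst hw; simp [hv]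
        · simp [hw]
      · change ∑ w ∈ D, (Pi.single v (1 : ZMod 2) : S.Var → ZMod 2) w * α w = α v
        rw [Finset.sum_eq_single v]
        · simp
        · intro w _ hw
          simp [hw]
        · intro h; exact absurd hv h
    rw [h3, S.dual_apply, hφ1] at h2
    have h4 : S.ev (Pi.single v 1) (fun v => φ (Pi.single v 1, 0)) = φ (Pi.single v 1, 0) := by
      unfold ev
      rw [Finset.sum_eq_single v]
      · simp
      · intro w _ hw
        simp [hw]
      · intro h; exact absurd (Finset.mem_univ v) h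
    rw [h4, mul_one] at h2
    exact z2_eq_of_add h2
  · intro f hf hf'
    have hmem : f ∈ W ⊔ LinearMap.range Ψ := Submodule.mem_sup_left ⟨hf, hf'⟩
    have h2 : φ f = 0 := hker hmem
    have h3 : φ (f.1, f.2) = 0 := h2
    rw [S.dual_apply, hφ1, mul_one] at h3
    exact z2_eq_of_add h3

/-! ### Shifting the vertices by an assignment -/

/-- the twist function of the equation `e` -/
def tws (e : S.Con) (v : S.Var) : ZMod 2 := if S.tw e = some v then 1 else 0

theorem sum_tws (e : S.Con) : ∑ v, S.tws e v = if (S.tw e).isSome then 1 else 0 := by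
  unfold tws
  cases h : S.tw e with
  | none => simp
  | some w => simp

/-- local assignment of the equation `e` shifted by `α`, where `α` satisfies `e` -/
def shiftLoc' (α : S.Var → ZMod 2) (e : S.Con) (a : S.Loc e)
    (h : S.ev (S.form e) α = (S.con e).2) : S.Loc e :=
    ⟨fun v => if S.form e v = 0 then 0 else a.1 v + α v + S.tws e v, by
      refine ⟨fun v hv => by simp [hv], ?_⟩
      have h1 : ∀ v, (if S.form e v = 0 then 0 else a.1 v + α v + S.tws e v)
          = a.1 v + S.form e v * α v + S.tws e v := by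
        intro v
        by_cases hv : S.form e v = 0
        · have h2 : a.1 v = 0 := a.2.1 v hv
          have h3 : S.tws e v = 0 := by
            unfold tws
            rw [if_neg]
            intro h4
            exact S.tw_mem e v h4 hv
          simp [hv, h2, h3]
        · have h2 : S.form e v = 1 := z2_eq_one_of_ne hv
          simp [h2]
      simp only [h1]
      rw [Finset.sum_add_distrib, Finset.sum_add_distrib, a.2.2, S.sum_tws, zero_add]
      have h5 : ∑ v, S.form e v * α v = if (S.tw e).isSome then 1 else 0 := h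
      rw [h5]
      exact z2_add_self _⟩

/-- local assignment of the equation `e` shifted by `α` (if `α` satisfies `e`) -/
def shiftLoc (α : S.Var → ZMod 2) (e : S.Con) (a : S.Loc e) : S.Loc e :=
  if h : S.ev (S.form e) α = (S.con e).2 then S.shiftLoc' α e a h else a

theorem shiftLoc_pos (α : S.Var → ZMod 2) (e : S.Con) (a : S.Loc e)
    (h : S.ev (S.form e) α = (S.con e).2) : S.shiftLoc α e a = S.shiftLoc' α e a h :=
  dif_pos h

theorem shiftLoc_neg (α : S.Var → ZMod 2) (e : S.Con) (a : S.Loc e)
    (h : ¬ S.ev (S.form e) α = (S.con e).2) : S.shiftLoc α e a = a :=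
  dif_neg h

theorem shiftLoc_val (α : S.Var → ZMod 2) (e : S.Con) (a : S.Loc e)
    (h : S.ev (S.form e) α = (S.con e).2) (v : S.Var) (hv : S.form e v ≠ 0) :
    (S.shiftLoc α e a).1 v = a.1 v + α v + S.tws e v := by
  rw [S.shiftLoc_pos α e a h]
  exact if_neg hv

theorem shiftLoc_invol (α : S.Var → ZMod 2) (e : S.Con) (a : S.Loc e) :
    S.shiftLoc α e (S.shiftLoc α e a) = a := by
  by_cases h : S.ev (S.form e) α = (S.con e).2
  · apply Subtype.ext
    funext v
    by_cases hv : S.form e v = 0
    · rw [(S.shiftLoc α e (S.shiftLoc α e a)).2.1 v hv, a.2.1 v hv]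
    · rw [S.shiftLoc_val α e _ h v hv, S.shiftLoc_val α e _ h v hv]
      generalize a.1 v = p
      generalize α v = q
      generalize S.tws e v = r
      revert p q r
      decide
  · rw [S.shiftLoc_neg α e _ h, S.shiftLoc_neg α e _ h]

theorem shiftLoc_congr {α β : S.Var → ZMod 2} (e : S.Con)
    (hαβ : ∀ v ∈ S.fsupp (S.form e), α v = β v) (a : S.Loc e) :
    S.shiftLoc α e a = S.shiftLoc β e a := by
  have hev : S.ev (S.form e) α = S.ev (S.form e) β := S.ev_congr hαβ
  by_cases h : S.ev (S.form e) α = (S.con e).2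
  · have h' : S.ev (S.form e) β = (S.con e).2 := by rw [← hev]; exact h
    apply Subtype.ext
    funext v
    by_cases hv : S.form e v = 0
    · rw [(S.shiftLoc α e a).2.1 v hv, (S.shiftLoc β e a).2.1 v hv]
    · rw [S.shiftLoc_val α e _ h v hv, S.shiftLoc_val β e _ h' v hv,
        hαβ v ((S.mem_fsupp).2 hv)]
  · have h' : ¬ S.ev (S.form e) β = (S.con e).2 := by rw [← hev]; exact h
    rw [S.shiftLoc_neg α e _ h, S.shiftLoc_neg β e _ h']

/-- shift of a main vertex -/
def shiftM (α : S.Var → ZMod 2) : S.Main → S.Main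
  | Sum.inl (v, b) => Sum.inl (v, b + α v)
  | Sum.inr ⟨e, a⟩ => Sum.inr ⟨e, S.shiftLoc α e a⟩

theorem cls_shiftM (α : S.Var → ZMod 2) (μ : S.Main) : S.cls (S.shiftM α μ) = S.cls μ := by
  rcases μ with ⟨v, b⟩ | ⟨e, a⟩ <;> rfl

theorem shiftM_invol (α : S.Var → ZMod 2) (μ : S.Main) :
    S.shiftM α (S.shiftM α μ) = μ := by
  rcases μ with ⟨v, b⟩ | ⟨e, a⟩
  · simp [shiftM, add_assoc, z2_add_self]
  · simp [shiftM, S.shiftLoc_invol]

theorem shiftM_congr {α β : S.Var → ZMod 2} (μ : S.Main)
    (hαβ : ∀ v ∈ S.cell (S.cls μ), α v = β v) : S.shiftM α μ = S.shiftM β μ := by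
  rcases μ with ⟨v, b⟩ | ⟨e, a⟩
  · have : α v = β v := hαβ v (by simp [cls, cell])
    simp [shiftM, this]
  · simp [shiftM, S.shiftLoc_congr e hαβ a]

variable {S} {C : S.Cls → ℕ} {D : Type}

theorem leaf_ext {μ μ' : S.Main} {n : Fin (C (S.cls μ))} {n' : Fin (C (S.cls μ'))}
    (h : μ = μ') (hn : n.val = n'.val) :
    (⟨μ, n⟩ : Σ μ : S.Main, Fin (C (S.cls μ))) = ⟨μ', n'⟩ := by
  subst h
  congr 1
  exact Fin.ext hn

/-- shift of an arbitrary vertex -/
def shiftV (α : S.Var → ZMod 2) : S.Vx C D → S.Vx C D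
  | Sum.inl μ => Sum.inl (S.shiftM α μ)
  | Sum.inr (Sum.inl ⟨μ, n⟩) =>
      Sum.inr (Sum.inl ⟨S.shiftM α μ, Fin.cast (by rw [S.cls_shiftM]) n⟩)
  | Sum.inr (Sum.inr d) => Sum.inr (Sum.inr d)

/-- the class seen at a vertex -/
def clsV : S.Vx C D → Option S.Cls
  | Sum.inl μ => some (S.cls μ)
  | Sum.inr (Sum.inl ⟨μ, _⟩) => some (S.cls μ)
  | Sum.inr (Sum.inr _) => none

theorem clsV_shiftV (α : S.Var → ZMod 2) (x : S.Vx C D) : clsV (shiftV α x) = clsV x := by
  rcases x with μ | ⟨μ, n⟩ | d
  · simp [clsV, shiftV, S.cls_shiftM]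
  · simp [clsV, shiftV, S.cls_shiftM]
  · rfl

theorem shiftV_invol (α : S.Var → ZMod 2) (x : S.Vx C D) : shiftV α (shiftV α x) = x := by
  rcases x with μ | ⟨μ, n⟩ | d
  · simp [shiftV, S.shiftM_invol]
  · simp only [shiftV]
    congr 2
    exact leaf_ext (S.shiftM_invol α μ) (by simp)
  · rfl

theorem shiftV_congr {α β : S.Var → ZMod 2} (x : S.Vx C D)
    (h : ∀ c, clsV x = some c → ∀ v ∈ S.cell c, α v = β v) : shiftV α x = shiftV β x := by
  rcases x with μ | ⟨μ, n⟩ | d
  · simp only [shiftV]
    rw [S.shiftM_congr μ (h _ rfl)]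
  · simp only [shiftV]
    congr 2
    exact leaf_ext (S.shiftM_congr μ (h _ rfl)) (by simp)
  · rfl

theorem shiftV_injective (α : S.Var → ZMod 2) :
    Function.Injective (shiftV α : S.Vx C D → S.Vx C D) :=
  fun x y hxy => by rw [← shiftV_invol α x, hxy, shiftV_invol]

/-- `α` satisfies the equation of the class `c` (no condition for variables) -/
def SatC (S : XSys) (α : S.Var → ZMod 2) : S.Cls → Prop
  | Sum.inl _ => True
  | Sum.inr e => S.ev (S.form e) α = (S.con e).2

theorem adjVE_shift (α : S.Var → ZMod 2) (v : S.Var) (b : ZMod 2) (e : S.Con) (a : S.Loc e)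
    (h : S.ev (S.form e) α = (S.con e).2) :
    S.adjVE false v b e a ↔ S.adjVE true v (b + α v) e (S.shiftLoc α e a) := by
  unfold adjVE
  by_cases hv : S.form e v = 0
  · simp [hv]
  · rw [S.shiftLoc_val α e a h v hv]
    unfold tws
    simp only [ne_eq, hv, not_false_eq_true, true_and, Bool.false_eq_true, false_and, if_false,
      add_zero]
    generalize a.1 v = p
    generalize α v = q
    generalize (if S.tw e = some v then (1 : ZMod 2) else 0) = r
    revert p q r b
    decide

theorem adjM_shift (α : S.Var → ZMod 2) (μ ν : S.Main) (hμ : SatC S α (S.cls μ))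
    (hν : SatC S α (S.cls ν)) :
    S.adjM false μ ν ↔ S.adjM true (S.shiftM α μ) (S.shiftM α ν) := by
  rcases μ with ⟨v, b⟩ | ⟨e, a⟩ <;> rcases ν with ⟨v', b'⟩ | ⟨e', a'⟩
  · exact Iff.rfl
  · exact adjVE_shift α v b e' a' hν
  · exact adjVE_shift α v' b' e a hμ
  · exact Iff.rfl

theorem shiftM_eq_iff (α : S.Var → ZMod 2) (μ ν : S.Main) :
    S.shiftM α μ = S.shiftM α ν ↔ μ = ν :=
  ⟨fun h => by rw [← S.shiftM_invol α μ, h, S.shiftM_invol], fun h => by rw [h]⟩

theorem adj_shift (α : S.Var → ZMod 2) (x y : S.Vx C D)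
    (hx : ∀ c, clsV x = some c → SatC S α c) (hy : ∀ c, clsV y = some c → SatC S α c) :
    (S.graph C D false).Adj x y ↔ (S.graph C D true).Adj (shiftV α x) (shiftV α y) := by
  rcases x with μ | ⟨μ, n⟩ | d <;> rcases y with ν | ⟨ν, m⟩ | d'
  · exact adjM_shift α μ ν (hx _ rfl) (hy _ rfl)
  · exact (shiftM_eq_iff α ν μ).symm
  · exact Iff.rfl
  · exact (shiftM_eq_iff α μ ν).symm
  all_goals exact Iff.rfl

/-! ### Good pairs -/

/-- the classes seen at a tuple -/
def clsT {k : ℕ} (x : Fin k → S.Vx C D) : Finset S.Cls :=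
  Finset.univ.biUnion fun i => (clsV (x i)).toFinset

theorem mem_clsT {k : ℕ} (x : Fin k → S.Vx C D) (c : S.Cls) :
    c ∈ clsT x ↔ ∃ i, clsV (x i) = some c := by
  simp [clsT]

/-- `α` satisfies all forms of `L` supported in `U` -/
def Sat (L : Set S.Form) (U : Finset S.Var) (α : S.Var → ZMod 2) : Prop :=
  ∀ f ∈ L, S.fsupp f.1 ⊆ U → S.ev f.1 α = f.2

/-- good pairs of tuples -/
def Good (L : Set S.Form) {k : ℕ} (x y : Fin k → S.Vx C D) : Prop :=
  ∃ α : S.Var → ZMod 2, Sat L (S.dom (clsT x)) α ∧ ∀ i, y i = shiftV α (x i)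

theorem cell_subset_dom {T : Finset S.Cls} {c : S.Cls} (hc : c ∈ T) : S.cell c ⊆ S.dom T :=
  Finset.subset_biUnion_of_mem S.cell hc

theorem satC_of_sat {L : Set S.Form} (hcon : ∀ e, S.con e ∈ L) {T : Finset S.Cls}
    {α : S.Var → ZMod 2} (h : Sat L (S.dom T) α) {c : S.Cls} (hc : c ∈ T) : SatC S α c := by
  rcases c with v | e
  · trivial
  · exact h (S.con e) (hcon e) (cell_subset_dom hc)

theorem Sat.mono {L : Set S.Form} {U U' : Finset S.Var} (hU : U ⊆ U') {α : S.Var → ZMod 2}
    (h : Sat L U' α) : Sat L U α :=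
  fun f hf hf' => h f hf (hf'.trans hU)

theorem dom_mono {T T' : Finset S.Cls} (h : T ⊆ T') : S.dom T ⊆ S.dom T' :=
  Finset.biUnion_subset_biUnion_of_subset_left _ h

theorem card_clsT_le {k : ℕ} (x : Fin k → S.Vx C D) : (clsT x).card ≤ k := by
  have h1 : (clsT x).card ≤ ∑ i : Fin k, (clsV (x i)).toFinset.card := Finset.card_biUnion_le
  have h2 : ∑ i : Fin k, (clsV (x i)).toFinset.card ≤ ∑ i : Fin k, 1 := by
    refine Finset.sum_le_sum fun i _ => ?_
    cases clsV (x i) <;> simp
  simpa using h1.trans h2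

theorem good_adj {L : Set S.Form} (hcon : ∀ e, S.con e ∈ L) {k : ℕ} {x y : Fin k → S.Vx C D}
    (h : Good L x y) (i j : Fin k) :
    ((x i = x j) ↔ (y i = y j)) ∧
      ((S.graph C D false).Adj (x i) (x j) ↔ (S.graph C D true).Adj (y i) (y j)) := by
  obtain ⟨α, hα, hy⟩ := h
  rw [hy i, hy j]
  refine ⟨⟨fun h => by rw [h], fun h => shiftV_injective α h⟩, ?_⟩
  refine adj_shift α _ _ ?_ ?_
  · intro c hc
    exact satC_of_sat hcon hα ((mem_clsT x c).2 ⟨i, hc⟩)
  · intro c hc
    exact satC_of_sat hcon hα ((mem_clsT x c).2 ⟨j, hc⟩)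

/-- the bijection of the vertex set answering a good pair -/
theorem good_extend {L : Set S.Form} {k : ℕ} (h0 : (0 : S.Form) ∈ L)
    (hadd : ∀ T : Finset S.Cls, T.card ≤ k + 1 → ∀ f ∈ L, ∀ g ∈ L,
      S.fsupp f.1 ⊆ S.dom T → S.fsupp g.1 ⊆ S.dom T → f + g ∈ L)
    {x y : Fin k → S.Vx C D} (h : Good L x y) :
    ∃ π : S.Vx C D ≃ S.Vx C D, ∀ (z : S.Vx C D) (i : Fin k),
      Good L (fun j => if j = i then z else x j) (fun j => if j = i then π z else y j) := by
  classical
  obtain ⟨α, hα, hy⟩ := h
  have hext : ∀ c : S.Cls, ∃ β : S.Var → ZMod 2, (∀ v ∈ S.dom (clsT x), β v = α v) ∧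
      Sat L (S.dom (insert c (clsT x))) β := by
    intro c
    have hcard : (insert c (clsT x)).card ≤ k + 1 :=
      (Finset.card_insert_le _ _).trans (Nat.succ_le_succ (card_clsT_le x))
    exact S.exists_extension L (S.dom (clsT x)) (S.dom (insert c (clsT x))) h0
      (hadd _ hcard) α hα
  choose β hβ1 hβ2 using hext
  -- assignment used for a vertex
  let γ : Option S.Cls → S.Var → ZMod 2 := fun o => match o with
    | none => α
    | some c => β c
  have hγ1 : ∀ o, ∀ v ∈ S.dom (clsT x), γ o v = α v := by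
    intro o v hv
    cases o with
    | none => rfl
    | some c => exact hβ1 c v hv
  let p : S.Vx C D → S.Vx C D := fun z => shiftV (γ (clsV z)) z
  have hp : Function.Involutive p := by
    intro z
    change shiftV (γ (clsV (shiftV (γ (clsV z)) z))) (shiftV (γ (clsV z)) z) = z
    rw [clsV_shiftV, shiftV_invol]
  refine ⟨hp.toPerm p, fun z i => ⟨γ (clsV z), ?_, ?_⟩⟩
  · -- satisfaction
    have hsub : clsT (fun j => if j = i then z else x j) ⊆ (clsV z).toFinset ∪ clsT x := by
      intro c hc
      rw [mem_clsT] at hc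
      obtain ⟨j, hj⟩ := hc
      rw [Finset.mem_union]
      by_cases hji : j = i
      · left
        simp only [hji, if_true] at hj
        simp [hj]
      · right
        simp only [hji, if_false] at hj
        exact (mem_clsT x c).2 ⟨j, hj⟩
    refine Sat.mono (dom_mono hsub) ?_
    cases hz : clsV z with
    | none =>
      simpa [γ] using hα
    | some c =>
      have : (Option.toFinset (some c)) ∪ clsT x = insert c (clsT x) := by
        ext c'
        simp [eq_comm]
      rw [this]
      exact hβ2 c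
  · intro j
    by_cases hji : j = i
    · simp only [hji, if_true]
      rfl
    · simp only [hji, if_false]
      rw [hy j]
      refine shiftV_congr _ ?_
      intro c hc v hv
      exact (hγ1 _ v (cell_subset_dom ((mem_clsT x c).2 ⟨j, hc⟩) hv)).symm

theorem map_perm_eq {V : Type} [Fintype V] {β : Type} (π : V ≃ V) (f : V → β) :
    (Finset.univ : Finset V).val.map (fun v => f (π v)) = (Finset.univ : Finset V).val.map f := by
  have h1 : (Finset.univ : Finset V).val.map (fun v => f (π v))
      = ((Finset.univ : Finset V).val.map π).map f := by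
    rw [Multiset.map_map]
    rfl
  rw [h1]
  congr 1
  have h2 : (Finset.univ : Finset V).map π.toEmbedding = Finset.univ := Finset.map_univ_equiv π
  have h3 := congrArg Finset.val h2
  rw [Finset.map_val] at h3
  exact h3

theorem good_col [Fintype D] {L : Set S.Form} {k : ℕ} (h0 : (0 : S.Form) ∈ L)
    (hcon : ∀ e, S.con e ∈ L)
    (hadd : ∀ T : Finset S.Cls, T.card ≤ k + 1 → ∀ f ∈ L, ∀ g ∈ L,
      S.fsupp f.1 ⊆ S.dom T → S.fsupp g.1 ⊆ S.dom T → f + g ∈ L) (r : ℕ) :
    ∀ x y : Fin k → S.Vx C D, Good L x y →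
      col (S.graph C D false) k r x = col (S.graph C D true) k r y := by
  induction r with
  | zero =>
    intro x y h
    refine Prod.ext ?_ ?_
    · funext i j
      exact propext (good_adj hcon h i j).1
    · funext i j
      exact propext (good_adj hcon h i j).2
  | succ r ih =>
    intro x y h
    refine Prod.ext (ih x y h) ?_
    obtain ⟨π, hπ⟩ := good_extend h0 hadd h
    change (Finset.univ : Finset (S.Vx C D)).val.map
        (fun z => fun i => col (S.graph C D false) k r (fun j => if j = i then z else x j))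
      = (Finset.univ : Finset (S.Vx C D)).val.map
        (fun z => fun i => col (S.graph C D true) k r (fun j => if j = i then z else y j))
    rw [← map_perm_eq π (fun z => fun i =>
      col (S.graph C D true) k r (fun j => if j = i then z else y j))]
    refine Multiset.map_congr rfl fun z _ => ?_
    funext i
    exact ih _ _ (hπ z i)

/-- **Module XS**. -/
theorem xs : SoundStatement := by
  classical
  intro S C D _ k L h0 hcon hadd h1 r
  -- an assignment for every sequence of classes
  have hex : ∀ s : Fin k → Option S.Cls, ∃ α : S.Var → ZMod 2,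
      Sat L (S.dom (Finset.univ.biUnion fun i => (s i).toFinset)) α := by
    intro s
    have hcard : (Finset.univ.biUnion fun i => (s i).toFinset).card ≤ k + 1 := by
      have h1 : (Finset.univ.biUnion fun i => (s i).toFinset).card
          ≤ ∑ i : Fin k, ((s i).toFinset).card := Finset.card_biUnion_le
      have h2 : ∑ i : Fin k, ((s i).toFinset).card ≤ ∑ i : Fin k, 1 := by
        refine Finset.sum_le_sum fun i _ => ?_
        cases s i <;> simp
      have h3 : (∑ i : Fin k, 1) = k := by simp
      omega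
    obtain ⟨β, -, hβ⟩ := S.exists_extension L ∅
      (S.dom (Finset.univ.biUnion fun i => (s i).toFinset)) h0 (hadd _ hcard) 0 (by
        intro f hf hf'
        have hf0 : f.1 = 0 := by
          funext v
          by_contra hv
          have := hf' ((S.mem_fsupp).2 hv)
          simp at this
        rcases z2_cases f.2 with hc | hc
        · rw [hf0, hc]
          simp [ev]
        · exact absurd (by rw [← hf0, ← hc]; exact hf) h1)
    exact ⟨β, hβ⟩
  choose A hA using hex
  let P : (Fin k → S.Vx C D) → (Fin k → S.Vx C D) :=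
    fun x i => shiftV (A (fun j => clsV (x j))) (x i)
  have hP : Function.Involutive P := by
    intro x
    funext i
    change shiftV (A (fun j => clsV (shiftV (A (fun j => clsV (x j))) (x j))))
      (shiftV (A (fun j => clsV (x j))) (x i)) = x i
    simp only [clsV_shiftV]
    exact shiftV_invol _ _
  rw [← map_perm_eq (hP.toPerm P) (col (S.graph C D true) k r)]
  refine Multiset.map_congr rfl fun x _ => ?_
  refine good_col h0 hcon hadd r x (P x) ⟨A (fun j => clsV (x j)), ?_, fun i => rfl⟩
  exact hA _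

end XSys

end P310
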