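import Vale.Agent.P310.Assembly
import Vale.Agent.P310.XSound
import Vale.Agent.P310.XComplete
import Vale.Agent.P310.Star
import Vale.Agent.P310.HornDerv
import Vale.Agent.P310.ClosureAll
import Vale.Agent.P310.TMtoSM
import Vale.Agent.P310.CmdCompile
import Vale.Agent.P310.Gen
import Vale.Agent.P310.ExCompile
import Vale.Agent.P310.HornSim
import Vale.Agent.P310.Sep
import Vale.Agent.P310.DigitEx
import Vale.Agent.P310.DigitIso
import Vale.Agent.P310.Iso

/-!
# P310: the lower bound at all large sizes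
-/

namespace P310

open Classical in
/-- **Module AS**, quantitative form: hard instances at all the sizes `nV κ (W * κ!)`. -/
theorem core (hXS : XSys.SoundStatement) (hXC : XSys.CompleteStatement) (hST : Horn.StarStatement)
    (hHC : Horn.DervStatement) (hCL : Horn.ClosureStatement) (hTS : TSStatement)
    (hCM : CMStatement) (hGN : GNStatement) (hHS : HSStatement) (hSP : SPStatement)
    (hDX : DXStatement) (hDI : DIStatement) (hIV : IVStatement) :
    ∃ c : ℝ, 0 < c ∧ ∃ k₀ : ℕ, ∀ k : ℕ, k₀ ≤ k → ∃ κ d : ℕ, 1 ≤ κ ∧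
      9 * (c * (k : ℝ)) ≤ ((d - 2 : ℕ) : ℝ) ∧
      ∀ A : TM, Decides k A → ∀ CT : ℕ, ∃ W₀ : ℕ, ∀ W, W₀ ≤ W →
        ∀ T₀, T₀ ≤ CT * (W * κ.factorial) ^ (d - 2) →
        ∃ G H : SimpleGraph (Fin (nV κ (W * κ.factorial))),
          ¬ A.HaltsIn (inputWord G H) T₀ := by
  obtain ⟨C₀, hC₀⟩ := hCL 13
  obtain ⟨D₀, hD₀⟩ := hDX
  obtain ⟨c, hc, k₀, hk₀⟩ := params C₀ ((D₀ + 1) * (2 * D₀ + 10))
  refine ⟨c, hc, k₀, fun k hk => ?_⟩
  obtain ⟨κ, d, hκ, hd, h3κ, h13, hCe, hE, h9⟩ := hk₀ k hk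
  refine ⟨κ, d, hκ, h9, fun A hdec CT => ?_⟩
  -- the expressions
  obtain ⟨N, X, Y₀, hdeg, hX⟩ := hD₀ κ d hκ
  -- the generator
  obtain ⟨gen, Cg, hgen⟩ := hGN N X
  obtain ⟨Nr0, hNr0⟩ := gen.exists_below
  set Nr := max Nr0 2 with hNr
  have hNr1 : gen.Below Nr := hNr0.mono (le_max_left _ _)
  have hNr2 : 2 ≤ Nr := le_max_right _ _
  -- stacks
  let S : Type := Fin Nr ⊕ TStack A
  let φ : ℕ → S := fun r =>
    if h : r = 0 then Sum.inr (Sum.inr 0) else if h' : r < Nr then Sum.inl ⟨r, h'⟩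
      else Sum.inr (Sum.inr 0)
  have hφ : Set.InjOn φ {r | r < Nr} := by
    intro a ha b hb hab
    have ha : a < Nr := ha
    have hb : b < Nr := hb
    simp only [φ] at hab
    by_cases h1 : a = 0 <;> by_cases h2 : b = 0
    · rw [h1, h2]
    · simp [h1, h2, hb] at hab
    · simp [h1, h2, ha] at hab
    · simp only [h1, h2, ha, hb, dif_pos, dif_neg, not_false_eq_true] at hab
      have h3 := Sum.inl_injective hab
      exact congrArg Fin.val h3
  have hφ0 : φ 0 = Sum.inr (Sum.inr 0) := by simp [φ]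
  have hφ1 : φ 1 = Sum.inl ⟨1, by omega⟩ := by
    have : (1 : ℕ) < Nr := by omega
    simp [φ, this]
  obtain ⟨B, Ct, hB⟩ := hTS A S (fun x => Sum.inr x) Sum.inr_injective
  obtain ⟨D, j, Cm, hj, hD⟩ := hCM gen Nr hNr1 S A.Γ A.sym A.sym_inj φ hφ B
  -- the template
  let inp : S := φ 1
  obtain ⟨Tm, hTm⟩ := hHS S A.Γ D inp A.sym d hd
  -- matrices
  obtain ⟨Ns, cs, ws, rs, hclos⟩ := hC₀ k (d + 1) κ (by omega) h13 hCe
  obtain ⟨m, δ, M, hm2, hrδ, hstar⟩ := hST Ns cs ws rs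
  -- the digit graph
  obtain ⟨Y₁, hY₁⟩ := hDI κ d m M Tm hκ hm2
  obtain ⟨Y₂, hY₂⟩ := nV_le κ hκ
  obtain ⟨Y₃, hY₃⟩ := time_ok ((D₀ + 1) * (2 * D₀ + 10)) d Cg Cm Ct CT hE
  -- choice of Y
  refine ⟨Y₀ + Y₁ + Y₂ + Y₃ + 10, fun W hW T₀ hT₀ => ?_⟩
  set Y := W * κ.factorial with hY
  have hfac : 1 ≤ κ.factorial := Nat.factorial_pos κ
  have hWY : W ≤ Y := by
    calc W = W * 1 := by ring
      _ ≤ W * κ.factorial := by gcongr
  have hdvd : κ.factorial ∣ Y := Dvd.intro_left W rfl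
  obtain ⟨u, hu, hiso⟩ := hY₁ Y (by omega) hdvd
  let P : Par := ⟨κ, fun i => Y + i.val * κ.factorial, m, M⟩
  obtain ⟨C, Dm, hDm, hCinj, hC2, e, he⟩ := hiso P rfl
  obtain ⟨hYn, hnY⟩ := hY₂ Y (by omega)
  obtain ⟨hXN, hXA⟩ := hX u (by omega)
  rw [hu] at hXN
  simp only [hu] at hXA
  -- the graphs on `Fin n`
  let G : Bool → SimpleGraph (Fin (nV κ Y)) := fun g =>
    SimpleGraph.comap e (((Tm.horn u).xsys P).graph C Dm g)
  have hG : ∀ (g : Bool) (p q : Fin (nV κ Y)), (G g).Adj p q ↔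
      X.eval u [q.val, p.val, (if g then 1 else 0), nV κ Y, u.length] ≠ 0 := by
    intro g p q
    have h1 : (G g).Adj p q ↔ (((Tm.horn u).xsys P).graph C Dm g).Adj (e p) (e q) := Iff.rfl
    rw [h1, he g p q, hu]
    exact (hXA _ p.val q.val (by split_ifs <;> omega) p.isLt q.isLt).symm
  have hiso1 : ∀ g : Bool, Nonempty (G g ≃g ((Tm.horn u).xsys P).graph C Dm g) := fun g =>
    ⟨{ toEquiv := e, map_rel_iff' := Iff.rfl }⟩
  have hWL : WLEquiv k (G false) (G true) ↔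
      WLEquiv k (((Tm.horn u).xsys P).graph C Dm false) (((Tm.horn u).xsys P).graph C Dm true) :=
    hIV k _ _ _ _ _ _ _ _ (hiso1 false) (hiso1 true)
  refine ⟨G false, G true, fun hhalt => ?_⟩
  have hword : inputWord (G false) (G true) = genWord N X u :=
    word_eq N X u (nV κ Y) (by rw [hu]; exact hXN) G hG
  -- the run of D
  set st : S → List A.Γ := fun σ => if σ = inp then u.map A.sym else [] with hst
  obtain ⟨t1, ht1, s', hrun, hs'⟩ := hgen u
  have hst0 : ∀ r, r < Nr → st (φ r) = ((fun r => if r = 1 then u else [] : Store) r).map A.sym := by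
    intro r hr
    simp only [hst]
    by_cases h1 : r = 1
    · subst h1; simp [inp]
    · have : φ r ≠ inp := by
        intro h2
        exact h1 (hφ hr (show 1 < Nr by omega) h2)
      simp [this, h1]
  obtain ⟨t2, ht2, st', hrunD, hst', hst''⟩ := hD _ s' t1 hrun st hst0
  have hB0 : st' (Sum.inr (Sum.inr 0)) = (inputWord (G false) (G true)).map A.sym := by
    have := hst' 0 (by omega)
    rw [hφ0] at this
    rw [this, hs', hword]
  have hφne : ∀ x : TStack A, x ≠ Sum.inr 0 → ∀ r, r < Nr → φ r ≠ Sum.inr x := by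
    intro x hx r hr h
    by_cases h1 : r = 0
    · rw [h1, hφ0] at h
      exact hx (Sum.inr_injective h).symm
    · simp [φ, h1, hr] at h
  have hne_inp : ∀ x : TStack A, (Sum.inr x : S) ≠ inp := by
    intro x h
    simp only [inp] at h
    rw [hφ1] at h
    exact absurd h (by simp)
  have hB1 : ∀ i, st' (Sum.inr (Sum.inl i)) = [] := by
    intro i
    rw [hst'' (Sum.inr (Sum.inl i)) (hφne _ (by simp))]
    simp only [hst]
    rw [if_neg (hne_inp _)]
  have hB2 : ∀ i, i ≠ 0 → st' (Sum.inr (Sum.inr i)) = [] := by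
    intro i hi
    rw [hst'' (Sum.inr (Sum.inr i)) (hφne _ (by simpa using hi))]
    simp only [hst]
    rw [if_neg (hne_inp _)]
  obtain ⟨hBa, hBr⟩ := hB (inputWord (G false) (G true)) st' hB0 hB1 hB2 T₀
  have hTn : T₀ ≤ CT * Y ^ (d - 2) := hT₀
  have hdeg2 : (N.vdeg + 1) * (X.tdeg + N.tdeg + 10) ≤ (D₀ + 1) * (2 * D₀ + 10) := by
    apply Nat.mul_le_mul <;> omega
  rw [hu] at ht1
  have hlen : Y ^ d = u.length ^ d := by rw [hu]
  -- transfer to D
  have hAccD : ∀ t', B.Acc st' t' → D.Acc st (t2 + t') := by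
    intro t' h
    unfold SM.Acc SM.run at h ⊢
    rw [Nat.add_comm t2 t', Function.iterate_add_apply]
    unfold SM.run at hrunD
    rw [hrunD, mirror B D j hj, hj]
    rw [h]
    rfl
  have hRejD : ∀ t', B.Rej st' t' → D.Rej st (t2 + t') := by
    intro t' h
    unfold SM.Rej SM.run at h ⊢
    rw [Nat.add_comm t2 t', Function.iterate_add_apply]
    unfold SM.run at hrunD
    rw [hrunD, mirror B D j hj, hj]
    rw [h]
    rfl
  have hdec' := hdec (nV κ Y) (G false) (G true)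
  by_cases hWLE : WLEquiv k (G false) (G true)
  · -- A accepts, D accepts, the Horn system accepts, so not equivalent
    obtain ⟨t, ht⟩ := hdec'.1 hWLE
    have ht' := A.absorb _ ht hhalt
    obtain ⟨t3, ht3, hacc⟩ := hBa ht'
    have htot := hY₃ Y (by omega) _ hdeg2 t1 t2 T₀ ht1 ht2 hTn t3 ht3
    rw [hlen] at htot
    have hAcc := (hTm u (by omega) (t2 + t3) (by omega)).1 (hAccD t3 hacc)
    have hderv := hHC (Tm.horn u) P hm2 hκ hAcc
    have hne : Nonempty (((Tm.horn u).xsys P).Vx C Dm) := ⟨e ⟨0, by omega⟩⟩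
    exact hXC ((Tm.horn u).xsys P) C hCinj hC2 Dm k (3 * κ + 4) (by omega) (by omega) hne hderv
      (hWL.mp hWLE)
  · -- A rejects, D rejects, the Horn system rejects, so equivalent
    obtain ⟨t, ht⟩ := hdec'.2 hWLE
    have ht' := A.absorb' _ ht hhalt
    obtain ⟨t3, ht3, hrej⟩ := hBr ht'
    have htot := hY₃ Y (by omega) _ hdeg2 t1 t2 T₀ ht1 ht2 hTn t3 ht3
    rw [hlen] at htot
    have hR := hTm u (by omega) (t2 + t3) (by omega)
    have hnAcc := hR.2.1 (hRejD t3 hrej)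
    have hbd := hR.2.2 (Or.inr (hRejD t3 hrej))
    have hsep : (Tm.horn u).Sep P (d + 1) := by
      refine hSP d Tm u P ?_ ?_ (by omega) hd hbd
      · intro i; rw [hu]
      · rw [hu]; exact hdvd
    obtain ⟨L, hL0, hLc, hLa, hL1⟩ := hclos (Tm.horn u) P δ rfl hsep hstar hrδ hm2 hnAcc
    exact hWLE (hWL.mpr (hXS ((Tm.horn u).xsys P) C Dm k L hL0 hLc hLa hL1))

end P310
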