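import Vale.Agent.P310.Digit

/-!
# Module AS: assembly
-/

namespace P310

/-- every program uses finitely many registers -/
theorem Cmd.Below.mono {N N' : ℕ} (h : N ≤ N') : ∀ {c : Cmd}, c.Below N → c.Below N'
  | .skip, _ => trivial
  | .push _ _, hc => lt_of_lt_of_le hc h
  | .pop _, hc => lt_of_lt_of_le hc h
  | .seq _ _, hc => ⟨Cmd.Below.mono h hc.1, Cmd.Below.mono h hc.2⟩
  | .ite _ _ _ _, hc => ⟨lt_of_lt_of_le hc.1 h, Cmd.Below.mono h hc.2.1,
      Cmd.Below.mono h hc.2.2.1, Cmd.Below.mono h hc.2.2.2⟩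
  | .loop _ _, hc => ⟨lt_of_lt_of_le hc.1 h, Cmd.Below.mono h hc.2⟩

theorem Cmd.exists_below (c : Cmd) : ∃ N, c.Below N := by
  induction c with
  | skip => exact ⟨0, trivial⟩
  | push σ b => exact ⟨σ + 1, Nat.lt_succ_self σ⟩
  | pop σ => exact ⟨σ + 1, Nat.lt_succ_self σ⟩
  | seq c d hc hd =>
      obtain ⟨N, hN⟩ := hc
      obtain ⟨N', hN'⟩ := hd
      exact ⟨max N N', hN.mono (le_max_left _ _), hN'.mono (le_max_right _ _)⟩
  | ite σ a b c ha hb hc =>
      obtain ⟨N, hN⟩ := ha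
      obtain ⟨N', hN'⟩ := hb
      obtain ⟨N'', hN''⟩ := hc
      refine ⟨max (max N N') (max N'' (σ + 1)), ?_, hN.mono ?_, hN'.mono ?_, hN''.mono ?_⟩
      · have : σ + 1 ≤ max (max N N') (max N'' (σ + 1)) :=
          le_max_of_le_right (le_max_right _ _)
        omega
      · exact le_max_of_le_left (le_max_left _ _)
      · exact le_max_of_le_left (le_max_right _ _)
      · exact le_max_of_le_right (le_max_left _ _)
  | loop σ c hc =>
      obtain ⟨N, hN⟩ := hc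
      refine ⟨max N (σ + 1), ?_, hN.mono (le_max_left _ _)⟩
      have : σ + 1 ≤ max N (σ + 1) := le_max_right _ _
      omega

/-- the run of the tail machine inside the compiled machine -/
theorem mirror {S α : Type} [DecidableEq S] (B D : SM S α) (j : B.L → D.L)
    (hj : ∀ l, D.instr (j l) = (B.instr l).map j) (n : ℕ) (l : B.L) (st : S → List α) :
    (D.step)^[n] (j l, st) =
      (j ((B.step)^[n] (l, st)).1, ((B.step)^[n] (l, st)).2) := by
  induction n generalizing l st with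
  | zero => rfl
  | succ n ih =>
      rw [Function.iterate_succ_apply, Function.iterate_succ_apply]
      have h1 : D.step (j l, st) = (j (B.step (l, st)).1, (B.step (l, st)).2) := by
        unfold SM.step
        simp only [hj l]
        cases B.instr l <;> rfl
      rw [h1, ih]

/-- acceptance and rejection exclude each other and are absorbing -/
theorem TM.absorb (M : TM) (w : List Bool) {t t' : ℕ} (h : M.AcceptsIn w t)
    (h' : M.HaltsIn w t') : M.AcceptsIn w t' := by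
  have key : ∀ (c : Cfg M), (c.q = M.accept ∨ c.q = M.reject) → ∀ n, (M.step)^[n] c = c := by
    intro c hc n
    induction n with
    | zero => rfl
    | succ n ih =>
        rw [Function.iterate_succ_apply]
        have : M.step c = c := by unfold TM.step; rw [if_pos hc]
        rw [this, ih]
  rcases h' with h' | h'
  · exact h'
  · exfalso
    rcases le_total t t' with hle | hle
    · obtain ⟨n, rfl⟩ := Nat.exists_eq_add_of_le hle
      unfold TM.RejectsIn at h'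
      rw [add_comm, Function.iterate_add_apply, key _ (Or.inl h)] at h'
      exact M.acc_ne_rej (h.symm.trans h')
    · obtain ⟨n, rfl⟩ := Nat.exists_eq_add_of_le hle
      unfold TM.AcceptsIn at h
      rw [add_comm, Function.iterate_add_apply, key _ (Or.inr h')] at h
      exact M.acc_ne_rej (h.symm.trans h')

theorem TM.absorb' (M : TM) (w : List Bool) {t t' : ℕ} (h : M.RejectsIn w t)
    (h' : M.HaltsIn w t') : M.RejectsIn w t' := by
  rcases h' with h' | h'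
  · have h2 := M.absorb w h' (Or.inr h : M.HaltsIn w t)
    exact absurd (h2.symm.trans h) M.acc_ne_rej
  · exact h'

/-- the input word of the digit graphs -/
theorem word_eq (N A : Ex) (u : List Bool) (n : ℕ) (hn : N.eval u [u.length] = n)
    (G : Bool → SimpleGraph (Fin n))
    (hA : ∀ (g : Bool) (p q : Fin n), (G g).Adj p q ↔
      A.eval u [q.val, p.val, (if g then 1 else 0), n, u.length] ≠ 0) :
    inputWord (G false) (G true) = genWord N A u := by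
  classical
  have h1 : ∀ g : Bool, adjWord (G g) = (List.range n).flatMap fun p => (List.range n).map fun q =>
      decide (A.eval u [q, p, (if g then 1 else 0), n, u.length] ≠ 0) := by
    intro g
    unfold adjWord
    have h2 : List.range n = (List.finRange n).map (fun i : Fin n => i.val) := by
      simp
    rw [h2, List.flatMap_map]
    congr 1
    funext p
    rw [List.map_map]
    congr 1
    funext q
    simp only [Function.comp_apply]
    exact decide_eq_decide.mpr (hA g p q)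
  unfold inputWord genWord
  simp only [hn]
  rw [h1, h1]
  simp [List.range_succ]


open Classical in
/-- arithmetic of the number of vertices -/
theorem nV_le (κ : ℕ) (hκ : 1 ≤ κ) : ∃ Y₁ : ℕ, ∀ Y, Y₁ ≤ Y → Y ≤ nV κ Y ∧ nV κ Y ≤ Y ^ 9 := by
  refine ⟨361 * κ ^ 2 + κ * κ.factorial + 10, fun Y hY => ?_⟩
  have hY10 : 10 ≤ Y := by nlinarith [Nat.zero_le (361 * κ ^ 2), Nat.zero_le (κ * κ.factorial)]
  have hB : Bd κ Y ≤ 3 * Y := by unfold Bd; omega
  have hB1 : 1 ≤ Bd κ Y := by unfold Bd; omega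
  have hM : nM κ Y ≤ 18 * κ * Y ^ 4 := by
    unfold nM
    calc Y * (Y + 1) * κ * Bd κ Y * Bd κ Y
        ≤ Y * (Y + Y) * κ * (3 * Y) * (3 * Y) := by gcongr; omega
      _ = 18 * κ * Y ^ 4 := by ring
  have hL : Lm κ Y ≤ 19 * κ * Y ^ 4 := by
    unfold Lm
    have : 3 ≤ κ * Y ^ 4 := by
      calc 3 ≤ 1 * 10 ^ 4 := by norm_num
        _ ≤ κ * Y ^ 4 := by gcongr
    nlinarith
  have hM1 : Y ≤ nM κ Y := by
    unfold nM
    calc Y = Y * 1 * 1 * 1 * 1 := by ring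
      _ ≤ Y * (Y + 1) * κ * Bd κ Y * Bd κ Y := by gcongr; omega
  constructor
  · unfold nV
    calc Y = Y * 1 := by ring
      _ ≤ nM κ Y * Lm κ Y := by gcongr; unfold Lm; omega
  · unfold nV
    calc nM κ Y * Lm κ Y ≤ (18 * κ * Y ^ 4) * (19 * κ * Y ^ 4) := by gcongr
      _ ≤ (361 * κ ^ 2) * Y ^ 8 := by nlinarith [Nat.zero_le (κ ^ 2 * Y ^ 8)]
      _ ≤ Y * Y ^ 8 := by gcongr; omega
      _ = Y ^ 9 := by ring

/-- the polynomial arithmetic of the running time -/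
theorem time_ok (E d C1 C2 C3 CT : ℕ) (hE : E + 2 ≤ d) :
    ∃ Y₁ : ℕ, ∀ Y, Y₁ ≤ Y → ∀ E' ≤ E, ∀ t1 t2 Tn : ℕ, t1 ≤ C1 * (Y + 2) ^ E' →
      t2 ≤ C2 * t1 + C2 → Tn ≤ CT * Y ^ (d - 2) →
      ∀ t3 ≤ C3 * Tn + C3, t2 + t3 + 1 ≤ Y ^ d := by
  refine ⟨C2 * C1 * 2 ^ E + C3 * CT + C2 + C3 + 2, fun Y hY E' hE' t1 t2 Tn h1 h2 hT t3 h3 => ?_⟩
  have hY2 : 2 ≤ Y := by omega
  have h4 : (Y + 2) ^ E' ≤ 2 ^ E * Y ^ (d - 2) := by
    calc (Y + 2) ^ E' ≤ (Y + 2) ^ E := Nat.pow_le_pow_right (by omega) hE'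
      _ ≤ (2 * Y) ^ E := Nat.pow_le_pow_left (by omega) E
      _ = 2 ^ E * Y ^ E := by rw [mul_pow]
      _ ≤ 2 ^ E * Y ^ (d - 2) := by gcongr <;> omega
  have h5 : 1 ≤ Y ^ (d - 2) := Nat.one_le_pow _ _ (by omega)
  have hd : Y ^ d = Y ^ (d - 2) * (Y * Y) := by
    rw [← pow_two, ← pow_add]; congr 1; omega
  calc t2 + t3 + 1 ≤ (C2 * (C1 * (2 ^ E * Y ^ (d - 2))) + C2) + (C3 * (CT * Y ^ (d - 2)) + C3) + 1 := by
        gcongr
        · calc t2 ≤ C2 * t1 + C2 := h2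
            _ ≤ C2 * (C1 * (2 ^ E * Y ^ (d - 2))) + C2 := by gcongr; exact h1.trans (by gcongr)
        · exact h3.trans (by gcongr)
    _ ≤ (C2 * C1 * 2 ^ E + C3 * CT + C2 + C3 + 2) * Y ^ (d - 2) := by nlinarith
    _ ≤ Y * Y ^ (d - 2) := by gcongr
    _ ≤ (Y * Y) * Y ^ (d - 2) := by gcongr; nlinarith
    _ = Y ^ d := by rw [hd]; ring


/-- choice of the parameters -/
theorem params (C₀ E : ℕ) : ∃ c : ℝ, 0 < c ∧ ∃ k₀ : ℕ, ∀ k, k₀ ≤ k → ∃ κ d : ℕ,
    1 ≤ κ ∧ 1 ≤ d ∧ 3 * κ + 5 ≤ k ∧ 4 * (k + 1) ≤ 13 * κ ∧ C₀ * (d + 1) ≤ κ ∧ E + 2 ≤ d ∧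
    9 * (c * (k : ℝ)) ≤ ((d - 2 : ℕ) : ℝ) := by
  refine ⟨1 / (100 * ((C₀ : ℝ) + 1)), by positivity, 100 * (C₀ + 1) * (E + 10), fun k hk => ?_⟩
  have hk1 : 1000 ≤ k := by nlinarith [Nat.zero_le (C₀ * E), Nat.zero_le C₀, Nat.zero_le E]
  set κ := (k - 5) / 3 with hκ
  have h1 : 3 * κ ≤ k - 5 := Nat.mul_div_le _ _
  have h2 : k - 5 < 3 * κ + 3 := by omega
  set q := κ / (C₀ + 1) with hq
  have h3 : (C₀ + 1) * q ≤ κ := Nat.mul_div_le _ _
  have h4 : κ < (C₀ + 1) * q + (C₀ + 1) := by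
    have := Nat.lt_mul_div_succ κ (Nat.succ_pos C₀)
    simpa [hq, Nat.mul_add, Nat.succ_eq_add_one] using this
  have h5 : k ≤ 4 * κ := by omega
  have h6 : 25 * (E + 10) ≤ q + 1 := by
    by_contra hcon
    push Not at hcon
    have h7 : (q + 1) + 1 ≤ 25 * (E + 10) := hcon
    have h8 : κ + 1 ≤ (C₀ + 1) * (q + 1) := by linarith
    have h9 : (C₀ + 1) * (q + 1) + (C₀ + 1) ≤ (C₀ + 1) * (25 * (E + 10)) := by
      calc (C₀ + 1) * (q + 1) + (C₀ + 1) = (C₀ + 1) * ((q + 1) + 1) := by ring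
        _ ≤ _ := by gcongr
    nlinarith
  refine ⟨κ, q - 1, by omega, by omega, by omega, by omega, ?_, by omega, ?_⟩
  · have : q - 1 + 1 = q := by omega
    rw [this]
    nlinarith
  · have h7 : (((q - 1 - 2 : ℕ)) : ℝ) = (q : ℝ) - 3 := by
      have : q - 1 - 2 + 3 = q := by omega
      have h8 : ((q - 1 - 2 + 3 : ℕ) : ℝ) = (q : ℝ) := by rw [this]
      push_cast at h8 ⊢
      linarith
    rw [h7]
    have hC : (0 : ℝ) < (C₀ : ℝ) + 1 := by positivity
    have hkR : (k : ℝ) ≤ 4 * (((C₀ : ℝ) + 1) * (q : ℝ) + ((C₀ : ℝ) + 1)) := by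
      have : k ≤ 4 * ((C₀ + 1) * q + (C₀ + 1)) := by omega
      exact_mod_cast this
    have hqR : (249 : ℝ) ≤ (q : ℝ) := by
      have : 249 ≤ q := by omega
      exact_mod_cast this
    rw [show 9 * (1 / (100 * ((C₀ : ℝ) + 1)) * (k : ℝ)) = 9 * (k : ℝ) / (100 * ((C₀ : ℝ) + 1)) by
      field_simp]
    rw [div_le_iff₀ (by positivity)]
    have h8 : 36 * ((q : ℝ) + 1) ≤ 100 * ((q : ℝ) - 3) := by linarith
    calc 9 * (k : ℝ) ≤ 9 * (4 * (((C₀ : ℝ) + 1) * (q : ℝ) + ((C₀ : ℝ) + 1))) := by gcongr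
      _ = ((C₀ : ℝ) + 1) * (36 * ((q : ℝ) + 1)) := by ring
      _ ≤ ((C₀ : ℝ) + 1) * (100 * ((q : ℝ) - 3)) := by gcongr
      _ = ((q : ℝ) - 3) * (100 * ((C₀ : ℝ) + 1)) := by ring

/-- from the big-O bound to natural numbers -/
theorem bigO_nat (T : ℕ → ℕ) (a : ℝ) (D : ℕ) (h9 : 9 * a ≤ (D : ℝ))
    (h : (fun n : ℕ => (T n : ℝ)) =O[Filter.atTop] (fun n : ℕ => (n : ℝ) ^ a)) :
    ∃ CT n₀ : ℕ, ∀ Y n : ℕ, 1 ≤ Y → n₀ ≤ n → 1 ≤ n → n ≤ Y ^ 9 → T n ≤ CT * Y ^ D := by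
  obtain ⟨C, hC⟩ := h.bound
  obtain ⟨n₀, hn₀⟩ := Filter.eventually_atTop.mp hC
  refine ⟨⌈|C|⌉₊, n₀, fun Y n hY hn hn1 hnY => ?_⟩
  have h1 := hn₀ n hn
  rw [Real.norm_natCast, Real.norm_of_nonneg (by positivity)] at h1
  have hYR : (1 : ℝ) ≤ (Y : ℝ) := by exact_mod_cast hY
  have hnR : (1 : ℝ) ≤ (n : ℝ) := by exact_mod_cast hn1
  have hnY' : (n : ℝ) ≤ (Y : ℝ) ^ (9 : ℕ) := by exact_mod_cast hnY
  have h2 : (n : ℝ) ^ a ≤ (Y : ℝ) ^ D := by
    rcases le_total a 0 with ha | ha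
    · calc (n : ℝ) ^ a ≤ 1 := Real.rpow_le_one_of_one_le_of_nonpos hnR ha
        _ ≤ (Y : ℝ) ^ D := one_le_pow₀ hYR
    · calc (n : ℝ) ^ a ≤ ((Y : ℝ) ^ (9 : ℕ)) ^ a := Real.rpow_le_rpow (by positivity) hnY' ha
        _ = (Y : ℝ) ^ (9 * a) := by
            rw [← Real.rpow_natCast, ← Real.rpow_mul (by positivity)]
            norm_num
        _ ≤ (Y : ℝ) ^ (D : ℝ) := Real.rpow_le_rpow_of_exponent_le hYR h9
        _ = (Y : ℝ) ^ D := Real.rpow_natCast _ _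
  have h3 : (T n : ℝ) ≤ (⌈|C|⌉₊ : ℝ) * (Y : ℝ) ^ D := by
    calc (T n : ℝ) ≤ C * (n : ℝ) ^ a := h1
      _ ≤ |C| * (n : ℝ) ^ a := by gcongr; exact le_abs_self C
      _ ≤ (⌈|C|⌉₊ : ℝ) * (Y : ℝ) ^ D := by
          gcongr
          exact Nat.le_ceil _
  exact_mod_cast h3


open Classical in
/-- **Module AS**. -/
theorem as_main : ASStatement := by
  intro hXS hXC hST hHC hCL hTS hCM hGN hHS hSP hDX hDI hIV
  obtain ⟨C₀, hC₀⟩ := hCL 13
  obtain ⟨D₀, hD₀⟩ := hDX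
  obtain ⟨c, hc, k₀, hk₀⟩ := params C₀ ((D₀ + 1) * (2 * D₀ + 10))
  refine ⟨c, hc, k₀, fun k hk A hdec T hT hbigO => ?_⟩
  obtain ⟨κ, d, hκ, hd, h3κ, h13, hCe, hE, h9⟩ := hk₀ k hk
  -- the expressions
  obtain ⟨N, X, Y₀, hdeg, hX⟩ := hD₀ κ d hκ
  -- the generator
  obtain ⟨gen, Cg, hgen⟩ := hGN N X
  obtain ⟨Nr0, hNr0⟩ := gen.exists_below
  set Nr := max Nr0 2 with hNr
  have hNr1 : gen.Below Nr := hNr0.mono (le_max_left _ _)
  have hNr2 : 2 ≤ Nr := le_max_right _ _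
  -- stacks
  let S : Type := Fin Nr ⊕ TStack A
  let φ : ℕ → S := fun r =>
    if h : r = 0 then Sum.inr (Sum.inr 0) else if h' : r < Nr then Sum.inl ⟨r, h'⟩
      else Sum.inr (Sum.inr 0)
  have hφ : Set.InjOn φ {r | r < Nr} := by
    intro a ha b hb hab
    have ha : a < Nr := ha
    have hb : b < Nr := hb
    simp only [φ] at hab
    by_cases h1 : a = 0 <;> by_cases h2 : b = 0
    · rw [h1, h2]
    · simp [h1, h2, hb] at hab
    · simp [h1, h2, ha] at hab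
    · simp only [h1, h2, ha, hb, dif_pos, dif_neg, not_false_eq_true] at hab
      have h3 := Sum.inl_injective hab
      exact congrArg Fin.val h3
  have hφ0 : φ 0 = Sum.inr (Sum.inr 0) := by simp [φ]
  have hφ1 : φ 1 = Sum.inl ⟨1, by omega⟩ := by
    have : (1 : ℕ) < Nr := by omega
    simp [φ, this]
  obtain ⟨B, Ct, hB⟩ := hTS A S (fun x => Sum.inr x) Sum.inr_injective
  obtain ⟨D, j, Cm, hj, hD⟩ := hCM gen Nr hNr1 S A.Γ A.sym A.sym_inj φ hφ B
  -- the template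
  let inp : S := φ 1
  obtain ⟨Tm, hTm⟩ := hHS S A.Γ D inp A.sym d hd
  -- matrices
  obtain ⟨Ns, cs, ws, rs, hclos⟩ := hC₀ k (d + 1) κ (by omega) h13 hCe
  obtain ⟨m, δ, M, hm2, hrδ, hstar⟩ := hST Ns cs ws rs
  -- the digit graph
  obtain ⟨Y₁, hY₁⟩ := hDI κ d m M Tm hκ hm2
  obtain ⟨Y₂, hY₂⟩ := nV_le κ hκ
  obtain ⟨CT, n₀, hCT⟩ := bigO_nat T (c * k) (d - 2) h9 hbigO
  obtain ⟨Y₃, hY₃⟩ := time_ok ((D₀ + 1) * (2 * D₀ + 10)) d Cg Cm Ct CT hE
  -- choice of Y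
  set W := Y₀ + Y₁ + Y₂ + Y₃ + n₀ + 10 with hW
  set Y := W * κ.factorial with hY
  have hfac : 1 ≤ κ.factorial := Nat.factorial_pos κ
  have hWY : W ≤ Y := by
    calc W = W * 1 := by ring
      _ ≤ W * κ.factorial := by gcongr
  have hdvd : κ.factorial ∣ Y := Dvd.intro_left W rfl
  obtain ⟨u, hu, hiso⟩ := hY₁ Y (by omega) hdvd
  let P : Par := ⟨κ, fun i => Y + i.val * κ.factorial, m, M⟩
  obtain ⟨C, Dm, hDm, hCinj, hC2, e, he⟩ := hiso P rfl
  obtain ⟨hYn, hnY⟩ := hY₂ Y (by omega)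
  obtain ⟨hXN, hXA⟩ := hX u (by omega)
  rw [hu] at hXN
  simp only [hu] at hXA
  -- the graphs on `Fin n`
  let G : Bool → SimpleGraph (Fin (nV κ Y)) := fun g =>
    SimpleGraph.comap e (((Tm.horn u).xsys P).graph C Dm g)
  have hG : ∀ (g : Bool) (p q : Fin (nV κ Y)), (G g).Adj p q ↔
      X.eval u [q.val, p.val, (if g then 1 else 0), nV κ Y, u.length] ≠ 0 := by
    intro g p q
    have h1 : (G g).Adj p q ↔ (((Tm.horn u).xsys P).graph C Dm g).Adj (e p) (e q) := Iff.rfl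
    rw [h1, he g p q, hu]
    exact (hXA _ p.val q.val (by split_ifs <;> omega) p.isLt q.isLt).symm
  have hiso1 : ∀ g : Bool, Nonempty (G g ≃g ((Tm.horn u).xsys P).graph C Dm g) := fun g =>
    ⟨{ toEquiv := e, map_rel_iff' := Iff.rfl }⟩
  have hWL : WLEquiv k (G false) (G true) ↔
      WLEquiv k (((Tm.horn u).xsys P).graph C Dm false) (((Tm.horn u).xsys P).graph C Dm true) :=
    hIV k _ _ _ _ _ _ _ _ (hiso1 false) (hiso1 true)
  have hword : inputWord (G false) (G true) = genWord N X u :=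
    word_eq N X u (nV κ Y) (by rw [hu]; exact hXN) G hG
  -- the run of D
  set st : S → List A.Γ := fun σ => if σ = inp then u.map A.sym else [] with hst
  obtain ⟨t1, ht1, s', hrun, hs'⟩ := hgen u
  have hst0 : ∀ r, r < Nr → st (φ r) = ((fun r => if r = 1 then u else [] : Store) r).map A.sym := by
    intro r hr
    simp only [hst]
    by_cases h1 : r = 1
    · subst h1; simp [inp]
    · have : φ r ≠ inp := by
        intro h2
        exact h1 (hφ hr (show 1 < Nr by omega) h2)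
      simp [this, h1]
  obtain ⟨t2, ht2, st', hrunD, hst', hst''⟩ := hD _ s' t1 hrun st hst0
  have hB0 : st' (Sum.inr (Sum.inr 0)) = (inputWord (G false) (G true)).map A.sym := by
    have := hst' 0 (by omega)
    rw [hφ0] at this
    rw [this, hs', hword]
  have hφne : ∀ x : TStack A, x ≠ Sum.inr 0 → ∀ r, r < Nr → φ r ≠ Sum.inr x := by
    intro x hx r hr h
    by_cases h1 : r = 0
    · rw [h1, hφ0] at h
      exact hx (Sum.inr_injective h).symm
    · simp [φ, h1, hr] at h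
  have hne_inp : ∀ x : TStack A, (Sum.inr x : S) ≠ inp := by
    intro x h
    simp only [inp] at h
    rw [hφ1] at h
    exact absurd h (by simp)
  have hB1 : ∀ i, st' (Sum.inr (Sum.inl i)) = [] := by
    intro i
    rw [hst'' (Sum.inr (Sum.inl i)) (hφne _ (by simp))]
    simp only [hst]
    rw [if_neg (hne_inp _)]
  have hB2 : ∀ i, i ≠ 0 → st' (Sum.inr (Sum.inr i)) = [] := by
    intro i hi
    rw [hst'' (Sum.inr (Sum.inr i)) (hφne _ (by simpa using hi))]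
    simp only [hst]
    rw [if_neg (hne_inp _)]
  obtain ⟨hBa, hBr⟩ := hB (inputWord (G false) (G true)) st' hB0 hB1 hB2 (T (nV κ Y))
  have hTn : T (nV κ Y) ≤ CT * Y ^ (d - 2) := hCT Y (nV κ Y) (by omega) (by omega) (by omega) hnY
  have hdeg2 : (N.vdeg + 1) * (X.tdeg + N.tdeg + 10) ≤ (D₀ + 1) * (2 * D₀ + 10) := by
    apply Nat.mul_le_mul <;> omega
  rw [hu] at ht1
  have hlen : Y ^ d = u.length ^ d := by rw [hu]
  -- transfer to D
  have hAccD : ∀ t', B.Acc st' t' → D.Acc st (t2 + t') := by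
    intro t' h
    unfold SM.Acc SM.run at h ⊢
    rw [Nat.add_comm t2 t', Function.iterate_add_apply]
    unfold SM.run at hrunD
    rw [hrunD, mirror B D j hj, hj]
    rw [h]
    rfl
  have hRejD : ∀ t', B.Rej st' t' → D.Rej st (t2 + t') := by
    intro t' h
    unfold SM.Rej SM.run at h ⊢
    rw [Nat.add_comm t2 t', Function.iterate_add_apply]
    unfold SM.run at hrunD
    rw [hrunD, mirror B D j hj, hj]
    rw [h]
    rfl
  have hdec' := hdec (nV κ Y) (G false) (G true)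
  have hhalt := hT (nV κ Y) (G false) (G true)
  by_cases hWLE : WLEquiv k (G false) (G true)
  · -- A accepts, D accepts, the Horn system accepts, so not equivalent
    obtain ⟨t, ht⟩ := hdec'.1 hWLE
    have ht' := A.absorb _ ht hhalt
    obtain ⟨t3, ht3, hacc⟩ := hBa ht'
    have htot := hY₃ Y (by omega) _ hdeg2 t1 t2 (T (nV κ Y)) ht1 ht2 hTn t3 ht3
    rw [hlen] at htot
    have hAcc := (hTm u (by omega) (t2 + t3) (by omega)).1 (hAccD t3 hacc)
    have hderv := hHC (Tm.horn u) P hm2 hκ hAcc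
    have hne : Nonempty (((Tm.horn u).xsys P).Vx C Dm) := ⟨e ⟨0, by omega⟩⟩
    exact hXC ((Tm.horn u).xsys P) C hCinj hC2 Dm k (3 * κ + 4) (by omega) (by omega) hne hderv
      (hWL.mp hWLE)
  · -- A rejects, D rejects, the Horn system rejects, so equivalent
    obtain ⟨t, ht⟩ := hdec'.2 hWLE
    have ht' := A.absorb' _ ht hhalt
    obtain ⟨t3, ht3, hrej⟩ := hBr ht'
    have htot := hY₃ Y (by omega) _ hdeg2 t1 t2 (T (nV κ Y)) ht1 ht2 hTn t3 ht3
    rw [hlen] at htot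
    have hR := hTm u (by omega) (t2 + t3) (by omega)
    have hnAcc := hR.2.1 (hRejD t3 hrej)
    have hbd := hR.2.2 (Or.inr (hRejD t3 hrej))
    have hsep : (Tm.horn u).Sep P (d + 1) := by
      refine hSP d Tm u P ?_ ?_ (by omega) hd hbd
      · intro i; rw [hu]
      · rw [hu]; exact hdvd
    obtain ⟨L, hL0, hLc, hLa, hL1⟩ := hclos (Tm.horn u) P δ rfl hsep hstar hrδ hm2 hnAcc
    exact hWLE (hWL.mpr (hXS ((Tm.horn u).xsys P) C Dm k L hL0 hLc hLa hL1))

end P310
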