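import Vale.Agent.P310.Horn

/-!
# Closure theorem: definitions and the statements of its steps

See notes/P310_plan.md, section 2.  `K` bounds the cost, `K ≤ c₀ κ`, `s0 c₀ = 26 c₀ + 1`
(bound both for the name counts and for `|G_x|`), `C0 c₀ * e ≤ κ`.
-/

namespace P310

namespace Horn

open Finset

variable (𝓗 : Horn) (P : Par)

/-- copies of gadgets: rule, row, residue -/
abbrev Copy : Type := 𝓗.R × Fin P.m × P.Pt

/-- Representations: `A c` = set of equations of the copy `c` which are used, `Φ` = set of true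
facts which are used. -/
structure Rep where
  A : 𝓗.Copy P → Finset (Fin P.m)
  Φ : Finset (𝓗.X × Fin P.m × (ℤ × ℤ))
  der : ∀ a ∈ Φ, 𝓗.Der a.1 a.2.2

variable {𝓗 P}

/-- linear form of a representation -/
def Rep.lin (r : 𝓗.Rep P) : 𝓗.Var P → ZMod 2 :=
  ∑ c : 𝓗.Copy P, ∑ s ∈ r.A c, 𝓗.cform P (Sum.inl (c.1, c.2.1, s, c.2.2)) +
    ∑ a ∈ r.Φ, 𝓗.fact P a.1 a.2.1 a.2.2

/-- constant of a representation -/
def Rep.cst (r : 𝓗.Rep P) : ZMod 2 :=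
  ∑ c : 𝓗.Copy P, ∑ s ∈ r.A c, if 𝓗.isTw P c.1 s c.2.2 then 1 else 0

/-- number of touched copies -/
def Rep.touched (r : 𝓗.Rep P) : ℕ := (univ.filter fun c => (r.A c).Nonempty).card

/-- the addresses used with the name `(x, j)` -/
def Rep.D (r : 𝓗.Rep P) (x : 𝓗.X) (j : Fin P.m) : Finset (ℤ × ℤ) :=
  (r.Φ.filter fun a => a.1 = x ∧ a.2.1 = j).image fun a => a.2.2

/-- the addresses used with the relation `x` -/
def Rep.G (r : 𝓗.Rep P) (x : 𝓗.X) : Finset (ℤ × ℤ) :=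
  (r.Φ.filter fun a => a.1 = x).image fun a => a.2.2

variable (𝓗 P)

/-- seed variables (cheap) -/
def IsSd (v : 𝓗.Var P) : Prop := ∃ (l : Fin P.m) (i : Fin P.κ), v = 𝓗.bank P 𝓗.seed l (P.pt i 0)

open Classical in
/-- cost of a linear form -/
noncomputable def cost (f : 𝓗.Var P → ZMod 2) : ℕ :=
  (univ.filter fun v => f v ≠ 0 ∧ ¬ 𝓗.IsSd P v).card +
    (univ.filter fun l : Fin P.m => ∃ i, f (𝓗.bank P 𝓗.seed l (P.pt i 0)) ≠ 0).card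

/-- constants -/
def s0 (c₀ : ℕ) : ℕ := 26 * c₀ + 1
def C0 (c₀ : ℕ) : ℕ := 1000 * (c₀ + 1)
def w0 (c₀ K : ℕ) : ℕ := 5 * K * (s0 c₀ + 2)
def r0 (c₀ : ℕ) : ℕ := 8 * (s0 c₀ + 2)

/-- common hypotheses -/
structure Hyp (c₀ K e δ : ℕ) : Prop where
  e1 : 1 ≤ e
  K1 : 1 ≤ K
  m2 : 2 ≤ P.m
  Kκ : K ≤ c₀ * P.κ
  eκ : C0 c₀ * e ≤ P.κ
  sep : 𝓗.Sep P e
  star : Star P.m (4 * K) K (w0 c₀ K) δ P.M
  rδ : r0 c₀ * (δ + 1) ≤ P.m
  rej : ¬ 𝓗.Acc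

variable {𝓗 P}

/-- bounded representations -/
def Rep.Bd (r : 𝓗.Rep P) (K t s : ℕ) : Prop :=
  𝓗.cost P r.lin ≤ K ∧ r.touched ≤ t ∧ ∀ x j, (r.D x j).card ≤ s

variable (𝓗 P)

/-! ### Step 0 (module CB): coefficients and cut points -/

/-- coefficient at a path variable -/
def CoefPath : Prop :=
  ∀ (r : 𝓗.Rep P) (ρ : 𝓗.R) (l s : Fin P.m) (b : P.Pt) (hs : s.val + 1 < P.m),
    r.lin (𝓗.path P ρ l s b) =
      (if s ∈ r.A (ρ, l, b) then 1 else 0) +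
        (if (⟨s.val + 1, hs⟩ : Fin P.m) ∈ r.A (ρ, l, b) then 1 else 0)

/-- coefficient at a bank variable: keys + outputs + facts -/
def CoefBank : Prop :=
  ∀ (r : 𝓗.Rep P) (x : 𝓗.X) (j : Fin P.m) (b : P.Pt),
    r.lin (𝓗.bank P x j b) =
      (∑ ρ : 𝓗.R, ∑ q : Fin 2, ∑ l : Fin P.m,
        match 𝓗.pr ρ q with
          | some (x', h) =>
              if x' = x ∧ j ∈ r.A (ρ, l, P.tr b (-h)) then P.M (𝓗.ty ρ) l j else 0
          | none => 0) +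
      (∑ ρ : 𝓗.R,
        if 𝓗.co ρ = some x ∧ ∃ s ∈ r.A (ρ, j, b), s.val + 1 = P.m then (1 : ZMod 2) else 0) +
      (((r.D x j).filter fun g => P.pt b.1 g = b).card : ZMod 2)

/-- the cut points are seen in the form -/
def CutsLe : Prop :=
  ∀ r : 𝓗.Rep P, ∑ c : 𝓗.Copy P, cuts (r.A c) ≤ 𝓗.cost P r.lin

def CBStatement : Prop :=
  ∀ (𝓗 : Horn) (P : Par), 2 ≤ P.m → CoefPath 𝓗 P ∧ CoefBank 𝓗 P ∧ CutsLe 𝓗 P

/-! ### Steps 1 and 2 (module CC): counting -/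

/-- name counts drop below `s0`, and `|G_x| ≤ s0` -/
def CCStatement : Prop :=
  CBStatement → ∀ (𝓗 : Horn) (P : Par) (c₀ K e δ : ℕ), 𝓗.Hyp P c₀ K e δ →
    ∀ r : 𝓗.Rep P, r.Bd K (4 * K) (2 * s0 c₀) →
      (∀ x j, (r.D x j).card ≤ s0 c₀) ∧ (∀ x, (r.G x).card ≤ s0 c₀)

/-! ### Step 3 (module CD): structure -/

variable {𝓗 P}

/-- good coordinates of `g`: no other element of `G_x` has the same residue -/
def Rep.I (r : 𝓗.Rep P) (x : 𝓗.X) (g : ℤ × ℤ) : Finset (Fin P.κ) :=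
  univ.filter fun i => ∀ g' ∈ r.G x, g' ≠ g → P.pt i g' ≠ P.pt i g

/-- indicator of `A` -/
def Rep.ind (r : 𝓗.Rep P) (ρ : 𝓗.R) (l : Fin P.m) (b : P.Pt) (j : Fin P.m) : ZMod 2 :=
  if j ∈ r.A (ρ, l, b) then 1 else 0

/-- discrepancy between the copy of rule `ρ` (a use of `x` with shift `h`) at the bank point `b`
and the reference copies of the elements of `G_x` with residue `b` -/
def Rep.dis (r : 𝓗.Rep P) (x : 𝓗.X) (rf : ℤ × ℤ → Fin P.κ) (ρ : 𝓗.R) (h : ℤ × ℤ)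
    (l : Fin P.m) (b : P.Pt) : Finset (Fin P.m) :=
  univ.filter fun j => r.ind ρ l (P.tr b (-h)) j +
    ∑ g ∈ (r.G x).filter (fun g => P.pt b.1 g = b),
      r.ind ρ l (P.tr (P.pt (rf g) g) (-h)) j ≠ 0

variable (𝓗 P)

def CDStatement : Prop :=
  CBStatement → CCStatement → ∀ (𝓗 : Horn) (P : Par) (c₀ K e δ : ℕ), 𝓗.Hyp P c₀ K e δ →
    ∀ r : 𝓗.Rep P, r.Bd K (4 * K) (2 * s0 c₀) →
      (∀ x, ∀ g ∈ r.G x, P.κ ≤ (r.I x g).card + s0 c₀ * e) ∧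
      ∃ rf : 𝓗.X → ℤ × ℤ → Fin P.κ,
        (∀ x, ∀ g ∈ r.G x, rf x g ∈ r.I x g) ∧
        ∀ ρ q x h, 𝓗.pr ρ q = some (x, h) → ∀ (l : Fin P.m) (b : P.Pt),
          (r.dis x (rf x) ρ h l b).card ≤ δ

/-! ### Step 4 (module CE): normalisation; main lemma -/

def MainStatement : Prop :=
  ∀ (𝓗 : Horn) (P : Par) (c₀ K e δ : ℕ), 𝓗.Hyp P c₀ K e δ →
    (∀ r : 𝓗.Rep P, r.Bd K (4 * K) (2 * s0 c₀) →
      ∃ r' : 𝓗.Rep P, r'.lin = r.lin ∧ r'.cst = r.cst ∧ r'.Bd K (2 * K) (s0 c₀)) ∧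
    (∀ r : 𝓗.Rep P, r.touched ≤ 4 * K → (∀ x j, (r.D x j).card ≤ 2 * s0 c₀) → r.lin = 0 →
      r.cst = 0)

def CEStatement : Prop := CBStatement → CCStatement → CDStatement → MainStatement

/-! ### Module CA: the closure theorem from the main lemma -/

def CAStatement : Prop := MainStatement → ClosureStatement

end Horn

end P310
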