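import Vale.Agent.P310.ClosureE1

/-!
# Module CA: the closure theorem from the main lemma
-/

namespace P310

namespace Horn

open Finset

variable {𝓗 : Horn} {P : Par}

theorem ca_sum_symmDiff {α : Type*} [DecidableEq α] (f : α → ZMod 2) (S T : Finset α) :
    ∑ a ∈ symmDiff S T, f a = ∑ a ∈ S, f a + ∑ a ∈ T, f a := by
  have h := congrFun (ce_sum_symmDiff (fun a (_ : Unit) => f a) S T) ()
  simpa [Finset.sum_apply] using h

/-- sum of two representations -/
def Rep.add (r r' : 𝓗.Rep P) : 𝓗.Rep P where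
  A := fun c => symmDiff (r.A c) (r'.A c)
  Φ := symmDiff r.Φ r'.Φ
  der := by
    intro a ha
    rw [mem_symmDiff] at ha
    rcases ha with ⟨ha, _⟩ | ⟨ha, _⟩
    · exact r.der a ha
    · exact r'.der a ha

theorem Rep.lin_add (r r' : 𝓗.Rep P) : (r.add r').lin = r.lin + r'.lin := by
  unfold Rep.lin Rep.add
  simp only
  have h1 : ∀ c : 𝓗.Copy P, ∑ s ∈ symmDiff (r.A c) (r'.A c),
      𝓗.cform P (Sum.inl (c.1, c.2.1, s, c.2.2)) =
      ∑ s ∈ r.A c, 𝓗.cform P (Sum.inl (c.1, c.2.1, s, c.2.2)) +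
        ∑ s ∈ r'.A c, 𝓗.cform P (Sum.inl (c.1, c.2.1, s, c.2.2)) := fun c =>
    ce_sum_symmDiff (fun s => 𝓗.cform P (Sum.inl (c.1, c.2.1, s, c.2.2))) _ _
  rw [sum_congr rfl fun c _ => h1 c, sum_add_distrib,
    ce_sum_symmDiff (fun a : 𝓗.X × Fin P.m × (ℤ × ℤ) => 𝓗.fact P a.1 a.2.1 a.2.2)]
  abel

theorem Rep.cst_add (r r' : 𝓗.Rep P) : (r.add r').cst = r.cst + r'.cst := by
  unfold Rep.cst Rep.add
  simp only
  rw [← sum_add_distrib]
  exact sum_congr rfl fun c _ => ca_sum_symmDiff _ _ _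

theorem Rep.touched_add (r r' : 𝓗.Rep P) : (r.add r').touched ≤ r.touched + r'.touched := by
  unfold Rep.touched
  refine le_trans (card_le_card ?_) (card_union_le _ _)
  intro c hc
  rw [mem_filter] at hc
  rw [mem_union, mem_filter, mem_filter]
  obtain ⟨s, hs⟩ := hc.2
  rcases mem_symmDiff.1 hs with ⟨h, _⟩ | ⟨h, _⟩
  · exact Or.inl ⟨mem_univ _, s, h⟩
  · exact Or.inr ⟨mem_univ _, s, h⟩

theorem Rep.D_add (r r' : 𝓗.Rep P) (x : 𝓗.X) (j : Fin P.m) :
    ((r.add r').D x j).card ≤ (r.D x j).card + (r'.D x j).card :=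
  nameD_symmDiff r.Φ r'.Φ x j

/-- cost of a set of variables -/
noncomputable def costS (V : Finset (𝓗.Var P)) : ℕ := by
  classical
  exact (V.filter fun v => ¬ 𝓗.IsSd P v).card +
    (univ.filter fun l : Fin P.m => ∃ i, 𝓗.bank P 𝓗.seed l (P.pt i 0) ∈ V).card

theorem cost_le_costS (f : 𝓗.Var P → ZMod 2) (V : Finset (𝓗.Var P))
    (h : ∀ v, f v ≠ 0 → v ∈ V) : 𝓗.cost P f ≤ costS V := by
  classical
  unfold cost costS
  refine Nat.add_le_add (card_le_card ?_) (card_le_card ?_)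
  · intro v hv
    rw [mem_filter] at hv ⊢
    exact ⟨h v hv.2.1, hv.2.2⟩
  · intro l hl
    rw [mem_filter] at hl ⊢
    obtain ⟨_, i, hi⟩ := hl
    exact ⟨mem_univ _, i, h _ hi⟩

theorem costS_mono {V W : Finset (𝓗.Var P)} (h : V ⊆ W) : costS V ≤ costS W := by
  classical
  unfold costS
  refine Nat.add_le_add (card_le_card ?_) (card_le_card ?_)
  · intro v hv
    rw [mem_filter] at hv ⊢
    exact ⟨h hv.1, hv.2⟩
  · intro l hl
    rw [mem_filter] at hl ⊢
    obtain ⟨_, i, hi⟩ := hl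
    exact ⟨mem_univ _, i, h hi⟩

theorem costS_union (V W : Finset (𝓗.Var P)) : costS (V ∪ W) ≤ costS V + costS W := by
  classical
  unfold costS
  have h1 : ((V ∪ W).filter fun v => ¬ 𝓗.IsSd P v).card ≤
      (V.filter fun v => ¬ 𝓗.IsSd P v).card + (W.filter fun v => ¬ 𝓗.IsSd P v).card := by
    rw [filter_union]
    exact card_union_le _ _
  have h2 : (univ.filter fun l : Fin P.m => ∃ i, 𝓗.bank P 𝓗.seed l (P.pt i 0) ∈ V ∪ W).card ≤
      (univ.filter fun l : Fin P.m => ∃ i, 𝓗.bank P 𝓗.seed l (P.pt i 0) ∈ V).card +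
      (univ.filter fun l : Fin P.m => ∃ i, 𝓗.bank P 𝓗.seed l (P.pt i 0) ∈ W).card := by
    refine le_trans (card_le_card ?_) (card_union_le _ _)
    intro l hl
    rw [mem_filter] at hl
    rw [mem_union, mem_filter, mem_filter]
    obtain ⟨_, i, hi⟩ := hl
    rcases mem_union.1 hi with h | h
    · exact Or.inl ⟨mem_univ _, i, h⟩
    · exact Or.inr ⟨mem_univ _, i, h⟩
  omega

theorem costS_empty : costS (∅ : Finset (𝓗.Var P)) = 0 := by
  classical
  unfold costS
  simp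

theorem costS_biUnion {ι : Type*} [DecidableEq ι] (T : Finset ι) (c : ι → Finset (𝓗.Var P)) (n : ℕ)
    (h : ∀ t ∈ T, costS (c t) ≤ n) : costS (T.biUnion c) ≤ T.card * n := by
  induction T using Finset.induction_on with
  | empty =>
    rw [biUnion_empty, costS_empty]
    exact Nat.zero_le _
  | insert t T ht ih =>
    rw [biUnion_insert, card_insert_of_notMem ht]
    have h1 := costS_union (c t) (T.biUnion c)
    have h2 := ih fun t' ht' => h t' (mem_insert_of_mem ht')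
    have h3 := h t (mem_insert_self _ _)
    have h4 : (T.card + 1) * n = T.card * n + n := by ring
    omega

theorem costS_le_card (V : Finset (𝓗.Var P)) : costS V ≤ V.card := by
  classical
  unfold costS
  have h1 : (V.filter fun v => ¬ 𝓗.IsSd P v).card + (V.filter fun v => 𝓗.IsSd P v).card =
      V.card := by
    rw [add_comm]
    exact card_filter_add_card_filter_not _
  have h2 : (univ.filter fun l : Fin P.m => ∃ i, 𝓗.bank P 𝓗.seed l (P.pt i 0) ∈ V).card ≤
      (V.filter fun v => 𝓗.IsSd P v).card := by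
    let ln : 𝓗.Var P → Option (Fin P.m) := fun v =>
      match v with
        | Sum.inl (_, l, _) => some l
        | Sum.inr _ => none
    rw [← card_map Function.Embedding.some]
    refine le_trans (card_le_card ?_) (card_image_le (f := ln))
    intro o ho
    rw [mem_map] at ho
    obtain ⟨l, hl, rfl⟩ := ho
    rw [mem_filter] at hl
    obtain ⟨_, i, hi⟩ := hl
    rw [mem_image]
    exact ⟨_, mem_filter.2 ⟨hi, l, i, rfl⟩, rfl⟩
  omega

/-! ### costs of the cells -/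

theorem ca_sg_supp (v : 𝓗.Var P) (w : 𝓗.Var P) (h : 𝓗.sg P v w ≠ 0) : w = v := by
  by_contra hne
  rw [sg_apply, if_neg hne] at h
  exact h rfl

theorem ca_prev_supp (ρ : 𝓗.R) (l s : Fin P.m) (b : P.Pt) :
    ∃ V : Finset (𝓗.Var P), V.card ≤ 1 ∧ ∀ v, 𝓗.prev P ρ l s b v ≠ 0 → v ∈ V := by
  classical
  unfold prev
  by_cases h0 : 0 < s.val
  · refine ⟨{𝓗.path P ρ l ⟨s.val - 1, by omega⟩ b}, by simp, ?_⟩
    intro v hv
    rw [dif_pos h0] at hv
    exact mem_singleton.2 (ca_sg_supp _ _ hv)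
  · refine ⟨∅, by simp, ?_⟩
    intro v hv
    rw [dif_neg h0] at hv
    exact absurd rfl hv

theorem ca_next_supp (ρ : 𝓗.R) (l s : Fin P.m) (b : P.Pt) :
    ∃ V : Finset (𝓗.Var P), V.card ≤ 1 ∧ ∀ v, 𝓗.next P ρ l s b v ≠ 0 → v ∈ V := by
  classical
  unfold next
  by_cases h0 : s.val + 1 < P.m
  · refine ⟨{𝓗.path P ρ l s b}, by simp, ?_⟩
    intro v hv
    rw [if_pos h0] at hv
    exact mem_singleton.2 (ca_sg_supp _ _ hv)
  · rw [if_neg h0]
    rcases 𝓗.co ρ with _ | y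
    · exact ⟨∅, by simp, fun v hv => absurd rfl hv⟩
    · exact ⟨{𝓗.bank P y l b}, by simp, fun v hv => mem_singleton.2 (ca_sg_supp _ _ hv)⟩

theorem ca_key_supp (ρ : 𝓗.R) (q : Fin 2) (l s : Fin P.m) (b : P.Pt) :
    ∃ V : Finset (𝓗.Var P), V.card ≤ 1 ∧ ∀ v, 𝓗.key P ρ q l s b v ≠ 0 → v ∈ V := by
  classical
  unfold key
  rcases 𝓗.pr ρ q with _ | ⟨x, h⟩
  · exact ⟨∅, by simp, fun v hv => absurd rfl hv⟩
  · refine ⟨{𝓗.bank P x s (P.tr b h)}, by simp, fun v hv => mem_singleton.2 (ca_sg_supp _ _ ?_)⟩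
    simp only [Pi.smul_apply, smul_eq_mul] at hv
    exact right_ne_zero_of_mul hv

theorem ca_cell_eq (ρ : 𝓗.R) (l s : Fin P.m) (b : P.Pt) :
    ∃ V : Finset (𝓗.Var P), V.card ≤ 4 ∧
      ∀ v, 𝓗.cform P (Sum.inl (ρ, l, s, b)) v ≠ 0 → v ∈ V := by
  classical
  obtain ⟨V1, h1, k1⟩ := ca_prev_supp ρ l s b
  obtain ⟨V2, h2, k2⟩ := ca_next_supp ρ l s b
  obtain ⟨V3, h3, k3⟩ := ca_key_supp ρ 0 l s b
  obtain ⟨V4, h4, k4⟩ := ca_key_supp ρ 1 l s b
  refine ⟨V1 ∪ (V2 ∪ (V3 ∪ V4)), ?_, ?_⟩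
  · have := card_union_le V1 (V2 ∪ (V3 ∪ V4))
    have := card_union_le V2 (V3 ∪ V4)
    have := card_union_le V3 V4
    omega
  · intro v hv
    simp only [mem_union]
    by_contra hcon
    push Not at hcon
    obtain ⟨n1, n2, n3, n4⟩ := hcon
    have e1 : 𝓗.prev P ρ l s b v = 0 := by by_contra h; exact n1 (k1 v h)
    have e2 : 𝓗.next P ρ l s b v = 0 := by by_contra h; exact n2 (k2 v h)
    have e3 : 𝓗.key P ρ 0 l s b v = 0 := by by_contra h; exact n3 (k3 v h)
    have e4 : 𝓗.key P ρ 1 l s b v = 0 := by by_contra h; exact n4 (k4 v h)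
    refine hv ?_
    unfold cform
    simp only [Pi.add_apply, e1, e2, e3, e4, add_zero]

theorem ca_seed_cost (l : Fin P.m) (V : Finset (𝓗.Var P))
    (hV : ∀ v ∈ V, ∃ i, v = 𝓗.bank P 𝓗.seed l (P.pt i 0)) : costS V ≤ 1 := by
  classical
  unfold costS
  have h1 : (V.filter fun v => ¬ 𝓗.IsSd P v) = ∅ := by
    rw [filter_eq_empty_iff]
    intro v hv
    rw [not_not]
    obtain ⟨i, hi⟩ := hV v hv
    exact ⟨l, i, hi⟩
  rw [h1, card_empty, zero_add]
  refine le_trans (card_le_card (t := {l}) ?_) (by simp)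
  intro l' hl'
  rw [mem_filter] at hl'
  obtain ⟨_, i, hi⟩ := hl'
  obtain ⟨i', hi'⟩ := hV _ hi
  have h6 := Sum.inl.inj hi'
  simp only [Prod.mk.injEq] at h6
  rw [mem_singleton]
  exact h6.2.1

theorem ca_fact_supp (l : Fin P.m) (v : 𝓗.Var P) (h : 𝓗.fact P 𝓗.seed l (0, 0) v ≠ 0) :
    ∃ i, v = 𝓗.bank P 𝓗.seed l (P.pt i 0) := by
  unfold fact at h
  rw [Finset.sum_apply] at h
  obtain ⟨i, _, hi⟩ := exists_ne_zero_of_sum_ne_zero h
  exact ⟨i, ca_sg_supp _ _ hi⟩

theorem ca_con_cost (e : 𝓗.Con P) (V : Finset (𝓗.Var P))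
    (hV : ∀ v, v ∈ V → 𝓗.cform P e v ≠ 0) : costS V ≤ 4 := by
  rcases e with ⟨ρ, l, s, b⟩ | l
  · obtain ⟨W, h1, h2⟩ := ca_cell_eq ρ l s b
    exact (costS_le_card V).trans ((card_le_card fun v hv => h2 v (hV v hv)).trans h1)
  · refine (ca_seed_cost l V fun v hv => ca_fact_supp l v (hV v hv)).trans (by norm_num)

theorem ca_mem_fsupp (S : XSys) (f : S.Var → ZMod 2) (v : S.Var) : v ∈ S.fsupp f ↔ f v ≠ 0 := by
  unfold XSys.fsupp
  rw [mem_filter]
  exact ⟨fun h => h.2, fun h => ⟨mem_univ _, h⟩⟩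

theorem ca_cell_cost (t : (𝓗.xsys P).Cls) : costS (𝓗 := 𝓗) (P := P) ((𝓗.xsys P).cell t) ≤ 4 := by
  rcases t with v | e
  · refine (costS_le_card _).trans ?_
    have h : ((𝓗.xsys P).cell (Sum.inl v)).card = 1 := card_singleton v
    exact h.le.trans (by norm_num)
  · refine ca_con_cost e _ ?_
    intro v hv
    have h1 : v ∈ (𝓗.xsys P).fsupp ((𝓗.xsys P).form e) := hv
    exact (ca_mem_fsupp _ _ _).1 h1

theorem ca_dom_cost (T : Finset (𝓗.xsys P).Cls) (f : 𝓗.Var P → ZMod 2)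
    (hf : ∀ v, f v ≠ 0 → v ∈ (𝓗.xsys P).dom T) : 𝓗.cost P f ≤ T.card * 4 := by
  refine (cost_le_costS f _ hf).trans ?_
  exact costS_biUnion T _ 4 fun t _ => ca_cell_cost t

/-! ### representations of the equations -/

/-- representation of an equation of a rule -/
def repEq (ρ : 𝓗.R) (l s : Fin P.m) (b : P.Pt) : 𝓗.Rep P where
  A := fun c => if c = (ρ, l, b) then {s} else ∅
  Φ := ∅
  der := by simp

theorem repEq_lin (ρ : 𝓗.R) (l s : Fin P.m) (b : P.Pt) :
    (repEq (𝓗 := 𝓗) (P := P) ρ l s b).lin = 𝓗.cform P (Sum.inl (ρ, l, s, b)) := by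
  unfold Rep.lin repEq
  simp only [sum_empty, add_zero]
  rw [sum_eq_single ((ρ, l, b) : 𝓗.Copy P)]
  · rw [if_pos rfl, sum_singleton]
  · intro c _ hne
    rw [if_neg hne, sum_empty]
  · intro h
    exact absurd (mem_univ _) h

theorem repEq_cst (ρ : 𝓗.R) (l s : Fin P.m) (b : P.Pt) :
    (repEq (𝓗 := 𝓗) (P := P) ρ l s b).cst = if 𝓗.isTw P ρ s b then 1 else 0 := by
  unfold Rep.cst repEq
  simp only
  rw [sum_eq_single ((ρ, l, b) : 𝓗.Copy P)]
  · rw [if_pos rfl, sum_singleton]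
  · intro c _ hne
    rw [if_neg hne, sum_empty]
  · intro h
    exact absurd (mem_univ _) h

theorem repEq_touched (ρ : 𝓗.R) (l s : Fin P.m) (b : P.Pt) :
    (repEq (𝓗 := 𝓗) (P := P) ρ l s b).touched ≤ 1 := by
  unfold Rep.touched repEq
  refine le_trans (card_le_card (t := {((ρ, l, b) : 𝓗.Copy P)}) ?_) (by simp)
  intro c hc
  rw [mem_filter] at hc
  rw [mem_singleton]
  by_contra hne
  have h := hc.2
  simp only [hne, if_false] at h
  exact absurd h not_nonempty_empty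

/-- representation of a seed equation -/
def repSeed (l : Fin P.m) : 𝓗.Rep P where
  A := fun _ => ∅
  Φ := {(𝓗.seed, l, (0, 0))}
  der := by
    intro a ha
    rw [mem_singleton] at ha
    subst ha
    exact Der.seed

/-- the zero representation -/
def repZero : 𝓗.Rep P where
  A := fun _ => ∅
  Φ := ∅
  der := by simp

theorem ca : CAStatement := by
  intro hM c₀
  refine ⟨C0 c₀, ?_⟩
  intro k e κ he hK hκ
  refine ⟨4 * (4 * (k + 1)), 4 * (k + 1), w0 c₀ (4 * (k + 1)), r0 c₀, ?_⟩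
  intro 𝓗 P δ hPκ hsep hstar hr hm hrej
  subst hPκ
  set K := 4 * (k + 1) with hKdef
  have hyp : 𝓗.Hyp P c₀ K e δ := ⟨he, by omega, hm, hK, hκ, hsep, hstar, hr, hrej⟩
  obtain ⟨main1, main2⟩ := hM 𝓗 P c₀ K e δ hyp
  refine ⟨{f | ∃ r : 𝓗.Rep P, r.lin = f.1 ∧ r.cst = f.2 ∧ r.Bd K (2 * K) (s0 c₀)}, ?_, ?_, ?_, ?_⟩
  · refine ⟨repZero, ?_, ?_, ?_, ?_, ?_⟩
    · unfold Rep.lin repZero
      simp
      rfl
    · unfold Rep.cst repZero
      simp
    · unfold cost Rep.lin repZero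
      simp
    · unfold Rep.touched repZero
      simp
    · intro x j
      unfold Rep.D repZero
      simp
  · intro e'
    rcases e' with ⟨ρ, l, s, b⟩ | l
    · refine ⟨repEq ρ l s b, repEq_lin ρ l s b, ?_, ?_, ?_, ?_⟩
      · rw [repEq_cst]
        unfold XSys.con
        simp only
        have h1 : ((𝓗.xsys P).tw (Sum.inl (ρ, l, s, b))).isSome = true ↔ 𝓗.isTw P ρ s b := by
          change (𝓗.ctw P (Sum.inl (ρ, l, s, b))).isSome = true ↔ _
          unfold ctw
          simp only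
          by_cases h : 𝓗.isTw P ρ s b
          · rw [dif_pos h]
            simp [h]
          · rw [dif_neg h]
            simp [h]
        exact (if_congr h1 rfl rfl).symm
      · rw [repEq_lin]
        obtain ⟨W, h1, h2⟩ := ca_cell_eq (𝓗 := 𝓗) ρ l s b
        have h3 := (cost_le_costS (𝓗.cform P (Sum.inl (ρ, l, s, b))) W h2).trans
          ((costS_le_card W).trans h1)
        omega
      · exact (repEq_touched ρ l s b).trans (by omega)
      · intro x j
        unfold Rep.D repEq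
        simp
    · have hlin : (repSeed (𝓗 := 𝓗) (P := P) l).lin = 𝓗.fact P 𝓗.seed l (0, 0) := by
        unfold Rep.lin repSeed
        simp
      refine ⟨repSeed l, hlin, ?_, ?_, ?_, ?_⟩
      · unfold Rep.cst repSeed XSys.con
        simp only [sum_empty, sum_const_zero]
        have h1 : ((𝓗.xsys P).tw (Sum.inr l)).isSome = false := rfl
        rw [h1]
        rfl
      · rw [hlin]
        classical
        have h2 := cost_le_costS (𝓗.fact P 𝓗.seed l (0, 0))
          (univ.filter fun v => 𝓗.fact P 𝓗.seed l (0, 0) v ≠ 0)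
          (fun v hv => mem_filter.2 ⟨mem_univ _, hv⟩)
        have h3 := ca_seed_cost l (univ.filter fun v => 𝓗.fact P 𝓗.seed l (0, 0) v ≠ 0)
          (fun v hv => ca_fact_supp l v (mem_filter.1 hv).2)
        omega
      · unfold Rep.touched repSeed
        simp
      · intro x j
        have h1 := nameD_single (𝓗 := 𝓗) (P := P) (𝓗.seed, l, (0, 0)) x j
        refine le_trans h1 ?_
        unfold s0
        omega
  · intro T hT f hf g hg hfT hgT
    obtain ⟨r1, h1, h2, h3⟩ := hf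
    obtain ⟨r2, k1, k2, k3⟩ := hg
    have hcost : 𝓗.cost P (r1.add r2).lin ≤ K := by
      rw [Rep.lin_add, h1, k1]
      refine (ca_dom_cost T (f.1 + g.1) ?_).trans (by omega)
      intro v hv
      by_cases hf0 : f.1 v = 0
      · have hg0 : g.1 v ≠ 0 := by
          intro h
          refine hv ?_
          change f.1 v + g.1 v = 0
          rw [hf0, h, add_zero]
        exact hgT (mem_filter.2 ⟨mem_univ v, hg0⟩)
      · exact hfT (mem_filter.2 ⟨mem_univ v, hf0⟩)
    have ht : (r1.add r2).touched ≤ 4 * K := by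
      have := Rep.touched_add r1 r2
      have := h3.2.1
      have := k3.2.1
      omega
    have hD : ∀ x j, ((r1.add r2).D x j).card ≤ 2 * s0 c₀ := by
      intro x j
      have := Rep.D_add r1 r2 x j
      have := h3.2.2 x j
      have := k3.2.2 x j
      omega
    obtain ⟨r', l1, l2, l3⟩ := main1 (r1.add r2) ⟨hcost, ht, hD⟩
    refine ⟨r', ?_, ?_, l3⟩
    · rw [l1, Rep.lin_add, h1, k1]
      rfl
    · rw [l2, Rep.cst_add, h2, k2]
      rfl
  · rintro ⟨r, h1, h2, h3⟩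
    have h4 := main2 r (h3.2.1.trans (by omega)) (fun x j => (h3.2.2 x j).trans (by omega)) h1
    rw [h4] at h2
    have h5 : (0 : ZMod 2) = 1 := h2
    exact absurd h5 (by decide)

end Horn

end P310
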