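import Vale.Agent.P310.ClosureB
import Vale.Agent.P310.ClosureC

/-!
# Module CE, part 1: flipping the copies of a rule along a true instance
-/

namespace P310

namespace Horn

open Finset

variable {𝓗 : Horn} {P : Par}

theorem ce_add_self {α : Type*} (v : α → ZMod 2) : v + v = 0 := by
  ext a
  simp [CharTwo.add_self_eq_zero]

theorem ce_tele {V : Type*} [AddCommMonoid V] (m : ℕ) (f : Fin m → V) :
    ∑ s : Fin m, (if h : 0 < s.val then f ⟨s.val - 1, by omega⟩ else 0) =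
      ∑ s : Fin m, (if s.val + 1 < m then f s else 0) := by
  rcases m with _ | m
  · simp
  · rw [Fin.sum_univ_succ, Fin.sum_univ_castSucc]
    have h0 : (if h : 0 < (0 : Fin (m + 1)).val then
        f ⟨(0 : Fin (m + 1)).val - 1, by omega⟩ else 0) = 0 := dif_neg (by simp)
    have h1 : (if (Fin.last m).val + 1 < m + 1 then f (Fin.last m) else 0) = 0 :=
      if_neg (by simp)
    rw [h0, h1, zero_add, add_zero]
    refine sum_congr rfl fun x _ => ?_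
    have hx := x.isLt
    rw [dif_pos (by simp), if_pos (by simp)]
    rfl

theorem ce_prev_next {ρ : 𝓗.R} {y : 𝓗.X} (hy : 𝓗.co ρ = some y) (hm : 1 ≤ P.m) (l : Fin P.m)
    (b : P.Pt) :
    ∑ s : Fin P.m, (𝓗.prev P ρ l s b + 𝓗.next P ρ l s b) = 𝓗.sg P (𝓗.bank P y l b) := by
  rw [sum_add_distrib]
  have h1 : ∑ s : Fin P.m, 𝓗.prev P ρ l s b =
      ∑ s : Fin P.m, (if s.val + 1 < P.m then 𝓗.sg P (𝓗.path P ρ l s b) else 0) :=
    ce_tele P.m fun s => 𝓗.sg P (𝓗.path P ρ l s b)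
  rw [h1, ← sum_add_distrib]
  rw [sum_eq_single (⟨P.m - 1, by omega⟩ : Fin P.m)]
  · have h2 : ¬ ((⟨P.m - 1, by omega⟩ : Fin P.m).val + 1 < P.m) := by
      simp only
      omega
    unfold next
    rw [if_neg h2, if_neg h2, hy, zero_add]
  · intro s _ hne
    have h3 : s.val + 1 < P.m := by
      have h4 : s.val ≠ P.m - 1 := fun h => hne (Fin.ext h)
      have := s.isLt
      omega
    unfold next
    rw [if_pos h3, if_pos h3, ce_add_self]
  · intro h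
    exact absurd (mem_univ _) h

/-- facts used through the keys in slot `q` -/
def ceKS (ρ : 𝓗.R) (q : Fin 2) (l : Fin P.m) (g : ℤ × ℤ) :
    Finset (𝓗.X × Fin P.m × (ℤ × ℤ)) :=
  match 𝓗.pr ρ q with
    | some (x, h) => (univ.filter fun s => P.M (𝓗.ty ρ) l s ≠ 0).image fun s => (x, s, g + h)
    | none => ∅

theorem ce_zmod2 (a : ZMod 2) (h : a ≠ 0) : a = 1 := by
  revert a
  decide

theorem ce_key_sum (ρ : 𝓗.R) (q : Fin 2) (l : Fin P.m) (g : ℤ × ℤ) :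
    ∑ i : Fin P.κ, ∑ s : Fin P.m, 𝓗.key P ρ q l s (P.pt i g) =
      ∑ a ∈ ceKS (𝓗 := 𝓗) (P := P) ρ q l g, 𝓗.fact P a.1 a.2.1 a.2.2 := by
  unfold key ceKS
  rcases 𝓗.pr ρ q with _ | ⟨x, h⟩
  · simp
  · simp only
    rw [sum_image, sum_comm, sum_filter]
    · refine sum_congr rfl fun s _ => ?_
      by_cases h0 : P.M (𝓗.ty ρ) l s = 0
      · rw [if_neg (by simpa using h0)]
        refine sum_eq_zero fun i _ => ?_
        rw [h0, zero_smul]
      · rw [if_pos h0]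
        unfold fact
        refine sum_congr rfl fun i _ => ?_
        rw [ce_zmod2 _ h0, one_smul, Par.tr_pt]
    · intro s _ s' _ hss
      simp only [Prod.mk.injEq] at hss
      exact hss.2.1

/-- the copies flipped by the instance of the rule `ρ`, row `l`, at `g` -/
def Flips (ρ : 𝓗.R) (l : Fin P.m) (g : ℤ × ℤ) (c : 𝓗.Copy P) : Prop :=
  c.1 = ρ ∧ c.2.1 = l ∧ c.2.2 = P.pt c.2.2.1 g

instance (ρ : 𝓗.R) (l : Fin P.m) (g : ℤ × ℤ) (c : 𝓗.Copy P) : Decidable (Flips ρ l g c) := by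
  unfold Flips
  infer_instance

theorem ce_flips_eq (ρ : 𝓗.R) (l : Fin P.m) (g : ℤ × ℤ) :
    (univ.filter fun c : 𝓗.Copy P => Flips ρ l g c) =
      univ.image fun i : Fin P.κ => ((ρ, l, P.pt i g) : 𝓗.Copy P) := by
  ext ⟨ρ', l', b⟩
  rw [mem_filter, mem_image]
  constructor
  · rintro ⟨_, h1, h2, h⟩
    simp only at h1 h2 h
    subst h1 h2
    refine ⟨b.1, mem_univ _, ?_⟩
    rw [← h]
  · rintro ⟨i, _, h⟩
    simp only [Prod.mk.injEq] at h
    obtain ⟨rfl, rfl, rfl⟩ := h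
    exact ⟨mem_univ _, rfl, rfl, rfl⟩

theorem ce_lin_flip {V : Type*} (F : 𝓗.Copy P → Fin P.m → V → ZMod 2) (A A' : 𝓗.Copy P → Finset (Fin P.m))
    (ρ : 𝓗.R) (l : Fin P.m) (g : ℤ × ℤ)
    (hA : ∀ c, A' c = if Flips ρ l g c then univ \ A c else A c) :
    ∑ c, ∑ s ∈ A' c, F c s =
      ∑ c, ∑ s ∈ A c, F c s + ∑ i : Fin P.κ, ∑ s : Fin P.m, F (ρ, l, P.pt i g) s := by
  have h1 : ∀ c : 𝓗.Copy P, ∑ s ∈ A' c, F c s =
      ∑ s ∈ A c, F c s + if Flips ρ l g c then ∑ s : Fin P.m, F c s else 0 := by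
    intro c
    rw [hA c]
    by_cases h : Flips ρ l g c
    · rw [if_pos h, if_pos h]
      have h2 := sum_sdiff (f := fun s => F c s) (subset_univ (A c))
      rw [← h2]
      have h3 := ce_add_self (∑ s ∈ A c, F c s)
      calc ∑ s ∈ univ \ A c, F c s = ∑ s ∈ univ \ A c, F c s + 0 := (add_zero _).symm
        _ = ∑ s ∈ univ \ A c, F c s + (∑ s ∈ A c, F c s + ∑ s ∈ A c, F c s) := by rw [h3]
        _ = _ := by abel
    · rw [if_neg h, if_neg h, add_zero]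
  rw [sum_congr rfl fun c _ => h1 c, sum_add_distrib, ← sum_filter, ce_flips_eq, sum_image]
  intro i _ i' _ h
  simp only [Prod.mk.injEq] at h
  exact congrArg Sigma.fst h.2.2

theorem ce_sum_symmDiff {α V : Type*} [DecidableEq α] (F : α → V → ZMod 2) (S T : Finset α) :
    ∑ a ∈ symmDiff S T, F a = ∑ a ∈ S, F a + ∑ a ∈ T, F a := by
  have h1 : ∑ a ∈ symmDiff S T, F a = ∑ a ∈ S \ T, F a + ∑ a ∈ T \ S, F a := by
    rw [symmDiff_def, sup_eq_union, sum_union]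
    exact disjoint_sdiff_sdiff
  have h2 := sum_sdiff (f := F) (inter_subset_left (s₁ := S) (s₂ := T))
  have h3 := sum_sdiff (f := F) (inter_subset_right (s₁ := S) (s₂ := T))
  rw [sdiff_inter_self_left] at h2
  rw [sdiff_inter_self_right] at h3
  rw [h1, ← h2, ← h3]
  have h4 := ce_add_self (∑ a ∈ S ∩ T, F a)
  calc ∑ a ∈ S \ T, F a + ∑ a ∈ T \ S, F a = ∑ a ∈ S \ T, F a + ∑ a ∈ T \ S, F a + 0 :=
        (add_zero _).symm
    _ = ∑ a ∈ S \ T, F a + ∑ a ∈ T \ S, F a +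
          (∑ a ∈ S ∩ T, F a + ∑ a ∈ S ∩ T, F a) := by rw [h4]
    _ = _ := by abel

/-- number of elements with a given name -/
def nameD (Φ : Finset (𝓗.X × Fin P.m × (ℤ × ℤ))) (x : 𝓗.X) (j : Fin P.m) : Finset (ℤ × ℤ) :=
  (Φ.filter fun a => a.1 = x ∧ a.2.1 = j).image fun a => a.2.2

theorem nameD_symmDiff (S T : Finset (𝓗.X × Fin P.m × (ℤ × ℤ))) (x : 𝓗.X) (j : Fin P.m) :
    (nameD (symmDiff S T) x j).card ≤ (nameD S x j).card + (nameD T x j).card := by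
  refine le_trans (card_le_card ?_) (card_union_le _ _)
  intro g hg
  unfold nameD at hg ⊢
  rw [mem_image] at hg
  obtain ⟨a, ha, rfl⟩ := hg
  rw [mem_filter, mem_symmDiff] at ha
  rw [mem_union, mem_image, mem_image]
  rcases ha.1 with h | h
  · left
    exact ⟨a, mem_filter.2 ⟨h.1, ha.2⟩, rfl⟩
  · right
    exact ⟨a, mem_filter.2 ⟨h.1, ha.2⟩, rfl⟩

theorem nameD_single (a : 𝓗.X × Fin P.m × (ℤ × ℤ)) (x : 𝓗.X) (j : Fin P.m) :
    (nameD {a} x j).card ≤ 1 := by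
  refine le_trans card_image_le ?_
  exact (card_le_card (filter_subset _ _)).trans (by simp)

theorem nameD_KS (ρ : 𝓗.R) (q : Fin 2) (l : Fin P.m) (g : ℤ × ℤ) (x : 𝓗.X) (j : Fin P.m) :
    (nameD (ceKS (𝓗 := 𝓗) (P := P) ρ q l g) x j).card ≤ 1 := by
  unfold nameD ceKS
  rcases 𝓗.pr ρ q with _ | ⟨x', h⟩
  · simp
  · simp only
    rw [card_le_one]
    intro a ha b hb
    simp only [mem_image, mem_filter, mem_univ, true_and] at ha hb
    obtain ⟨_, ⟨⟨s, _, rfl⟩, _⟩, rfl⟩ := ha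
    obtain ⟨_, ⟨⟨s', _, rfl⟩, _⟩, rfl⟩ := hb
    rfl

/-- flipping one true instance of a rule -/
theorem ce_flip (r : 𝓗.Rep P) (hm : 1 ≤ P.m) (ρ : 𝓗.R) (l : Fin P.m) (g : ℤ × ℤ) (y : 𝓗.X)
    (hy : 𝓗.co ρ = some y) (hpr : ∀ q x h, 𝓗.pr ρ q = some (x, h) → 𝓗.Der x (g + h)) :
    ∃ r1 : 𝓗.Rep P, r1.lin = r.lin ∧ r1.cst = r.cst ∧
      (∀ c, r1.A c = if Flips ρ l g c then univ \ r.A c else r.A c) ∧
      ∀ x j, (r1.D x j).card ≤ (r.D x j).card + 3 := by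
  classical
  let Φ1 : Finset (𝓗.X × Fin P.m × (ℤ × ℤ)) :=
    symmDiff (symmDiff (symmDiff r.Φ {(y, l, g)}) (ceKS ρ 0 l g)) (ceKS ρ 1 l g)
  have hder : ∀ a ∈ Φ1, 𝓗.Der a.1 a.2.2 := by
    have hKS : ∀ q : Fin 2, ∀ a ∈ ceKS (𝓗 := 𝓗) (P := P) ρ q l g, 𝓗.Der a.1 a.2.2 := by
      intro q a ha
      unfold ceKS at ha
      rcases hp : 𝓗.pr ρ q with _ | ⟨x, h⟩
      · rw [hp] at ha
        exact absurd ha (notMem_empty _)
      · rw [hp] at ha
        simp only [mem_image] at ha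
        obtain ⟨s, _, rfl⟩ := ha
        exact hpr q x h hp
    intro a ha
    rw [mem_symmDiff] at ha
    rcases ha with ⟨ha, _⟩ | ⟨ha, _⟩
    · rw [mem_symmDiff] at ha
      rcases ha with ⟨ha, _⟩ | ⟨ha, _⟩
      · rw [mem_symmDiff] at ha
        rcases ha with ⟨ha, _⟩ | ⟨ha, _⟩
        · exact r.der a ha
        · rw [mem_singleton] at ha
          subst ha
          exact Der.rule ρ g y hy hpr
      · exact hKS 0 a ha
    · exact hKS 1 a ha
  refine ⟨⟨fun c => if Flips ρ l g c then univ \ r.A c else r.A c, Φ1, hder⟩, ?_, ?_,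
    fun c => rfl, ?_⟩
  · unfold Rep.lin
    simp only
    rw [ce_lin_flip (fun (c : 𝓗.Copy P) s => 𝓗.cform P (Sum.inl (c.1, c.2.1, s, c.2.2))) r.A _ ρ l g
      (fun c => rfl)]
    have h1 : ∑ a ∈ Φ1, 𝓗.fact P a.1 a.2.1 a.2.2 =
        ∑ a ∈ r.Φ, 𝓗.fact P a.1 a.2.1 a.2.2 + 𝓗.fact P y l g +
          ∑ a ∈ ceKS (𝓗 := 𝓗) (P := P) ρ 0 l g, 𝓗.fact P a.1 a.2.1 a.2.2 +
          ∑ a ∈ ceKS (𝓗 := 𝓗) (P := P) ρ 1 l g, 𝓗.fact P a.1 a.2.1 a.2.2 := by
      rw [ce_sum_symmDiff (fun a : 𝓗.X × Fin P.m × (ℤ × ℤ) => 𝓗.fact P a.1 a.2.1 a.2.2),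
        ce_sum_symmDiff (fun a : 𝓗.X × Fin P.m × (ℤ × ℤ) => 𝓗.fact P a.1 a.2.1 a.2.2),
        ce_sum_symmDiff (fun a : 𝓗.X × Fin P.m × (ℤ × ℤ) => 𝓗.fact P a.1 a.2.1 a.2.2),
        sum_singleton]
    have h2 : ∑ i : Fin P.κ, ∑ s : Fin P.m, 𝓗.cform P (Sum.inl (ρ, l, s, P.pt i g)) =
        𝓗.fact P y l g +
          ∑ a ∈ ceKS (𝓗 := 𝓗) (P := P) ρ 0 l g, 𝓗.fact P a.1 a.2.1 a.2.2 +
          ∑ a ∈ ceKS (𝓗 := 𝓗) (P := P) ρ 1 l g, 𝓗.fact P a.1 a.2.1 a.2.2 := by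
      rw [← ce_key_sum, ← ce_key_sum]
      unfold cform
      simp only [sum_add_distrib]
      congr 2
      unfold fact
      rw [← sum_add_distrib]
      refine sum_congr rfl fun i _ => ?_
      rw [← sum_add_distrib]
      exact ce_prev_next hy hm l _
    rw [h1, h2]
    set Q := 𝓗.fact P y l g +
          ∑ a ∈ ceKS (𝓗 := 𝓗) (P := P) ρ 0 l g, 𝓗.fact P a.1 a.2.1 a.2.2 +
          ∑ a ∈ ceKS (𝓗 := 𝓗) (P := P) ρ 1 l g, 𝓗.fact P a.1 a.2.1 a.2.2 with hQ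
    have h4 := ce_add_self Q
    have h5 : ∀ a b : 𝓗.Var P → ZMod 2, a + Q + (b + Q) = a + b := by
      intro a b
      calc a + Q + (b + Q) = a + b + (Q + Q) := by abel
        _ = a + b := by rw [h4, add_zero]
    set X1 := ∑ c : 𝓗.Copy P, ∑ s ∈ r.A c, 𝓗.cform P (Sum.inl (c.1, c.2.1, s, c.2.2)) with hX1
    set X2 := ∑ a ∈ r.Φ, 𝓗.fact P a.1 a.2.1 a.2.2 with hX2
    rw [← h5 X1 X2, hQ]
    abel
  · unfold Rep.cst
    simp only
    refine sum_congr rfl fun c _ => ?_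
    by_cases h : Flips ρ l g c
    · have h1 : ∀ s, ¬ 𝓗.isTw P c.1 s c.2.2 := by
        intro s h2
        unfold isTw at h2
        rw [h.1, hy] at h2
        exact absurd h2.1 (by simp)
      simp [h1]
    · rw [if_neg h]
  · intro x j
    have h1 : (nameD Φ1 x j).card ≤ _ :=
      nameD_symmDiff (symmDiff (symmDiff r.Φ {(y, l, g)}) (ceKS ρ 0 l g)) (ceKS ρ 1 l g) x j
    have h2 := nameD_symmDiff (symmDiff r.Φ {(y, l, g)}) (ceKS ρ 0 l g) x j
    have h3 := nameD_symmDiff r.Φ {(y, l, g)} x j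
    have h4 := nameD_single (𝓗 := 𝓗) (P := P) (y, l, g) x j
    have h5 := nameD_KS (𝓗 := 𝓗) (P := P) ρ 0 l g x j
    have h6 := nameD_KS (𝓗 := 𝓗) (P := P) ρ 1 l g x j
    have h7 : (nameD Φ1 x j).card ≤ (nameD r.Φ x j).card + 3 := by omega
    exact h7

/-- flipping a set of true instances -/
theorem ce_flips (r : 𝓗.Rep P) (hm : 1 ≤ P.m) {ι : Type} [DecidableEq ι] (fρ : ι → 𝓗.R)
    (fl : ι → Fin P.m) (fg : ι → ℤ × ℤ) (N : Finset ι)
    (hN : ∀ n ∈ N, (∃ y, 𝓗.co (fρ n) = some y) ∧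
      ∀ q x h, 𝓗.pr (fρ n) q = some (x, h) → 𝓗.Der x (fg n + h)) :
    ∃ r1 : 𝓗.Rep P, r1.lin = r.lin ∧ r1.cst = r.cst ∧
      (∀ c j, (if j ∈ r1.A c then (1 : ZMod 2) else 0) =
        (if j ∈ r.A c then (1 : ZMod 2) else 0) +
          ∑ n ∈ N, if Flips (fρ n) (fl n) (fg n) c then (1 : ZMod 2) else 0) ∧
      ∀ x j, (r1.D x j).card ≤ (r.D x j).card + 3 * N.card := by
  induction N using Finset.induction_on with
  | empty => exact ⟨r, rfl, rfl, by simp, by simp⟩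
  | insert n N hn ih =>
    obtain ⟨r1, h1, h2, h3, h4⟩ := ih fun n' hn' => hN n' (mem_insert_of_mem hn')
    obtain ⟨⟨y, hy⟩, hpr⟩ := hN n (mem_insert_self _ _)
    obtain ⟨r2, k1, k2, k3, k4⟩ := ce_flip r1 hm (fρ n) (fl n) (fg n) y hy hpr
    refine ⟨r2, k1.trans h1, k2.trans h2, ?_, ?_⟩
    · intro c j
      rw [sum_insert hn, k3 c]
      by_cases hF : Flips (fρ n) (fl n) (fg n) c
      · rw [if_pos hF, if_pos hF]
        have h5 := h3 c j
        have h6 : (if j ∈ univ \ r1.A c then (1 : ZMod 2) else 0) =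
            (if j ∈ r1.A c then (1 : ZMod 2) else 0) + 1 := by
          by_cases h7 : j ∈ r1.A c
          · rw [if_pos h7, if_neg (by simp [h7])]
            decide
          · rw [if_neg h7, if_pos (by simp [h7]), zero_add]
        rw [h6, h5]
        ring
      · rw [if_neg hF, if_neg hF, zero_add]
        exact h3 c j
    · intro x j
      rw [card_insert_of_notMem hn]
      have := h4 x j
      have := k4 x j
      omega

end Horn

end P310
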