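import Mathlib

/-!
# P310: definitions for the final statement

* `Color`, `col`, `WLEquiv`: k-dimensional (joint update) Weisfeiler-Leman refinement, as in the
  problem file (colours are the data themselves).
* `TM`: deterministic multi-tape Turing machines (textbook model), running time.
* `inputWord`: adjacency matrices of the two graphs, row by row.
-/

namespace P310

/-- Colours after `r` rounds: the data themselves. -/
def Color (k : ℕ) : ℕ → Type
  | 0 => (Fin k → Fin k → Prop) × (Fin k → Fin k → Prop)
  | r + 1 => Color k r × Multiset (Fin k → Color k r)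

/-- The colour of the tuple `x` after `r` rounds of joint-update `k`-dimensional refinement. -/
def col {V : Type} [Fintype V] (G : SimpleGraph V) (k : ℕ) : (r : ℕ) → (Fin k → V) → Color k r
  | 0, x => (fun i j => x i = x j, fun i j => G.Adj (x i) (x j))
  | r + 1, x =>
      (col G k r x,
        (Finset.univ : Finset V).val.map
          (fun y => fun i => col G k r (fun j => if j = i then y else x j)))

/-- `k`-WL equivalence: after every number of rounds the multisets of colours coincide. -/
def WLEquiv (k : ℕ) {V W : Type} [Fintype V] [Fintype W] (G : SimpleGraph V)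
    (H : SimpleGraph W) : Prop :=
  ∀ r : ℕ, (Finset.univ : Finset (Fin k → V)).val.map (col G k r) =
    (Finset.univ : Finset (Fin k → W)).val.map (col H k r)

/-- Head movements. -/
inductive Dir
  | left
  | stay
  | right
  deriving DecidableEq

/-- The displacement of a head movement. -/
def Dir.disp : Dir → ℤ
  | .left => -1
  | .stay => 0
  | .right => 1

/-- A deterministic Turing machine with `r + 1` two-way infinite tapes; the input is written on
tape `0`, with `true` and `false` represented by the symbols `sym true` and `sym false`. -/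
structure TM where
  r : ℕ
  Q : Type
  Γ : Type
  [finQ : Fintype Q]
  [decQ : DecidableEq Q]
  [finΓ : Fintype Γ]
  [decΓ : DecidableEq Γ]
  blank : Γ
  sym : Bool → Γ
  sym_inj : Function.Injective sym
  sym_ne_blank : ∀ b, sym b ≠ blank
  start : Q
  accept : Q
  reject : Q
  acc_ne_rej : accept ≠ reject
  δ : Q → (Fin (r + 1) → Γ) → Q × (Fin (r + 1) → Γ) × (Fin (r + 1) → Dir)

attribute [instance] TM.finQ TM.decQ TM.finΓ TM.decΓ

/-- Configurations: state, tape contents, head positions. -/
structure Cfg (M : TM) where
  q : M.Q
  tape : Fin (M.r + 1) → ℤ → M.Γ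
  pos : Fin (M.r + 1) → ℤ

/-- One step; the accepting and the rejecting state are halting. -/
def TM.step (M : TM) (c : Cfg M) : Cfg M :=
  if c.q = M.accept ∨ c.q = M.reject then c
  else
    let o := M.δ c.q (fun i => c.tape i (c.pos i))
    { q := o.1
      tape := fun i => Function.update (c.tape i) (c.pos i) (o.2.1 i)
      pos := fun i => c.pos i + (o.2.2 i).disp }

/-- Initial configuration on the input word `w`. -/
def TM.init (M : TM) (w : List Bool) : Cfg M where
  q := M.start
  tape := fun i z =>
    if i = 0 ∧ 0 ≤ z then
      (match w[z.toNat]? with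
        | some b => M.sym b
        | none => M.blank)
    else M.blank
  pos := fun _ => 0

/-- `M` is in the accepting state after `t` steps on input `w`. -/
def TM.AcceptsIn (M : TM) (w : List Bool) (t : ℕ) : Prop :=
  ((M.step)^[t] (M.init w)).q = M.accept

/-- `M` is in the rejecting state after `t` steps on input `w`. -/
def TM.RejectsIn (M : TM) (w : List Bool) (t : ℕ) : Prop :=
  ((M.step)^[t] (M.init w)).q = M.reject

/-- `M` has halted after at most `t` steps on input `w`. -/
def TM.HaltsIn (M : TM) (w : List Bool) (t : ℕ) : Prop :=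
  M.AcceptsIn w t ∨ M.RejectsIn w t

open Classical in
/-- The adjacency matrix of `G`, row by row. -/
noncomputable def adjWord {n : ℕ} (G : SimpleGraph (Fin n)) : List Bool :=
  (List.finRange n).flatMap fun i => (List.finRange n).map fun j => decide (G.Adj i j)

/-- The input word for the pair `(G, H)`: the two adjacency matrices. -/
noncomputable def inputWord {n : ℕ} (G H : SimpleGraph (Fin n)) : List Bool :=
  adjWord G ++ adjWord H

/-- `M` decides `k`-WL equivalence. -/
def Decides (k : ℕ) (M : TM) : Prop :=
  ∀ (n : ℕ) (G H : SimpleGraph (Fin n)),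
    (WLEquiv k G H → ∃ t, M.AcceptsIn (inputWord G H) t) ∧
    (¬ WLEquiv k G H → ∃ t, M.RejectsIn (inputWord G H) t)

/-- `T` bounds the running time of `M` on pairs of `n`-vertex graphs. -/
def TimeBound (M : TM) (T : ℕ → ℕ) : Prop :=
  ∀ (n : ℕ) (G H : SimpleGraph (Fin n)), M.HaltsIn (inputWord G H) (T n)

/-- The final statement. -/
def Goal : Prop :=
  ∃ c : ℝ, 0 < c ∧ ∃ k₀ : ℕ, ∀ k : ℕ, k₀ ≤ k → ∀ M : TM, Decides k M → ∀ T : ℕ → ℕ,
    TimeBound M T →
      ¬ (fun n : ℕ => (T n : ℝ)) =O[Filter.atTop] (fun n : ℕ => (n : ℝ) ^ (c * (k : ℝ)))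

end P310
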