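import Vale.Agent.P310.Tmpl

/-!
# The digit graph

Vertices are numbers `< nV κ Y` whose digits are `(θ, c, i, b1, b2, λ)`:
`θ < Y` (template type and local bits), `c < Y + 1`, `i < κ`, `b1, b2 < Bd κ Y`, `λ < Lm κ Y`
(`λ = 0`: main vertex, `λ ≥ 1`: leaf number `λ - 1`).
-/

namespace P310

/-- bound for the residues -/
def Bd (κ Y : ℕ) : ℕ := Y + κ * κ.factorial + 1

/-- the modulus `p_i` -/
def md (κ Y i : ℕ) : ℕ := Y + i * κ.factorial + 1

/-- number of main codes -/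
def nM (κ Y : ℕ) : ℕ := Y * (Y + 1) * κ * Bd κ Y * Bd κ Y

/-- bound for `λ` -/
def Lm (κ Y : ℕ) : ℕ := nM κ Y + 3

/-- number of vertices -/
def nV (κ Y : ℕ) : ℕ := nM κ Y * Lm κ Y

/-- a main code: digits -/
structure Dg where
  θ : ℕ
  c : ℕ
  i : ℕ
  b1 : ℕ
  b2 : ℕ
  deriving DecidableEq

/-- digits in range -/
def Dg.ok (κ Y : ℕ) (x : Dg) : Prop :=
  x.θ < Y ∧ x.c < Y + 1 ∧ x.i < κ ∧ x.b1 < Bd κ Y ∧ x.b2 < Bd κ Y

/-- the number of a main code -/
def Dg.code (κ Y : ℕ) (x : Dg) : ℕ :=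
  (((x.θ * (Y + 1) + x.c) * κ + x.i) * Bd κ Y + x.b1) * Bd κ Y + x.b2

/-- number of local values: `θ = τ * A0 κ + a` -/
def A0 (κ : ℕ) : ℕ := 2 ^ (κ + 4)

/-- class code of a main code: the local value is forgotten -/
def Dg.cls (κ Y : ℕ) (x : Dg) : ℕ :=
  ({ x with θ := x.θ / A0 κ } : Dg).code κ Y

/-- categories of table entries -/
inductive Cat (κ d : ℕ)
  /-- validity with a given kind -/
  | val (k : Kind)
  /-- validity for seed equations: only `c = i = b1 = b2 = 0` -/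
  | valSeed
  /-- adjacency: chain relation, shift, flag (`0`: always, `1`: only untwisted, `2`: only
  twisted) -/
  | adj (o : Out) (s : Sh d) (f : Fin 3)
  /-- adjacency of a seed equation with the variable in coordinate `i` -/
  | seed (i : Fin κ)
  deriving DecidableEq

instance : Fintype Kind :=
  Fintype.ofSurjective
    (fun x : Fin 3 ⊕ Bool => match x with
      | Sum.inl 0 => Kind.all
      | Sum.inl 1 => Kind.lt
      | Sum.inl 2 => Kind.last
      | Sum.inr b => Kind.cont b)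
    (by
      intro s
      cases s
      · exact ⟨Sum.inl 0, rfl⟩
      · exact ⟨Sum.inl 1, rfl⟩
      · exact ⟨Sum.inl 2, rfl⟩
      · exact ⟨Sum.inr _, rfl⟩)

instance : Fintype Out :=
  Fintype.ofSurjective
    (fun x : Fin 3 => match x with
      | 0 => Out.same
      | 1 => Out.succ
      | 2 => Out.zero)
    (by
      intro s
      cases s
      · exact ⟨0, rfl⟩
      · exact ⟨1, rfl⟩
      · exact ⟨2, rfl⟩)

instance {d : ℕ} : Fintype (Sh d) :=
  Fintype.ofSurjective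
    (fun x : Fin 5 ⊕ Fin d => match x with
      | Sum.inl 0 => Sh.z
      | Sum.inl 1 => Sh.tm
      | Sum.inl 2 => Sh.ps
      | Sum.inl 3 => Sh.pp
      | Sum.inl 4 => Sh.dn
      | Sum.inr j => Sh.lev j)
    (by
      intro s
      cases s
      · exact ⟨Sum.inl 0, rfl⟩
      · exact ⟨Sum.inl 1, rfl⟩
      · exact ⟨Sum.inl 2, rfl⟩
      · exact ⟨Sum.inl 3, rfl⟩
      · exact ⟨Sum.inl 4, rfl⟩
      · exact ⟨Sum.inr _, rfl⟩)

instance {κ d : ℕ} : Fintype (Cat κ d) :=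
  Fintype.ofSurjective
    (fun x : (Kind ⊕ Unit) ⊕ ((Out × Sh d × Fin 3) ⊕ Fin κ) => match x with
      | Sum.inl (Sum.inl k) => Cat.val k
      | Sum.inl (Sum.inr _) => Cat.valSeed
      | Sum.inr (Sum.inl (o, s, f)) => Cat.adj o s f
      | Sum.inr (Sum.inr i) => Cat.seed i)
    (by
      intro s
      cases s
      · exact ⟨Sum.inl (Sum.inl _), rfl⟩
      · exact ⟨Sum.inl (Sum.inr ()), rfl⟩
      · exact ⟨Sum.inr (Sum.inl (_, _, _)), rfl⟩
      · exact ⟨Sum.inr (Sum.inr _), rfl⟩)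

/-- number of categories -/
def NC (κ d : ℕ) : ℕ := Fintype.card (Cat κ d)

/-- numbering of the categories -/
noncomputable def catNo {κ d : ℕ} (x : Cat κ d) : ℕ := (Fintype.equivFin (Cat κ d) x).val

/-- position of the table entry `(x, θ, θ')` in the list `u` -/
noncomputable def idx {κ d : ℕ} (x : Cat κ d) (θ θ' : ℕ) : ℕ :=
  NC κ d * ((θ + θ') ^ 2 + θ') + catNo x

/-- table entry -/
def TB {κ d : ℕ} (u : List Bool) (x : Cat κ d) (θ θ' : ℕ) : Prop :=
  u.getD (idx x θ θ') false = true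

/-- valid main codes -/
def Valid (κ d : ℕ) (u : List Bool) (x : Dg) : Prop :=
  x.b1 < md κ u.length x.i ∧ x.b2 < md κ u.length x.i ∧
  ((∃ k : Kind, TB (Cat.val k : Cat κ d) (θ := x.θ) (θ' := 0) (u := u) ∧ k.en u x.c = true) ∨
    (TB (Cat.valSeed : Cat κ d) (θ := x.θ) (θ' := 0) (u := u) ∧
      x.c = 0 ∧ x.i = 0 ∧ x.b1 = 0 ∧ x.b2 = 0))

/-- adjacency of the equation code `x` with the variable code `y` -/
def A1 (κ d : ℕ) (u : List Bool) (g : ℕ) (x y : Dg) : Prop :=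
  (∃ (o : Out) (s : Sh d) (f : Fin 3), TB (Cat.adj o s f : Cat κ d) (u := u) x.θ y.θ ∧
    (match o with
      | .same => y.c = x.c
      | .succ => y.c = x.c + 1
      | .zero => y.c = 0) ∧
    y.i = x.i ∧
    (y.b1 : ℤ) ≡ (x.b1 : ℤ) + (s.val u.length).1 [ZMOD (md κ u.length x.i : ℤ)] ∧
    (y.b2 : ℤ) ≡ (x.b2 : ℤ) + (s.val u.length).2 [ZMOD (md κ u.length x.i : ℤ)] ∧
    (f = 1 → g = 0 ∨ x.i ≠ 0) ∧ (f = 2 → g = 1 ∧ x.i = 0)) ∨
  (∃ i : Fin κ, TB (Cat.seed i : Cat κ d) (u := u) x.θ y.θ ∧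
    y.i = i.val ∧ y.c = 0 ∧ y.b1 = 0 ∧ y.b2 = 0)

/-- adjacency of main codes -/
def MAdj (κ d : ℕ) (u : List Bool) (g : ℕ) (x y : Dg) : Prop :=
  Valid κ d u x ∧ Valid κ d u y ∧ (A1 κ d u g x y ∨ A1 κ d u g y x)

/-- adjacency of vertex codes -/
def DAdj (κ d : ℕ) (u : List Bool) (g p q : ℕ) : Prop :=
  ∃ (x y : Dg) (l l' : ℕ), x.ok κ u.length ∧ y.ok κ u.length ∧ l < Lm κ u.length ∧
    l' < Lm κ u.length ∧
    p = x.code κ u.length * Lm κ u.length + l ∧ q = y.code κ u.length * Lm κ u.length + l' ∧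
    ((l = 0 ∧ l' = 0 ∧ MAdj κ d u g x y) ∨
      (x = y ∧ Valid κ d u x ∧
        ((l = 0 ∧ 1 ≤ l' ∧ l' ≤ x.cls κ u.length + 2) ∨
          (l' = 0 ∧ 1 ≤ l ∧ l ≤ x.cls κ u.length + 2))))

/-- **Module DX** (the adjacency predicate as an expression; degrees do not depend on `κ, d`). -/
def DXStatement : Prop :=
  ∃ D₀ : ℕ, ∀ κ d : ℕ, 1 ≤ κ → ∃ (N A : Ex) (Y₀ : ℕ), N.vdeg + N.tdeg + A.tdeg ≤ D₀ ∧
    ∀ u : List Bool, Y₀ ≤ u.length →
      N.eval u [u.length] = nV κ u.length ∧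
      ∀ g p q : ℕ, g < 2 → p < nV κ u.length → q < nV κ u.length →
        (A.eval u [q, p, g, nV κ u.length, u.length] ≠ 0 ↔ DAdj κ d u g p q)

/-- **Module DI** (the digit graph of the table of a template is the graph of its XOR system). -/
def DIStatement : Prop :=
  ∀ (κ d m : ℕ) (M : Fin 2 → Fin m → Fin m → ZMod 2) (T : Tmpl d), 1 ≤ κ → 2 ≤ m →
    ∃ Y₀ : ℕ, ∀ Y : ℕ, Y₀ ≤ Y → κ.factorial ∣ Y → ∃ u : List Bool, u.length = Y ∧
      ∀ P : Par, P = ⟨κ, fun i => Y + i.val * κ.factorial, m, M⟩ →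
      ∃ (C : ((T.horn u).xsys P).Cls → ℕ) (D : Type) (_ : Fintype D),
        Function.Injective C ∧ (∀ c, 2 ≤ C c) ∧
        ∃ e : Fin (nV κ Y) ≃ ((T.horn u).xsys P).Vx C D, ∀ (g : Bool) (p q : Fin (nV κ Y)),
          (((T.horn u).xsys P).graph C D g).Adj (e p) (e q) ↔
            DAdj κ d u (if g then 1 else 0) p.val q.val

/-- **Module IV** (invariance under isomorphism). -/
def IVStatement : Prop :=
  ∀ (k : ℕ) (V W V' W' : Type) [Fintype V] [Fintype W] [Fintype V'] [Fintype W']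
    (G : SimpleGraph V) (H : SimpleGraph W) (G' : SimpleGraph V') (H' : SimpleGraph W'),
    Nonempty (G ≃g G') → Nonempty (H ≃g H') → (WLEquiv k G H ↔ WLEquiv k G' H')

/-- **Module AS** (assembly). -/
def ASStatement : Prop :=
  XSys.SoundStatement → XSys.CompleteStatement → Horn.StarStatement → Horn.DervStatement →
  Horn.ClosureStatement → TSStatement → CMStatement → GNStatement → HSStatement → SPStatement →
  DXStatement → DIStatement → IVStatement → Goal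

end P310
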