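import Vale.Agent.P310.DigitNum

/-!
# P310: module DI, part C: local assignments of the equations as vectors of bits
-/

set_option linter.unusedSectionVars false

namespace P310
namespace DI

open Finset

section slots

variable {V ι : Type} [Fintype V] [DecidableEq V] [Fintype ι] [DecidableEq ι]

/-- unit vector or zero -/
def os (o : Option V) : V → ZMod 2 := match o with
  | some v => Pi.single v 1
  | none => 0

theorem os_apply (o : Option V) (v : V) : os o v = if o = some v then 1 else 0 := by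
  cases o with
  | none => simp [os]
  | some w =>
    simp only [os, Option.some.injEq]
    by_cases h : w = v
    · subst h
      simp
    · rw [if_neg h, Pi.single_eq_of_ne (Ne.symm h)]

/-- distinct slots -/
def SInj (sl : ι → Option V) : Prop := ∀ q q' v, sl q = some v → sl q' = some v → q = q'

theorem sum_os (sl : ι → Option V) (h : SInj sl) (v : V) :
    (∑ q, os (sl q)) v ≠ 0 ↔ ∃ q, sl q = some v := by
  rw [Finset.sum_apply]
  simp only [os_apply]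
  constructor
  · intro h1
    by_contra h2
    push Not at h2
    apply h1
    apply Finset.sum_eq_zero
    intro q _
    rw [if_neg (h2 q)]
  · rintro ⟨q, hq⟩
    rw [Finset.sum_eq_single q]
    · rw [if_pos hq]
      exact one_ne_zero
    · intro q' _ hne
      rw [if_neg]
      intro h3
      exact hne (h _ _ _ h3 hq)
    · intro h3
      exact absurd (Finset.mem_univ q) h3

/-- bits of an assignment -/
def bits (sl : ι → Option V) (a : V → ZMod 2) (q : ι) : ZMod 2 := match sl q with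
  | some v => a v
  | none => 0

theorem bits_some (sl : ι → Option V) (a : V → ZMod 2) (q : ι) (v : V) (h : sl q = some v) :
    bits sl a q = a v := by
  unfold bits
  rw [h]

theorem bits_none (sl : ι → Option V) (a : V → ZMod 2) (q : ι) (h : sl q = none) :
    bits sl a q = 0 := by
  unfold bits
  rw [h]

/-- assignment of bits -/
def unb (sl : ι → Option V) (b : ι → ZMod 2) (v : V) : ZMod 2 :=
  ∑ q, if sl q = some v then b q else 0

theorem unb_some (sl : ι → Option V) (h : SInj sl) (b : ι → ZMod 2) (q : ι) (v : V)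
    (hq : sl q = some v) : unb sl b v = b q := by
  unfold unb
  rw [Finset.sum_eq_single q]
  · rw [if_pos hq]
  · intro q' _ hne
    rw [if_neg]
    intro h3
    exact hne (h _ _ _ h3 hq)
  · intro h3
    exact absurd (Finset.mem_univ q) h3

theorem unb_zero (sl : ι → Option V) (b : ι → ZMod 2) (v : V)
    (hq : ¬ ∃ q, sl q = some v) : unb sl b v = 0 := by
  unfold unb
  push Not at hq
  apply Finset.sum_eq_zero
  intro q _
  rw [if_neg (hq q)]

theorem sum_unb (sl : ι → Option V) (b : ι → ZMod 2) (hb : ∀ q, sl q = none → b q = 0) :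
    ∑ v, unb sl b v = ∑ q, b q := by
  unfold unb
  rw [Finset.sum_comm]
  apply Finset.sum_congr rfl
  intro q _
  rcases hq : sl q with _ | v
  · rw [hb q hq]
    simp
  · rw [Finset.sum_eq_single v]
    · rw [if_pos rfl]
    · intro v' _ hne
      rw [if_neg]
      intro h3
      exact hne (Option.some.inj h3).symm
    · intro h3
      exact absurd (Finset.mem_univ v) h3

theorem unb_bits (sl : ι → Option V) (h : SInj sl) (a : V → ZMod 2)
    (ha : ∀ v, (∑ q, os (sl q)) v = 0 → a v = 0) : unb sl (bits sl a) = a := by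
  funext v
  by_cases hv : ∃ q, sl q = some v
  · obtain ⟨q, hq⟩ := hv
    rw [unb_some sl h _ q v hq, bits_some sl a q v hq]
  · rw [unb_zero sl _ v hv, ha v]
    by_contra h1
    exact hv ((sum_os sl h v).1 h1)

theorem bits_unb (sl : ι → Option V) (h : SInj sl) (b : ι → ZMod 2)
    (hb : ∀ q, sl q = none → b q = 0) : bits sl (unb sl b) = b := by
  funext q
  rcases hq : sl q with _ | v
  · rw [bits_none _ _ _ hq, hb q hq]
  · rw [bits_some _ _ _ _ hq, unb_some sl h b q v hq]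

theorem bits_inj (sl : ι → Option V) (h : SInj sl) (a a' : V → ZMod 2)
    (ha : ∀ v, (∑ q, os (sl q)) v = 0 → a v = 0) (ha' : ∀ v, (∑ q, os (sl q)) v = 0 → a' v = 0)
    (he : bits sl a = bits sl a') : a = a' := by
  rw [← unb_bits sl h a ha, ← unb_bits sl h a' ha', he]

theorem sum_bits (sl : ι → Option V) (h : SInj sl) (a : V → ZMod 2)
    (ha : ∀ v, (∑ q, os (sl q)) v = 0 → a v = 0) : ∑ q, bits sl a q = ∑ v, a v := by
  have h1 := sum_unb sl (bits sl a) (fun q hq => bits_none _ _ _ hq)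
  rw [unb_bits sl h a ha] at h1
  exact h1.symm

end slots

/-! slots of the equations of a compressed system -/

section horn

variable (𝓗 : Horn) (P : Par)

/-- slots of the equation `(ρ, l, s, b)` -/
def sl4 (ρ : 𝓗.R) (l s : Fin P.m) (b : P.Pt) : Fin 4 → Option (𝓗.Var P)
  | 0 => if h : 0 < s.val then some (𝓗.path P ρ l ⟨s.val - 1, by omega⟩ b) else none
  | 1 => if s.val + 1 < P.m then some (𝓗.path P ρ l s b)
      else (𝓗.co ρ).map fun y => 𝓗.bank P y l b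
  | 2 => if P.M (𝓗.ty ρ) l s = 0 then none
      else (𝓗.pr ρ 0).map fun a => 𝓗.bank P a.1 s (P.tr b a.2)
  | 3 => if P.M (𝓗.ty ρ) l s = 0 then none
      else (𝓗.pr ρ 1).map fun a => 𝓗.bank P a.1 s (P.tr b a.2)

theorem sl4_0 (ρ : 𝓗.R) (l s : Fin P.m) (b : P.Pt) : sl4 𝓗 P ρ l s b 0 =
    if h : 0 < s.val then some (𝓗.path P ρ l ⟨s.val - 1, by omega⟩ b) else none := rfl

theorem sl4_1 (ρ : 𝓗.R) (l s : Fin P.m) (b : P.Pt) : sl4 𝓗 P ρ l s b 1 =
    if s.val + 1 < P.m then some (𝓗.path P ρ l s b)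
      else (𝓗.co ρ).map fun y => 𝓗.bank P y l b := rfl

theorem sl4_2 (ρ : 𝓗.R) (l s : Fin P.m) (b : P.Pt) : sl4 𝓗 P ρ l s b 2 =
    if P.M (𝓗.ty ρ) l s = 0 then none
      else (𝓗.pr ρ 0).map fun a => 𝓗.bank P a.1 s (P.tr b a.2) := rfl

theorem sl4_3 (ρ : 𝓗.R) (l s : Fin P.m) (b : P.Pt) : sl4 𝓗 P ρ l s b 3 =
    if P.M (𝓗.ty ρ) l s = 0 then none
      else (𝓗.pr ρ 1).map fun a => 𝓗.bank P a.1 s (P.tr b a.2) := rfl

/-- slots of the seed equation -/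
def slS (l : Fin P.m) (i : Fin P.κ) : Option (𝓗.Var P) :=
  some (𝓗.bank P 𝓗.seed l (P.pt i (0, 0)))

theorem zmod2_cases (x : ZMod 2) (h : x ≠ 0) : x = 1 := by
  revert x
  decide

theorem cform_inl (ρ : 𝓗.R) (l s : Fin P.m) (b : P.Pt) :
    𝓗.cform P (Sum.inl (ρ, l, s, b)) = ∑ q, os (sl4 𝓗 P ρ l s b q) := by
  rw [Fin.sum_univ_four]
  have h0 : 𝓗.prev P ρ l s b = os (sl4 𝓗 P ρ l s b 0) := by
    unfold Horn.prev sl4
    by_cases h : 0 < s.val
    · simp only [h, dif_pos]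
      rfl
    · simp only [h, dif_neg, not_false_eq_true]
      rfl
  have h1 : 𝓗.next P ρ l s b = os (sl4 𝓗 P ρ l s b 1) := by
    unfold Horn.next sl4
    by_cases h : s.val + 1 < P.m
    · simp only [h, if_true]
      rfl
    · simp only [h, if_false]
      rcases 𝓗.co ρ with _ | y <;> rfl
  have h2 : 𝓗.key P ρ 0 l s b = os (sl4 𝓗 P ρ l s b 2) := by
    unfold Horn.key sl4
    by_cases h : P.M (𝓗.ty ρ) l s = 0
    · rw [if_pos h]
      rcases 𝓗.pr ρ 0 with _ | ⟨x, g⟩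
      · rfl
      · simp only [h, zero_smul]
        rfl
    · rw [if_neg h]
      rcases 𝓗.pr ρ 0 with _ | ⟨x, g⟩
      · rfl
      · simp only [zmod2_cases _ h, one_smul]
        rfl
  have h3 : 𝓗.key P ρ 1 l s b = os (sl4 𝓗 P ρ l s b 3) := by
    rw [sl4_3]
    unfold Horn.key
    by_cases h : P.M (𝓗.ty ρ) l s = 0
    · rw [if_pos h]
      rcases 𝓗.pr ρ 1 with _ | ⟨x, g⟩
      · rfl
      · simp only [h, zero_smul]
        rfl
    · rw [if_neg h]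
      rcases 𝓗.pr ρ 1 with _ | ⟨x, g⟩
      · rfl
      · simp only [zmod2_cases _ h, one_smul]
        rfl
  rw [← h0, ← h1, ← h2, ← h3]
  rfl

theorem cform_inr (l : Fin P.m) :
    𝓗.cform P (Sum.inr l) = ∑ i, os (slS 𝓗 P l i) := rfl

/-- relations of a rule are pairwise different -/
def Dist : Prop :=
  (∀ ρ q x h y, 𝓗.pr ρ q = some (x, h) → 𝓗.co ρ = some y → x ≠ y) ∧
  (∀ ρ x h x' h', 𝓗.pr ρ 0 = some (x, h) → 𝓗.pr ρ 1 = some (x', h') → x ≠ x')

theorem sl4_inj (hd : Dist 𝓗) (ρ : 𝓗.R) (l s : Fin P.m) (b : P.Pt) : SInj (sl4 𝓗 P ρ l s b) := by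
  obtain ⟨hd1, hd2⟩ := hd
  -- normal forms
  have e0 : ∀ v, sl4 𝓗 P ρ l s b 0 = some v →
      ∃ h : 0 < s.val, v = 𝓗.path P ρ l ⟨s.val - 1, by omega⟩ b := by
    intro v h
    unfold sl4 at h
    simp only at h
    split_ifs at h with h1
    exact ⟨h1, (Option.some.inj h).symm⟩
  have e1 : ∀ v, sl4 𝓗 P ρ l s b 1 = some v →
      (v = 𝓗.path P ρ l s b) ∨ ∃ y, 𝓗.co ρ = some y ∧ v = 𝓗.bank P y l b := by
    intro v h
    unfold sl4 at h
    simp only at h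
    split_ifs at h with h1
    · exact Or.inl (Option.some.inj h).symm
    · rw [Option.map_eq_some_iff] at h
      obtain ⟨y, hy, h2⟩ := h
      exact Or.inr ⟨y, hy, h2.symm⟩
  have e2 : ∀ v, sl4 𝓗 P ρ l s b 2 = some v →
      ∃ x g, 𝓗.pr ρ 0 = some (x, g) ∧ v = 𝓗.bank P x s (P.tr b g) := by
    intro v h
    unfold sl4 at h
    simp only at h
    split_ifs at h with h1
    rw [Option.map_eq_some_iff] at h
    obtain ⟨⟨x, g⟩, hy, h2⟩ := h
    exact ⟨x, g, hy, h2.symm⟩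
  have e3 : ∀ v, sl4 𝓗 P ρ l s b 3 = some v →
      ∃ x g, 𝓗.pr ρ 1 = some (x, g) ∧ v = 𝓗.bank P x s (P.tr b g) := by
    intro v h
    unfold sl4 at h
    simp only at h
    split_ifs at h with h1
    rw [Option.map_eq_some_iff] at h
    obtain ⟨⟨x, g⟩, hy, h2⟩ := h
    exact ⟨x, g, hy, h2.symm⟩
  have n01 : ∀ v, sl4 𝓗 P ρ l s b 0 = some v → sl4 𝓗 P ρ l s b 1 = some v → False := by
    intro v h h'
    obtain ⟨h1, rfl⟩ := e0 v h
    rcases e1 _ h' with h2 | ⟨y, _, h2⟩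
    · simp only [Horn.path, Sum.inr.injEq, Prod.mk.injEq, Fin.ext_iff] at h2
      omega
    · simp at h2
  have n02 : ∀ v, sl4 𝓗 P ρ l s b 0 = some v → sl4 𝓗 P ρ l s b 2 = some v → False := by
    intro v h h'
    obtain ⟨h1, rfl⟩ := e0 v h
    obtain ⟨x, g, _, h2⟩ := e2 _ h'
    simp at h2
  have n03 : ∀ v, sl4 𝓗 P ρ l s b 0 = some v → sl4 𝓗 P ρ l s b 3 = some v → False := by
    intro v h h'
    obtain ⟨h1, rfl⟩ := e0 v h
    obtain ⟨x, g, _, h2⟩ := e3 _ h'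
    simp at h2
  have n12 : ∀ v, sl4 𝓗 P ρ l s b 1 = some v → sl4 𝓗 P ρ l s b 2 = some v → False := by
    intro v h h'
    obtain ⟨x, g, hx, rfl⟩ := e2 _ h'
    rcases e1 _ h with h2 | ⟨y, hy, h2⟩
    · simp at h2
    · simp only [Horn.bank, Sum.inl.injEq, Prod.mk.injEq] at h2
      exact hd1 ρ 0 x g y hx hy h2.1
  have n13 : ∀ v, sl4 𝓗 P ρ l s b 1 = some v → sl4 𝓗 P ρ l s b 3 = some v → False := by
    intro v h h'
    obtain ⟨x, g, hx, rfl⟩ := e3 _ h'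
    rcases e1 _ h with h2 | ⟨y, hy, h2⟩
    · simp at h2
    · simp only [Horn.bank, Sum.inl.injEq, Prod.mk.injEq] at h2
      exact hd1 ρ 1 x g y hx hy h2.1
  have n23 : ∀ v, sl4 𝓗 P ρ l s b 2 = some v → sl4 𝓗 P ρ l s b 3 = some v → False := by
    intro v h h'
    obtain ⟨x, g, hx, rfl⟩ := e2 _ h
    obtain ⟨x', g', hx', h2⟩ := e3 _ h'
    simp only [Horn.bank, Sum.inl.injEq, Prod.mk.injEq] at h2
    exact hd2 ρ x g x' g' hx hx' h2.1
  intro q q' v h h'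
  fin_cases q <;> fin_cases q'
  · rfl
  · exact (n01 v h h').elim
  · exact (n02 v h h').elim
  · exact (n03 v h h').elim
  · exact (n01 v h' h).elim
  · rfl
  · exact (n12 v h h').elim
  · exact (n13 v h h').elim
  · exact (n02 v h' h).elim
  · exact (n12 v h' h).elim
  · rfl
  · exact (n23 v h h').elim
  · exact (n03 v h' h).elim
  · exact (n13 v h' h).elim
  · exact (n23 v h' h).elim
  · rfl

theorem slS_inj (l : Fin P.m) : SInj (slS 𝓗 P l) := by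
  intro i i' v h h'
  unfold slS at h h'
  have h2 := Option.some.inj (h.trans h'.symm)
  simp only [Horn.bank, Sum.inl.injEq, Prod.mk.injEq] at h2
  exact congrArg Sigma.fst h2.2.2

theorem supp4 (r : 𝓗.R) (l s : Fin P.m) (b : P.Pt)
    (a : (𝓗.xsys P).Loc (Sum.inl (r, l, s, b) : 𝓗.Con P)) :
    ∀ v, (∑ q, os (sl4 𝓗 P r l s b q)) v = 0 → a.1 v = 0 := by
  intro v hv
  apply a.2.1 v
  rw [← hv]
  exact congrFun (cform_inl 𝓗 P r l s b) v

theorem suppS (l : Fin P.m)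
    (a : (𝓗.xsys P).Loc (Sum.inr l : 𝓗.Con P)) :
    ∀ v, (∑ q, os (slS 𝓗 P l q)) v = 0 → a.1 v = 0 := by
  intro v hv
  apply a.2.1 v
  rw [← hv]
  exact congrFun (cform_inr 𝓗 P l) v

/-- bits of a local assignment -/
def b4 (r : 𝓗.R) (l s : Fin P.m) (b : P.Pt)
    (a : (𝓗.xsys P).Loc (Sum.inl (r, l, s, b) : 𝓗.Con P)) : Fin 4 → ZMod 2 :=
  bits (sl4 𝓗 P r l s b) a.1

/-- bits of a local assignment of a seed equation -/
def bS (l : Fin P.m) (a : (𝓗.xsys P).Loc (Sum.inr l : 𝓗.Con P)) : Fin P.κ → ZMod 2 :=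
  bits (slS 𝓗 P l) a.1

theorem b4_inj (hd : Dist 𝓗) (r : 𝓗.R) (l s : Fin P.m) (b : P.Pt)
    (a a' : (𝓗.xsys P).Loc (Sum.inl (r, l, s, b) : 𝓗.Con P))
    (h : b4 𝓗 P r l s b a = b4 𝓗 P r l s b a') : a = a' :=
  Subtype.ext (bits_inj _ (sl4_inj 𝓗 P hd r l s b) _ _ (supp4 𝓗 P r l s b a)
    (supp4 𝓗 P r l s b a') h)

theorem bS_inj (l : Fin P.m) (a a' : (𝓗.xsys P).Loc (Sum.inr l : 𝓗.Con P))
    (h : bS 𝓗 P l a = bS 𝓗 P l a') : a = a' :=
  Subtype.ext (bits_inj _ (slS_inj 𝓗 P l) _ _ (suppS 𝓗 P l a) (suppS 𝓗 P l a') h)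

theorem b4_none (r : 𝓗.R) (l s : Fin P.m) (b : P.Pt)
    (a : (𝓗.xsys P).Loc (Sum.inl (r, l, s, b) : 𝓗.Con P)) (q : Fin 4)
    (h : sl4 𝓗 P r l s b q = none) : b4 𝓗 P r l s b a q = 0 := bits_none _ _ _ h

theorem b4_some (r : 𝓗.R) (l s : Fin P.m) (b : P.Pt)
    (a : (𝓗.xsys P).Loc (Sum.inl (r, l, s, b) : 𝓗.Con P)) (q : Fin 4) (v : 𝓗.Var P)
    (h : sl4 𝓗 P r l s b q = some v) : b4 𝓗 P r l s b a q = a.1 v := bits_some _ _ _ _ h

theorem bS_some (l : Fin P.m) (a : (𝓗.xsys P).Loc (Sum.inr l : 𝓗.Con P)) (q : Fin P.κ) :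
    bS 𝓗 P l a q = a.1 (𝓗.bank P 𝓗.seed l (P.pt q (0, 0))) := bits_some _ _ _ _ rfl

theorem b4_sum (hd : Dist 𝓗) (r : 𝓗.R) (l s : Fin P.m) (b : P.Pt)
    (a : (𝓗.xsys P).Loc (Sum.inl (r, l, s, b) : 𝓗.Con P)) : ∑ q, b4 𝓗 P r l s b a q = 0 :=
  (sum_bits _ (sl4_inj 𝓗 P hd r l s b) _ (supp4 𝓗 P r l s b a)).trans a.2.2

theorem bS_sum (l : Fin P.m)
    (a : (𝓗.xsys P).Loc (Sum.inr l : 𝓗.Con P)) : ∑ q, bS 𝓗 P l a q = 0 :=
  (sum_bits _ (slS_inj 𝓗 P l) _ (suppS 𝓗 P l a)).trans a.2.2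

theorem b4_surj (hd : Dist 𝓗) (r : 𝓗.R) (l s : Fin P.m) (b : P.Pt) (β : Fin 4 → ZMod 2)
    (hn : ∀ q, sl4 𝓗 P r l s b q = none → β q = 0) (hs : ∑ q, β q = 0) :
    ∃ a : (𝓗.xsys P).Loc (Sum.inl (r, l, s, b) : 𝓗.Con P), b4 𝓗 P r l s b a = β := by
  have hinj := sl4_inj 𝓗 P hd r l s b
  refine ⟨⟨unb (sl4 𝓗 P r l s b) β, ?_, (sum_unb _ _ hn).trans hs⟩, bits_unb _ hinj _ hn⟩
  intro v hv
  apply unb_zero
  intro h9
  apply (sum_os _ hinj v).2 h9
  exact (congrFun (cform_inl 𝓗 P r l s b) v).symm.trans hv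

theorem bS_surj (l : Fin P.m) (β : Fin P.κ → ZMod 2) (hs : ∑ q, β q = 0) :
    ∃ a : (𝓗.xsys P).Loc (Sum.inr l : 𝓗.Con P), bS 𝓗 P l a = β := by
  have hinj := slS_inj 𝓗 P l
  have hn : ∀ q, slS 𝓗 P l q = none → β q = 0 := by
    intro q hq
    cases hq
  refine ⟨⟨unb (slS 𝓗 P l) β, ?_, (sum_unb _ _ hn).trans hs⟩, bits_unb _ hinj _ hn⟩
  intro v hv
  apply unb_zero
  intro h9
  apply (sum_os _ hinj v).2 h9
  exact (congrFun (cform_inr 𝓗 P l) v).symm.trans hv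

/-- adjacency by slots -/
theorem adj4_iff (hd : Dist 𝓗) (g : Bool) (v : 𝓗.Var P) (β : ZMod 2) (r : 𝓗.R)
    (l s : Fin P.m) (b : P.Pt) (a : (𝓗.xsys P).Loc (Sum.inl (r, l, s, b) : 𝓗.Con P)) :
    (𝓗.xsys P).adjVE g v β (Sum.inl (r, l, s, b) : 𝓗.Con P) a ↔
      ∃ q, sl4 𝓗 P r l s b q = some v ∧ b4 𝓗 P r l s b a q +
        (if g = true ∧ 𝓗.ctw P (Sum.inl (r, l, s, b)) = some v then 1 else 0) = β := by
  have h1 : 𝓗.cform P (Sum.inl (r, l, s, b)) v ≠ 0 ↔ ∃ q, sl4 𝓗 P r l s b q = some v := by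
    rw [cform_inl]
    exact sum_os _ (sl4_inj 𝓗 P hd r l s b) v
  constructor
  · rintro ⟨h2, h3⟩
    obtain ⟨q, hq⟩ := h1.1 h2
    refine ⟨q, hq, ?_⟩
    rw [b4_some 𝓗 P r l s b a q v hq]
    exact h3
  · rintro ⟨q, hq, h3⟩
    refine ⟨h1.2 ⟨q, hq⟩, ?_⟩
    rw [b4_some 𝓗 P r l s b a q v hq] at h3
    exact h3

theorem adjS_iff (g : Bool) (v : 𝓗.Var P) (β : ZMod 2)
    (l : Fin P.m) (a : (𝓗.xsys P).Loc (Sum.inr l : 𝓗.Con P)) :
    (𝓗.xsys P).adjVE g v β (Sum.inr l : 𝓗.Con P) a ↔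
      ∃ q, v = 𝓗.bank P 𝓗.seed l (P.pt q (0, 0)) ∧ bS 𝓗 P l a q = β := by
  have h1 : 𝓗.cform P (Sum.inr l) v ≠ 0 ↔ ∃ q, slS 𝓗 P l q = some v := by
    rw [cform_inr]
    exact sum_os _ (slS_inj 𝓗 P l) v
  have h2 : ¬ (g = true ∧ 𝓗.ctw P (Sum.inr l) = some v) := by
    rintro ⟨_, h3⟩
    cases h3
  constructor
  · rintro ⟨h4, h3⟩
    obtain ⟨q, hq⟩ := h1.1 h4
    refine ⟨q, (Option.some.inj hq).symm, ?_⟩
    have h5 : bS 𝓗 P l a q = a.1 v := bits_some _ _ _ _ hq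
    rw [h5]
    have h6 : a.1 v + (if g = true ∧ 𝓗.ctw P (Sum.inr l) = some v then 1 else 0) = β := h3
    rw [if_neg h2, add_zero] at h6
    exact h6
  · rintro ⟨q, hq, h3⟩
    refine ⟨h1.2 ⟨q, by rw [hq]; rfl⟩, ?_⟩
    show a.1 v + (if g = true ∧ 𝓗.ctw P (Sum.inr l) = some v then 1 else 0) = β
    rw [if_neg h2, add_zero, hq, ← bS_some]
    exact h3

end horn

end DI
end P310
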