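import Vale.Agent.P310.DigitTab

/-!
# P310: module DI, part B: the numbering of the vertices
-/

namespace P310
namespace DI

theorem code_inj (κ Y : ℕ) (x y : Dg) (hxc : x.c < Y + 1) (hxi : x.i < κ) (hx1 : x.b1 < Bd κ Y)
    (hx2 : x.b2 < Bd κ Y) (hyc : y.c < Y + 1) (hyi : y.i < κ) (hy1 : y.b1 < Bd κ Y)
    (hy2 : y.b2 < Bd κ Y) (h : x.code κ Y = y.code κ Y) : x = y := by
  have key : ∀ a b a' b' n : ℕ, b < n → b' < n → a * n + b = a' * n + b' → a = a' ∧ b = b' := by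
    intro a b a' b' n hb hb' h
    have h1 : (a * n + b) / n = (a' * n + b') / n := by rw [h]
    have h2 : (a * n + b) % n = (a' * n + b') % n := by rw [h]
    rw [Nat.mul_comm a, Nat.mul_comm a', Nat.mul_add_div (by omega), Nat.mul_add_div (by omega),
      Nat.div_eq_of_lt hb, Nat.div_eq_of_lt hb'] at h1
    rw [Nat.mul_comm a, Nat.mul_comm a', Nat.mul_add_mod, Nat.mul_add_mod, Nat.mod_eq_of_lt hb,
      Nat.mod_eq_of_lt hb'] at h2
    exact ⟨by simpa using h1, h2⟩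
  unfold Dg.code at h
  obtain ⟨h, h2⟩ := key _ _ _ _ _ hx2 hy2 h
  obtain ⟨h, h1⟩ := key _ _ _ _ _ hx1 hy1 h
  obtain ⟨h, hi⟩ := key _ _ _ _ _ hxi hyi h
  obtain ⟨h, hc⟩ := key _ _ _ _ _ hxc hyc h
  cases x
  cases y
  simp only at h h2 h1 hi hc
  subst h h2 h1 hi hc
  rfl

theorem code_lt (κ Y : ℕ) (x : Dg) (hx : x.ok κ Y) : x.code κ Y < nM κ Y := by
  obtain ⟨h0, hc, hi, h1, h2⟩ := hx
  have key : ∀ a b n N : ℕ, a < N → b < n → a * n + b < N * n := by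
    intro a b n N ha hb
    calc a * n + b < a * n + n := by omega
      _ = (a + 1) * n := by ring
      _ ≤ N * n := Nat.mul_le_mul_right _ ha
  unfold Dg.code nM
  exact key _ _ _ _ (key _ _ _ _ (key _ _ _ _ (key _ _ _ _ h0 hc) hi) h1) h2

variable {κ Y : ℕ}

/-- number of a vertex -/
def vno (κ Y : ℕ) (x : Dg) (l : ℕ) : ℕ := x.code κ Y * Lm κ Y + l

theorem vno_lt (x : Dg) (hx : x.ok κ Y) (l : ℕ) (hl : l < Lm κ Y) : vno κ Y x l < nV κ Y := by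
  have h := code_lt κ Y x hx
  unfold vno nV
  calc x.code κ Y * Lm κ Y + l < x.code κ Y * Lm κ Y + Lm κ Y := by omega
    _ = (x.code κ Y + 1) * Lm κ Y := by ring
    _ ≤ nM κ Y * Lm κ Y := Nat.mul_le_mul_right _ h

theorem vno_inj (x y : Dg) (hx : x.ok κ Y) (hy : y.ok κ Y) (l l' : ℕ) (hl : l < Lm κ Y)
    (hl' : l' < Lm κ Y) (h : vno κ Y x l = vno κ Y y l') : x = y ∧ l = l' := by
  unfold vno at h
  have h1 : (x.code κ Y * Lm κ Y + l) / Lm κ Y = (y.code κ Y * Lm κ Y + l') / Lm κ Y := by rw [h]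
  have h2 : (x.code κ Y * Lm κ Y + l) % Lm κ Y = (y.code κ Y * Lm κ Y + l') % Lm κ Y := by rw [h]
  rw [Nat.mul_comm, Nat.mul_comm (y.code κ Y), Nat.mul_add_div (by omega),
    Nat.mul_add_div (by omega), Nat.div_eq_of_lt hl, Nat.div_eq_of_lt hl'] at h1
  rw [Nat.mul_comm, Nat.mul_comm (y.code κ Y), Nat.mul_add_mod, Nat.mul_add_mod,
    Nat.mod_eq_of_lt hl, Nat.mod_eq_of_lt hl'] at h2
  obtain ⟨_, hxc, hxi, hx1, hx2⟩ := hx
  obtain ⟨_, hyc, hyi, hy1, hy2⟩ := hy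
  exact ⟨code_inj κ Y x y hxc hxi hx1 hx2 hyc hyi hy1 hy2 (by simpa using h1), h2⟩

/-- The numbering lemma. -/
theorem numbering (d : ℕ) (u : List Bool) (S : XSys) (C : S.Cls → ℕ)
    (hκY : u.length = Y) (dig : S.Main → Dg)
    (hok : ∀ μ, (dig μ).ok κ Y) (hval : ∀ μ, Valid κ d u (dig μ))
    (hinj : Function.Injective dig)
    (hsurj : ∀ x : Dg, x.ok κ Y → Valid κ d u x → ∃ μ, dig μ = x)
    (hC : ∀ μ, C (S.cls μ) = (dig μ).cls κ Y + 2)
    (hCM : ∀ μ, (dig μ).cls κ Y < nM κ Y)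
    (hM : ∀ (g : Bool) (μ ν : S.Main),
      MAdj κ d u (if g then 1 else 0) (dig μ) (dig ν) ↔ S.adjM g μ ν) :
    ∃ (D : Type) (_ : Fintype D), ∃ e : Fin (nV κ Y) ≃ S.Vx C D, ∀ (g : Bool) (p q : Fin (nV κ Y)),
      (S.graph C D g).Adj (e p) (e q) ↔ DAdj κ d u (if g then 1 else 0) p.val q.val := by
  classical
  subst hκY
  set Y := u.length with hY
  -- the leaf bound
  have hleaf : ∀ (μ : S.Main) (j : Fin (C (S.cls μ))), j.val + 1 < Lm κ Y := by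
    intro μ j
    have h1 := j.isLt
    have h2 := hC μ
    have h3 := hCM μ
    unfold Lm
    omega
  have hL0 : 0 < Lm κ Y := by unfold Lm; omega
  let F : S.Main ⊕ (Σ μ : S.Main, Fin (C (S.cls μ))) → Fin (nV κ Y) := fun z =>
    match z with
    | Sum.inl μ => ⟨vno κ Y (dig μ) 0, vno_lt _ (hok μ) _ hL0⟩
    | Sum.inr ⟨μ, j⟩ => ⟨vno κ Y (dig μ) (j.val + 1), vno_lt _ (hok μ) _ (hleaf μ j)⟩
  have hF : Function.Injective F := by
    intro z z' h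
    have h' := congrArg Fin.val h
    rcases z with μ | ⟨μ, j⟩ <;> rcases z' with μ' | ⟨μ', j'⟩ <;> simp only [F] at h'
    · obtain ⟨h1, _⟩ := vno_inj _ _ (hok μ) (hok μ') _ _ hL0 hL0 h'
      rw [hinj h1]
    · obtain ⟨_, h2⟩ := vno_inj _ _ (hok μ) (hok μ') _ _ hL0 (hleaf μ' j') h'
      omega
    · obtain ⟨_, h2⟩ := vno_inj _ _ (hok μ) (hok μ') _ _ (hleaf μ j) hL0 h'
      omega
    · obtain ⟨h1, h2⟩ := vno_inj _ _ (hok μ) (hok μ') _ _ (hleaf μ j) (hleaf μ' j') h'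
      have h3 := hinj h1
      subst h3
      have h4 : j = j' := Fin.ext (by omega)
      rw [h4]
  let D : Type := {p : Fin (nV κ Y) // p ∉ Set.range F}
  let E1 : (S.Main ⊕ (Σ μ : S.Main, Fin (C (S.cls μ)))) ⊕ D ≃ Fin (nV κ Y) :=
    (Equiv.sumCongr (Equiv.ofInjective F hF) (Equiv.refl D)).trans (Equiv.Set.sumCompl (Set.range F))
  let E : S.Vx C D ≃ Fin (nV κ Y) := (Equiv.sumAssoc _ _ _).symm.trans E1
  have hE1 : ∀ μ : S.Main, (E (Sum.inl μ)).val = vno κ Y (dig μ) 0 := by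
    intro μ
    rfl
  have hE2 : ∀ (μ : S.Main) (j : Fin (C (S.cls μ))),
      (E (Sum.inr (Sum.inl ⟨μ, j⟩))).val = vno κ Y (dig μ) (j.val + 1) := by
    intro μ j
    rfl
  have hE3 : ∀ (p : D), (E (Sum.inr (Sum.inr p))) = p.1 := by
    intro p
    rfl
  -- a number which takes part in an adjacency is not a dummy
  have hreal : ∀ (x : Dg) (l : ℕ), x.ok κ Y → Valid κ d u x → l ≤ x.cls κ Y + 2 →
      ∀ p : D, p.1.val ≠ vno κ Y x l := by
    intro x l hx hvx hl p hp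
    obtain ⟨μ, rfl⟩ := hsurj x hx hvx
    apply p.2
    rcases Nat.eq_zero_or_pos l with rfl | hl0
    · exact ⟨Sum.inl μ, Fin.ext hp.symm⟩
    · have h1 : l - 1 < C (S.cls μ) := by rw [hC]; omega
      refine ⟨Sum.inr ⟨μ, ⟨l - 1, h1⟩⟩, Fin.ext ?_⟩
      simp only [F]
      rw [hp, Nat.sub_add_cancel hl0]
  have hdm : ∀ (g : ℕ) (p : D) (q : ℕ), ¬ DAdj κ d u g p.1.val q ∧ ¬ DAdj κ d u g q p.1.val := by
    intro g p q
    constructor
    · rintro ⟨x, y, l, l', hx, hy, hl, hl', hp, hq, h⟩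
      rcases h with ⟨rfl, rfl, h⟩ | ⟨rfl, hv, ⟨rfl, h1, h2⟩ | ⟨rfl, h1, h2⟩⟩
      · exact hreal x 0 hx h.1 (by omega) p hp
      · exact hreal x 0 hx hv (by omega) p hp
      · exact hreal x l hx hv (by omega) p hp
    · rintro ⟨x, y, l, l', hx, hy, hl, hl', hp, hq, h⟩
      rcases h with ⟨rfl, rfl, h⟩ | ⟨rfl, hv, ⟨rfl, h1, h2⟩ | ⟨rfl, h1, h2⟩⟩
      · exact hreal y 0 hy h.2.1 (by omega) p hq
      · exact hreal x l' hx hv (by omega) p hq
      · exact hreal x 0 hx hv (by omega) p hq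
  -- adjacency of two real vertices
  have hDA : ∀ (g : ℕ) (μ ν : S.Main) (l l' : ℕ), l < Lm κ Y → l' < Lm κ Y →
      (DAdj κ d u g (vno κ Y (dig μ) l) (vno κ Y (dig ν) l') ↔
        ((l = 0 ∧ l' = 0 ∧ MAdj κ d u g (dig μ) (dig ν)) ∨
          (μ = ν ∧
            ((l = 0 ∧ 1 ≤ l' ∧ l' ≤ (dig μ).cls κ Y + 2) ∨
              (l' = 0 ∧ 1 ≤ l ∧ l ≤ (dig μ).cls κ Y + 2))))) := by
    intro g μ ν l l' hl hl'
    constructor
    · rintro ⟨x, y, a, a', hx, hy, ha, ha', hp, hq, h⟩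
      obtain ⟨rfl, rfl⟩ := vno_inj _ _ (hok μ) hx _ _ hl ha hp
      obtain ⟨rfl, rfl⟩ := vno_inj _ _ (hok ν) hy _ _ hl' ha' hq
      rcases h with h | ⟨h1, h2, h3⟩
      · exact Or.inl h
      · exact Or.inr ⟨hinj h1, h3⟩
    · intro h
      refine ⟨dig μ, dig ν, l, l', hok μ, hok ν, hl, hl', rfl, rfl, ?_⟩
      rcases h with h | ⟨rfl, h3⟩
      · exact Or.inl h
      · exact Or.inr ⟨rfl, hval μ, h3⟩
  refine ⟨D, inferInstance, E.symm, ?_⟩
  intro g p q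
  obtain ⟨z, rfl⟩ := E.surjective p
  obtain ⟨w, rfl⟩ := E.surjective q
  rw [E.symm_apply_apply, E.symm_apply_apply]
  rcases z with μ | ⟨μ, j⟩ | p
  · rcases w with ν | ⟨ν, j'⟩ | q
    · rw [hE1, hE1, hDA _ _ _ _ _ hL0 hL0, hM]
      show S.adjM g μ ν ↔ _
      constructor
      · intro h
        exact Or.inl ⟨rfl, rfl, h⟩
      · rintro (⟨_, _, h⟩ | ⟨_, ⟨_, h, _⟩ | ⟨_, h, _⟩⟩)
        · exact h
        · omega
        · omega
    · rw [hE1, hE2, hDA _ _ _ _ _ hL0 (hleaf ν j')]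
      show ν = μ ↔ _
      constructor
      · rintro rfl
        refine Or.inr ⟨rfl, Or.inl ⟨rfl, by omega, ?_⟩⟩
        have h1 := j'.isLt
        have h2 := hC ν
        omega
      · rintro (⟨_, h, _⟩ | ⟨h, _⟩)
        · omega
        · exact h.symm
    · rw [hE3]
      exact ⟨fun h => h.elim, fun h => ((hdm _ q _).2 h).elim⟩
  · rcases w with ν | ⟨ν, j'⟩ | q
    · rw [hE1, hE2, hDA _ _ _ _ _ (hleaf μ j) hL0]
      show μ = ν ↔ _
      constructor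
      · rintro rfl
        refine Or.inr ⟨rfl, Or.inr ⟨rfl, by omega, ?_⟩⟩
        have h1 := j.isLt
        have h2 := hC μ
        omega
      · rintro (⟨h, _, _⟩ | ⟨h, _⟩)
        · omega
        · exact h
    · rw [hE2, hE2, hDA _ _ _ _ _ (hleaf μ j) (hleaf ν j')]
      show False ↔ _
      constructor
      · exact fun h => h.elim
      · rintro (⟨h, _, _⟩ | ⟨_, ⟨h, _, _⟩ | ⟨h, _, _⟩⟩)
        · omega
        · omega
        · omega
    · rw [hE3]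
      exact ⟨fun h => h.elim, fun h => ((hdm _ q _).2 h).elim⟩
  · rw [hE3]
    refine ⟨fun h => ?_, fun h => ((hdm _ p _).1 h).elim⟩
    rcases w with ν | ⟨ν, j'⟩ | q <;> exact h.elim

end DI
end P310
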