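import Vale.Agent.P310.Digit

/-!
# P310: module DI, part A: the table of a template
-/

namespace P310
namespace DI

/-- vertex families of the digit graph -/
abbrev Ty {d : ℕ} (T : Tmpl d) (m : ℕ) : Type :=
  ((T.X0 × Fin m) ⊕ (T.R0 × Fin m × Fin m)) ⊕ ((T.R0 × Fin m × Fin m) ⊕ Fin m)

/-- labels: families with the local value -/
inductive Lab {d : ℕ} (T : Tmpl d) (m κ : ℕ) : Type
  | bank (x : T.X0) (j : Fin m) (b : ZMod 2)
  | path (ρ : T.R0) (l s : Fin m) (b : ZMod 2)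
  | eq (ρ : T.R0) (l s : Fin m) (a : Fin 4 → ZMod 2)
  | seq (l : Fin m) (a : Fin κ → ZMod 2)

section

variable {d : ℕ} (T : Tmpl d) (m κ : ℕ)

/-- family of a label -/
def Lab.fam {T : Tmpl d} {m κ : ℕ} : Lab T m κ → Ty T m
  | .bank x j _ => Sum.inl (Sum.inl (x, j))
  | .path ρ l s _ => Sum.inl (Sum.inr (ρ, l, s))
  | .eq ρ l s _ => Sum.inr (Sum.inl (ρ, l, s))
  | .seq l _ => Sum.inr (Sum.inr l)

/-- number of a family -/
noncomputable def fno (t : Ty T m) : ℕ := (Fintype.equivFin (Ty T m) t).val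

/-- number of a local value -/
noncomputable def lno {ι : Type} [Fintype ι] [DecidableEq ι] (a : ι → ZMod 2) : ℕ :=
  (Fintype.equivFin (ι → ZMod 2) a).val

theorem lno_inj {ι : Type} [Fintype ι] [DecidableEq ι] (a b : ι → ZMod 2) (h : lno a = lno b) :
    a = b := (Fintype.equivFin (ι → ZMod 2)).injective (Fin.ext h)

theorem lno_lt {ι : Type} [Fintype ι] [DecidableEq ι] (a : ι → ZMod 2) :
    lno a < 2 ^ Fintype.card ι := by
  have h2 : Fintype.card (ι → ZMod 2) = 2 ^ Fintype.card ι := by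
    rw [Fintype.card_fun, ZMod.card]
  exact h2 ▸ (Fintype.equivFin (ι → ZMod 2) a).isLt

/-- number of the local value of a label -/
noncomputable def Lab.loc {T : Tmpl d} {m κ : ℕ} : Lab T m κ → ℕ
  | .bank _ _ b => b.val
  | .path _ _ _ b => b.val
  | .eq _ _ _ a => lno a
  | .seq _ a => lno a

theorem Lab.loc_lt {T : Tmpl d} {m κ : ℕ} (t : Lab T m κ) : t.loc < A0 κ := by
  have h2 : 2 ≤ A0 κ := by
    unfold A0
    calc 2 = 2 ^ 1 := rfl
      _ ≤ 2 ^ (κ + 4) := Nat.pow_le_pow_right (by norm_num) (by omega)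
  cases t with
  | bank x j b => exact lt_of_lt_of_le (ZMod.val_lt b) h2
  | path ρ l s b => exact lt_of_lt_of_le (ZMod.val_lt b) h2
  | eq ρ l s a =>
    refine lt_of_lt_of_le (lno_lt a) ?_
    unfold A0
    rw [Fintype.card_fin]
    exact Nat.pow_le_pow_right (by norm_num) (by omega)
  | seq l a =>
    refine lt_of_lt_of_le (lno_lt a) ?_
    unfold A0
    rw [Fintype.card_fin]
    exact Nat.pow_le_pow_right (by norm_num) (by omega)

/-- number `θ` of a label -/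
noncomputable def Lab.no {T : Tmpl d} {m κ : ℕ} (t : Lab T m κ) : ℕ :=
  fno T m t.fam * A0 κ + t.loc

theorem Lab.no_div {T : Tmpl d} {m κ : ℕ} (t : Lab T m κ) : t.no / A0 κ = fno T m t.fam := by
  have h := t.loc_lt
  unfold Lab.no
  rw [Nat.add_comm, Nat.add_mul_div_right _ _ (by omega), Nat.div_eq_of_lt h, Nat.zero_add]

theorem Lab.no_mod {T : Tmpl d} {m κ : ℕ} (t : Lab T m κ) : t.no % A0 κ = t.loc := by
  have h := t.loc_lt
  unfold Lab.no
  rw [Nat.add_comm, Nat.add_mul_mod_self_right, Nat.mod_eq_of_lt h]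

theorem fno_inj (t t' : Ty T m) (h : fno T m t = fno T m t') : t = t' :=
  (Fintype.equivFin (Ty T m)).injective (Fin.ext h)

theorem Lab.no_inj {T : Tmpl d} {m κ : ℕ} (t t' : Lab T m κ) (h : t.no = t'.no) : t = t' := by
  have h1 : t.fam = t'.fam := by
    apply fno_inj
    rw [← Lab.no_div, ← Lab.no_div, h]
  have h2 : t.loc = t'.loc := by
    rw [← Lab.no_mod, ← Lab.no_mod, h]
  cases t <;> cases t' <;> simp only [Lab.fam, Sum.inl.injEq, Sum.inr.injEq, Prod.mk.injEq,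
    reduceCtorEq] at h1
  · obtain ⟨rfl, rfl⟩ := h1
    rw [ZMod.val_injective 2 h2]
  · obtain ⟨rfl, rfl, rfl⟩ := h1
    rw [ZMod.val_injective 2 h2]
  · obtain ⟨rfl, rfl, rfl⟩ := h1
    rw [lno_inj _ _ h2]
  · subst h1
    rw [lno_inj _ _ h2]

/-- bound for the numbers of labels -/
noncomputable def nLab : ℕ := Fintype.card (Ty T m) * A0 κ

theorem Lab.no_lt {T : Tmpl d} {m κ : ℕ} (t : Lab T m κ) : t.no < nLab T m κ := by
  have h := t.loc_lt
  have h1 : fno T m t.fam + 1 ≤ Fintype.card (Ty T m) := (Fintype.equivFin (Ty T m) t.fam).isLt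
  unfold Lab.no nLab
  calc fno T m t.fam * A0 κ + t.loc < fno T m t.fam * A0 κ + A0 κ := by omega
    _ = (fno T m t.fam + 1) * A0 κ := by ring
    _ ≤ _ := Nat.mul_le_mul_right _ h1

variable (M : Fin 2 → Fin m → Fin m → ZMod 2)

/-- present slots of an equation -/
def pres (ρ : T.R0) (l s : Fin m) : Fin 4 → Prop
  | 0 => 0 < s.val
  | 1 => s.val + 1 < m ∨ T.co ρ ≠ none
  | 2 => M (T.ty ρ) l s ≠ 0
  | 3 => M (T.ty ρ) l s ≠ 0 ∧ T.pr ρ 1 ≠ none

/-- admissible local values of an equation -/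
def evn (ρ : T.R0) (l s : Fin m) (a : Fin 4 → ZMod 2) : Prop :=
  (∀ q, ¬ pres T m M ρ l s q → a q = 0) ∧ ∑ q, a q = 0

/-- validity of a label with a kind -/
def vrel : Lab T m κ → Kind → Prop
  | .bank _ _ _, k => k = Kind.all
  | .path ρ _ _ _, k => k = T.kind ρ
  | .eq ρ l s a, k => k = T.kind ρ ∧ evn T m M ρ l s a
  | .seq _ _, _ => False

/-- validity of a seed label -/
def srel : Lab T m κ → Prop
  | .seq _ a => ∑ q, a q = 0
  | _ => False

/-- twisted position -/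
def twp (ρ : T.R0) (s : Fin m) : Prop := T.co ρ = none ∧ s.val + 1 = m ∧ 0 < s.val

/-- adjacency of labels -/
def arel : Lab T m κ → Lab T m κ → Out → Sh d → Fin 3 → Prop
  | .eq ρ l s a, .path ρ' l' s' b, o, h, f =>
      ρ = ρ' ∧ l = l' ∧ o = Out.same ∧ h = Sh.z ∧
      ((s'.val + 1 = s.val ∧
          ((¬ twp T m ρ s ∧ f = 0 ∧ a 0 = b) ∨ (twp T m ρ s ∧ f = 1 ∧ a 0 = b) ∨
            (twp T m ρ s ∧ f = 2 ∧ a 0 + 1 = b))) ∨
        (s' = s ∧ s.val + 1 < m ∧ f = 0 ∧ a 1 = b))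
  | .eq ρ l s a, .bank x j b, o, h, f =>
      (s.val + 1 = m ∧ T.co ρ = some x ∧ j = l ∧ o = T.out ρ ∧ h = Sh.z ∧ f = 0 ∧ a 1 = b) ∨
      (M (T.ty ρ) l s ≠ 0 ∧ j = s ∧ o = Out.same ∧ f = 0 ∧
        ((T.pr ρ 0 = some (x, h) ∧ a 2 = b) ∨ (T.pr ρ 1 = some (x, h) ∧ a 3 = b)))
  | _, _, _, _, _ => False

/-- adjacency of seed labels -/
def brel : Lab T m κ → Lab T m κ → Fin κ → Prop
  | .seq l a, .bank x j b, i => x = T.seed ∧ j = l ∧ a i = b
  | _, _, _ => False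

/-- the table as a predicate -/
def Pred (x : Cat κ d) (θ θ' : ℕ) : Prop :=
  match x with
  | .val k => θ' = 0 ∧ ∃ t : Lab T m κ, θ = t.no ∧ vrel T m κ M t k
  | .valSeed => θ' = 0 ∧ ∃ t : Lab T m κ, θ = t.no ∧ srel T m κ t
  | .adj o s f => ∃ t t' : Lab T m κ, θ = t.no ∧ θ' = t'.no ∧ arel T m κ M t t' o s f
  | .seed i => ∃ t t' : Lab T m κ, θ = t.no ∧ θ' = t'.no ∧ brel T m κ t t' i

end

theorem catNo_inj {κ d : ℕ} (x x' : Cat κ d) (h : catNo x = catNo x') : x = x' :=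
  (Fintype.equivFin (Cat κ d)).injective (Fin.ext h)

theorem catNo_lt {κ d : ℕ} (x : Cat κ d) : catNo x < NC κ d := (Fintype.equivFin (Cat κ d) x).isLt

theorem pair_inj (a b a' b' : ℕ) (h : (a + b) ^ 2 + b = (a' + b') ^ 2 + b') : a = a' ∧ b = b' := by
  have key : ∀ s b s' b' : ℕ, b ≤ s → b' ≤ s' → s ^ 2 + b = s' ^ 2 + b' → s ≤ s' := by
    intro s b s' b' hb hb' h
    by_contra hlt
    have h1 : s' + 1 ≤ s := by omega
    have h2 : (s' + 1) ^ 2 ≤ s ^ 2 := Nat.pow_le_pow_left h1 2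
    have h3 : (s' + 1) ^ 2 = s' ^ 2 + 2 * s' + 1 := by ring
    omega
  have h1 := key (a + b) b (a' + b') b' (by omega) (by omega) h
  have h2 := key (a' + b') b' (a + b) b (by omega) (by omega) h.symm
  have h3 : a + b = a' + b' := le_antisymm h1 h2
  rw [h3] at h
  omega

theorem idx_inj {κ d : ℕ} (x x' : Cat κ d) (θ θ' η η' : ℕ) (h : idx x θ θ' = idx x' η η') :
    x = x' ∧ θ = η ∧ θ' = η' := by
  have h1 := catNo_lt x
  have h2 := catNo_lt x'
  unfold idx at h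
  have h3 : catNo x = catNo x' := by
    have h4 := congrArg (fun n => n % NC κ d) h
    simp only [Nat.mul_add_mod] at h4
    rwa [Nat.mod_eq_of_lt h1, Nat.mod_eq_of_lt h2] at h4
  have h5 : (θ + θ') ^ 2 + θ' = (η + η') ^ 2 + η' := by
    have h4 : _ / NC κ d = _ / NC κ d := congrArg (fun n => n / NC κ d) h
    rw [Nat.mul_add_div (by omega), Nat.mul_add_div (by omega), Nat.div_eq_of_lt h1,
      Nat.div_eq_of_lt h2] at h4
    simpa using h4
  obtain ⟨h6, h7⟩ := pair_inj _ _ _ _ h5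
  exact ⟨catNo_inj _ _ h3, h6, h7⟩

theorem Pred_lt {d : ℕ} (T : Tmpl d) (m κ : ℕ) (M : Fin 2 → Fin m → Fin m → ZMod 2)
    (x : Cat κ d) (θ θ' : ℕ) (h : Pred T m κ M x θ θ') : θ < nLab T m κ ∧ θ' < nLab T m κ := by
  cases x with
  | val k =>
    obtain ⟨rfl, t, rfl, _⟩ := h
    have := t.no_lt
    exact ⟨this, by omega⟩
  | valSeed =>
    obtain ⟨rfl, t, rfl, _⟩ := h
    have := t.no_lt
    exact ⟨this, by omega⟩
  | adj o s f =>
    obtain ⟨t, t', rfl, rfl, _⟩ := h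
    exact ⟨t.no_lt, t'.no_lt⟩
  | seed i =>
    obtain ⟨t, t', rfl, rfl, _⟩ := h
    exact ⟨t.no_lt, t'.no_lt⟩

/-- the length needed for the table -/
noncomputable def Y1 {d : ℕ} (T : Tmpl d) (m κ : ℕ) : ℕ :=
  NC κ d * ((nLab T m κ + nLab T m κ) ^ 2 + nLab T m κ) + NC κ d + nLab T m κ

/-- the table -/
theorem exists_table {d : ℕ} (T : Tmpl d) (m κ : ℕ) (M : Fin 2 → Fin m → Fin m → ZMod 2) (Y : ℕ)
    (hY : Y1 T m κ ≤ Y) :
    ∃ u : List Bool, u.length = Y ∧ ∀ (x : Cat κ d) (θ θ' : ℕ),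
      TB (u := u) x θ θ' ↔ Pred T m κ M x θ θ' := by
  classical
  refine ⟨List.ofFn fun n : Fin Y => decide (∃ (x : Cat κ d) (θ θ' : ℕ), n.val = idx x θ θ' ∧
    Pred T m κ M x θ θ'), by simp, ?_⟩
  intro x θ θ'
  unfold TB
  rw [List.getD_eq_getElem?_getD, List.getElem?_ofFn]
  constructor
  · intro h
    split_ifs at h with h1
    · simp only [Option.getD_some, decide_eq_true_eq] at h
      obtain ⟨x', η, η', h2, h3⟩ := h
      obtain ⟨rfl, rfl, rfl⟩ := idx_inj _ _ _ _ _ _ h2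
      exact h3
    · simp at h
  · intro h
    obtain ⟨h1, h2⟩ := Pred_lt T m κ M x θ θ' h
    have h3 : idx x θ θ' < Y := by
      refine lt_of_lt_of_le ?_ hY
      unfold idx Y1
      have h4 := catNo_lt x
      have h5 : (θ + θ') ^ 2 ≤ (nLab T m κ + nLab T m κ) ^ 2 := Nat.pow_le_pow_left (by omega) 2
      have h6 : NC κ d * ((θ + θ') ^ 2 + θ') ≤
          NC κ d * ((nLab T m κ + nLab T m κ) ^ 2 + nLab T m κ) :=
        Nat.mul_le_mul_left _ (by omega)
      omega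
    rw [dif_pos h3]
    simp only [Option.getD_some, decide_eq_true_eq]
    exact ⟨x, θ, θ', rfl, h⟩

end DI
end P310
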