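import Vale.Agent.P310.AllSizes

/-!
# P310: the lower bound for every `k ≥ 2` and at all large sizes
-/

namespace P310

/-- in `t ≤ L` steps a machine does not see the input symbols beyond position `L` -/
theorem TM.loc (M : TM) (w w' : List Bool) (L : ℕ) (h : ∀ i < L, w[i]? = w'[i]?) :
    ∀ t, t ≤ L →
      ((M.step)^[t] (M.init w)).q = ((M.step)^[t] (M.init w')).q ∧
      (∀ i, ((M.step)^[t] (M.init w)).pos i = ((M.step)^[t] (M.init w')).pos i) ∧
      (∀ i, ((M.step)^[t] (M.init w)).pos i ≤ t) ∧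
      ∀ i z, z < (L : ℤ) → ((M.step)^[t] (M.init w)).tape i z =
        ((M.step)^[t] (M.init w')).tape i z := by
  intro t
  induction t with
  | zero =>
      intro _
      refine ⟨rfl, fun _ => rfl, fun _ => le_refl _, fun i z hz => ?_⟩
      simp only [Function.iterate_zero, id_eq, TM.init]
      by_cases hc : i = 0 ∧ 0 ≤ z
      · rw [if_pos hc, if_pos hc, h z.toNat (by omega)]
      · rw [if_neg hc, if_neg hc]
  | succ t ih =>
      intro ht
      obtain ⟨h1, h2, h3, h4⟩ := ih (by omega)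
      rw [Function.iterate_succ_apply', Function.iterate_succ_apply']
      set c := (M.step)^[t] (M.init w) with hc
      set c' := (M.step)^[t] (M.init w') with hc'
      unfold TM.step
      by_cases hq : c.q = M.accept ∨ c.q = M.reject
      · have hq' : c'.q = M.accept ∨ c'.q = M.reject := by rwa [← h1]
        rw [if_pos hq, if_pos hq']
        refine ⟨h1, h2, fun i => ?_, h4⟩
        have := h3 i
        push_cast
        omega
      · have hq' : ¬ (c'.q = M.accept ∨ c'.q = M.reject) := by rwa [← h1]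
        rw [if_neg hq, if_neg hq']
        have hread : (fun i => c.tape i (c.pos i)) = fun i => c'.tape i (c'.pos i) := by
          funext i
          rw [← h2 i]
          refine h4 i _ ?_
          have := h3 i
          omega
        have ho : M.δ c.q (fun i => c.tape i (c.pos i)) =
            M.δ c'.q (fun i => c'.tape i (c'.pos i)) := by rw [hread, h1]
        simp only
        rw [ho]
        refine ⟨rfl, fun i => by rw [h2 i], fun i => ?_, fun i z hz => ?_⟩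
        · have h5 := h3 i
          have h6 : ∀ D : Dir, D.disp ≤ 1 := by intro D; cases D <;> decide
          have h7 := h6 ((M.δ c'.q (fun i => c'.tape i (c'.pos i))).2.2 i)
          push_cast
          omega
        · rw [h2 i]
          by_cases hz' : z = c'.pos i
          · subst hz'
            rw [Function.update_self, Function.update_self]
          · rw [Function.update_of_ne hz', Function.update_of_ne hz']
            exact h4 i z hz

theorem TM.halts_mono (M : TM) (w : List Bool) {t t' : ℕ} (h : M.HaltsIn w t) (ht : t ≤ t') :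
    M.HaltsIn w t' := by
  have key : ∀ (c : Cfg M), (c.q = M.accept ∨ c.q = M.reject) → ∀ n, (M.step)^[n] c = c := by
    intro c hc n
    induction n with
    | zero => rfl
    | succ n ih =>
        rw [Function.iterate_succ_apply]
        have : M.step c = c := by unfold TM.step; rw [if_pos hc]
        rw [this, ih]
  obtain ⟨n, rfl⟩ := Nat.exists_eq_add_of_le ht
  unfold TM.HaltsIn TM.AcceptsIn TM.RejectsIn at h ⊢
  rw [add_comm, Function.iterate_add_apply, key _ h]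
  exact h

theorem length_adjWord {n : ℕ} (G : SimpleGraph (Fin n)) : (adjWord G).length = n * n := by
  unfold adjWord
  simp [List.length_flatMap]

theorem not_wl_bot_top {k n : ℕ} (hk : 2 ≤ k) (hn : 2 ≤ n) :
    ¬ WLEquiv k (⊥ : SimpleGraph (Fin n)) (⊤ : SimpleGraph (Fin n)) := by
  intro h
  have h0 := h 0
  let x : Fin k → Fin n := fun i => if i.val = 0 then ⟨0, by omega⟩ else ⟨1, by omega⟩
  have hx : col (⊤ : SimpleGraph (Fin n)) k 0 x ∈
      (Finset.univ : Finset (Fin k → Fin n)).val.map (col (⊤ : SimpleGraph (Fin n)) k 0) :=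
    Multiset.mem_map_of_mem _ (Finset.mem_univ x)
  rw [← h0, Multiset.mem_map] at hx
  obtain ⟨y, _, hy⟩ := hx
  have h2 := congrFun (congrFun (congrArg Prod.snd hy) ⟨0, by omega⟩) ⟨1, by omega⟩
  simp [col, x] at h2

theorem small {k n : ℕ} (hk : 2 ≤ k) (hn : 2 ≤ n) (M : TM) (hM : Decides k M) {T₀ : ℕ}
    (hT : T₀ ≤ n) : ∃ G H : SimpleGraph (Fin n), ¬ M.HaltsIn (inputWord G H) T₀ := by
  by_contra hcon
  push Not at hcon
  have h1 := hcon ⊥ ⊥
  have h2 := hcon ⊥ ⊤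
  obtain ⟨t1, ht1⟩ := (hM n ⊥ ⊥).1 (fun _ => rfl)
  obtain ⟨t2, ht2⟩ := (hM n ⊥ ⊤).2 (not_wl_bot_top hk hn)
  have a1 := M.absorb _ ht1 h1
  have a2 := M.absorb' _ ht2 h2
  have hloc := M.loc (inputWord (⊥ : SimpleGraph (Fin n)) ⊥)
    (inputWord (⊥ : SimpleGraph (Fin n)) ⊤) n ?_ T₀ hT
  · unfold TM.AcceptsIn at a1
    unfold TM.RejectsIn at a2
    rw [hloc.1] at a1
    exact M.acc_ne_rej (a1.symm.trans a2)
  · intro i hi
    have hlen : i < (adjWord (⊥ : SimpleGraph (Fin n))).length := by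
      rw [length_adjWord]
      nlinarith
    unfold inputWord
    rw [List.getElem?_append_left hlen, List.getElem?_append_left hlen]

/-- **Lower bound for every `k ≥ 2` and all large sizes.** -/
theorem all_sizes : ∃ c : ℝ, 0 < c ∧ ∀ k : ℕ, 2 ≤ k → ∀ M : TM, Decides k M →
    ∃ n₀ : ℕ, ∀ n : ℕ, n₀ ≤ n → ∃ n' : ℕ, n' ≤ n ∧ ∃ G H : SimpleGraph (Fin n'),
      ¬ M.HaltsIn (inputWord G H) ⌊(n : ℝ) ^ (c * (k : ℝ))⌋₊ := by
  obtain ⟨c, hc, k₀, hcore⟩ := core XSys.xs XSys.xc Horn.st Horn.hc Horn.closure ts cm (gn ex) hs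
    sp dx di iv
  have hk0 : (0 : ℝ) < (k₀ : ℝ) + 1 := by positivity
  refine ⟨min c (1 / ((k₀ : ℝ) + 1)), lt_min hc (by positivity), fun k hk M hM => ?_⟩
  set c' := min c (1 / ((k₀ : ℝ) + 1)) with hc'
  have hkR : (0 : ℝ) ≤ (k : ℝ) := Nat.cast_nonneg _
  by_cases hkk : k₀ ≤ k
  · obtain ⟨κ, d, hκ, h9, hA⟩ := hcore k hkk
    have h9' : 9 * (c' * (k : ℝ)) ≤ ((d - 2 : ℕ) : ℝ) := by
      have : c' * (k : ℝ) ≤ c * (k : ℝ) := mul_le_mul_of_nonneg_right (min_le_left _ _) hkR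
      linarith
    obtain ⟨W₀, hW₀⟩ := hA M hM (2 ^ (d - 2))
    obtain ⟨Y₁, hY₁⟩ := nV_le κ hκ
    have hfac : 1 ≤ κ.factorial := Nat.factorial_pos κ
    set V := W₀ + Y₁ + 1 with hV
    refine ⟨nV κ (V * κ.factorial) + V, fun n hn => ?_⟩
    -- the largest size below `n`
    obtain ⟨W, hW1, hW2, hW3⟩ : ∃ W, V ≤ W ∧ nV κ (W * κ.factorial) ≤ n ∧
        n < nV κ ((W + 1) * κ.factorial) := by
      classical
      set W := Nat.findGreatest (fun W => nV κ (W * κ.factorial) ≤ n) n with hW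
      have h1 : V ≤ W := Nat.le_findGreatest (by omega) (by omega)
      have h2 : nV κ (W * κ.factorial) ≤ n :=
        Nat.findGreatest_spec (P := fun W => nV κ (W * κ.factorial) ≤ n) (m := V) (by omega)
          (by omega)
      refine ⟨W, h1, h2, ?_⟩
      by_contra hlt
      push Not at hlt
      by_cases hWn : W + 1 ≤ n
      · have := Nat.findGreatest_is_greatest
          (P := fun W => nV κ (W * κ.factorial) ≤ n) (Nat.lt_succ_self W) hWn
        exact this hlt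
      · have h5 : Y₁ ≤ (W + 1) * κ.factorial := by
          calc Y₁ ≤ (W + 1) * 1 := by omega
            _ ≤ (W + 1) * κ.factorial := by gcongr
        have h6 := (hY₁ _ h5).1
        have h7 : W + 1 ≤ (W + 1) * κ.factorial := by
          calc W + 1 = (W + 1) * 1 := by ring
            _ ≤ (W + 1) * κ.factorial := by gcongr
        omega
    refine ⟨nV κ (W * κ.factorial), hW2, hW₀ W (by omega) _ ?_⟩
    -- the time bound
    set Y := W * κ.factorial with hY
    have hY1 : 1 ≤ Y := by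
      calc 1 = 1 * 1 := by ring
        _ ≤ W * κ.factorial := by gcongr; omega
    have hn1 : n ≤ (2 * Y) ^ 9 := by
      have h5 : Y₁ ≤ (W + 1) * κ.factorial := by
        calc Y₁ ≤ (W + 1) * 1 := by omega
          _ ≤ (W + 1) * κ.factorial := by gcongr
      have h6 := (hY₁ _ h5).2
      have h7 : (W + 1) * κ.factorial ≤ 2 * Y := by
        calc (W + 1) * κ.factorial ≤ (2 * W) * κ.factorial := by gcongr; omega
          _ = 2 * Y := by rw [hY]; ring
      calc n ≤ nV κ ((W + 1) * κ.factorial) := hW3.le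
        _ ≤ ((W + 1) * κ.factorial) ^ 9 := h6
        _ ≤ (2 * Y) ^ 9 := Nat.pow_le_pow_left h7 9
    have hnpos : 1 ≤ n := by omega
    have hnR : (1 : ℝ) ≤ (n : ℝ) := by exact_mod_cast hnpos
    have hYR : (1 : ℝ) ≤ ((2 * Y : ℕ) : ℝ) := by exact_mod_cast (by omega : 1 ≤ 2 * Y)
    have hn2 : (n : ℝ) ≤ ((2 * Y : ℕ) : ℝ) ^ (9 : ℕ) := by exact_mod_cast hn1
    have h0 : 0 ≤ c' * (k : ℝ) := by
      have : 0 < c' := lt_min hc (by positivity)
      positivity
    have h8 : (n : ℝ) ^ (c' * (k : ℝ)) ≤ ((2 * Y : ℕ) : ℝ) ^ (d - 2) := by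
      calc (n : ℝ) ^ (c' * (k : ℝ)) ≤ (((2 * Y : ℕ) : ℝ) ^ (9 : ℕ)) ^ (c' * (k : ℝ)) :=
            Real.rpow_le_rpow (by positivity) hn2 h0
        _ = ((2 * Y : ℕ) : ℝ) ^ (9 * (c' * (k : ℝ))) := by
            rw [← Real.rpow_natCast, ← Real.rpow_mul (by positivity)]
            norm_num
        _ ≤ ((2 * Y : ℕ) : ℝ) ^ (((d - 2 : ℕ) : ℝ)) :=
            Real.rpow_le_rpow_of_exponent_le hYR h9'
        _ = _ := Real.rpow_natCast _ _
    have h10 : ⌊(n : ℝ) ^ (c' * (k : ℝ))⌋₊ ≤ (2 * Y) ^ (d - 2) := by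
      refine Nat.floor_le_of_le ?_
      exact_mod_cast h8
    calc ⌊(n : ℝ) ^ (c' * (k : ℝ))⌋₊ ≤ (2 * Y) ^ (d - 2) := h10
      _ = 2 ^ (d - 2) * Y ^ (d - 2) := by rw [mul_pow]
  · push Not at hkk
    refine ⟨2, fun n hn => ⟨n, le_refl _, small hk hn M hM ?_⟩⟩
    have hnR : (1 : ℝ) ≤ (n : ℝ) := by exact_mod_cast (by omega : 1 ≤ n)
    have h1 : c' * (k : ℝ) ≤ 1 := by
      have h2 : c' ≤ 1 / ((k₀ : ℝ) + 1) := min_le_right _ _
      have h3 : (k : ℝ) ≤ (k₀ : ℝ) + 1 := by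
        have : (k : ℝ) < (k₀ : ℝ) := by exact_mod_cast hkk
        linarith
      calc c' * (k : ℝ) ≤ 1 / ((k₀ : ℝ) + 1) * ((k₀ : ℝ) + 1) := by gcongr
        _ = 1 := by field_simp
    have h4 : (n : ℝ) ^ (c' * (k : ℝ)) ≤ (n : ℝ) := by
      calc (n : ℝ) ^ (c' * (k : ℝ)) ≤ (n : ℝ) ^ (1 : ℝ) :=
            Real.rpow_le_rpow_of_exponent_le hnR h1
        _ = n := Real.rpow_one _
    exact Nat.floor_le_of_le h4

theorem TM.time_gt (M : TM) {T : ℕ → ℕ} (hT : TimeBound M T) {n' : ℕ}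
    {G H : SimpleGraph (Fin n')} {x : ℝ} (h : ¬ M.HaltsIn (inputWord G H) ⌊x⌋₊) :
    x < (T n' : ℝ) := by
  by_contra hcon
  push Not at hcon
  refine h (M.halts_mono _ (hT n' G H) ?_)
  exact Nat.le_floor hcon

/-- **The final form.** -/
theorem final_form : ∃ c : ℝ, 0 < c ∧ ∀ k : ℕ, 2 ≤ k → ∀ M : TM, Decides k M →
    (∃ n₀ : ℕ, ∀ n : ℕ, n₀ ≤ n → ∃ n' : ℕ, n' ≤ n ∧ ∃ G H : SimpleGraph (Fin n'),
      ¬ M.HaltsIn (inputWord G H) ⌊(n : ℝ) ^ (c * (k : ℝ))⌋₊) ∧
    ∀ T : ℕ → ℕ, TimeBound M T →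
      (¬ (fun n : ℕ => (T n : ℝ)) =O[Filter.atTop] (fun n : ℕ => (n : ℝ) ^ (c * (k : ℝ)))) ∧
      (Monotone T → ∀ᶠ n : ℕ in Filter.atTop, (n : ℝ) ^ (c * (k : ℝ)) ≤ T n) := by
  obtain ⟨c, hc, hall⟩ := all_sizes
  refine ⟨c / 2, by positivity, fun k hk M hM => ?_⟩
  obtain ⟨n₀, hn₀⟩ := hall k hk M hM
  have hkR : (2 : ℝ) ≤ (k : ℝ) := by exact_mod_cast hk
  have ha : 0 < c / 2 * (k : ℝ) := by positivity
  have hle : ∀ n : ℕ, 1 ≤ n → (n : ℝ) ^ (c / 2 * (k : ℝ)) ≤ (n : ℝ) ^ (c * (k : ℝ)) := by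
    intro n hn
    have hnR : (1 : ℝ) ≤ (n : ℝ) := by exact_mod_cast hn
    refine Real.rpow_le_rpow_of_exponent_le hnR ?_
    nlinarith
  have hstrong : ∀ n : ℕ, max n₀ 1 ≤ n → ∃ n' : ℕ, n' ≤ n ∧ ∃ G H : SimpleGraph (Fin n'),
      ¬ M.HaltsIn (inputWord G H) ⌊(n : ℝ) ^ (c / 2 * (k : ℝ))⌋₊ := by
    intro n hn
    obtain ⟨n', hn', G, H, hGH⟩ := hn₀ n (le_trans (le_max_left _ _) hn)
    refine ⟨n', hn', G, H, fun hh => hGH (M.halts_mono _ hh ?_)⟩
    exact Nat.floor_le_floor (hle n (le_trans (le_max_right _ _) hn))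
  refine ⟨⟨max n₀ 1, hstrong⟩, fun T hT => ⟨fun hO => ?_, fun hmono => ?_⟩⟩
  · -- not big-O
    obtain ⟨C, hC⟩ := hO.bound
    obtain ⟨N, hN⟩ := Filter.eventually_atTop.mp hC
    -- a bound for the small sizes
    obtain ⟨B, hB⟩ : ∃ B : ℝ, ∀ j < N, (T j : ℝ) ≤ B :=
      ⟨∑ j ∈ Finset.range N, (T j : ℝ), fun j hj =>
        Finset.single_le_sum (f := fun j => (T j : ℝ)) (fun _ _ => Nat.cast_nonneg _)
          (Finset.mem_range.2 hj)⟩
    have hlim : Filter.Tendsto (fun n : ℕ => (n : ℝ) ^ (c / 2 * (k : ℝ))) Filter.atTop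
        Filter.atTop := (tendsto_rpow_atTop ha).comp tendsto_natCast_atTop_atTop
    obtain ⟨n, hn1, hn2⟩ := ((hlim.eventually_ge_atTop (max (|C| + 1) (max B 1))).and
      (Filter.eventually_ge_atTop (max n₀ 1))).exists
    obtain ⟨n', hn', G, H, hGH⟩ := hn₀ n (le_trans (le_max_left _ _) hn2)
    have hgt := M.time_gt hT hGH
    have hnR : (1 : ℝ) ≤ (n : ℝ) := by exact_mod_cast le_trans (le_max_right _ _) hn2
    set X := (n : ℝ) ^ (c / 2 * (k : ℝ)) with hX
    have hXX : (n : ℝ) ^ (c * (k : ℝ)) = X * X := by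
      rw [hX, ← Real.rpow_add (by linarith)]
      congr 1
      ring
    have hX1 : |C| + 1 ≤ X := le_trans (le_max_left _ _) hn1
    have hX2 : B ≤ X := le_trans (le_trans (le_max_left _ _) (le_max_right _ _)) hn1
    have hX3 : 1 ≤ X := le_trans (le_trans (le_max_right _ _) (le_max_right _ _)) hn1
    rw [hXX] at hgt
    by_cases hnN : n' < N
    · have := hB n' hnN
      nlinarith
    · push Not at hnN
      have h1 := hN n' hnN
      rw [Real.norm_natCast, Real.norm_of_nonneg (by positivity)] at h1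
      have h2 : (n' : ℝ) ^ (c / 2 * (k : ℝ)) ≤ X :=
        Real.rpow_le_rpow (Nat.cast_nonneg _) (by exact_mod_cast hn') ha.le
      have h3 : C * (n' : ℝ) ^ (c / 2 * (k : ℝ)) ≤ |C| * X := by
        calc C * (n' : ℝ) ^ (c / 2 * (k : ℝ)) ≤ |C| * (n' : ℝ) ^ (c / 2 * (k : ℝ)) := by
              gcongr; exact le_abs_self C
          _ ≤ |C| * X := by gcongr
      nlinarith [abs_nonneg C]
  · filter_upwards [Filter.eventually_ge_atTop (max n₀ 1)] with n hn
    obtain ⟨n', hn', G, H, hGH⟩ := hstrong n hn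
    have hgt := M.time_gt hT hGH
    have : (T n' : ℝ) ≤ T n := by exact_mod_cast hmono hn'
    linarith

end P310
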