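import Vale.Agent.P310.SM

/-!
# Arithmetic expressions with bounded quantifiers, compiled to While programs

Registers: `0` output stack, `1` the input list `u`, `2,3,4,5` scratch, environment from `6` on.
-/

namespace P310

/-- Expressions; de Bruijn variables; `bit e` is the bit number `e` of the input list; `ex b e` is
`1` if some `i < b` satisfies `e ≠ 0` (with `i` pushed on the environment), `0` otherwise. -/
inductive Ex
  | var (i : ℕ)
  | num (c : ℕ)
  | add (a b : Ex)
  | mul (a b : Ex)
  | eq (a b : Ex)
  | lt (a b : Ex)
  | and (a b : Ex)
  | or (a b : Ex)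
  | bit (e : Ex)
  | ex (b e : Ex)

/-- value, given the list `u` and the environment (innermost variable first) -/
def Ex.eval (u : List Bool) : List ℕ → Ex → ℕ
  | env, .var i => env.getD i 0
  | _, .num c => c
  | env, .add a b => a.eval u env + b.eval u env
  | env, .mul a b => a.eval u env * b.eval u env
  | env, .eq a b => if a.eval u env = b.eval u env then 1 else 0
  | env, .lt a b => if a.eval u env < b.eval u env then 1 else 0
  | env, .and a b => if a.eval u env ≠ 0 ∧ b.eval u env ≠ 0 then 1 else 0
  | env, .or a b => if a.eval u env ≠ 0 ∨ b.eval u env ≠ 0 then 1 else 0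
  | env, .bit e => if u.getD (e.eval u env) false = true then 1 else 0
  | env, .ex b e => if ∃ i < b.eval u env, e.eval u (i :: env) ≠ 0 then 1 else 0

/-- degree of the polynomial bound for values -/
def Ex.vdeg : Ex → ℕ
  | .var _ => 1
  | .num _ => 0
  | .add a b => max a.vdeg b.vdeg
  | .mul a b => a.vdeg + b.vdeg
  | _ => 0

/-- degree of the polynomial bound for the running time (depends on the shape only; finite
disjunctions and conjunctions do not increase it) -/
def Ex.tdeg : Ex → ℕ
  | .var _ => 2
  | .num _ => 1
  | .add a b => max (max a.tdeg b.tdeg) (max a.vdeg b.vdeg + 2)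
  | .mul a b => max (max a.tdeg b.tdeg) (a.vdeg + b.vdeg + 2)
  | .eq a b => max (max a.tdeg b.tdeg) (max a.vdeg b.vdeg + 2)
  | .lt a b => max (max a.tdeg b.tdeg) (max a.vdeg b.vdeg + 2)
  | .and a b => max (max a.tdeg b.tdeg) (max a.vdeg b.vdeg + 2)
  | .or a b => max (max a.tdeg b.tdeg) (max a.vdeg b.vdeg + 2)
  | .bit e => max e.tdeg (e.vdeg + 3)
  | .ex b e => max b.tdeg ((b.vdeg + 1) * (e.tdeg + e.vdeg + 2)) + b.vdeg + 2

/-- register number of the `j`-th value of an environment of length `n` (outermost first) -/
def envStore (u out : List Bool) (env : List ℕ) : Store := fun r =>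
  if r = 0 then out
  else if r = 1 then u
  else if r < 6 then []
  else List.replicate (env.reverse.getD (r - 6) 0) true

/-- **Module EX**: compilation of expressions.  In an environment of length `n` the value is
written to the register `6 + n` (that is, pushed on the environment).  `X` bounds the environment
and the length of `u`. -/
def EXStatement : Prop :=
  ∀ (e : Ex) (n : ℕ), ∃ (c : Cmd) (C : ℕ), ∀ (u out : List Bool) (env : List ℕ) (X : ℕ),
    env.length = n → u.length ≤ X → (∀ x ∈ env, x ≤ X) →
    ∃ t ≤ C * (X + 2) ^ e.tdeg,
      c.Run (envStore u out env) (envStore u out (e.eval u env :: env)) t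

/-- The generator: `N` computes the number of vertices from `Y = u.length` (environment `[Y]`),
`A` computes the adjacency bit (environment `[q, p, g, n, Y]`, `g = 0, 1` the graph). -/
def genWord (N A : Ex) (u : List Bool) : List Bool :=
  let n := N.eval u [u.length]
  (List.range 2).flatMap fun g => (List.range n).flatMap fun p => (List.range n).map fun q =>
    decide (A.eval u [q, p, g, n, u.length] ≠ 0)

/-- **Module GN**: a While program which on the input list `u` (register 1, all others empty)
writes `genWord N A u` to register 0 in polynomial time. -/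
def GNStatement : Prop :=
  ∀ (N A : Ex), ∃ (c : Cmd) (C : ℕ), ∀ u : List Bool,
    ∃ t ≤ C * (u.length + 2) ^ ((N.vdeg + 1) * (A.tdeg + N.tdeg + 10)),
      ∃ s', c.Run (fun r => if r = 1 then u else []) s' t ∧ s' 0 = genWord N A u

end P310
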