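import Vale.Agent.P310.Ex

/-!
# Module EX, part 1: building blocks for While programs with cost bounds
-/


namespace P310

open Function (update)

/-- `k` in unary -/
abbrev rep (k : ℕ) : List Bool := List.replicate k true

theorem rep_succ (k : ℕ) : true :: rep k = rep (k + 1) := rfl

theorem rep_tail (k : ℕ) : (rep k).tail = rep (k - 1) := by
  cases k with
  | zero => rfl
  | succ k => rfl

theorem rep_ne_nil {k : ℕ} (h : 0 < k) : rep k ≠ [] := by
  cases k with
  | zero => exact absurd h (lt_irrefl _)
  | succ k => exact List.cons_ne_nil _ _

theorem rep_head {k : ℕ} (h : 0 < k) : (rep k).head? = some true := by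
  cases k with
  | zero => exact absurd h (lt_irrefl _)
  | succ k => rfl

/-- runs with a bound for the cost -/
def Rn (c : Cmd) (s s' : Store) (T : ℕ) : Prop := ∃ t ≤ T, c.Run s s' t

namespace Rn

theorem mono {c : Cmd} {s s' : Store} {T T' : ℕ} (h : Rn c s s' T) (hT : T ≤ T') :
    Rn c s s' T' := by
  obtain ⟨t, ht, h⟩ := h
  exact ⟨t, ht.trans hT, h⟩

theorem skip (s : Store) : Rn .skip s s 1 := ⟨1, le_rfl, .skip s⟩

theorem push (σ : ℕ) (b : Bool) (s : Store) : Rn (.push σ b) s (update s σ (b :: s σ)) 1 :=
  ⟨1, le_rfl, .push σ b s⟩

theorem pop (σ : ℕ) (s : Store) : Rn (.pop σ) s (update s σ (s σ).tail) 1 :=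
  ⟨1, le_rfl, .pop σ s⟩

theorem seq {c d : Cmd} {s s' s'' : Store} {T T' : ℕ} (h : Rn c s s' T) (h' : Rn d s' s'' T') :
    Rn (.seq c d) s s'' (T + T' + 1) := by
  obtain ⟨t, ht, h⟩ := h
  obtain ⟨t', ht', h'⟩ := h'
  exact ⟨t + t' + 1, by omega, .seq h h'⟩

theorem iteE {σ : ℕ} {ce cf ct : Cmd} {s s' : Store} {T : ℕ} (h : s σ = []) (h' : Rn ce s s' T) :
    Rn (.ite σ ce cf ct) s s' (T + 1) := by
  obtain ⟨t, ht, h'⟩ := h'
  exact ⟨t + 1, by omega, .iteE h h'⟩

theorem iteF {σ : ℕ} {ce cf ct : Cmd} {s s' : Store} {T : ℕ} (h : (s σ).head? = some false)
    (h' : Rn cf s s' T) : Rn (.ite σ ce cf ct) s s' (T + 1) := by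
  obtain ⟨t, ht, h'⟩ := h'
  exact ⟨t + 1, by omega, .iteF h h'⟩

theorem iteT {σ : ℕ} {ce cf ct : Cmd} {s s' : Store} {T : ℕ} (h : (s σ).head? = some true)
    (h' : Rn ct s s' T) : Rn (.ite σ ce cf ct) s s' (T + 1) := by
  obtain ⟨t, ht, h'⟩ := h'
  exact ⟨t + 1, by omega, .iteT h h'⟩

/-- a loop following a sequence of stores -/
theorem loop {σ : ℕ} {c : Cmd} {T : ℕ} : ∀ (k : ℕ) (f : ℕ → Store),
    (∀ i < k, f i σ ≠ []) → (∀ i < k, Rn c (f i) (f (i + 1)) T) → f k σ = [] →
    Rn (.loop σ c) (f 0) (f k) (k * (T + 1) + 1) := by
  intro k
  induction k with
  | zero =>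
    intro f _ _ h3
    exact ⟨1, by omega, .loopE h3⟩
  | succ k ih =>
    intro f h1 h2 h3
    obtain ⟨t, ht, hr⟩ := h2 0 (Nat.succ_pos k)
    obtain ⟨t', ht', hr'⟩ := ih (fun i => f (i + 1)) (fun i hi => h1 (i + 1) (by omega))
      (fun i hi => h2 (i + 1) (by omega)) h3
    refine ⟨t + t' + 1, ?_, .loopN (h1 0 (Nat.succ_pos k)) hr hr'⟩
    have : (k + 1) * (T + 1) = k * (T + 1) + (T + 1) := by ring
    omega

end Rn

theorem Rn.conv {c : Cmd} {s s' t t' : Store} {T T' : ℕ} (h : Rn c s s' T) (h0 : t = s)
    (h1 : t' = s') (hT : T ≤ T') : Rn c t t' T' := by
  subst h0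
  subst h1
  exact h.mono hT

theorem Rn.to {c : Cmd} {s s' t' : Store} {T : ℕ} (h : Rn c s s' T)
    (h1 : t' = s') : Rn c s t' T := by
  subst h1
  exact h

/-! ### Building blocks -/

/-- empty the register `a` -/
def clearC (a : ℕ) : Cmd := .loop a (.pop a)

theorem clear_run (a : ℕ) (s : Store) (k : ℕ) (hk : (s a).length ≤ k) :
    Rn (clearC a) s (update s a []) (2 * k + 1) := by
  have h := Rn.loop (σ := a) (c := .pop a) (T := 1) (s a).length
    (fun i => update s a ((s a).drop i))
    (by
      intro i hi h0
      simp only [Function.update_self] at h0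
      have := congrArg List.length h0
      simp only [List.length_drop, List.length_nil] at this
      omega)
    (by
      intro i hi
      have h1 := Rn.pop a (update s a ((s a).drop i))
      simp only [Function.update_self, Function.update_idem, List.tail_drop] at h1
      exact h1)
    (by simp)
  simp only [List.drop_zero, Function.update_eq_self, List.drop_length] at h
  exact h.mono (by omega)

/-- move the number in `a` to `b` (add it) -/
def moveC (a b : ℕ) : Cmd := .loop a (.seq (.pop a) (.push b true))

theorem move_run {a b : ℕ} (hab : a ≠ b) (s : Store) {k m : ℕ} (ha : s a = rep k)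
    (hb : s b = rep m) :
    Rn (moveC a b) s (update (update s a []) b (rep (m + k))) (4 * k + 1) := by
  have h := Rn.loop (σ := a) (c := .seq (.pop a) (.push b true)) (T := 3) k
    (fun i => update (update s a (rep (k - i))) b (rep (m + i)))
    (by
      intro i hi
      have : update (update s a (rep (k - i))) b (rep (m + i)) a = rep (k - i) := by (simp only [Function.update_apply]; split_ifs <;> first | rfl | (exfalso; omega) | exact rep_tail _ | (subst_vars; simp_all [rep_tail]; done) | (subst_vars; simp_all [rep_tail]; omega))
      simp only [this]
      exact rep_ne_nil (by omega))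
    (by
      intro i hi
      refine Rn.conv (Rn.seq (Rn.pop a _) (Rn.push b true _)) rfl ?_ le_rfl
      (funext r; simp only [Function.update_apply]; split_ifs <;> first | rfl | (exfalso; omega) | exact rep_tail _ | (subst_vars; simp_all [rep_tail]; done) | (subst_vars; simp_all [rep_tail]; omega)))
    (by (simp only [Function.update_apply]; split_ifs <;> first | rfl | (exfalso; omega) | exact rep_tail _ | (subst_vars; simp_all [rep_tail]; done) | (subst_vars; simp_all [rep_tail]; omega)))
  refine h.conv ?_ ?_ (by omega)
  · (funext r; simp only [Function.update_apply]; split_ifs <;> first | rfl | (exfalso; omega) | exact rep_tail _ | (subst_vars; simp_all [rep_tail]; done) | (subst_vars; simp_all [rep_tail]; omega))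
  · (funext r; simp only [Function.update_apply]; split_ifs <;> first | rfl | (exfalso; omega) | exact rep_tail _ | (subst_vars; simp_all [rep_tail]; done) | (subst_vars; simp_all [rep_tail]; omega))

/-- copy (add) the number in `a` to `b`, scratch `c` -/
def copyC (a b c : ℕ) : Cmd :=
  .seq (.loop a (.seq (.pop a) (.seq (.push b true) (.push c true)))) (moveC c a)

theorem copy_run {a b c : ℕ} (hab : a ≠ b) (hac : a ≠ c) (hbc : b ≠ c) (s : Store) {k m : ℕ}
    (ha : s a = rep k) (hb : s b = rep m) (hc : s c = []) :
    Rn (copyC a b c) s (update s b (rep (m + k))) (10 * k + 3) := by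
  have h := Rn.loop (σ := a) (c := .seq (.pop a) (.seq (.push b true) (.push c true))) (T := 5) k
    (fun i => update (update (update s a (rep (k - i))) b (rep (m + i))) c (rep i))
    (by
      intro i hi
      have : update (update (update s a (rep (k - i))) b (rep (m + i))) c (rep i) a
        = rep (k - i) := by (simp only [Function.update_apply]; split_ifs <;> first | rfl | (exfalso; omega) | exact rep_tail _ | (subst_vars; simp_all [rep_tail]; done) | (subst_vars; simp_all [rep_tail]; omega))
      simp only [this]
      exact rep_ne_nil (by omega))
    (by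
      intro i hi
      refine Rn.conv (Rn.seq (Rn.pop a _) (Rn.seq (Rn.push b true _) (Rn.push c true _))) rfl ?_
        le_rfl
      (funext r; simp only [Function.update_apply]; split_ifs <;> first | rfl | (exfalso; omega) | exact rep_tail _ | (subst_vars; simp_all [rep_tail]; done) | (subst_vars; simp_all [rep_tail]; omega)))
    (by (simp only [Function.update_apply]; split_ifs <;> first | rfl | (exfalso; omega) | exact rep_tail _ | (subst_vars; simp_all [rep_tail]; done) | (subst_vars; simp_all [rep_tail]; omega)))
  have h2 := move_run (a := c) (b := a) hac.symm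
    (update (update (update s a (rep (k - k))) b (rep (m + k))) c (rep k)) (k := k) (m := 0)
    (by (simp only [Function.update_apply]; split_ifs <;> first | rfl | (exfalso; omega) | exact rep_tail _ | (subst_vars; simp_all [rep_tail]; done) | (subst_vars; simp_all [rep_tail]; omega))) (by (simp only [Function.update_apply]; split_ifs <;> first | rfl | (exfalso; omega) | exact rep_tail _ | (subst_vars; simp_all [rep_tail]; done) | (subst_vars; simp_all [rep_tail]; omega)))
  refine (Rn.seq h h2).conv ?_ ?_ (by omega)
  · (funext r; simp only [Function.update_apply]; split_ifs <;> first | rfl | (exfalso; omega) | exact rep_tail _ | (subst_vars; simp_all [rep_tail]; done) | (subst_vars; simp_all [rep_tail]; omega))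
  · (funext r; simp only [Function.update_apply]; split_ifs <;> first | rfl | (exfalso; omega) | exact rep_tail _ | (subst_vars; simp_all [rep_tail]; done) | (subst_vars; simp_all [rep_tail]; omega))

/-- multiply the number in `a` by the number in `b`, empty `b`; scratch `2, 3` -/
def mulC (a b : ℕ) : Cmd :=
  .seq (.loop a (.seq (.pop a) (copyC b 2 3))) (.seq (clearC b) (moveC 2 a))

theorem mul_run {a b : ℕ} (ha6 : 6 ≤ a) (hb6 : 6 ≤ b) (hab : a ≠ b) (s : Store) {x y : ℕ}
    (ha : s a = rep x) (hb : s b = rep y) (h2 : s 2 = []) (h3 : s 3 = []) :
    Rn (mulC a b) s (update (update s b []) a (rep (x * y))) (20 * ((x + 1) * (y + 1))) := by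
  have h := Rn.loop (σ := a) (c := .seq (.pop a) (copyC b 2 3)) (T := 10 * y + 5) x
    (fun i => update (update s a (rep (x - i))) 2 (rep (i * y)))
    (by
      intro i hi
      have : update (update s a (rep (x - i))) 2 (rep (i * y)) a = rep (x - i) := by (simp only [Function.update_apply]; split_ifs <;> first | rfl | (exfalso; omega) | exact rep_tail _ | (subst_vars; simp_all [rep_tail]; done) | (subst_vars; simp_all [rep_tail]; omega))
      simp only [this]
      exact rep_ne_nil (by omega))
    (by
      intro i hi
      refine Rn.conv (Rn.seq (Rn.pop a _) (copy_run (a := b) (b := 2) (c := 3) (k := y)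
        (m := i * y) (by omega) (by omega) (by omega) _ ?_ ?_ ?_)) rfl ?_ (by omega)
      · (simp only [Function.update_apply]; split_ifs <;> first | rfl | (exfalso; omega) | exact rep_tail _ | (subst_vars; simp_all [rep_tail]; done) | (subst_vars; simp_all [rep_tail]; omega))
      · (simp only [Function.update_apply]; split_ifs <;> first | rfl | (exfalso; omega) | exact rep_tail _ | (subst_vars; simp_all [rep_tail]; done) | (subst_vars; simp_all [rep_tail]; omega))
      · (simp only [Function.update_apply]; split_ifs <;> first | rfl | (exfalso; omega) | exact rep_tail _ | (subst_vars; simp_all [rep_tail]; done) | (subst_vars; simp_all [rep_tail]; omega))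
      · rw [Nat.succ_mul]
        (funext r; simp only [Function.update_apply]; split_ifs <;> first | rfl | (exfalso; omega) | exact rep_tail _ | (subst_vars; simp_all [rep_tail]; done) | (subst_vars; simp_all [rep_tail]; omega)))
    (by (simp only [Function.update_apply]; split_ifs <;> first | rfl | (exfalso; omega) | exact rep_tail _ | (subst_vars; simp_all [rep_tail]; done) | (subst_vars; simp_all [rep_tail]; omega)))
  have h4 := clear_run b (update (update s a (rep (x - x))) 2 (rep (x * y))) y (by
    have : update (update s a (rep (x - x))) 2 (rep (x * y)) b = rep y := by (simp only [Function.update_apply]; split_ifs <;> first | rfl | (exfalso; omega) | exact rep_tail _ | (subst_vars; simp_all [rep_tail]; done) | (subst_vars; simp_all [rep_tail]; omega))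
    rw [this]
    simp)
  have h5 := move_run (a := 2) (b := a) (by omega)
    (update (update (update s a (rep (x - x))) 2 (rep (x * y))) b []) (k := x * y) (m := 0)
    (by (simp only [Function.update_apply]; split_ifs <;> first | rfl | (exfalso; omega) | exact rep_tail _ | (subst_vars; simp_all [rep_tail]; done) | (subst_vars; simp_all [rep_tail]; omega))) (by (simp only [Function.update_apply]; split_ifs <;> first | rfl | (exfalso; omega) | exact rep_tail _ | (subst_vars; simp_all [rep_tail]; done) | (subst_vars; simp_all [rep_tail]; omega)))
  refine (Rn.seq h (Rn.seq h4 h5)).conv ?_ ?_ ?_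
  · rw [Nat.zero_mul]
    (funext r; simp only [Function.update_apply]; split_ifs <;> first | rfl | (exfalso; omega) | exact rep_tail _ | (subst_vars; simp_all [rep_tail]; done) | (subst_vars; simp_all [rep_tail]; omega))
  · (funext r; simp only [Function.update_apply]; split_ifs <;> first | rfl | (exfalso; omega) | exact rep_tail _ | (subst_vars; simp_all [rep_tail]; done) | (subst_vars; simp_all [rep_tail]; omega))
  · nlinarith

/-- truncated difference loop -/
def cmpC (a b : ℕ) : Cmd := .loop a (.seq (.pop a) (.ite b (.push 2 true) (.pop b) (.pop b)))

theorem cmp_run {a b : ℕ} (ha6 : 6 ≤ a) (hb6 : 6 ≤ b) (hab : a ≠ b) (s : Store) {x y : ℕ}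
    (ha : s a = rep x) (hb : s b = rep y) (h2 : s 2 = []) :
    Rn (cmpC a b) s (update (update (update s a []) b (rep (y - x))) 2 (rep (x - y)))
      (5 * x + 1) := by
  have h := Rn.loop (σ := a) (c := .seq (.pop a) (.ite b (.push 2 true) (.pop b) (.pop b)))
    (T := 4) x
    (fun i => update (update (update s a (rep (x - i))) b (rep (y - i))) 2 (rep (i - y)))
    (by
      intro i hi
      have : update (update (update s a (rep (x - i))) b (rep (y - i))) 2 (rep (i - y)) a
        = rep (x - i) := by (simp only [Function.update_apply]; split_ifs <;> first | rfl | (exfalso; omega) | exact rep_tail _ | (subst_vars; simp_all [rep_tail]; done) | (subst_vars; simp_all [rep_tail]; omega))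
      simp only [this]
      exact rep_ne_nil (by omega))
    (by
      intro i hi
      by_cases hiy : y ≤ i
      · have e1 : y - i = 0 := by omega
        have e2 : y - (i + 1) = 0 := by omega
        have e3 : i + 1 - y = i - y + 1 := by omega
        simp only [e1, e2, e3]
        refine Rn.conv (Rn.seq (Rn.pop a _) (Rn.iteE ?_ (Rn.push 2 true _))) rfl ?_ le_rfl
        · (simp only [Function.update_apply]; split_ifs <;> first | rfl | (exfalso; omega) | exact rep_tail _ | (subst_vars; simp_all [rep_tail]; done) | (subst_vars; simp_all [rep_tail]; omega))
        · (funext r; simp only [Function.update_apply]; split_ifs <;> first | rfl | (exfalso; omega) | exact rep_tail _ | (subst_vars; simp_all [rep_tail]; done) | (subst_vars; simp_all [rep_tail]; omega))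
      · have e1 : i - y = 0 := by omega
        have e2 : i + 1 - y = 0 := by omega
        simp only [e1, e2]
        refine Rn.conv (Rn.seq (Rn.pop a _) (Rn.iteT ?_ (Rn.pop b _))) rfl ?_ le_rfl
        · have : update (update (update (update s a (rep (x - i))) b (rep (y - i))) 2 (rep 0)) a
            (update (update (update s a (rep (x - i))) b (rep (y - i))) 2 (rep 0) a).tail b
            = rep (y - i) := by (simp only [Function.update_apply]; split_ifs <;> first | rfl | (exfalso; omega) | exact rep_tail _ | (subst_vars; simp_all [rep_tail]; done) | (subst_vars; simp_all [rep_tail]; omega))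
          rw [this]
          exact rep_head (by omega)
        · (funext r; simp only [Function.update_apply]; split_ifs <;> first | rfl | (exfalso; omega) | exact rep_tail _ | (subst_vars; simp_all [rep_tail]; done) | (subst_vars; simp_all [rep_tail]; omega)))
    (by (simp only [Function.update_apply]; split_ifs <;> first | rfl | (exfalso; omega) | exact rep_tail _ | (subst_vars; simp_all [rep_tail]; done) | (subst_vars; simp_all [rep_tail]; omega)))
  refine h.conv ?_ ?_ (by omega)
  · simp only [Nat.zero_sub, Nat.sub_zero]
    (funext r; simp only [Function.update_apply]; split_ifs <;> first | rfl | (exfalso; omega) | exact rep_tail _ | (subst_vars; simp_all [rep_tail]; done) | (subst_vars; simp_all [rep_tail]; omega))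
  · (funext r; simp only [Function.update_apply]; split_ifs <;> first | rfl | (exfalso; omega) | exact rep_tail _ | (subst_vars; simp_all [rep_tail]; done) | (subst_vars; simp_all [rep_tail]; omega))

/-- equality test -/
def eqC (a b : ℕ) : Cmd :=
  .seq (cmpC a b) (.seq (.ite 2 (.ite b (.push a true) .skip .skip) .skip .skip)
    (.seq (clearC 2) (clearC b)))

theorem eq_run {a b : ℕ} (ha6 : 6 ≤ a) (hb6 : 6 ≤ b) (hab : a ≠ b) (s : Store) {x y : ℕ}
    (ha : s a = rep x) (hb : s b = rep y) (h2 : s 2 = []) :
    Rn (eqC a b) s (update (update s b []) a (rep (if x = y then 1 else 0)))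
      (20 * (x + y + 1)) := by
  have h := cmp_run ha6 hb6 hab s ha hb h2
  rcases lt_trichotomy x y with hxy | hxy | hxy
  · have e0 : ¬ x = y := by omega
    rw [if_neg e0]
    have e1 : x - y = 0 := by omega
    rw [e1] at h
    have h3 : Rn (.ite 2 (.ite b (.push a true) .skip .skip) .skip .skip)
        (update (update (update s a []) b (rep (y - x))) 2 (rep 0))
        (update (update (update s a []) b (rep (y - x))) 2 (rep 0)) 3 := by
      refine Rn.iteE (by (simp only [Function.update_apply]; split_ifs <;> first | rfl | (exfalso; omega) | exact rep_tail _ | (subst_vars; simp_all [rep_tail]; done) | (subst_vars; simp_all [rep_tail]; omega))) (Rn.iteT ?_ (Rn.skip _))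
      have : update (update (update s a []) b (rep (y - x))) 2 (rep 0) b = rep (y - x) := by (simp only [Function.update_apply]; split_ifs <;> first | rfl | (exfalso; omega) | exact rep_tail _ | (subst_vars; simp_all [rep_tail]; done) | (subst_vars; simp_all [rep_tail]; omega))
      rw [this]
      exact rep_head (by omega)
    have h4 := clear_run 2 (update (update (update s a []) b (rep (y - x))) 2 (rep 0)) 0 (by simp)
    have h5 := clear_run b (update (update (update (update s a []) b (rep (y - x))) 2 (rep 0))
      2 []) y (by
        have : update (update (update (update s a []) b (rep (y - x))) 2 (rep 0)) 2 [] b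
          = rep (y - x) := by (simp only [Function.update_apply]; split_ifs <;> first | rfl | (exfalso; omega) | exact rep_tail _ | (subst_vars; simp_all [rep_tail]; done) | (subst_vars; simp_all [rep_tail]; omega))
        rw [this]
        simp)
    refine (Rn.seq h (Rn.seq h3 (Rn.seq h4 h5))).conv rfl ?_ (by omega)
    (funext r; simp only [Function.update_apply]; split_ifs <;> first | rfl | (exfalso; omega) | exact rep_tail _ | (subst_vars; simp_all [rep_tail]; done) | (subst_vars; simp_all [rep_tail]; omega))
  · subst hxy
    rw [if_pos rfl]
    rw [Nat.sub_self] at h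
    have h3 : Rn (.ite 2 (.ite b (.push a true) .skip .skip) .skip .skip)
        (update (update (update s a []) b (rep 0)) 2 (rep 0))
        (update (update (update s a [true]) b (rep 0)) 2 (rep 0)) 3 := by
      refine (Rn.iteE (by (simp only [Function.update_apply]; split_ifs <;> first | rfl | (exfalso; omega) | exact rep_tail _ | (subst_vars; simp_all [rep_tail]; done) | (subst_vars; simp_all [rep_tail]; omega))) (Rn.iteE ?_ (Rn.push a true _))).conv rfl ?_ le_rfl
      · (simp only [Function.update_apply]; split_ifs <;> first | rfl | (exfalso; omega) | exact rep_tail _ | (subst_vars; simp_all [rep_tail]; done) | (subst_vars; simp_all [rep_tail]; omega))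
      · (funext r; simp only [Function.update_apply]; split_ifs <;> first | rfl | (exfalso; omega) | exact rep_tail _ | (subst_vars; simp_all [rep_tail]; done) | (subst_vars; simp_all [rep_tail]; omega))
    have h4 := clear_run 2 (update (update (update s a [true]) b (rep 0)) 2 (rep 0)) 0 (by simp)
    have h5 := clear_run b (update (update (update (update s a [true]) b (rep 0)) 2 (rep 0))
      2 []) 0 (by
        have : update (update (update (update s a [true]) b (rep 0)) 2 (rep 0)) 2 [] b
          = rep 0 := by (simp only [Function.update_apply]; split_ifs <;> first | rfl | (exfalso; omega) | exact rep_tail _ | (subst_vars; simp_all [rep_tail]; done) | (subst_vars; simp_all [rep_tail]; omega))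
        rw [this]
        simp)
    refine (Rn.seq h (Rn.seq h3 (Rn.seq h4 h5))).conv rfl ?_ (by omega)
    (funext r; simp only [Function.update_apply]; split_ifs <;> first | rfl | (exfalso; omega) | exact rep_tail _ | (subst_vars; simp_all [rep_tail]; done) | (subst_vars; simp_all [rep_tail]; omega))
  · have e0 : ¬ x = y := by omega
    rw [if_neg e0]
    have e1 : y - x = 0 := by omega
    rw [e1] at h
    have h3 : Rn (.ite 2 (.ite b (.push a true) .skip .skip) .skip .skip)
        (update (update (update s a []) b (rep 0)) 2 (rep (x - y)))
        (update (update (update s a []) b (rep 0)) 2 (rep (x - y))) 2 := by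
      refine Rn.iteT ?_ (Rn.skip _)
      have : update (update (update s a []) b (rep 0)) 2 (rep (x - y)) 2 = rep (x - y) := by (simp only [Function.update_apply]; split_ifs <;> first | rfl | (exfalso; omega) | exact rep_tail _ | (subst_vars; simp_all [rep_tail]; done) | (subst_vars; simp_all [rep_tail]; omega))
      rw [this]
      exact rep_head (by omega)
    have h4 := clear_run 2 (update (update (update s a []) b (rep 0)) 2 (rep (x - y))) x (by simp)
    have h5 := clear_run b (update (update (update (update s a []) b (rep 0)) 2 (rep (x - y)))
      2 []) 0 (by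
        have : update (update (update (update s a []) b (rep 0)) 2 (rep (x - y))) 2 [] b
          = rep 0 := by (simp only [Function.update_apply]; split_ifs <;> first | rfl | (exfalso; omega) | exact rep_tail _ | (subst_vars; simp_all [rep_tail]; done) | (subst_vars; simp_all [rep_tail]; omega))
        rw [this]
        simp)
    refine (Rn.seq h (Rn.seq h3 (Rn.seq h4 h5))).conv rfl ?_ (by omega)
    (funext r; simp only [Function.update_apply]; split_ifs <;> first | rfl | (exfalso; omega) | exact rep_tail _ | (subst_vars; simp_all [rep_tail]; done) | (subst_vars; simp_all [rep_tail]; omega))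

/-- comparison -/
def ltC (a b : ℕ) : Cmd :=
  .seq (cmpC a b) (.seq (.ite b .skip .skip (.push a true)) (.seq (clearC 2) (clearC b)))

theorem lt_run {a b : ℕ} (ha6 : 6 ≤ a) (hb6 : 6 ≤ b) (hab : a ≠ b) (s : Store) {x y : ℕ}
    (ha : s a = rep x) (hb : s b = rep y) (h2 : s 2 = []) :
    Rn (ltC a b) s (update (update s b []) a (rep (if x < y then 1 else 0)))
      (20 * (x + y + 1)) := by
  have h := cmp_run ha6 hb6 hab s ha hb h2
  by_cases hxy : x < y
  · rw [if_pos hxy]
    have e1 : x - y = 0 := by omega
    rw [e1] at h
    have h3 : Rn (.ite b .skip .skip (.push a true))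
        (update (update (update s a []) b (rep (y - x))) 2 (rep 0))
        (update (update (update s a [true]) b (rep (y - x))) 2 (rep 0)) 2 := by
      refine (Rn.iteT ?_ (Rn.push a true _)).conv rfl ?_ le_rfl
      · have : update (update (update s a []) b (rep (y - x))) 2 (rep 0) b = rep (y - x) := by (simp only [Function.update_apply]; split_ifs <;> first | rfl | (exfalso; omega) | exact rep_tail _ | (subst_vars; simp_all [rep_tail]; done) | (subst_vars; simp_all [rep_tail]; omega))
        rw [this]
        exact rep_head (by omega)
      · (funext r; simp only [Function.update_apply]; split_ifs <;> first | rfl | (exfalso; omega) | exact rep_tail _ | (subst_vars; simp_all [rep_tail]; done) | (subst_vars; simp_all [rep_tail]; omega))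
    have h4 := clear_run 2 (update (update (update s a [true]) b (rep (y - x))) 2 (rep 0)) 0
      (by simp)
    have h5 := clear_run b (update (update (update (update s a [true]) b (rep (y - x))) 2 (rep 0))
      2 []) y (by
        have : update (update (update (update s a [true]) b (rep (y - x))) 2 (rep 0)) 2 [] b
          = rep (y - x) := by (simp only [Function.update_apply]; split_ifs <;> first | rfl | (exfalso; omega) | exact rep_tail _ | (subst_vars; simp_all [rep_tail]; done) | (subst_vars; simp_all [rep_tail]; omega))
        rw [this]
        simp)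
    refine (Rn.seq h (Rn.seq h3 (Rn.seq h4 h5))).conv rfl ?_ (by omega)
    (funext r; simp only [Function.update_apply]; split_ifs <;> first | rfl | (exfalso; omega) | exact rep_tail _ | (subst_vars; simp_all [rep_tail]; done) | (subst_vars; simp_all [rep_tail]; omega))
  · rw [if_neg hxy]
    have e1 : y - x = 0 := by omega
    rw [e1] at h
    have h3 : Rn (.ite b .skip .skip (.push a true))
        (update (update (update s a []) b (rep 0)) 2 (rep (x - y)))
        (update (update (update s a []) b (rep 0)) 2 (rep (x - y))) 2 := by
      refine Rn.iteE ?_ (Rn.skip _)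
      (simp only [Function.update_apply]; split_ifs <;> first | rfl | (exfalso; omega) | exact rep_tail _ | (subst_vars; simp_all [rep_tail]; done) | (subst_vars; simp_all [rep_tail]; omega))
    have h4 := clear_run 2 (update (update (update s a []) b (rep 0)) 2 (rep (x - y))) x (by simp)
    have h5 := clear_run b (update (update (update (update s a []) b (rep 0)) 2 (rep (x - y)))
      2 []) 0 (by
        have : update (update (update (update s a []) b (rep 0)) 2 (rep (x - y))) 2 [] b
          = rep 0 := by (simp only [Function.update_apply]; split_ifs <;> first | rfl | (exfalso; omega) | exact rep_tail _ | (subst_vars; simp_all [rep_tail]; done) | (subst_vars; simp_all [rep_tail]; omega))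
        rw [this]
        simp)
    refine (Rn.seq h (Rn.seq h3 (Rn.seq h4 h5))).conv rfl ?_ (by omega)
    (funext r; simp only [Function.update_apply]; split_ifs <;> first | rfl | (exfalso; omega) | exact rep_tail _ | (subst_vars; simp_all [rep_tail]; done) | (subst_vars; simp_all [rep_tail]; omega))

/-- empty `b`, empty `a`, then move the flag from `2` to `a` -/
theorem fin_run {a b : ℕ} (ha6 : 6 ≤ a) (hb6 : 6 ≤ b) (hab : a ≠ b) (s : Store) {x y z : ℕ}
    (ha : s a = rep x) (hb : s b = rep y) (h2 : s 2 = rep z) :
    Rn (.seq (clearC a) (.seq (clearC b) (moveC 2 a))) s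
      (update (update (update s b []) 2 []) a (rep z)) (2 * x + 2 * y + 4 * z + 5) := by
  have h4 := clear_run a s x (by rw [ha]; simp)
  have h5 := clear_run b (update s a []) y (by
    have : update s a [] b = rep y := by (simp only [Function.update_apply]; split_ifs <;> first | rfl | (exfalso; omega) | exact rep_tail _ | (subst_vars; simp_all [rep_tail]; done) | (subst_vars; simp_all [rep_tail]; omega))
    rw [this]
    simp)
  have h6 := move_run (a := 2) (b := a) (by omega) (update (update s a []) b []) (k := z) (m := 0)
    (by (simp only [Function.update_apply]; split_ifs <;> first | rfl | (exfalso; omega) | exact rep_tail _ | (subst_vars; simp_all [rep_tail]; done) | (subst_vars; simp_all [rep_tail]; omega))) (by (simp only [Function.update_apply]; split_ifs <;> first | rfl | (exfalso; omega) | exact rep_tail _ | (subst_vars; simp_all [rep_tail]; done) | (subst_vars; simp_all [rep_tail]; omega)))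
  refine (Rn.seq h4 (Rn.seq h5 h6)).conv rfl ?_ (by omega)
  (funext r; simp only [Function.update_apply]; split_ifs <;> first | rfl | (exfalso; omega) | exact rep_tail _ | (subst_vars; simp_all [rep_tail]; done) | (subst_vars; simp_all [rep_tail]; omega))

/-- conjunction -/
def andC (a b : ℕ) : Cmd :=
  .seq (.ite a .skip .skip (.ite b .skip .skip (.push 2 true)))
    (.seq (clearC a) (.seq (clearC b) (moveC 2 a)))

theorem and_run {a b : ℕ} (ha6 : 6 ≤ a) (hb6 : 6 ≤ b) (hab : a ≠ b) (s : Store) {x y : ℕ}
    (ha : s a = rep x) (hb : s b = rep y) (h2 : s 2 = []) :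
    Rn (andC a b) s (update (update s b []) a (rep (if x ≠ 0 ∧ y ≠ 0 then 1 else 0)))
      (20 * (x + y + 1)) := by
  by_cases hx : x = 0
  · subst hx
    rw [if_neg (fun h => h.1 rfl)]
    have h3 : Rn (.ite a .skip .skip (.ite b .skip .skip (.push 2 true))) s s 2 :=
      Rn.iteE ha (Rn.skip _)
    refine (Rn.seq h3 (fin_run ha6 hb6 hab s ha hb (z := 0) h2)).conv rfl ?_ (by omega)
    (funext r; simp only [Function.update_apply]; split_ifs <;> first | rfl | (exfalso; omega) | exact rep_tail _ | (subst_vars; simp_all [rep_tail]; done) | (subst_vars; simp_all [rep_tail]; omega))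
  · by_cases hy : y = 0
    · subst hy
      rw [if_neg (fun h => h.2 rfl)]
      have h3 : Rn (.ite a .skip .skip (.ite b .skip .skip (.push 2 true))) s s 3 :=
        Rn.iteT (by rw [ha]; exact rep_head (by omega)) (Rn.iteE hb (Rn.skip _))
      refine (Rn.seq h3 (fin_run ha6 hb6 hab s ha hb (z := 0) h2)).conv rfl ?_ (by omega)
      (funext r; simp only [Function.update_apply]; split_ifs <;> first | rfl | (exfalso; omega) | exact rep_tail _ | (subst_vars; simp_all [rep_tail]; done) | (subst_vars; simp_all [rep_tail]; omega))
    · rw [if_pos ⟨hx, hy⟩]
      have h3 : Rn (.ite a .skip .skip (.ite b .skip .skip (.push 2 true))) s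
          (update s 2 (true :: s 2)) 3 :=
        Rn.iteT (by rw [ha]; exact rep_head (by omega))
          (Rn.iteT (by rw [hb]; exact rep_head (by omega)) (Rn.push 2 true _))
      refine (Rn.seq h3 (fin_run ha6 hb6 hab _ (x := x) (y := y) (z := 1) (by (simp only [Function.update_apply]; split_ifs <;> first | rfl | (exfalso; omega) | exact rep_tail _ | (subst_vars; simp_all [rep_tail]; done) | (subst_vars; simp_all [rep_tail]; omega))) (by (simp only [Function.update_apply]; split_ifs <;> first | rfl | (exfalso; omega) | exact rep_tail _ | (subst_vars; simp_all [rep_tail]; done) | (subst_vars; simp_all [rep_tail]; omega)))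
        (by (simp only [Function.update_apply]; split_ifs <;> first | rfl | (exfalso; omega) | exact rep_tail _ | (subst_vars; simp_all [rep_tail]; done) | (subst_vars; simp_all [rep_tail]; omega))))).conv rfl ?_ (by omega)
      (funext r; simp only [Function.update_apply]; split_ifs <;> first | rfl | (exfalso; omega) | exact rep_tail _ | (subst_vars; simp_all [rep_tail]; done) | (subst_vars; simp_all [rep_tail]; omega))

/-- disjunction -/
def orC (a b : ℕ) : Cmd :=
  .seq (.ite a (.ite b .skip .skip (.push 2 true)) .skip (.push 2 true))
    (.seq (clearC a) (.seq (clearC b) (moveC 2 a)))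

theorem or_run {a b : ℕ} (ha6 : 6 ≤ a) (hb6 : 6 ≤ b) (hab : a ≠ b) (s : Store) {x y : ℕ}
    (ha : s a = rep x) (hb : s b = rep y) (h2 : s 2 = []) :
    Rn (orC a b) s (update (update s b []) a (rep (if x ≠ 0 ∨ y ≠ 0 then 1 else 0)))
      (20 * (x + y + 1)) := by
  by_cases hx : x = 0
  · subst hx
    by_cases hy : y = 0
    · subst hy
      rw [if_neg (fun h => h.elim (fun h => h rfl) (fun h => h rfl))]
      have h3 : Rn (.ite a (.ite b .skip .skip (.push 2 true)) .skip (.push 2 true)) s s 3 :=
        Rn.iteE ha (Rn.iteE hb (Rn.skip _))
      refine (Rn.seq h3 (fin_run ha6 hb6 hab s ha hb (z := 0) h2)).conv rfl ?_ (by omega)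
      (funext r; simp only [Function.update_apply]; split_ifs <;> first | rfl | (exfalso; omega) | exact rep_tail _ | (subst_vars; simp_all [rep_tail]; done) | (subst_vars; simp_all [rep_tail]; omega))
    · rw [if_pos (Or.inr hy)]
      have h3 : Rn (.ite a (.ite b .skip .skip (.push 2 true)) .skip (.push 2 true)) s
          (update s 2 (true :: s 2)) 3 :=
        Rn.iteE ha (Rn.iteT (by rw [hb]; exact rep_head (by omega)) (Rn.push 2 true _))
      refine (Rn.seq h3 (fin_run ha6 hb6 hab _ (x := 0) (y := y) (z := 1) (by (simp only [Function.update_apply]; split_ifs <;> first | rfl | (exfalso; omega) | exact rep_tail _ | (subst_vars; simp_all [rep_tail]; done) | (subst_vars; simp_all [rep_tail]; omega))) (by (simp only [Function.update_apply]; split_ifs <;> first | rfl | (exfalso; omega) | exact rep_tail _ | (subst_vars; simp_all [rep_tail]; done) | (subst_vars; simp_all [rep_tail]; omega)))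
        (by (simp only [Function.update_apply]; split_ifs <;> first | rfl | (exfalso; omega) | exact rep_tail _ | (subst_vars; simp_all [rep_tail]; done) | (subst_vars; simp_all [rep_tail]; omega))))).conv rfl ?_ (by omega)
      (funext r; simp only [Function.update_apply]; split_ifs <;> first | rfl | (exfalso; omega) | exact rep_tail _ | (subst_vars; simp_all [rep_tail]; done) | (subst_vars; simp_all [rep_tail]; omega))
  · rw [if_pos (Or.inl hx)]
    have h3 : Rn (.ite a (.ite b .skip .skip (.push 2 true)) .skip (.push 2 true)) s
        (update s 2 (true :: s 2)) 2 :=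
      Rn.iteT (by rw [ha]; exact rep_head (by omega)) (Rn.push 2 true _)
    refine (Rn.seq h3 (fin_run ha6 hb6 hab _ (x := x) (y := y) (z := 1) (by (simp only [Function.update_apply]; split_ifs <;> first | rfl | (exfalso; omega) | exact rep_tail _ | (subst_vars; simp_all [rep_tail]; done) | (subst_vars; simp_all [rep_tail]; omega))) (by (simp only [Function.update_apply]; split_ifs <;> first | rfl | (exfalso; omega) | exact rep_tail _ | (subst_vars; simp_all [rep_tail]; done) | (subst_vars; simp_all [rep_tail]; omega)))
      (by (simp only [Function.update_apply]; split_ifs <;> first | rfl | (exfalso; omega) | exact rep_tail _ | (subst_vars; simp_all [rep_tail]; done) | (subst_vars; simp_all [rep_tail]; omega))))).conv rfl ?_ (by omega)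
    (funext r; simp only [Function.update_apply]; split_ifs <;> first | rfl | (exfalso; omega) | exact rep_tail _ | (subst_vars; simp_all [rep_tail]; done) | (subst_vars; simp_all [rep_tail]; omega))

/-- move the list in `c` to `d`, reversing it -/
def revC (c d : ℕ) : Cmd :=
  .loop c (.ite c .skip (.seq (.pop c) (.push d false)) (.seq (.pop c) (.push d true)))

/-- one step of a reversing move -/
def rev1C (c d : ℕ) : Cmd :=
  .ite c .skip (.seq (.pop c) (.push d false)) (.seq (.pop c) (.push d true))

theorem rev1_run {c d : ℕ} (hcd : c ≠ d) (s : Store) (l r : List Bool) (i : ℕ) :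
    Rn (rev1C c d)
      (update (update s c (l.drop i)) d ((l.take i).reverse ++ r))
      (update (update s c (l.drop (i + 1))) d ((l.take (i + 1)).reverse ++ r)) 4 := by
  by_cases hi : i < l.length
  · have h1 : l.drop i = l[i] :: l.drop (i + 1) := List.drop_eq_getElem_cons hi
    have h2 : (l.take (i + 1)).reverse = l[i] :: (l.take i).reverse := by
      rw [List.take_succ_eq_append_getElem hi, List.reverse_append]
      rfl
    rw [h1, h2]
    rcases hb : l[i] with _ | _
    · refine (Rn.iteF ?_ (Rn.seq (Rn.pop c _) (Rn.push d false _))).conv rfl ?_ le_rfl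
      · have : update (update s c (false :: l.drop (i + 1))) d ((l.take i).reverse ++ r) c
          = false :: l.drop (i + 1) := by (simp only [Function.update_apply]; split_ifs <;> first | rfl | (exfalso; omega) | exact rep_tail _ | (subst_vars; simp_all [rep_tail]; done) | (subst_vars; simp_all [rep_tail]; omega))
        rw [this]
        rfl
      · (funext r; simp only [Function.update_apply]; split_ifs <;> first | rfl | (exfalso; omega) | exact rep_tail _ | (subst_vars; simp_all [rep_tail]; done) | (subst_vars; simp_all [rep_tail]; omega))
    · refine (Rn.iteT ?_ (Rn.seq (Rn.pop c _) (Rn.push d true _))).conv rfl ?_ le_rfl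
      · have : update (update s c (true :: l.drop (i + 1))) d ((l.take i).reverse ++ r) c
          = true :: l.drop (i + 1) := by (simp only [Function.update_apply]; split_ifs <;> first | rfl | (exfalso; omega) | exact rep_tail _ | (subst_vars; simp_all [rep_tail]; done) | (subst_vars; simp_all [rep_tail]; omega))
        rw [this]
        rfl
      · (funext r; simp only [Function.update_apply]; split_ifs <;> first | rfl | (exfalso; omega) | exact rep_tail _ | (subst_vars; simp_all [rep_tail]; done) | (subst_vars; simp_all [rep_tail]; omega))
  · have h1 : l.drop i = [] := List.drop_eq_nil_of_le (by omega)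
    have h2 : l.drop (i + 1) = [] := List.drop_eq_nil_of_le (by omega)
    have h3 : l.take i = l := List.take_of_length_le (by omega)
    have h4 : l.take (i + 1) = l := List.take_of_length_le (by omega)
    rw [h1, h2, h3, h4]
    refine (Rn.iteE ?_ (Rn.skip _)).mono (by omega)
    (simp only [Function.update_apply]; split_ifs <;> first | rfl | (exfalso; omega) | exact rep_tail _ | (subst_vars; simp_all [rep_tail]; done) | (subst_vars; simp_all [rep_tail]; omega))

theorem rev_run {c d : ℕ} (hcd : c ≠ d) (s : Store) :
    Rn (revC c d) s (update (update s c []) d ((s c).reverse ++ s d))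
      (5 * (s c).length + 1) := by
  have h := Rn.loop (σ := c) (c := rev1C c d) (T := 4) (s c).length
    (fun i => update (update s c ((s c).drop i)) d (((s c).take i).reverse ++ s d))
    (by
      intro i hi h0
      have h1 : update (update s c ((s c).drop i)) d (((s c).take i).reverse ++ s d) c
        = (s c).drop i := by (simp only [Function.update_apply]; split_ifs <;> first | rfl | (exfalso; omega) | exact rep_tail _ | (subst_vars; simp_all [rep_tail]; done) | (subst_vars; simp_all [rep_tail]; omega))
      simp only [h1] at h0
      have := congrArg List.length h0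
      simp only [List.length_drop, List.length_nil] at this
      omega)
    (fun i _ => rev1_run hcd s (s c) (s d) i)
    (by
      have h1 : update (update s c ((s c).drop (s c).length)) d
        (((s c).take (s c).length).reverse ++ s d) c = (s c).drop (s c).length := by (simp only [Function.update_apply]; split_ifs <;> first | rfl | (exfalso; omega) | exact rep_tail _ | (subst_vars; simp_all [rep_tail]; done) | (subst_vars; simp_all [rep_tail]; omega))
      simp only [h1]
      exact List.drop_length)
  refine h.conv ?_ ?_ (by omega)
  · funext r
    by_cases hrd : r = d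
    · subst hrd
      simp
    · by_cases hrc : r = c
      · subst hrc
        simp [hcd]
      · simp [hrd]
  · rw [List.drop_length, List.take_length]

/-- bit of the input list -/
def bitC (a : ℕ) : Cmd :=
  .seq (.loop a (.seq (.pop a) (rev1C 1 2))) (.seq (.ite 1 .skip .skip (.push a true)) (revC 2 1))

theorem bit_run {a : ℕ} (ha6 : 6 ≤ a) (s : Store) {x : ℕ}
    (ha : s a = rep x) (h2 : s 2 = []) :
    Rn (bitC a) s (update s a (rep (if (s 1).getD x false = true then 1 else 0)))
      (20 * (x + 1)) := by
  have h := Rn.loop (σ := a) (c := .seq (.pop a) (rev1C 1 2)) (T := 6) x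
    (fun i => update (update (update s a (rep (x - i))) 1 ((s 1).drop i)) 2
      (((s 1).take i).reverse ++ []))
    (by
      intro i hi
      have : update (update (update s a (rep (x - i))) 1 ((s 1).drop i)) 2
        (((s 1).take i).reverse ++ []) a = rep (x - i) := by (simp only [Function.update_apply]; split_ifs <;> first | rfl | (exfalso; omega) | exact rep_tail _ | (subst_vars; simp_all [rep_tail]; done) | (subst_vars; simp_all [rep_tail]; omega))
      simp only [this]
      exact rep_ne_nil (by omega))
    (by
      intro i hi
      have h1 := rev1_run (c := 1) (d := 2) (by omega) (update s a (rep (x - (i + 1)))) (s 1) [] i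
      refine Rn.conv (Rn.seq (s' := update (update (update s a (rep (x - (i + 1)))) 1
        ((s 1).drop i)) 2 (((s 1).take i).reverse ++ [])) ((Rn.pop a _).conv rfl ?_ le_rfl) h1)
        rfl rfl (by omega)
      funext r
      by_cases hra : r = a
      · subst hra
        have e1 : r ≠ 1 := by omega
        have e2 : r ≠ 2 := by omega
        simp only [ne_eq, e1, e2, not_false_eq_true, Function.update_of_ne, Function.update_self]
        rw [rep_tail]
        rfl
      · simp only [ne_eq, hra, not_false_eq_true, Function.update_of_ne]
        by_cases hr2 : r = 2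
        · subst hr2
          simp
        · by_cases hr1 : r = 1
          · subst hr1
            simp
          · simp [hr1, hr2, hra])
    (by (simp only [Function.update_apply]; split_ifs <;> first | rfl | (exfalso; omega) | exact rep_tail _ | (subst_vars; simp_all [rep_tail]; done) | (subst_vars; simp_all [rep_tail]; omega)))
  have e1 : (1 : ℕ) ≠ a := by omega
  have e2 : (2 : ℕ) ≠ a := by omega
  have h3 : Rn (.ite 1 .skip .skip (.push a true))
      (update (update (update s a (rep (x - x))) 1 ((s 1).drop x)) 2
        (((s 1).take x).reverse ++ []))
      (update (update (update s a (rep (if (s 1).getD x false = true then 1 else 0))) 1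
        ((s 1).drop x)) 2 (((s 1).take x).reverse ++ [])) 2 := by
    have hv : (update (update (update s a (rep (x - x))) 1 ((s 1).drop x)) 2
        (((s 1).take x).reverse ++ [])) 1 = (s 1).drop x := by simp
    have hh : ((s 1).drop x).head? = (s 1)[x]? := by
      rw [List.head?_drop]
    have hg : (s 1).getD x false = ((s 1)[x]?).getD false := by
      rw [List.getD_eq_getElem?_getD]
    rw [hg]
    rcases hx : (s 1)[x]? with _ | _ | _
    · refine (Rn.iteE ?_ (Rn.skip _)).conv rfl ?_ le_rfl
      · rw [hv]
        rw [hx] at hh
        exact List.head?_eq_none_iff.1 hh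
      · simp
    · refine (Rn.iteF ?_ (Rn.skip _)).conv rfl ?_ le_rfl
      · rw [hv, hh, hx]
      · simp
    · refine (Rn.iteT ?_ (Rn.push a true _)).conv rfl ?_ le_rfl
      · rw [hv, hh, hx]
      · funext r
        by_cases hra : r = a
        · subst hra
          have e1 : r ≠ 1 := by omega
          have e2 : r ≠ 2 := by omega
          simp [e1, e2]
        · simp only [ne_eq, hra, not_false_eq_true, Function.update_of_ne]
          by_cases hr2 : r = 2
          · subst hr2
            simp
          · by_cases hr1 : r = 1
            · subst hr1
              simp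
            · simp [hr1, hr2, hra]
  have h4 := rev_run (c := 2) (d := 1) (by omega)
    (update (update (update s a (rep (if (s 1).getD x false = true then 1 else 0))) 1
        ((s 1).drop x)) 2 (((s 1).take x).reverse ++ []))
  have e5 : (update (update (update s a (rep (if (s 1).getD x false = true then 1 else 0))) 1
        ((s 1).drop x)) 2 (((s 1).take x).reverse ++ [])) 2 = ((s 1).take x).reverse := by
    simp
  have e6 : (update (update (update s a (rep (if (s 1).getD x false = true then 1 else 0))) 1
        ((s 1).drop x)) 2 (((s 1).take x).reverse ++ [])) 1 = (s 1).drop x := by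
    simp
  rw [e5, e6, List.reverse_reverse, List.take_append_drop] at h4
  have e7 : (((s 1).take x).reverse).length ≤ x := by
    rw [List.length_reverse, List.length_take]
    exact min_le_left _ _
  refine (Rn.seq h (Rn.seq h3 h4)).conv ?_ ?_ (by omega)
  · funext r
    by_cases hr2 : r = 2
    · subst hr2
      simp [h2]
    · by_cases hr1 : r = 1
      · subst hr1
        simp
      · by_cases hra : r = a
        · subst hra
          simp [hr1, hr2, ha]
        · simp [hr1, hr2, hra]
  · funext r
    by_cases hr2 : r = 2
    · subst hr2
      simp [e2, h2]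
    · by_cases hr1 : r = 1
      · subst hr1
        simp [e1]
      · by_cases hra : r = a
        · subst hra
          simp [hr1, hr2]
        · simp [hr1, hr2, hra]

/-- number of nonzero values below `k` -/
def cnt (val : ℕ → ℕ) : ℕ → ℕ
  | 0 => 0
  | k + 1 => cnt val k + (if val k = 0 then 0 else 1)

theorem cnt_pos (val : ℕ → ℕ) (k : ℕ) : 0 < cnt val k ↔ ∃ i < k, val i ≠ 0 := by
  induction k with
  | zero => simp [cnt]
  | succ k ih =>
    unfold cnt
    constructor
    · intro h
      by_cases h0 : val k = 0
      · rw [if_pos h0, Nat.add_zero] at h
        obtain ⟨i, hi, h1⟩ := ih.1 h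
        exact ⟨i, by omega, h1⟩
      · exact ⟨k, by omega, h0⟩
    · rintro ⟨i, hi, h1⟩
      by_cases h0 : val k = 0
      · rw [if_pos h0, Nat.add_zero]
        refine ih.2 ⟨i, ?_, h1⟩
        have : i ≠ k := by
          rintro rfl
          exact h1 h0
        omega
      · rw [if_neg h0]
        omega

theorem cnt_le (val : ℕ → ℕ) (k : ℕ) : cnt val k ≤ k := by
  induction k with
  | zero => exact le_rfl
  | succ k ih =>
    unfold cnt
    split_ifs <;> omega

/-- bounded existential quantifier: `a` the bound, `a + 1` the index, `a + 2` the counter,
`a + 3` the value -/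
def exC (a : ℕ) (body : Cmd) : Cmd :=
  .seq (.loop a (.seq (.pop a) (.seq body (.seq (.ite (a + 3) .skip .skip (.push (a + 2) true))
    (.seq (clearC (a + 3)) (.push (a + 1) true))))))
    (.seq (clearC (a + 1)) (.seq (.ite (a + 2) .skip .skip (.push a true)) (clearC (a + 2))))

theorem ex_run {a : ℕ} (s : Store) {x : ℕ} (val : ℕ → ℕ) (body : Cmd) (T W : ℕ)
    (ha : s a = rep x) (h1 : s (a + 1) = []) (h2 : s (a + 2) = []) (h3 : s (a + 3) = [])
    (hbody : ∀ i < x, Rn body
      (update (update (update s a (rep (x - i - 1))) (a + 1) (rep i)) (a + 2) (rep (cnt val i)))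
      (update (update (update (update s a (rep (x - i - 1))) (a + 1) (rep i)) (a + 2)
        (rep (cnt val i))) (a + 3) (rep (val i))) T)
    (hW : ∀ i < x, val i ≤ W) :
    Rn (exC a body) s (update s a (rep (if ∃ i < x, val i ≠ 0 then 1 else 0)))
      (x * (T + 2 * W + 20) + 20) := by
  have h := Rn.loop (σ := a) (c := .seq (.pop a) (.seq body
      (.seq (.ite (a + 3) .skip .skip (.push (a + 2) true))
      (.seq (clearC (a + 3)) (.push (a + 1) true))))) (T := T + 2 * W + 10) x
    (fun i => update (update (update s a (rep (x - i))) (a + 1) (rep i)) (a + 2)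
      (rep (cnt val i)))
    (by
      intro i hi
      have : update (update (update s a (rep (x - i))) (a + 1) (rep i)) (a + 2)
        (rep (cnt val i)) a = rep (x - i) := by (simp only [Function.update_apply]; split_ifs <;> first | rfl | (exfalso; omega) | exact rep_tail _ | (subst_vars; simp_all [rep_tail]; done) | (subst_vars; simp_all [rep_tail]; omega))
      simp only [this]
      exact rep_ne_nil (by omega))
    (by
      intro i hi
      have hp : Rn (.pop a) (update (update (update s a (rep (x - i))) (a + 1) (rep i)) (a + 2)
          (rep (cnt val i)))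
          (update (update (update s a (rep (x - i - 1))) (a + 1) (rep i)) (a + 2)
            (rep (cnt val i))) 1 := by
        refine (Rn.pop a _).conv rfl ?_ le_rfl
        (funext r; simp only [Function.update_apply]; split_ifs <;> first | rfl | (exfalso; omega) | exact rep_tail _ | (subst_vars; simp_all [rep_tail]; done) | (subst_vars; simp_all [rep_tail]; omega))
      have hite : Rn (.ite (a + 3) .skip .skip (.push (a + 2) true))
          (update (update (update (update s a (rep (x - i - 1))) (a + 1) (rep i)) (a + 2)
            (rep (cnt val i))) (a + 3) (rep (val i)))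
          (update (update (update (update s a (rep (x - i - 1))) (a + 1) (rep i)) (a + 2)
            (rep (cnt val (i + 1)))) (a + 3) (rep (val i))) 2 := by
        by_cases hv : val i = 0
        · refine (Rn.iteE ?_ (Rn.skip _)).conv rfl ?_ le_rfl
          · rw [Function.update_self, hv]
            rfl
          · have : cnt val (i + 1) = cnt val i := by
              change cnt val i + (if val i = 0 then 0 else 1) = cnt val i
              rw [if_pos hv, Nat.add_zero]
            rw [this]
        · refine (Rn.iteT ?_ (Rn.push (a + 2) true _)).conv rfl ?_ le_rfl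
          · rw [Function.update_self]
            exact rep_head (by omega)
          · have : cnt val (i + 1) = cnt val i + 1 := by
              change cnt val i + (if val i = 0 then 0 else 1) = cnt val i + 1
              rw [if_neg hv]
            rw [this]
            (funext r; simp only [Function.update_apply]; split_ifs <;> first | rfl | (exfalso; omega) | exact rep_tail _ | (subst_vars; simp_all [rep_tail]; done) | (subst_vars; simp_all [rep_tail]; omega))
      have hcl := clear_run (a + 3) (update (update (update (update s a (rep (x - i - 1)))
        (a + 1) (rep i)) (a + 2) (rep (cnt val (i + 1)))) (a + 3) (rep (val i))) W (by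
          rw [Function.update_self, List.length_replicate]
          exact hW i hi)
      refine (Rn.seq hp (Rn.seq (hbody i hi) (Rn.seq hite (Rn.seq hcl
        (Rn.push (a + 1) true _))))).conv rfl ?_ (by omega)
      (funext r; simp only [Function.update_apply]; split_ifs <;> first | rfl | (exfalso; omega) | exact rep_tail _ | (subst_vars; simp_all [rep_tail]; done) | (subst_vars; simp_all [rep_tail]; omega)))
    (by (simp only [Function.update_apply]; split_ifs <;> first | rfl | (exfalso; omega) | exact rep_tail _ | (subst_vars; simp_all [rep_tail]; done) | (subst_vars; simp_all [rep_tail]; omega)))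
  have hc1 := clear_run (a + 1) (update (update (update s a (rep (x - x))) (a + 1) (rep x))
    (a + 2) (rep (cnt val x))) x (by
      have : update (update (update s a (rep (x - x))) (a + 1) (rep x)) (a + 2)
        (rep (cnt val x)) (a + 1) = rep x := by (simp only [Function.update_apply]; split_ifs <;> first | rfl | (exfalso; omega) | exact rep_tail _ | (subst_vars; simp_all [rep_tail]; done) | (subst_vars; simp_all [rep_tail]; omega))
      rw [this, List.length_replicate])
  have hite : Rn (.ite (a + 2) .skip .skip (.push a true))
      (update (update (update (update s a (rep (x - x))) (a + 1) (rep x)) (a + 2)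
        (rep (cnt val x))) (a + 1) [])
      (update (update s a (rep (if ∃ i < x, val i ≠ 0 then 1 else 0))) (a + 2)
        (rep (cnt val x))) 2 := by
    have hv2 : (update (update (update (update s a (rep (x - x))) (a + 1) (rep x)) (a + 2)
        (rep (cnt val x))) (a + 1) []) (a + 2) = rep (cnt val x) := by (simp only [Function.update_apply]; split_ifs <;> first | rfl | (exfalso; omega) | exact rep_tail _ | (subst_vars; simp_all [rep_tail]; done) | (subst_vars; simp_all [rep_tail]; omega))
    by_cases hv : ∃ i < x, val i ≠ 0
    · refine (Rn.iteT ?_ (Rn.push a true _)).conv rfl ?_ le_rfl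
      · rw [hv2]
        exact rep_head ((cnt_pos val x).2 hv)
      · rw [if_pos hv]
        (funext r; simp only [Function.update_apply]; split_ifs <;> first | rfl | (exfalso; omega) | exact rep_tail _ | (subst_vars; simp_all [rep_tail]; done) | (subst_vars; simp_all [rep_tail]; omega))
    · refine (Rn.iteE ?_ (Rn.skip _)).conv rfl ?_ le_rfl
      · rw [hv2]
        have : cnt val x = 0 := by
          have := mt (cnt_pos val x).1 hv
          omega
        rw [this]
        rfl
      · rw [if_neg hv]
        (funext r; simp only [Function.update_apply]; split_ifs <;> first | rfl | (exfalso; omega) | exact rep_tail _ | (subst_vars; simp_all [rep_tail]; done) | (subst_vars; simp_all [rep_tail]; omega))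
  have hc2 := clear_run (a + 2) (update (update s a (rep (if ∃ i < x, val i ≠ 0 then 1 else 0)))
    (a + 2) (rep (cnt val x))) x (by
      rw [Function.update_self, List.length_replicate]
      exact cnt_le val x)
  refine (Rn.seq h (Rn.seq hc1 (Rn.seq hite hc2))).conv ?_ ?_ ?_
  · simp only [cnt, Nat.sub_zero]
    (funext r; simp only [Function.update_apply]; split_ifs <;> first | rfl | (exfalso; omega) | exact rep_tail _ | (subst_vars; simp_all [rep_tail]; done) | (subst_vars; simp_all [rep_tail]; omega))
  · (funext r; simp only [Function.update_apply]; split_ifs <;> first | rfl | (exfalso; omega) | exact rep_tail _ | (subst_vars; simp_all [rep_tail]; done) | (subst_vars; simp_all [rep_tail]; omega))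
  · have : x * (T + 2 * W + 10 + 1) + x * 9 = x * (T + 2 * W + 20) := by ring
    omega

end P310
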