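import Vale.Agent.P310.XG

/-!
# Horn systems on `ℤ × ℤ` and their compressed XOR systems

A Horn system: relations `X`, rules `R`; the rule `ρ` at `g ∈ ℤ²` says: if for every premise slot
`q` with `pr ρ q = some (x, h)` the fact `x (g + h)` holds, then the conclusion `co ρ` holds at
`g` (`co ρ = none`: acceptance).

Every relation is used at most once as a premise of a rule of type `0` and at most once as a
premise of a rule of type `1`.
-/

namespace P310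

structure Horn where
  X : Type
  R : Type
  [fX : Fintype X]
  [dX : DecidableEq X]
  [fR : Fintype R]
  [dR : DecidableEq R]
  pr : R → Fin 2 → Option (X × (ℤ × ℤ))
  pr0 : ∀ ρ, ∃ x h, pr ρ 0 = some (x, h)
  ty : R → Fin 2
  co : R → Option X
  seed : X
  inj : ∀ ρ q ρ' q' x h h', pr ρ q = some (x, h) → pr ρ' q' = some (x, h') → ty ρ = ty ρ' →
    ρ = ρ' ∧ q = q'
  seed_ne : ∀ ρ, co ρ ≠ some seed

attribute [instance] Horn.fX Horn.dX Horn.fR Horn.dR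

namespace Horn

variable (𝓗 : Horn)

/-- derivable facts -/
inductive Der : 𝓗.X → ℤ × ℤ → Prop
  | seed : Der 𝓗.seed (0, 0)
  | rule (ρ : 𝓗.R) (g : ℤ × ℤ) (y : 𝓗.X) : 𝓗.co ρ = some y →
      (∀ q x h, 𝓗.pr ρ q = some (x, h) → Der x (g + h)) → Der y g

/-- acceptance -/
def Acc : Prop :=
  ∃ (ρ : 𝓗.R) (g : ℤ × ℤ), 𝓗.co ρ = none ∧ ∀ q x h, 𝓗.pr ρ q = some (x, h) → 𝓗.Der x (g + h)

end Horn

/-- Parameters of the compressed system: `κ` moduli `p' i + 1`, `m` parallel copies, matrices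
`M 0`, `M 1`. -/
structure Par where
  κ : ℕ
  p' : Fin κ → ℕ
  m : ℕ
  M : Fin 2 → Fin m → Fin m → ZMod 2

namespace Par

variable (P : Par)

/-- residues: coordinate `i` and a point of `(ℤ/p_i)²`, `p_i = p' i + 1` -/
abbrev Pt : Type := Σ i : Fin P.κ, ZMod (P.p' i + 1) × ZMod (P.p' i + 1)

/-- the residue of `g` in coordinate `i` -/
def pt (i : Fin P.κ) (g : ℤ × ℤ) : P.Pt := ⟨i, ((g.1 : ZMod (P.p' i + 1)), (g.2 : ZMod (P.p' i + 1)))⟩

/-- translation -/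
def tr (b : P.Pt) (h : ℤ × ℤ) : P.Pt :=
  ⟨b.1, (b.2.1 + (h.1 : ZMod (P.p' b.1 + 1)), b.2.2 + (h.2 : ZMod (P.p' b.1 + 1)))⟩

instance : DecidableEq P.Pt := inferInstance

instance : Fintype P.Pt := inferInstance

theorem tr_pt (i : Fin P.κ) (g h : ℤ × ℤ) : P.tr (P.pt i g) h = P.pt i (g + h) := by
  unfold tr pt
  ext1
  · rfl
  · refine heq_of_eq ?_
    ext
    · exact (Int.cast_add g.1 h.1).symm
    · exact (Int.cast_add g.2 h.2).symm

/-- number of coordinates in which `g` and `g'` have the same residue -/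
def agree (g g' : ℤ × ℤ) : ℕ := (Finset.univ.filter fun i => P.pt i g = P.pt i g').card

end Par

namespace Horn

variable (𝓗 : Horn) (P : Par)

/-- variables: `bank x j b` (`j`-th copy of the share of `x` at the residue `b`), `path ρ l s b`
(the `s`-th prefix sum of row `l` of the rule `ρ` at `b`, used for `s + 1 < m`). -/
abbrev Var : Type := (𝓗.X × Fin P.m × P.Pt) ⊕ (𝓗.R × Fin P.m × Fin P.m × P.Pt)

abbrev Con : Type := (𝓗.R × Fin P.m × Fin P.m × P.Pt) ⊕ Fin P.m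

abbrev bank (x : 𝓗.X) (j : Fin P.m) (b : P.Pt) : 𝓗.Var P := Sum.inl (x, j, b)
abbrev path (ρ : 𝓗.R) (l s : Fin P.m) (b : P.Pt) : 𝓗.Var P := Sum.inr (ρ, l, s, b)

/-- unit vector -/
def sg (v : 𝓗.Var P) : 𝓗.Var P → ZMod 2 := Pi.single v 1

/-- the form of the fact `x^{(j)}(g)` -/
def fact (x : 𝓗.X) (j : Fin P.m) (g : ℤ × ℤ) : 𝓗.Var P → ZMod 2 :=
  ∑ i : Fin P.κ, 𝓗.sg P (𝓗.bank P x j (P.pt i g))

/-- previous prefix sum in the equation number `s` -/
def prev (ρ : 𝓗.R) (l s : Fin P.m) (b : P.Pt) : 𝓗.Var P → ZMod 2 :=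
  if h : 0 < s.val then 𝓗.sg P (𝓗.path P ρ l ⟨s.val - 1, by omega⟩ b) else 0

/-- next prefix sum in the equation number `s`; the last one is the output -/
def next (ρ : 𝓗.R) (l s : Fin P.m) (b : P.Pt) : 𝓗.Var P → ZMod 2 :=
  if s.val + 1 < P.m then 𝓗.sg P (𝓗.path P ρ l s b)
  else match 𝓗.co ρ with
    | some y => 𝓗.sg P (𝓗.bank P y l b)
    | none => 0

/-- key in slot `q` of the equation number `s` -/
def key (ρ : 𝓗.R) (q : Fin 2) (l s : Fin P.m) (b : P.Pt) : 𝓗.Var P → ZMod 2 :=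
  match 𝓗.pr ρ q with
    | some (x, h) => P.M (𝓗.ty ρ) l s • 𝓗.sg P (𝓗.bank P x s (P.tr b h))
    | none => 0

/-- the linear forms of the equations -/
def cform : 𝓗.Con P → 𝓗.Var P → ZMod 2
  | Sum.inl (ρ, l, s, b) =>
      𝓗.prev P ρ l s b + 𝓗.next P ρ l s b + 𝓗.key P ρ 0 l s b + 𝓗.key P ρ 1 l s b
  | Sum.inr l => 𝓗.fact P 𝓗.seed l (0, 0)

/-- twisted equations: the last equations of the accepting rules in coordinate `0` -/
def isTw (ρ : 𝓗.R) (s : Fin P.m) (b : P.Pt) : Prop :=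
  𝓗.co ρ = none ∧ s.val + 1 = P.m ∧ 0 < s.val ∧ b.1.val = 0

instance (ρ : 𝓗.R) (s : Fin P.m) (b : P.Pt) : Decidable (𝓗.isTw P ρ s b) := by
  unfold isTw; infer_instance

def ctw : 𝓗.Con P → Option (𝓗.Var P)
  | Sum.inl (ρ, l, s, b) =>
      if h : 𝓗.isTw P ρ s b then some (𝓗.path P ρ l ⟨s.val - 1, by omega⟩ b) else none
  | Sum.inr _ => none

theorem ctw_mem (e : 𝓗.Con P) (v : 𝓗.Var P) (h : 𝓗.ctw P e = some v) : 𝓗.cform P e v ≠ 0 := by
  rcases e with ⟨ρ, l, s, b⟩ | l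
  · unfold ctw at h
    simp only at h
    split_ifs at h with h1
    · obtain ⟨hco, hs, hs0, hb⟩ := h1
      obtain rfl : 𝓗.path P ρ l ⟨s.val - 1, by omega⟩ b = v := by simpa using h
      have h2 : ¬ (s.val + 1 < P.m) := by omega
      have h3 : 𝓗.key P ρ 0 l s b (𝓗.path P ρ l ⟨s.val - 1, by omega⟩ b) = 0 := by
        unfold key
        rcases 𝓗.pr ρ 0 with _ | ⟨x, h⟩ <;> simp [sg, path, bank]
      have h4 : 𝓗.key P ρ 1 l s b (𝓗.path P ρ l ⟨s.val - 1, by omega⟩ b) = 0 := by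
        unfold key
        rcases 𝓗.pr ρ 1 with _ | ⟨x, h⟩ <;> simp [sg, path, bank]
      simp only [cform, Pi.add_apply, h3, h4, prev, next, hs0, dif_pos, h2, if_false, hco]
      simp [sg]
  · simp [ctw] at h

/-- The compressed XOR system. -/
def xsys : XSys where
  Var := 𝓗.Var P
  Con := 𝓗.Con P
  form := 𝓗.cform P
  tw := 𝓗.ctw P
  tw_mem := 𝓗.ctw_mem P

/-- **Module HC** (completeness): acceptance gives a narrow refutation. -/
def DervStatement : Prop :=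
  ∀ (𝓗 : Horn) (P : Par), 2 ≤ P.m → 1 ≤ P.κ → 𝓗.Acc →
    (𝓗.xsys P).Derv (3 * P.κ + 4) ((0 : 𝓗.Var P → ZMod 2), (1 : ZMod 2))

/-- Separation hypothesis: different relevant addresses agree in fewer than `e` coordinates. -/
def Sep (e : ℕ) : Prop :=
  (∀ x g g', 𝓗.Der x g → 𝓗.Der x g' → g ≠ g' → P.agree g g' < e) ∧
  (∀ ρ q q' x x' h h' g g', 𝓗.pr ρ q = some (x, h) → 𝓗.pr ρ q' = some (x', h') →
    𝓗.Der x g → 𝓗.Der x' g' → g - h ≠ g' - h' → P.agree (g - h) (g' - h') < e)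

/-- number of cut points of a subset of `[m]` -/
def cuts {m : ℕ} (B : Finset (Fin m)) : ℕ :=
  (Finset.univ.filter fun s : Fin m =>
    ∃ h : s.val + 1 < m, ¬ (s ∈ B ↔ (⟨s.val + 1, h⟩ : Fin m) ∈ B)).card

/-- The heaviness property of the pair of matrices: a family of `≤ N` nonempty pieces of rows with
at most `c` cut points and a sum of weight `≤ w` has a union of size `≤ δ`. -/
def Star (m N c w δ : ℕ) (M : Fin 2 → Fin m → Fin m → ZMod 2) : Prop :=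
  ∀ B : Fin 2 × Fin m → Finset (Fin m),
    (Finset.univ.filter fun a => (B a).Nonempty).card ≤ N →
    ∑ a, cuts (B a) ≤ c →
    (Finset.univ.filter fun j : Fin m =>
      ∑ a : Fin 2 × Fin m, (if j ∈ B a then M a.1 a.2 j else 0) ≠ 0).card ≤ w →
    (Finset.univ.biUnion B).card ≤ δ

/-- **Module ST**: existence of heavy matrices. -/
def StarStatement : Prop :=
  ∀ N c w r : ℕ, ∃ (m δ : ℕ) (M : Fin 2 → Fin m → Fin m → ZMod 2),
    2 ≤ m ∧ r * (δ + 1) ≤ m ∧ Star m N c w δ M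

/-- **Module CL** (closure = soundness): with `K = 4 (k + 1)`, `K ≤ c₀ κ` and `C₀ e ≤ κ` (`C₀`
depends only on `c₀`), and matrices with the property `Star`, a rejecting Horn system has a
closed family of consistent forms. -/
def ClosureStatement : Prop :=
  ∀ c₀ : ℕ, ∃ C₀ : ℕ, ∀ k e κ : ℕ, 1 ≤ e → 4 * (k + 1) ≤ c₀ * κ → C₀ * e ≤ κ →
    ∃ N c w r : ℕ, ∀ (𝓗 : Horn) (P : Par) (δ : ℕ), P.κ = κ → 𝓗.Sep P e →
      Star P.m N c w δ P.M → r * (δ + 1) ≤ P.m → 2 ≤ P.m → ¬ 𝓗.Acc →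
      ∃ L : Set (𝓗.xsys P).Form,
        0 ∈ L ∧ (∀ e, (𝓗.xsys P).con e ∈ L) ∧
        (∀ T : Finset (𝓗.xsys P).Cls, T.card ≤ k + 1 → ∀ f ∈ L, ∀ g ∈ L,
          (𝓗.xsys P).fsupp f.1 ⊆ (𝓗.xsys P).dom T → (𝓗.xsys P).fsupp g.1 ⊆ (𝓗.xsys P).dom T →
          f + g ∈ L) ∧
        ((0 : 𝓗.Var P → ZMod 2), (1 : ZMod 2)) ∉ L

end Horn

end P310
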