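import Vale.Agent.P310.Tmpl

/-!
# P310 module HS, part 1: fan-out

A finite set of Horn rules on relations with a chain coordinate becomes a template in which every
relation is used at most once per type.
-/

namespace P310
namespace Fan

theorem kind_finite : Finite Kind :=
  Finite.of_surjective
    (fun x : Fin 3 ⊕ Bool => match x with
      | Sum.inl 0 => Kind.all
      | Sum.inl 1 => Kind.lt
      | Sum.inl 2 => Kind.last
      | Sum.inr b => Kind.cont b)
    (by
      intro s
      cases s
      · exact ⟨Sum.inl 0, rfl⟩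
      · exact ⟨Sum.inl 1, rfl⟩
      · exact ⟨Sum.inl 2, rfl⟩
      · exact ⟨Sum.inr _, rfl⟩)

theorem out_finite : Finite Out :=
  Finite.of_surjective
    (fun x : Fin 3 => match x with
      | 0 => Out.same
      | 1 => Out.succ
      | 2 => Out.zero)
    (by
      intro s
      cases s
      · exact ⟨0, rfl⟩
      · exact ⟨1, rfl⟩
      · exact ⟨2, rfl⟩)

theorem sh_finite (d : ℕ) : Finite (Sh d) :=
  Finite.of_surjective
    (fun x : Fin 5 ⊕ Fin d => match x with
      | Sum.inl 0 => Sh.z
      | Sum.inl 1 => Sh.tm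
      | Sum.inl 2 => Sh.ps
      | Sum.inl 3 => Sh.pp
      | Sum.inl 4 => Sh.dn
      | Sum.inr j => Sh.lev j)
    (by
      intro s
      cases s
      · exact ⟨Sum.inl 0, rfl⟩
      · exact ⟨Sum.inl 1, rfl⟩
      · exact ⟨Sum.inl 2, rfl⟩
      · exact ⟨Sum.inl 3, rfl⟩
      · exact ⟨Sum.inl 4, rfl⟩
      · exact ⟨Sum.inr _, rfl⟩)

/-- a rule body -/
structure Body (X : Type) (d : ℕ) where
  kind : Kind
  out : Out
  p0 : X × Sh d
  p1 : Option (X × Sh d)
  co : Option X

theorem body_finite (X : Type) [Finite X] (d : ℕ) : Finite (Body X d) := by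
  have := kind_finite
  have := out_finite
  have := sh_finite d
  have : Function.Injective (fun b : Body X d => (b.kind, b.out, b.p0, b.p1, b.co)) := by
    rintro ⟨a, b, c, e, f⟩ ⟨a', b', c', e', f'⟩ h
    simp only [Prod.mk.injEq] at h
    obtain ⟨rfl, rfl, rfl, rfl, rfl⟩ := h
    rfl
  exact Finite.of_injective _ this

/-- derivable facts of a set of rules -/
inductive PDer {X : Type} {d : ℕ} (Rule : Body X d → Prop) (seed : X) (u : List Bool) :
    X → Fin (u.length + 1) → ℤ × ℤ → Prop
  | seed : PDer Rule seed u seed 0 (0, 0)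
  | rule (b : Body X d) (c : Fin (u.length + 1)) (g : ℤ × ℤ) (y : X) : Rule b →
      b.kind.en u c = true → b.co = some y →
      PDer Rule seed u b.p0.1 c (g + b.p0.2.val u.length) →
      (∀ x h, b.p1 = some (x, h) → PDer Rule seed u x c (g + h.val u.length)) →
      PDer Rule seed u y (b.out.app u.length c) g

/-- acceptance -/
def PAcc {X : Type} {d : ℕ} (Rule : Body X d → Prop) (seed : X) (u : List Bool) : Prop :=
  ∃ (b : Body X d) (c : Fin (u.length + 1)) (g : ℤ × ℤ), Rule b ∧ b.kind.en u c = true ∧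
    b.co = none ∧ PDer Rule seed u b.p0.1 c (g + b.p0.2.val u.length) ∧
      (∀ x h, b.p1 = some (x, h) → PDer Rule seed u x c (g + h.val u.length))

section
variable {X : Type} [Fintype X] [DecidableEq X] {d : ℕ} (Rule : Body X d → Prop) (seed : X)

/-- rules -/
abbrev RT : Type := {b : Body X d // Rule b}

open Classical in
noncomputable instance : Fintype (RT Rule) :=
  haveI : Finite (Body X d) := body_finite X d
  Fintype.ofFinite _

/-- number of uses -/
noncomputable def NU : ℕ := Fintype.card (RT Rule × Fin 2)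

/-- the copy number of a use -/
noncomputable def idx (r : RT Rule × Fin 2) : Fin (NU Rule + 1) :=
  (Fintype.equivFin (RT Rule × Fin 2) r).succ

theorem idx_inj : Function.Injective (idx Rule) := fun a b h => by
  unfold idx at h
  exact (Fintype.equivFin _).injective (Fin.succ_injective _ h)

theorem idx_ne (r : RT Rule × Fin 2) : idx Rule r ≠ 0 := Fin.succ_ne_zero _

/-- premises of the rules of the template -/
noncomputable def tpr (r : RT Rule ⊕ (X × Fin (NU Rule))) (q : Fin 2) :
    Option ((X × Fin (NU Rule + 1)) × Sh d) :=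
  match r with
  | Sum.inl b =>
    if q = 0 then some ((b.1.p0.1, idx Rule (b, 0)), b.1.p0.2)
    else b.1.p1.map fun a => ((a.1, idx Rule (b, 1)), a.2)
  | Sum.inr (x, n) => if q = 0 then some ((x, n.castSucc), .z) else none

/-- conclusions -/
noncomputable def tco (r : RT Rule ⊕ (X × Fin (NU Rule))) : Option (X × Fin (NU Rule + 1)) :=
  match r with
  | Sum.inl b => b.1.co.map fun y => (y, 0)
  | Sum.inr (x, n) => some (x, n.succ)

theorem tpr_inl {b : RT Rule} {q : Fin 2} {x : X × Fin (NU Rule + 1)} {h : Sh d}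
    (e : tpr Rule (Sum.inl b) q = some (x, h)) : x.2 = idx Rule (b, q) := by
  unfold tpr at e
  simp only at e
  split_ifs at e with hq
  · subst hq
    simp only [Option.some.injEq, Prod.mk.injEq] at e
    rw [← e.1]
  · have hq1 : q = 1 := by omega
    subst hq1
    simp only [Option.map_eq_some_iff, Prod.mk.injEq] at e
    obtain ⟨a, -, h1, -⟩ := e
    rw [← h1]

theorem tpr_inr {z : X × Fin (NU Rule)} {q : Fin 2} {x : X × Fin (NU Rule + 1)} {h : Sh d}
    (e : tpr Rule (Sum.inr z) q = some (x, h)) : q = 0 ∧ x = (z.1, z.2.castSucc) ∧ h = .z := by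
  unfold tpr at e
  simp only at e
  split_ifs at e with hq
  simp only [Option.some.injEq, Prod.mk.injEq] at e
  exact ⟨hq, e.1.symm, e.2.symm⟩

/-- the template -/
noncomputable def tmpl (hseed : ∀ b, Rule b → b.co ≠ some seed)
    (hsucc : ∀ b, Rule b → b.out = .succ → b.kind = .lt) : Tmpl d where
  X0 := X × Fin (NU Rule + 1)
  R0 := RT Rule ⊕ (X × Fin (NU Rule))
  fX := inferInstance
  dX := inferInstance
  fR := inferInstance
  dR := Classical.decEq _
  kind := fun r => match r with
    | Sum.inl b => b.1.kind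
    | Sum.inr _ => .all
  out := fun r => match r with
    | Sum.inl b => b.1.out
    | Sum.inr _ => .same
  pr := tpr Rule
  pr0 := by
    rintro (b | ⟨x, n⟩)
    · exact ⟨_, _, rfl⟩
    · exact ⟨_, _, rfl⟩
  ty := fun r => match r with
    | Sum.inl _ => 0
    | Sum.inr _ => 1
  co := tco Rule
  seed := (seed, 0)
  inj := by
    rintro (b | z) q (b' | z') q' x h h' h1 h2 h3
    · have e1 := tpr_inl Rule h1
      have e2 := tpr_inl Rule h2
      rw [e1] at e2
      have := idx_inj Rule e2
      simp only [Prod.mk.injEq] at this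
      exact ⟨by rw [this.1], this.2⟩
    · simp at h3
    · simp at h3
    · obtain ⟨rfl, rfl, -⟩ := tpr_inr Rule h1
      obtain ⟨rfl, h5, -⟩ := tpr_inr Rule h2
      refine ⟨?_, rfl⟩
      simp only [Prod.mk.injEq] at h5
      congr 1
      exact Prod.ext h5.1 (Fin.castSucc_injective _ h5.2)
  seed_ne := by
    rintro (b | ⟨x, n⟩) h
    · simp only [tco, Option.map_eq_some_iff, Prod.mk.injEq] at h
      obtain ⟨y, hy, rfl, -⟩ := h
      exact hseed b.1 b.2 hy
    · simp only [tco, Option.some.injEq, Prod.mk.injEq] at h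
      exact Fin.succ_ne_zero _ h.2
  out_succ := by
    rintro (b | z) h
    · exact hsucc b.1 b.2 h
    · simp at h
  ne_co := by
    rintro (b | z) q x h y h1 h2 h3
    · have e1 := tpr_inl Rule h1
      simp only [tco, Option.map_eq_some_iff] at h2
      obtain ⟨y', -, rfl⟩ := h2
      rw [h3] at e1
      exact idx_ne Rule _ e1.symm
    · obtain ⟨-, rfl, -⟩ := tpr_inr Rule h1
      simp only [tco, Option.some.injEq] at h2
      rw [← h3] at h2
      simp only [Prod.mk.injEq] at h2
      have := congrArg Fin.val h2.2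
      simp at this
  ne_pr := by
    rintro (b | z) x h x' h' h1 h2 h3
    · have e1 := tpr_inl Rule h1
      have e2 := tpr_inl Rule h2
      rw [h3, e2] at e1
      have := idx_inj Rule e1
      simp at this
    · obtain ⟨h4, -⟩ := tpr_inr Rule h2
      simp at h4

variable (hseed : ∀ b, Rule b → b.co ≠ some seed)
    (hsucc : ∀ b, Rule b → b.out = .succ → b.kind = .lt) (u : List Bool)

theorem der_pder (x : ((tmpl Rule seed hseed hsucc).horn u).X) (g : ℤ × ℤ)
    (h : ((tmpl Rule seed hseed hsucc).horn u).Der x g) :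
    PDer Rule seed u x.1.1 x.2 g := by
  induction h with
  | seed => exact PDer.seed
  | rule ρ g y hco hpr ih =>
    obtain ⟨⟨r, c⟩, hen⟩ := ρ
    rcases r with b | ⟨x, n⟩
    · have hco' : ((tco Rule (Sum.inl b)).map
          (fun y => (y, (b.1.out).app u.length c)) :
            Option ((X × Fin (NU Rule + 1)) × Fin (u.length + 1))) = some y := hco
      obtain ⟨y1, hy1, hy2⟩ := Option.map_eq_some_iff.mp hco'
      obtain ⟨y0, hy0, hy3⟩ := Option.map_eq_some_iff.mp hy1
      subst hy3
      subst hy2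
      refine PDer.rule b.1 c g y0 b.2 hen hy0 (ih 0 _ _ rfl) (fun x h hx => ?_)
      refine ih 1 ((x, idx Rule (b, 1)), c) _ ?_
      show (tpr Rule (Sum.inl b) 1).map (fun a => ((a.1, c), a.2.val u.length)) = _
      simp [tpr, hx]
      rfl
    · have hco' : ((tco Rule (Sum.inr (x, n))).map
          (fun y => (y, (Out.same).app u.length c)) :
            Option ((X × Fin (NU Rule + 1)) × Fin (u.length + 1))) = some y := hco
      obtain ⟨y1, hy1, hy2⟩ := Option.map_eq_some_iff.mp hco'
      obtain rfl := Option.some.inj hy1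
      subst hy2
      have := ih 0 ((x, n.castSucc), c) ((Sh.z : Sh d).val u.length) rfl
      have e : g + (Sh.z : Sh d).val u.length = g := by simp [Sh.val]
      rw [e] at this
      exact this

theorem der_chain (x : X) (c : Fin (u.length + 1)) (g : ℤ × ℤ)
    (h : ((tmpl Rule seed hseed hsucc).horn u).Der ((x, 0), c) g) (n : ℕ) (hn : n < NU Rule + 1) :
    ((tmpl Rule seed hseed hsucc).horn u).Der ((x, ⟨n, hn⟩), c) g := by
  induction n with
  | zero => exact h
  | succ n ih =>
    have := ih (by omega)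
    refine Horn.Der.rule (𝓗 := (tmpl Rule seed hseed hsucc).horn u)
      ⟨(Sum.inr (x, ⟨n, by omega⟩), c), rfl⟩ g _ rfl ?_
    intro q x' h' hq
    have hq' : ((tpr Rule (Sum.inr (x, ⟨n, by omega⟩)) q).map
      (fun a => ((a.1, c), a.2.val u.length)) :
        Option (((X × Fin (NU Rule + 1)) × Fin (u.length + 1)) × (ℤ × ℤ))) = some (x', h') := hq
    obtain ⟨⟨a, sh⟩, ha, h1⟩ := Option.map_eq_some_iff.mp hq'
    obtain ⟨rfl, h3, h4⟩ := tpr_inr Rule ha
    obtain ⟨h1, h2⟩ := Prod.mk.inj h1
    subst h3 h4 h1 h2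
    have e : g + (Sh.z : Sh d).val u.length = g := by simp [Sh.val]
    rw [e]
    exact this

theorem pder_der (x : X) (c : Fin (u.length + 1)) (g : ℤ × ℤ) (h : PDer Rule seed u x c g)
    (n : Fin (NU Rule + 1)) :
    ((tmpl Rule seed hseed hsucc).horn u).Der ((x, n), c) g := by
  revert n
  suffices ((tmpl Rule seed hseed hsucc).horn u).Der ((x, 0), c) g from
    fun n => der_chain Rule seed hseed hsucc u x c g this n.1 n.2
  induction h with
  | seed => exact Horn.Der.seed
  | rule b c g y hb hen hy h0 h1 ih0 ih1 =>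
    refine Horn.Der.rule (𝓗 := (tmpl Rule seed hseed hsucc).horn u)
      ⟨(Sum.inl ⟨b, hb⟩, c), hen⟩ g _ ?_ ?_
    · show (tco Rule (Sum.inl ⟨b, hb⟩)).map (fun y => (y, (b.out).app u.length c)) = _
      simp [tco, hy]
      rfl
    · intro q x' h' hq
      have hq' : ((tpr Rule (Sum.inl ⟨b, hb⟩) q).map
        (fun a => ((a.1, c), a.2.val u.length)) :
          Option (((X × Fin (NU Rule + 1)) × Fin (u.length + 1)) × (ℤ × ℤ))) = some (x', h') := hq
      obtain ⟨⟨a, sh⟩, ha, h1'⟩ := Option.map_eq_some_iff.mp hq'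
      obtain ⟨h1', h2'⟩ := Prod.mk.inj h1'
      subst h1' h2'
      unfold tpr at ha
      simp only at ha
      split_ifs at ha with hq0
      · simp only [Option.some.injEq, Prod.mk.injEq] at ha
        obtain ⟨rfl, rfl⟩ := ha
        exact der_chain Rule seed hseed hsucc u _ c _ ih0 _ (idx Rule _).2
      · simp only [Option.map_eq_some_iff, Prod.mk.injEq] at ha
        obtain ⟨a', ha', rfl, rfl⟩ := ha
        exact der_chain Rule seed hseed hsucc u _ c _ (ih1 _ _ ha') _ (idx Rule _).2

theorem acc_iff : ((tmpl Rule seed hseed hsucc).horn u).Acc ↔ PAcc Rule seed u := by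
  constructor
  · rintro ⟨⟨⟨r, c⟩, hen⟩, g, hco, hpr⟩
    rcases r with b | ⟨x, n⟩
    · have hco' : ((tco Rule (Sum.inl b)).map
          (fun y => (y, (b.1.out).app u.length c)) :
            Option ((X × Fin (NU Rule + 1)) × Fin (u.length + 1))) = none := hco
      have hco1 := Option.map_eq_none_iff.mp (Option.map_eq_none_iff.mp hco')
      refine ⟨b.1, c, g, b.2, hen, hco1, ?_, ?_⟩
      · exact der_pder Rule seed hseed hsucc u _ _ (hpr 0 _ _ rfl)
      · intro x h hx
        refine der_pder Rule seed hseed hsucc u ((x, idx Rule (b, 1)), c) _ (hpr 1 _ _ ?_)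
        show (tpr Rule (Sum.inl b) 1).map (fun a => ((a.1, c), a.2.val u.length)) = _
        simp [tpr, hx]
        rfl
    · have hco' : ((tco Rule (Sum.inr (x, n))).map
          (fun y => (y, (Out.same).app u.length c)) :
            Option ((X × Fin (NU Rule + 1)) × Fin (u.length + 1))) = none := hco
      have hco1 := Option.map_eq_none_iff.mp hco'
      simp [tco] at hco1
  · rintro ⟨b, c, g, hb, hen, hco, h0, h1⟩
    refine ⟨⟨(Sum.inl ⟨b, hb⟩, c), hen⟩, g, ?_, ?_⟩
    · show (tco Rule (Sum.inl ⟨b, hb⟩)).map (fun y => (y, (b.out).app u.length c)) = _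
      simp [tco, hco]
      rfl
    · intro q x' h' hq
      have hq' : ((tpr Rule (Sum.inl ⟨b, hb⟩) q).map
        (fun a => ((a.1, c), a.2.val u.length)) :
          Option (((X × Fin (NU Rule + 1)) × Fin (u.length + 1)) × (ℤ × ℤ))) = some (x', h') := hq
      obtain ⟨⟨a, sh⟩, ha, h1'⟩ := Option.map_eq_some_iff.mp hq'
      obtain ⟨h1', h2'⟩ := Prod.mk.inj h1'
      subst h1' h2'
      unfold tpr at ha
      simp only at ha
      split_ifs at ha with hq0
      · simp only [Option.some.injEq, Prod.mk.injEq] at ha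
        obtain ⟨rfl, rfl⟩ := ha
        exact pder_der Rule seed hseed hsucc u _ c _ h0 _
      · simp only [Option.map_eq_some_iff, Prod.mk.injEq] at ha
        obtain ⟨a', ha', rfl, rfl⟩ := ha
        exact pder_der Rule seed hseed hsucc u _ c _ (h1 _ _ ha') _

end

/-- fan-out lemma -/
theorem fan_out {X : Type} [Finite X] {d : ℕ} (Rule : Body X d → Prop) (seed : X)
    (hseed : ∀ b, Rule b → b.co ≠ some seed)
    (hsucc : ∀ b, Rule b → b.out = .succ → b.kind = .lt) :
    ∃ T : Tmpl d, ∀ u : List Bool, ((T.horn u).Acc ↔ PAcc Rule seed u) ∧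
      ∀ x g, (T.horn u).Der x g → ∃ y c, PDer Rule seed u y c g := by
  classical
  have : Fintype X := Fintype.ofFinite X
  exact ⟨tmpl Rule seed hseed hsucc, fun u => ⟨acc_iff Rule seed hseed hsucc u,
    fun x g h => ⟨_, _, der_pder Rule seed hseed hsucc u x g h⟩⟩⟩

end Fan
end P310
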