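import Vale.Agent.P310.Defs

/-!
# Stack machines, While programs, and the machine modules TS and CM
-/

namespace P310

/-- Instructions of a stack machine with labels `L`, stacks `S`, stack alphabet `α`. -/
inductive Instr (L S α : Type)
  | push (σ : S) (a : α) (l : L)
  | pop (σ : S) (l : L)
  | peek (σ : S) (f : Option α → L)
  | accept
  | reject

/-- relabelling -/
def Instr.map {L L' S α : Type} (φ : L → L') : Instr L S α → Instr L' S α
  | .push σ a l => .push σ a (φ l)
  | .pop σ l => .pop σ (φ l)
  | .peek σ f => .peek σ (fun o => φ (f o))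
  | .accept => .accept
  | .reject => .reject

/-- A stack machine with stacks `S` and alphabet `α`. -/
structure SM (S α : Type) where
  L : Type
  [fL : Fintype L]
  [dL : DecidableEq L]
  instr : L → Instr L S α
  start : L

attribute [instance] SM.fL SM.dL

namespace SM

variable {S α : Type} [DecidableEq S] (M : SM S α)

/-- one step on (label, stacks) -/
def step (c : M.L × (S → List α)) : M.L × (S → List α) :=
  match M.instr c.1 with
  | .push σ a l => (l, Function.update c.2 σ (a :: c.2 σ))
  | .pop σ l => (l, Function.update c.2 σ (c.2 σ).tail)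
  | .peek σ f => (f (c.2 σ).head?, c.2)
  | .accept => c
  | .reject => c

/-- configuration after `t` steps -/
def run (st : S → List α) (t : ℕ) : M.L × (S → List α) := (M.step)^[t] (M.start, st)

def Acc (st : S → List α) (t : ℕ) : Prop := M.instr (M.run st t).1 = .accept
def Rej (st : S → List α) (t : ℕ) : Prop := M.instr (M.run st t).1 = .reject

end SM

/-! ## TM -> stack machine -/

/-- stacks used for the tapes of `A`: left part and right part (the top of the right part is the
scanned cell; the empty stack stands for blanks). -/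
abbrev TStack (A : TM) : Type := Fin (A.r + 1) ⊕ Fin (A.r + 1)

/-- **Module TS**: a stack machine simulating a Turing machine with constant overhead. -/
def TSStatement : Prop :=
  ∀ (A : TM) (S : Type) [DecidableEq S] (ψ : TStack A → S), Function.Injective ψ →
    ∃ (B : SM S A.Γ) (C : ℕ), ∀ (w : List Bool) (st : S → List A.Γ),
      st (ψ (Sum.inr 0)) = w.map A.sym → (∀ i, st (ψ (Sum.inl i)) = []) →
      (∀ i, i ≠ 0 → st (ψ (Sum.inr i)) = []) →
      ∀ t, (A.AcceptsIn w t → ∃ t' ≤ C * t + C, B.Acc st t') ∧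
        (A.RejectsIn w t → ∃ t' ≤ C * t + C, B.Rej st t')

/-! ## While programs over Boolean stacks (registers `ℕ`) -/

inductive Cmd
  | skip
  | push (σ : ℕ) (b : Bool)
  | pop (σ : ℕ)
  | seq (c d : Cmd)
  /-- branch on the top of the stack `σ`: empty / `false` / `true` -/
  | ite (σ : ℕ) (ce cf ct : Cmd)
  /-- while the stack `σ` is nonempty do `c` -/
  | loop (σ : ℕ) (c : Cmd)

/-- stores -/
abbrev Store : Type := ℕ → List Bool

/-- big-step semantics with cost -/
inductive Cmd.Run : Cmd → Store → Store → ℕ → Prop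
  | skip (s : Store) : Cmd.Run .skip s s 1
  | push (σ : ℕ) (b : Bool) (s : Store) :
      Cmd.Run (.push σ b) s (Function.update s σ (b :: s σ)) 1
  | pop (σ : ℕ) (s : Store) : Cmd.Run (.pop σ) s (Function.update s σ (s σ).tail) 1
  | seq {c d : Cmd} {s s' s'' : Store} {n m : ℕ} :
      Cmd.Run c s s' n → Cmd.Run d s' s'' m → Cmd.Run (.seq c d) s s'' (n + m + 1)
  | iteE {σ : ℕ} {ce cf ct : Cmd} {s s' : Store} {n : ℕ} : s σ = [] →
      Cmd.Run ce s s' n → Cmd.Run (.ite σ ce cf ct) s s' (n + 1)
  | iteF {σ : ℕ} {ce cf ct : Cmd} {s s' : Store} {n : ℕ} : (s σ).head? = some false →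
      Cmd.Run cf s s' n → Cmd.Run (.ite σ ce cf ct) s s' (n + 1)
  | iteT {σ : ℕ} {ce cf ct : Cmd} {s s' : Store} {n : ℕ} : (s σ).head? = some true →
      Cmd.Run ct s s' n → Cmd.Run (.ite σ ce cf ct) s s' (n + 1)
  | loopE {σ : ℕ} {c : Cmd} {s : Store} : s σ = [] → Cmd.Run (.loop σ c) s s 1
  | loopN {σ : ℕ} {c : Cmd} {s s' s'' : Store} {n m : ℕ} : s σ ≠ [] →
      Cmd.Run c s s' n → Cmd.Run (.loop σ c) s' s'' m → Cmd.Run (.loop σ c) s s'' (n + m + 1)

/-- all registers of the program are `< N` -/
def Cmd.Below (N : ℕ) : Cmd → Prop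
  | .skip => True
  | .push σ _ => σ < N
  | .pop σ => σ < N
  | .seq c d => c.Below N ∧ d.Below N
  | .ite σ ce cf ct => σ < N ∧ ce.Below N ∧ cf.Below N ∧ ct.Below N
  | .loop σ c => σ < N ∧ c.Below N

/-- **Module CM**: a While program followed by an arbitrary stack machine `B` is a stack machine.
Register `r < N` is the stack `φ r`; `true`, `false` are represented by `sym true`, `sym false`. -/
def CMStatement : Prop :=
  ∀ (c : Cmd) (N : ℕ), c.Below N → ∀ (S α : Type) [DecidableEq S] (sym : Bool → α),
    Function.Injective sym → ∀ (φ : ℕ → S), Set.InjOn φ {r | r < N} → ∀ (B : SM S α),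
    ∃ (D : SM S α) (j : B.L → D.L) (C : ℕ),
      (∀ l, D.instr (j l) = (B.instr l).map j) ∧
      ∀ (s s' : Store) (n : ℕ), c.Run s s' n → ∀ st : S → List α,
        (∀ r, r < N → st (φ r) = (s r).map sym) →
        ∃ t ≤ C * n + C, ∃ st' : S → List α, D.run st t = (j B.start, st') ∧
          (∀ r, r < N → st' (φ r) = (s' r).map sym) ∧
          (∀ σ, (∀ r, r < N → φ r ≠ σ) → st' σ = st σ)

end P310
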