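import Vale.Agent.P310.Horn
import Vale.Agent.P310.Ex

/-!
# Templates: families of Horn systems, with a chain coordinate `c ≤ Y` and a content list `u`
-/

namespace P310

/-- Range of the chain coordinate `c` of a rule family: all `c ≤ Y`, `c < Y`, `c = Y`, or `c < Y`
and `u[c] = β`. -/
inductive Kind
  | all
  | lt
  | last
  | cont (β : Bool)
  deriving DecidableEq

/-- chain coordinate of the conclusion: `c`, `c + 1` or `0` -/
inductive Out
  | same
  | succ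
  | zero
  deriving DecidableEq

/-- shifts -/
inductive Sh (d : ℕ)
  | z
  | tm
  | ps
  | pp
  | dn
  | lev (j : Fin d)
  deriving DecidableEq

/-- value of a shift -/
def Sh.val {d : ℕ} (Y : ℕ) : Sh d → ℤ × ℤ
  | .z => (0, 0)
  | .tm => (-1, 0)
  | .ps => (-1, -1)
  | .pp => (-1, 1)
  | .dn => (0, -1)
  | .lev j => (0, -((Y : ℤ) ^ j.val))

def Kind.en (u : List Bool) (c : ℕ) : Kind → Bool
  | .all => true
  | .lt => decide (c < u.length)
  | .last => decide (c = u.length)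
  | .cont β => decide (c < u.length ∧ u.getD c false = β)

/-- chain coordinate of the conclusion -/
def Out.app (Y : ℕ) (c : Fin (Y + 1)) : Out → Fin (Y + 1)
  | .same => c
  | .succ => ⟨min (c.val + 1) Y, by omega⟩
  | .zero => 0

structure Tmpl (d : ℕ) where
  X0 : Type
  R0 : Type
  [fX : Fintype X0]
  [dX : DecidableEq X0]
  [fR : Fintype R0]
  [dR : DecidableEq R0]
  kind : R0 → Kind
  out : R0 → Out
  pr : R0 → Fin 2 → Option (X0 × Sh d)
  pr0 : ∀ ρ, ∃ x h, pr ρ 0 = some (x, h)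
  ty : R0 → Fin 2
  co : R0 → Option X0
  seed : X0
  inj : ∀ ρ q ρ' q' x h h', pr ρ q = some (x, h) → pr ρ' q' = some (x, h') → ty ρ = ty ρ' →
    ρ = ρ' ∧ q = q'
  seed_ne : ∀ ρ, co ρ ≠ some seed
  out_succ : ∀ ρ, out ρ = .succ → kind ρ = .lt
  ne_co : ∀ ρ q x h y, pr ρ q = some (x, h) → co ρ = some y → x ≠ y
  ne_pr : ∀ ρ x h x' h', pr ρ 0 = some (x, h) → pr ρ 1 = some (x', h') → x ≠ x'

attribute [instance] Tmpl.fX Tmpl.dX Tmpl.fR Tmpl.dR

namespace Tmpl

variable {d : ℕ} (T : Tmpl d)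

/-- the Horn system of the template with content `u`; all premises have the chain coordinate of
the rule -/
def horn (u : List Bool) : Horn where
  X := T.X0 × Fin (u.length + 1)
  R := {r : T.R0 × Fin (u.length + 1) // (T.kind r.1).en u r.2 = true}
  pr := fun r q => (T.pr r.1.1 q).map fun a => ((a.1, r.1.2), a.2.val u.length)
  pr0 := by
    intro ρ
    obtain ⟨x, h, hh⟩ := T.pr0 ρ.1.1
    exact ⟨(x, ρ.1.2), h.val u.length, by simp [hh]⟩
  ty := fun r => T.ty r.1.1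
  co := fun r => (T.co r.1.1).map fun y => (y, (T.out r.1.1).app u.length r.1.2)
  seed := (T.seed, 0)
  inj := by
    rintro ⟨⟨ρ, c⟩, hρ⟩ q ⟨⟨ρ', c'⟩, hρ'⟩ q' ⟨x, cx⟩ h h' h1 h2 h3
    simp only [Option.map_eq_some_iff, Prod.mk.injEq] at h1 h2
    obtain ⟨⟨a, sh⟩, ha, ⟨rfl, rfl⟩, _⟩ := h1
    obtain ⟨⟨a', sh'⟩, ha', ⟨h4, rfl⟩, _⟩ := h2
    simp only at h4 ha ha' h3
    subst h4
    obtain ⟨rfl, rfl⟩ := T.inj _ _ _ _ _ _ _ ha ha' h3
    exact ⟨rfl, rfl⟩
  seed_ne := by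
    rintro ⟨⟨ρ, c⟩, hρ⟩ h
    simp only [Option.map_eq_some_iff, Prod.mk.injEq] at h
    obtain ⟨y, hy, hy2, _⟩ := h
    exact T.seed_ne ρ (by rw [hy, hy2])

end Tmpl

/-- moduli `p_i = Y + i κ! + 1` -/
def Par.IsMod (P : Par) (Y : ℕ) : Prop := ∀ i : Fin P.κ, P.p' i = Y + i.val * P.κ.factorial

/-- **Module SP** (separation). -/
def SPStatement : Prop :=
  ∀ (d : ℕ) (T : Tmpl d) (u : List Bool) (P : Par), P.IsMod u.length →
    P.κ.factorial ∣ u.length → 10 ≤ u.length → 1 ≤ d →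
    (∀ x g, (T.horn u).Der x g →
      0 ≤ g.1 ∧ g.1 ≤ (u.length : ℤ) ^ d ∧ 0 ≤ g.2 ∧ g.2 ≤ 2 * (u.length : ℤ) ^ d) →
    (T.horn u).Sep P (d + 1)

/-- **Module HS** (simulation of a stack machine by a Horn template). -/
def HSStatement : Prop :=
  ∀ (S α : Type) [Fintype S] [DecidableEq S] [Fintype α] [DecidableEq α] (D : SM S α) (inp : S)
    (sym : Bool → α) (d : ℕ), 1 ≤ d → ∃ T : Tmpl d, ∀ u : List Bool, 10 ≤ u.length →
      ∀ t, t + 1 ≤ u.length ^ d →
        (D.Acc (fun σ => if σ = inp then u.map sym else []) t → (T.horn u).Acc) ∧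
        (D.Rej (fun σ => if σ = inp then u.map sym else []) t → ¬ (T.horn u).Acc) ∧
        ((D.Acc (fun σ => if σ = inp then u.map sym else []) t ∨
          D.Rej (fun σ => if σ = inp then u.map sym else []) t) →
          ∀ x g, (T.horn u).Der x g →
            0 ≤ g.1 ∧ g.1 ≤ (u.length : ℤ) ^ d ∧ 0 ≤ g.2 ∧ g.2 ≤ 2 * (u.length : ℤ) ^ d)

end P310
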