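import Vale.Agent.P310.Defs

/-!
# XOR systems and their graphs

`XSys`: a finite system of linear equations over `F_2`.  `S.graph C D false` is the graph of the
homogeneous system, `S.graph C D true` the graph of the twisted system.  Every variable `v` has two
vertices `(v, b)`, every equation `e` has one vertex for every even assignment of its support.
Every such main vertex `μ` carries `C (cls μ)` leaves (`C` injective, `≥ 2`): this encodes the
class of the vertex.  `D` is a type of isolated dummy vertices.
-/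

namespace P310

structure XSys where
  Var : Type
  Con : Type
  [fV : Fintype Var]
  [dV : DecidableEq Var]
  [fC : Fintype Con]
  [dC : DecidableEq Con]
  /-- the linear form of an equation -/
  form : Con → Var → ZMod 2
  /-- `tw e = some v`: the equation `e` is twisted (right-hand side `1` instead of `0`), the twist
  being put on the edge between `e` and `v`. -/
  tw : Con → Option Var
  tw_mem : ∀ e v, tw e = some v → form e v ≠ 0

attribute [instance] XSys.fV XSys.dV XSys.fC XSys.dC

namespace XSys

variable (S : XSys)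

/-- Affine forms: a linear form and a constant. -/
abbrev Form : Type := (S.Var → ZMod 2) × ZMod 2

/-- support of a linear form -/
def fsupp (f : S.Var → ZMod 2) : Finset S.Var := Finset.univ.filter fun v => f v ≠ 0

/-- the affine form of the equation `e` -/
def con (e : S.Con) : S.Form := (S.form e, if (S.tw e).isSome then 1 else 0)

/-- local even assignments of the equation `e` -/
def Loc (e : S.Con) : Type :=
  {a : S.Var → ZMod 2 // (∀ v, S.form e v = 0 → a v = 0) ∧ ∑ v, a v = 0}

instance (e : S.Con) : DecidableEq (S.Loc e) := inferInstanceAs (DecidableEq {a // _})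
instance (e : S.Con) : Fintype (S.Loc e) := by unfold Loc; infer_instance

/-- main vertices -/
abbrev Main : Type := (S.Var × ZMod 2) ⊕ (Σ e : S.Con, S.Loc e)

/-- classes of main vertices -/
abbrev Cls : Type := S.Var ⊕ S.Con

def cls : S.Main → S.Cls
  | Sum.inl (v, _) => Sum.inl v
  | Sum.inr ⟨e, _⟩ => Sum.inr e

/-- all vertices: main vertices, leaves, dummies -/
abbrev Vx (C : S.Cls → ℕ) (D : Type) : Type :=
  S.Main ⊕ ((Σ μ : S.Main, Fin (C (S.cls μ))) ⊕ D)

/-- adjacency between a variable vertex and an equation vertex -/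
def adjVE (g : Bool) (v : S.Var) (b : ZMod 2) (e : S.Con) (a : S.Loc e) : Prop :=
  S.form e v ≠ 0 ∧ a.1 v + (if g = true ∧ S.tw e = some v then 1 else 0) = b

/-- adjacency between main vertices -/
def adjM (g : Bool) : S.Main → S.Main → Prop
  | Sum.inl (v, b), Sum.inr ⟨e, a⟩ => S.adjVE g v b e a
  | Sum.inr ⟨e, a⟩, Sum.inl (v, b) => S.adjVE g v b e a
  | _, _ => False

/-- adjacency -/
def adj (C : S.Cls → ℕ) (D : Type) (g : Bool) : S.Vx C D → S.Vx C D → Prop
  | Sum.inl μ, Sum.inl ν => S.adjM g μ ν
  | Sum.inl μ, Sum.inr (Sum.inl ν) => ν.1 = μ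
  | Sum.inr (Sum.inl ν), Sum.inl μ => ν.1 = μ
  | _, _ => False

theorem adjM_symm (g : Bool) (μ ν : S.Main) (h : S.adjM g μ ν) : S.adjM g ν μ := by
  rcases μ with ⟨v, b⟩ | ⟨e, a⟩ <;> rcases ν with ⟨v', b'⟩ | ⟨e', a'⟩ <;> exact h

theorem adjM_irrefl (g : Bool) (μ : S.Main) : ¬ S.adjM g μ μ := by
  rcases μ with ⟨v, b⟩ | ⟨e, a⟩ <;> exact fun h => h

/-- The graph: `g = false` untwisted, `g = true` twisted. -/
def graph (C : S.Cls → ℕ) (D : Type) (g : Bool) : SimpleGraph (S.Vx C D) where
  Adj := S.adj C D g
  symm := ⟨by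
    intro x y h
    rcases x with μ | ν | d <;> rcases y with μ' | ν' | d' <;>
      first
        | exact S.adjM_symm g _ _ h
        | exact h⟩
  loopless := ⟨by
    intro x h
    rcases x with μ | ν | d
    · exact S.adjM_irrefl g _ h
    · exact h
    · exact h⟩

/-- the variables whose values are seen at a vertex of a given class -/
def cell : S.Cls → Finset S.Var
  | Sum.inl v => {v}
  | Sum.inr e => S.fsupp (S.form e)

def dom (T : Finset S.Cls) : Finset S.Var := T.biUnion S.cell

/-- **Module XS** (soundness): a closed family of consistent forms gives `k`-WL equivalence. -/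
def SoundStatement : Prop :=
  ∀ (S : XSys) (C : S.Cls → ℕ) (D : Type) [Fintype D] (k : ℕ) (L : Set S.Form),
    0 ∈ L → (∀ e, S.con e ∈ L) →
    (∀ T : Finset S.Cls, T.card ≤ k + 1 → ∀ f ∈ L, ∀ g ∈ L,
      S.fsupp f.1 ⊆ S.dom T → S.fsupp g.1 ⊆ S.dom T → f + g ∈ L) →
    ((0 : S.Var → ZMod 2), (1 : ZMod 2)) ∉ L →
    WLEquiv k (S.graph C D false) (S.graph C D true)

/-- width-`w` derivations -/
inductive Derv (w : ℕ) : S.Form → Prop
  | zero : Derv w 0
  | ax (e : S.Con) : (S.fsupp (S.form e)).card ≤ w → Derv w (S.con e)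
  | add (f g : S.Form) : Derv w f → Derv w g →
      (S.fsupp f.1 ∪ S.fsupp g.1).card ≤ w → Derv w (f + g)

/-- **Module XC** (completeness): a width-`w` refutation is found by `k`-WL, `k ≥ w + 1`. -/
def CompleteStatement : Prop :=
  ∀ (S : XSys) (C : S.Cls → ℕ), Function.Injective C → (∀ c, 2 ≤ C c) →
    ∀ (D : Type) [Fintype D] (k w : ℕ), w + 1 ≤ k → 2 ≤ k → Nonempty (S.Vx C D) →
    S.Derv w ((0 : S.Var → ZMod 2), (1 : ZMod 2)) →
    ¬ WLEquiv k (S.graph C D false) (S.graph C D true)

end XSys

end P310
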